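import Vale.Agent.P146L.Stm2

/-! # P146, lower bound: quantitative averaging over the perturbation parameters -/

namespace Vale.Agent.P146L

open MeasureTheory ProbabilityTheory Vale.Agent.P157

namespace AvgAux

open Vale.Agent.P157.AvgAux

theorem step (J : Finset ℕ) {ε y k g C Mb M : ℝ} {I : ℕ} (U W : (ℕ → ℝ) → ℝ) (hy0 : 0 < y)
    (hy2 : y ≤ ε / 2) (hIy : I * y = ε) (hk : 0 < k) (hMb : 0 ≤ Mb) (hgC : g + C ≤ Mb)
    (hM : 0 < M)
    (h2 : ∀ ϑ, Box J ε ϑ → ∀ j ∈ J, ∀ a b : ℝ, ε / 2 ≤ a → a ≤ 3 * ε → ε / 2 ≤ b → b ≤ 3 * ε →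
      |U (Function.update ϑ j a) - U (Function.update ϑ j b)| ≤ 3 * ε * M * |a - b|)
    (h3 : ∀ ϑ, Box J ε ϑ → ∀ j ∈ J, 0 ≤ sd2 U ϑ j y)
    (h1 : ∀ ϑ, Box J ε ϑ → (∀ j ∈ J, sd2 U ϑ j y ≤ k * M * y ^ 2) → g ≤ W ϑ - U ϑ)
    (h4 : ∀ ϑ, Box J ε ϑ → -C ≤ W ϑ - U ϑ) :
    ∑ i : J → Fin I, U (pt J ε y i) + Fintype.card (J → Fin I) * (g - 6 * Mb * J.card / k) ≤
      ∑ i : J → Fin I, W (pt J ε y i) := by
  obtain ⟨R, hR⟩ : ∃ R : ℝ, R = Fintype.card (J → Fin I) := ⟨_, rfl⟩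
  have hI0 : (0 : ℝ) < I := (mul_pos_iff_of_pos_right hy0).1 (by linarith)
  have hq : 0 < k * M * y ^ 2 := by positivity
  have hpt : ∀ i : J → Fin I, g - Mb / (k * M * y ^ 2) * ∑ j : J, sd2 U (pt J ε y i) j y
      ≤ W (pt J ε y i) - U (pt J ε y i) := by
    intro i
    have hb := pt_box J hy0.le hIy i
    have hnn : ∀ j : J, 0 ≤ sd2 U (pt J ε y i) j y := fun j => h3 _ hb j j.2
    have hs : 0 ≤ ∑ j : J, sd2 U (pt J ε y i) j y := Finset.sum_nonneg fun j _ => hnn j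
    by_cases hg : ∀ j ∈ J, sd2 U (pt J ε y i) j y ≤ k * M * y ^ 2
    · have := h1 _ hb hg
      have : 0 ≤ Mb / (k * M * y ^ 2) * ∑ j : J, sd2 U (pt J ε y i) j y := by positivity
      linarith
    · push Not at hg
      obtain ⟨j, hj, hlt⟩ := hg
      have a1 : sd2 U (pt J ε y i) j y ≤ ∑ j : J, sd2 U (pt J ε y i) j y :=
        Finset.single_le_sum (f := fun j : J => sd2 U (pt J ε y i) j y)
          (fun j _ => hnn j) (Finset.mem_univ (⟨j, hj⟩ : J))
      have a4 := mul_le_mul_of_nonneg_left (hlt.le.trans a1) (div_nonneg hMb hq.le)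
      rw [div_mul_cancel₀ _ hq.ne'] at a4
      have a5 := h4 _ hb
      linarith
  have hj : ∀ j : J, ∑ i : J → Fin I, sd2 U (pt J ε y i) j y ≤ R * (6 * M * y ^ 2) := by
    intro j
    have a1 := sum_sd2 J (Λ := 3 * ε * M) hy0 hy2 hIy U h2 j
    rw [← hR] at a1
    refine le_of_mul_le_mul_left (a1.trans_eq ?_) hI0
    rw [← hIy]; ring
  have hsum := Finset.sum_le_sum fun i (_ : i ∈ Finset.univ) => hpt i
  rw [Finset.sum_sub_distrib, Finset.sum_sub_distrib, Finset.sum_const, Finset.card_univ,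
    nsmul_eq_mul, ← hR, ← Finset.mul_sum, Finset.sum_comm] at hsum
  have a2 : ∑ j : J, ∑ i : J → Fin I, sd2 U (pt J ε y i) j y ≤ J.card * (R * (6 * M * y ^ 2)) := by
    refine (Finset.sum_le_sum fun j _ => hj j).trans ?_
    simp
  have a3 : Mb / (k * M * y ^ 2) * (J.card * (R * (6 * M * y ^ 2))) =
      R * (6 * Mb * J.card / k) := by field_simp
  have a4 := mul_le_mul_of_nonneg_left a2 (div_nonneg hMb hq.le)
  rw [← hR]
  linarith

end AvgAux

open Vale.Agent.P157.AvgAux in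
theorem avg : S_avg := by
  intro J ε y k g C Mb F I M0 N V hy0 hy2 hIy hk hMb hgC hM0 hN h2 h3 h1 h4 h5 h6
  obtain ⟨R, hR⟩ : ∃ R : ℝ, R = Fintype.card (J → Fin I) := ⟨_, rfl⟩
  have hI0 : (0 : ℝ) < I := (mul_pos_iff_of_pos_right hy0).1 (by linarith)
  have hR0 : 0 < R := by
    have : Nonempty (Fin I) := ⟨⟨0, by exact_mod_cast hI0⟩⟩
    rw [hR]; exact_mod_cast Fintype.card_pos
  have key : ∀ M, M0 ≤ M → M ≤ N → ((M : ℝ) - M0) * (R * (g - 6 * Mb * J.card / k)) ≤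
      ∑ i : J → Fin I, V M (pt J ε y i) := by
    intro M hM
    induction M, hM using Nat.le_induction with
    | base =>
      intro _
      rw [sub_self, zero_mul]
      exact Finset.sum_nonneg fun i _ => h5 _ (pt_box J hy0.le hIy i)
    | succ M hM ih =>
      intro hMN
      have a1 := AvgAux.step J (V M) (V (M + 1)) hy0 hy2 hIy hk hMb hgC
        (M := M) (by exact_mod_cast hM0.trans hM) (h2 M hM hMN) (h3 M hM hMN) (h1 M hM hMN)
        (h4 M hM hMN)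
      have a2 := ih (Nat.le_of_succ_le hMN)
      rw [← hR] at a1
      push_cast
      linarith
  have a1 := key N hN le_rfl
  have a2 := Finset.sum_le_sum fun i (_ : i ∈ (Finset.univ : Finset (J → Fin I))) =>
    h6 _ (pt_box J hy0.le hIy i)
  rw [Finset.sum_const, Finset.card_univ, nsmul_eq_mul, ← hR] at a2
  refine le_of_mul_le_mul_left ?_ hR0
  linarith

end Vale.Agent.P146L
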