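import Vale.Agent.P146L.Stm2

/-! # P146, lower bound: crude comparison of the interpolating systems -/

namespace Vale.Agent.P146L

open MeasureTheory ProbabilityTheory Vale.Agent.P157

namespace CloseAux

theorem one (h1 : S_lip) (S : Type) [Fintype S] [DecidableEq S] [Nonempty S] (L : ℕ)
    (ζ θ : ℕ → ℝ) (β : ℝ) (hζ : ZAdm L ζ) (γ : ℝ)
    (ha : β ^ 2 / (2 * (Fintype.card S + 1)) ≤ γ) (hb : γ ≤ β ^ 2 / (2 * Fintype.card S)) :
    |Vl ζ L (fun _ _ : S => γ) (fun d _ => sq0 θ d) - VN S β ζ L θ| ≤ β ^ 2 / 4 := by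
  have hN : (1 : ℝ) ≤ Fintype.card S := by exact_mod_cast Fintype.card_pos
  have hb2 : 0 ≤ β ^ 2 := sq_nonneg β
  have hγ : 0 ≤ γ := le_trans (by positivity) ha
  have h := (h1 S L ζ (gt S β 1) (fun _ _ => γ) (fun d _ => sq0 θ d) (fun d _ => sq0 θ d) hζ
    (fun i j => by unfold gt; positivity) (fun _ _ => hγ) (fun d _ => sq0_nonneg θ d)
    (fun d _ => sq0_nonneg θ d)).1
  refine le_trans h ?_
  simp only [gt, sub_self, abs_zero, Finset.sum_const_zero, add_zero, one_mul, Finset.sum_const,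
    Finset.card_univ, nsmul_eq_mul]
  obtain ⟨N, hNe⟩ : ∃ N : ℝ, N = Fintype.card S := ⟨_, rfl⟩
  rw [← hNe] at hN ha hb ⊢
  rw [abs_of_nonpos (by linarith)]
  have e : β ^ 2 / (2 * N) - β ^ 2 / (2 * (N + 1)) = β ^ 2 / (2 * N * (N + 1)) := by
    field_simp
    ring
  have h2 : -(γ - β ^ 2 / (2 * N)) ≤ β ^ 2 / (2 * N * (N + 1)) := by linarith
  have h3 : N * (N * (β ^ 2 / (2 * N * (N + 1)))) ≤ β ^ 2 / 2 := by
    have e2 : N * (N * (β ^ 2 / (2 * N * (N + 1)))) = β ^ 2 / 2 * (N / (N + 1)) := by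
      field_simp
    rw [e2]
    have : N / (N + 1) ≤ 1 := by rw [div_le_one (by linarith)]; linarith
    nlinarith
  have h4 : N * (N * -(γ - β ^ 2 / (2 * N))) ≤ N * (N * (β ^ 2 / (2 * N * (N + 1)))) := by
    gcongr
  linarith

end CloseAux

theorem close (h1 : S_lip) (h2 : S_dec) : S_close := by
  intro S _ _ _ L ζ θ β hζ
  have hN : (1 : ℝ) ≤ Fintype.card S := by exact_mod_cast Fintype.card_pos
  have hb2 : 0 ≤ β ^ 2 := sq_nonneg β
  refine ⟨fun γ ha hb => (CloseAux.one h1 S L ζ θ β hζ γ ha hb).trans (by linarith),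
    fun t xn ht0 ht1 hxn => ?_, ?_⟩
  · obtain ⟨ga, hga⟩ : ∃ ga : ℝ, ga = β ^ 2 / (2 * (Fintype.card S + 1)) := ⟨_, rfl⟩
    have hga0 : 0 ≤ ga := by rw [hga]; positivity
    have hx : ∀ d i, 0 ≤ xO S xn θ d i := by
      intro d i
      cases i with
      | none => exact hxn d
      | some i => exact sq0_nonneg θ d
    have hA := (h1 (Option S) L ζ (gD fun _ _ : S => ga) (gO S β t) (xO S xn θ) (xO S xn θ) hζ
      (fun i j => by cases i <;> cases j <;> simp [gD, hga0])
      (fun i j => by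
        cases i <;> cases j <;> simp only [gO, ← hga] <;> first | exact mul_nonneg ht0 hga0 | exact hga0)
      hx hx).1
    simp only [Fintype.sum_option, gD, gO, ← hga, sub_self, abs_zero, Finset.sum_const_zero,
      add_zero, sub_zero, Finset.sum_const, Finset.card_univ, nsmul_eq_mul] at hA
    rw [abs_of_nonneg (mul_nonneg ht0 hga0)] at hA
    have hB := h2.2.2 S L ζ (fun _ _ => ga) (xO S xn θ) hζ.zok
    have hC := X_lc_bounds hζ.zok hxn (L + 1)
    have hD := CloseAux.one h1 S L ζ θ β hζ ga hga.ge (by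
      rw [hga]
      gcongr
      linarith)
    have e1 : (fun d (i : S) => xO S xn θ d (some i)) = fun d _ => sq0 θ d := rfl
    have e2 : (fun d => xO S xn θ d none) = xn := rfl
    rw [e1, e2] at hB
    have h5 : t * ga + Fintype.card S * (t * ga) + Fintype.card S * (t * ga) ≤ β ^ 2 := by
      have e3 : ga * (2 * (Fintype.card S + 1)) = β ^ 2 := by
        rw [hga]
        field_simp
      have h6 : t * ga ≤ ga := by nlinarith
      have h7 : (Fintype.card S : ℝ) * (t * ga) ≤ Fintype.card S * ga := by gcongr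
      nlinarith
    rw [abs_le] at hA hD ⊢
    constructor <;> linarith [hA.1, hA.2, hD.1, hD.2, hC.1, hC.2]
  · unfold VN
    congr 1
    · funext i j
      cases i <;> cases j <;> simp [gO, gt, Fintype.card_option]
    · funext d i
      cases i <;> rfl

end Vale.Agent.P146L
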