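import Vale.Agent.P146L.Stm2

/-! # P146, lower bound: concentration for a block of spins -/

namespace Vale.Agent.P146L

open MeasureTheory ProbabilityTheory Vale.Agent.P157

namespace CnAux

theorem root_sum {S : Type} [Fintype S] (L : ℕ) (g : S → S → ℝ) (x : ℕ → S → ℝ)
    (b : S → Bool) :
    ∑ c : Cs S, pf L g x L c * xi c b ^ 2 = ∑ i, ∑ j, g i j + ∑ i, x L i := by
  simp only [xi_sq, mul_one]
  rw [Fintype.sum_sum_type, Fintype.sum_prod_type]
  simp only [pf, if_true]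

end CnAux

theorem cn : S_cn := by
  intro S B _ _ _ e L ζ g xs θ τ y κ Λ0 ζs θm me Δm e0 hζ hg hxs hy hθm hθ hSD hΛ hζs hζs'
    hme0 hme1 hΔ0 hΔ he0
  have hc : ∀ d, 1 ≤ d → d ≤ L → Ex ζ (gvs (pf L g (xs θ))) (gtop (cube S) HH) (d + 1)
      (fun w => |θ d * ∑ j, Bp ζ (gvs (pf L g (xs θ))) (cube S) HH
        (fun _ b => xi (embX e j) b) (fun _ _ => 0) d w - τ d|) (L + 1) 0 ≤ e0 := by
    intro d hd hdL
    have h := conc (cube S) hζ hj_HH (blk_HH e) (fam_pf L hg hxs) θ τ hy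
      (fun d h1 h2 => (hθ d h1 h2).1) hSD (Λ0 := Λ0)
      (fun _ b => (CnAux.root_sum L g (xs θ) b).trans_le hΛ) hζs hζs' hd hdL
    refine h.trans (le_trans (le_of_eq ?_) he0)
    simp only [zero_div, zero_mul, add_zero]
  refine ⟨fun d hd hdL => ?_, fun i => ?_⟩
  · have h := mean_of_conc (cube S) (e := embX e) hζ hj_HH (pf L g (xs θ)) θ τ hθm hdL
      (hθ d hd hdL).2 (hc d hd hdL)
    have e1 : EG ζ (gvs (pf L g (xs θ))) (cube S) HH
        (fun (_ : Cs S → ℝ) b => ∑ j, (0 + xi (embX e j) b ^ 2)) L = Fintype.card B := by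
      simp only [xi_sq, zero_add, Finset.sum_const, Finset.card_univ, nsmul_eq_mul, mul_one]
      exact GE_const hg_HH hζ.zok (fun _ => noise_gv _) _ _ _
    rw [e1] at h
    exact h
  · have h := dec_of_conc (cube S) hζ hj_HH (blk_HH e) (pf L g (xs θ)) θ τ
      (fun d j hd => hxs.blockv θ d j hd) hθm (fun d h1 h2 => (hθ d h1 h2).2) hme0 hme1
      (fun k hk => (hΔ k hk).2) hΔ0 (fun k hk => (hΔ k hk).1) hc (fun _ b => sp b i) 1
      (bm2_conf fun b => sp b i).1 (fun _ b => (abs_sp b i).le)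
    rw [one_pow, one_mul, add_zero] at h
    exact h

end Vale.Agent.P146L
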