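import Vale.Agent.P146L.Stm2

/-! # P146, lower bound: relabelling, the trivial system and a decoupled spin -/

namespace Vale.Agent.P146L

open MeasureTheory ProbabilityTheory Vale.Agent.P157

namespace DecAux

variable {S : Type} [Fintype S] [DecidableEq S]

theorem integral_cube (F : (S → Bool) → ℝ) :
    ∫ b, F b ∂(cube S) = ((2 : ℝ) ^ Fintype.card S)⁻¹ * ∑ b : S → Bool, F b := by
  rw [integral_fintype Integrable.of_finite, Finset.mul_sum]
  refine Finset.sum_congr rfl fun b _ => ?_
  rw [Measure.real, cube, IsingBAux.unif_single, smul_eq_mul, ENNReal.toReal_inv,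
    ENNReal.toReal_pow, ENNReal.toReal_ofNat]

/-- Relabelling of the coordinates. -/
def cE {S S' : Type} (e : S ≃ S') : Cs S ≃ Cs S' := Equiv.sumCongr (e.prodCongr e) e

theorem HH_re {S' : Type} [Fintype S'] (e : S ≃ S') (u : Cs S' → ℝ) (b : S' → Bool) :
    HH u b = HH (fun k => u (cE e k)) fun i => b (e i) := by
  rw [HH, HH, ← (cE e).sum_comp]
  refine Finset.sum_congr rfl fun k _ => ?_
  rcases k with ⟨i, j⟩ | i <;> rfl

theorem gtop_re {S' : Type} [Fintype S'] [DecidableEq S'] (e : S ≃ S') (u : Cs S' → ℝ) :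
    gtop (cube S') HH u = gtop (cube S) HH fun k => u (cE e k) := by
  rw [gtop_eq, gtop_eq, integral_cube, integral_cube, Fintype.card_congr e,
    ← (e.symm.arrowCongr (Equiv.refl Bool)).sum_comp]
  simp only [HH_re e u]
  rfl

theorem reindex {S' : Type} [Fintype S'] [DecidableEq S'] (e : S ≃ S')
    (L : ℕ) (ζ : ℕ → ℝ) (g : S' → S' → ℝ) (x : ℕ → S' → ℝ) :
    Vl ζ L g x = Vl ζ L (fun i j => g (e i) (e j)) fun d i => x d (e i) := by
  have h4 := X_sel (fun k : Cs S => some (cE e k))
    (fun k l i hk hl => (cE e).injective (Option.some.inj (hk.trans hl.symm))) ζ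
    (pf L g x) (pf L (fun i j => g (e i) (e j)) fun d i => x d (e i))
    (Ψ' := gtop (cube S) HH) hg_HH.lg_gtop.1 (d := L + 1)
    (fun _ _ k => by rcases k with ⟨i, j⟩ | i <;> rfl)
  have h5 : gtop (cube S') HH = fun u : Cs S' → ℝ =>
      gtop (cube S) HH fun k => (some (cE e k)).elim 0 u := funext (gtop_re e)
  rw [Vl, Vl, XS, XS, h5]
  exact h4

theorem trivial_sys (L : ℕ) (ζ : ℕ → ℝ) : Vl ζ L (0 : S → S → ℝ) 0 = 0 := by
  have h1 : ∀ d, gvs (pf L (0 : S → S → ℝ) 0) d = Measure.dirac 0 := fun d =>
    gv_of_nonpos fun c => by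
      rcases c with p | i
      · exact (ite_self _).le
      · exact le_rfl
  have h2 : ∀ d, X ζ (gvs (pf L (0 : S → S → ℝ) 0)) (gtop (cube S) HH) d
      = gtop (cube S) HH := by
    intro d
    induction d with
    | zero => rfl
    | succ d ih => rw [X_succ, h1, T_dirac, ih]
  have h3 : HH (0 : Cs S → ℝ) = fun _ => 0 := by
    funext b
    simp [HH]
  rw [Vl, XS, h2, gtop, h3, lse_const]

/-- Selection of the coordinates that carry variance. -/
def sel {S : Type} : Cs (Option S) → Option (Option (Cs S))
  | .inl (some i, some j) => some (some (.inl (i, j)))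
  | .inl (none, _) => none
  | .inl (some _, none) => none
  | .inr (some i) => some (some (.inr i))
  | .inr none => some none

/-- The inverse of the selection. -/
def back {S : Type} : Option (Cs S) → Cs (Option S)
  | none => .inr none
  | some (.inl (i, j)) => .inl (some i, some j)
  | some (.inr i) => .inr (some i)

theorem back_sel {S : Type} (k : Cs (Option S)) (i : Option (Cs S))
    (hk : sel k = some i) : k = back i := by
  rcases k with ⟨_ | a, _ | j⟩ | (_ | j)
  · cases hk
  · cases hk
  · cases hk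
  all_goals
    cases hk
    rfl

theorem sel_inj {S : Type} (k l : Cs (Option S)) (i : Option (Cs S))
    (hk : sel k = some i) (hl : sel l = some i) : k = l :=
  (back_sel k i hk).trans (back_sel l i hl).symm

theorem gtop_sel (u : Option (Cs S) → ℝ) :
    gtop (cube (Option S)) HH (fun k => (sel k).elim 0 u)
      = gtop (cube S) HH (fun c => u (some c)) + lc (u none) := by
  have h1 : ∀ p : Bool × (S → Bool),
      HH (fun k => (sel k).elim 0 u) (Equiv.piOptionEquivProd.symm p)
        = u none * (if p.1 then 1 else -1) + HH (fun c => u (some c)) p.2 := by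
    intro p
    simp only [HH, Fintype.sum_sum_type, Fintype.sum_prod_type, Fintype.sum_option, sel,
      Option.elim_none, Option.elim_some, zero_mul, zero_add, Finset.sum_const_zero]
    show _ + (u none * (if p.1 then 1 else -1) + _) = _
    rw [add_left_comm]
    rfl
  have h2 : 0 < ∑ b : S → Bool, Real.exp (HH (fun c => u (some c)) b) :=
    Finset.sum_pos (fun _ _ => Real.exp_pos _) Finset.univ_nonempty
  rw [gtop_eq, gtop_eq, integral_cube, integral_cube,
    ← (Equiv.piOptionEquivProd (β := fun _ : Option S => Bool)).symm.sum_comp, lc,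
    ← Real.log_mul (by positivity) (Real.cosh_pos _).ne']
  simp only [h1, Real.exp_add]
  rw [Fintype.sum_prod_type, Fintype.sum_bool, Fintype.card_option, Real.cosh_eq]
  simp only [← Finset.mul_sum, if_true, mul_one, Bool.false_eq_true, if_false, mul_neg]
  refine congrArg Real.log ?_
  ring

theorem decouple (L : ℕ) {ζ : ℕ → ℝ} (g : S → S → ℝ) (x : ℕ → Option S → ℝ) (hζ : Zok ζ) :
    Vl ζ L (gD g) x = Vl ζ L g (fun d i => x d (some i))
      + X ζ (g1s fun d => x d none) lc (L + 1) 0 := by
  have h1 := X_sel (sel : Cs (Option S) → Option (Option (Cs S))) sel_inj ζ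
    (fun d c => c.elim (x d none) (pf L g (fun d i => x d (some i)) d))
    (pf L (gD g) x) (Ψ' := gtop (cube (Option S)) HH)
    hg_HH.lg_gtop.1 (d := L + 1) fun j _ k => by
      rcases k with ⟨_ | a, _ | i⟩ | (_ | i)
      · exact ite_self _
      · exact ite_self _
      · exact ite_self _
      all_goals rfl
  simp only [gtop_sel] at h1
  rw [Vl, XS, ← h1, X_option hζ _ hg_HH.lg_gtop lg_lc]
  rfl

end DecAux

theorem dec : S_dec :=
  ⟨fun _ _ _ _ _ _ e L ζ g x => DecAux.reindex e L ζ g x,
    fun _ _ _ L ζ => DecAux.trivial_sys L ζ,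
    fun _ _ _ L _ g x hζ => DecAux.decouple L g x hζ⟩

end Vale.Agent.P146L
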