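import Vale.Agent.P146.Stmt
import Vale.Agent.P157.IsingB
import Vale.Agent.P157.Concave
import Vale.Agent.P157.DecL
import Vale.Agent.P157.Conc
import Vale.Agent.P157.Avg

/-!
# P146, lower bound: definitions

Levels are numbered from the top as in `P157`. Couplings live at the root level `L`, whose
exponent may be negative; fields live at every level.
-/

namespace Vale.Agent.P146L

open MeasureTheory ProbabilityTheory Vale.Agent.P157

/-! ## The spin system -/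

/-- The spin at site `i`. -/
def sp {S : Type} (b : S → Bool) (i : S) : ℝ := P146.spin (b i)

/-- Coordinates: couplings and fields. -/
abbrev Cs (S : Type) : Type := (S × S) ⊕ S

/-- The observable conjugate to a coordinate. -/
def xi {S : Type} : Cs S → (S → Bool) → ℝ
  | .inl p => fun b => sp b p.1 * sp b p.2
  | .inr i => fun b => sp b i

/-- The Hamiltonian, linear in the coordinates. -/
def HH {S : Type} [Fintype S] (w : Cs S → ℝ) (b : S → Bool) : ℝ := ∑ c, w c * xi c b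

/-- Uniform measure on the cube. -/
noncomputable def cube (S : Type) [Fintype S] [DecidableEq S] : Measure (S → Bool) :=
  uniformOn Set.univ

instance (S : Type) [Fintype S] [DecidableEq S] : IsProbabilityMeasure (cube S) := by
  unfold cube; infer_instance

/-- Variance profile: couplings at the root level `L`, fields at every level. -/
def pf {S : Type} (L : ℕ) (g : S → S → ℝ) (x : ℕ → S → ℝ) (d : ℕ) : Cs S → ℝ
  | .inl p => if d = L then g p.1 p.2 else 0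
  | .inr i => x d i

/-- Field coordinates of a block of spins. -/
def embX {S β : Type} (e : β ↪ S) : β ↪ Cs S :=
  ⟨fun j => .inr (e j), fun _ _ h => e.injective (by simpa using h)⟩

/-- Exponents on the levels `0, ..., L`; the root exponent `ζ L` may be negative. -/
structure ZN (L : ℕ) (ζ : ℕ → ℝ) : Prop where
  one : 1 ≤ L
  z0 : ζ 0 = 1
  anti : ∀ d, d < L → ζ (d + 1) ≤ ζ d
  nn : ∀ d, d < L → 0 ≤ ζ d

/-- The exponents below the root, extended by zero. -/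
def cut (L : ℕ) (ζ : ℕ → ℝ) (d : ℕ) : ℝ := if d < L then ζ d else 0

section sys
variable {S : Type} [Fintype S] [DecidableEq S]

/-- The cascade at depth `k`. -/
noncomputable def XS (ζ : ℕ → ℝ) (L : ℕ) (g : S → S → ℝ) (x : ℕ → S → ℝ) (k : ℕ) :
    (Cs S → ℝ) → ℝ := X ζ (gvs (pf L g x)) (gtop (cube S) HH) k

/-- Conditional expectation at depth `d` of an observable living at depth `k`. -/
noncomputable def ExS (ζ : ℕ → ℝ) (L : ℕ) (g : S → S → ℝ) (x : ℕ → S → ℝ) (k : ℕ)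
    (φ : (Cs S → ℝ) → ℝ) (d : ℕ) : (Cs S → ℝ) → ℝ :=
  Ex ζ (gvs (pf L g x)) (gtop (cube S) HH) k φ d

/-- Conditional expectation at depth `k` of a function of one configuration. -/
noncomputable def GS (ζ : ℕ → ℝ) (L : ℕ) (g : S → S → ℝ) (x : ℕ → S → ℝ)
    (f : (S → Bool) → ℝ) (k : ℕ) : (Cs S → ℝ) → ℝ :=
  GE ζ (gvs (pf L g x)) (cube S) HH (fun _ b => f b) k

/-- Value of the system. -/
noncomputable def Vl (ζ : ℕ → ℝ) (L : ℕ) (g : S → S → ℝ) (x : ℕ → S → ℝ) : ℝ :=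
  XS ζ L g x (L + 1) 0

/-- Expected squared magnetization at depth `k`. -/
noncomputable def E1 (ζ : ℕ → ℝ) (L : ℕ) (g : S → S → ℝ) (x : ℕ → S → ℝ) (i : S) (k : ℕ) : ℝ :=
  Esq ζ (gvs (pf L g x)) (cube S) HH (fun _ b => sp b i) L k

/-- Expected squared correlation at depth `k`. -/
noncomputable def E2 (ζ : ℕ → ℝ) (L : ℕ) (g : S → S → ℝ) (x : ℕ → S → ℝ) (i j : S) (k : ℕ) :
    ℝ :=
  Esq ζ (gvs (pf L g x)) (cube S) HH (fun _ b => sp b i * sp b j) L k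

/-- Twice the derivative of the value along a linear interpolation of the variances. -/
noncomputable def vD (ζ : ℕ → ℝ) (L : ℕ) (g g' : S → S → ℝ) (x x' : ℕ → S → ℝ) (t : ℝ) : ℝ :=
  ∑ i, ∑ j, (g' i j - g i j) *
      (1 - QQ ζ (E2 ζ L (g + t • (g' - g)) (x + t • (x' - x)) i j) L)
    + ∑ d ∈ Finset.range (L + 1), ∑ i, (x' d i - x d i) *
      (1 - QQ ζ (E1 ζ L (g + t • (g' - g)) (x + t • (x' - x)) i) d)

/-- The law of the root variables, tilted with the root exponent. -/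
noncomputable def rootM (ζ : ℕ → ℝ) (L : ℕ) (g : S → S → ℝ) (x : ℕ → S → ℝ) :
    Measure (Cs S → ℝ) :=
  (gv (pf L g x L)).tilted fun w => ζ L * XS ζ L g x L w

/-- Magnetization at depth `k`. -/
noncomputable def mg (ζ : ℕ → ℝ) (L : ℕ) (g : S → S → ℝ) (x : ℕ → S → ℝ) (i : S) (k : ℕ) :
    (Cs S → ℝ) → ℝ := GS ζ L g x (fun b => sp b i) k

/-- Correlation at depth `k`. -/
noncomputable def Mg (ζ : ℕ → ℝ) (L : ℕ) (g : S → S → ℝ) (x : ℕ → S → ℝ) (i j : S) (k : ℕ) :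
    (Cs S → ℝ) → ℝ := GS ζ L g x (fun b => sp b i * sp b j) k

/-- Root-level moment matrix of two replicas that split at depth `k` (one replica if `k = 0`). -/
noncomputable def Nm (ζ : ℕ → ℝ) (L : ℕ) (g : S → S → ℝ) (x : ℕ → S → ℝ) (k : ℕ) (i l : S) :
    (Cs S → ℝ) → ℝ :=
  if k = 0 then Mg ζ L g x i l L
  else ExS ζ L g x k (fun u => mg ζ L g x i k u * mg ζ L g x l k u) L

/-- Mean square distance of the overlap from `a`, for two replicas that split at depth `k`,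
as a function at depth `k`. -/
noncomputable def r0 (ζ : ℕ → ℝ) (L : ℕ) (g : S → S → ℝ) (x : ℕ → S → ℝ) (a : ℝ) (k : ℕ)
    (u : Cs S → ℝ) : ℝ :=
  (∑ i, ∑ j, Mg ζ L g x i j k u ^ 2) / (Fintype.card S : ℝ) ^ 2
    - 2 * a * (∑ i, mg ζ L g x i k u ^ 2) / Fintype.card S + a ^ 2

/-- The same as a function of the root variables. -/
noncomputable def rm (ζ : ℕ → ℝ) (L : ℕ) (g : S → S → ℝ) (x : ℕ → S → ℝ) (q : ℕ → ℝ) (k : ℕ) :
    (Cs S → ℝ) → ℝ := ExS ζ L g x k (r0 ζ L g x (q k) k) L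

/-- The same, fully averaged. -/
noncomputable def rem (ζ : ℕ → ℝ) (L : ℕ) (g : S → S → ℝ) (x : ℕ → S → ℝ) (q : ℕ → ℝ) (k : ℕ) :
    ℝ :=
  (∑ i, ∑ j, E2 ζ L g x i j k) / (Fintype.card S : ℝ) ^ 2
    - 2 * q k * (∑ i, E1 ζ L g x i k) / Fintype.card S + q k ^ 2

/-- Error of the replica equation at depth `k`. -/
noncomputable def er (ζ : ℕ → ℝ) (L : ℕ) (g : S → S → ℝ) (x : ℕ → S → ℝ) (q : ℕ → ℝ) (k : ℕ)
    (w : Cs S → ℝ) : ℝ :=
  (if k = 0 then 0 else 3 * √(rm ζ L g x q k w))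
    + ∑ j ∈ Finset.Ico 1 L, (ζ (j - 1) - ζ j) * √(rm ζ L g x q j w)
    + (ζ (L - 1) - ζ L) * rm ζ L g x q L w

/-- Bilinear contractions. -/
def Contr (Γ : S → S → ℝ) : Prop :=
  ∀ x y : S → ℝ, |∑ j, ∑ l, Γ j l * (x j * y l)| ≤ √(∑ j, x j ^ 2) * √(∑ l, y l ^ 2)

/-- The coupling direction `(i, j)`. -/
def ec (i j : S) : Cs S → ℝ := Pi.single (.inl (i, j)) 1

/-- Gaussian integration by parts in the couplings under a tilted law. -/
structure Ibp (μ : Measure (Cs S → ℝ)) (γ ζL : ℝ) (M : S → S → (Cs S → ℝ) → ℝ) : Prop where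
  prob : IsProbabilityMeasure μ
  int : ∀ c, Integrable (fun w => w c) μ
  eq : ∀ (i j : S) (φ φ' : (Cs S → ℝ) → ℝ), BM φ → BM φ' →
    (∀ w, HasDerivAt (fun s : ℝ => φ (w + s • ec i j)) (φ' w) 0) →
    ∫ w, w (.inl (i, j)) * φ w ∂μ = γ * ∫ w, (φ' w + ζL * (M i j w * φ w)) ∂μ

/-- The symmetric coupling matrix. -/
noncomputable def Jm (b : ℝ) (w : Cs S → ℝ) : Matrix S S ℝ :=
  Matrix.of fun i j => (w (.inl (i, j)) + w (.inl (j, i))) / b

/-- The resolvent of a real matrix. -/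
noncomputable def Rs (z : ℂ) (J : Matrix S S ℝ) : Matrix S S ℂ :=
  (z • (1 : Matrix S S ℂ) - J.map (fun a => (a : ℂ)))⁻¹

end sys

/-- Couplings at time `t` of the interpolation. -/
noncomputable def gt (S : Type) [Fintype S] (β t : ℝ) : S → S → ℝ :=
  fun _ _ => t * β ^ 2 / (2 * Fintype.card S)

/-- Fields at time `t` of the interpolation. -/
noncomputable def xt (S : Type) (β : ℝ) (q : ℕ → ℝ) (t : ℝ) : ℕ → S → ℝ :=
  fun d _ => (1 - t) * β ^ 2 * dq q d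

/-- The model with full coupling matrix and cascade fields of strengths `θ`. -/
noncomputable def VN (S : Type) [Fintype S] [DecidableEq S] (β : ℝ) (ζ : ℕ → ℝ) (L : ℕ)
    (θ : ℕ → ℝ) : ℝ :=
  Vl ζ L (gt S β 1) fun d _ => sq0 θ d

/-- The Parisi functional. -/
noncomputable def GG (L : ℕ) (ζ : ℕ → ℝ) (β : ℝ) (q : ℕ → ℝ) : ℝ :=
  psi L ζ (β ^ 2 • q) lc - β ^ 2 / 4 * (1 - pairing L ζ q q)

/-- The uniform grid of exponents. -/
noncomputable def grid (L : ℕ) (k : ℕ) : ℝ := if k ≤ L then 1 - (k : ℝ) / L else 0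

/-- The triangular coupling profile of the model. -/
noncomputable def tri (n : ℕ) (β : ℝ) (i j : Fin n) : ℝ := if i < j then β ^ 2 / n else 0

/-- Multiplication by the overlap matrix in the ultrametric algebra (levels `0, ..., L - 1`). -/
noncomputable def conv {V : Type} [AddCommGroup V] [Module ℝ V] (ζ q : ℕ → ℝ) (L : ℕ)
    (Y : ℕ → V) (k : ℕ) : V :=
  if k = 0 then Y 0 - ∑ j ∈ Finset.Ico 1 L, ((ζ (j - 1) - ζ j) * q j) • Y j
  else Y k + q k • Y 0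
    - ∑ j ∈ Finset.Ico 1 k, (ζ (j - 1) - ζ j) • (q j • Y k + q k • Y j)
    - ((2 * ζ (k - 1) - ζ k) * q k) • Y k
    - ∑ j ∈ Finset.Ico (k + 1) L, ((ζ (j - 1) - ζ j) * q j) • Y j

/-- The spectral parameter: `y = 1 + δ + δ i`. -/
noncomputable def yy (δ : ℝ) : ℂ := ⟨1 + δ, δ⟩

/-- `z = y + 1 / y`. -/
noncomputable def zz (δ : ℝ) : ℂ := yy δ + (yy δ)⁻¹

/-- Eigenvalues of the resolvent in the ultrametric algebra. -/
noncomputable def Bh (ζ q : ℕ → ℝ) (b δ : ℝ) (k : ℕ) : ℂ :=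
  (yy δ - ((b * csDelta ζ q k : ℝ) : ℂ))⁻¹

/-! ## One-site objects -/

/-- The one-site cascade at depth `d` for the cumulative path `c`. -/
noncomputable def X1 (ζ c : ℕ → ℝ) (d : ℕ) : ℝ → ℝ := X ζ (g1s (dq c)) lc d

/-- The potential at time `τ` inside the block of level `d`. -/
noncomputable def Fl (ζ c : ℕ → ℝ) (d : ℕ) (τ : ℝ) : ℝ → ℝ :=
  T (ζ d) (g1 (dq c d - τ)) (X1 ζ c d)

/-- Expectation of `f` at time `τ` inside the block of level `d`. -/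
noncomputable def EE (L : ℕ) (ζ c : ℕ → ℝ) (d : ℕ) (τ : ℝ) (f : ℝ → ℝ) : ℝ :=
  Ex ζ (g1s (dq c)) lc (d + 1) (P (ζ d) (g1 τ) (Fl ζ c d τ) f) (L + 1) 0

/-- `E u ^ 2`. -/
noncomputable def ga0 (L : ℕ) (ζ c : ℕ → ℝ) (d : ℕ) (τ : ℝ) : ℝ :=
  EE L ζ c d τ fun x => iteratedDeriv 1 (Fl ζ c d τ) x ^ 2

/-- `E v ^ 2`. -/
noncomputable def ga1 (L : ℕ) (ζ c : ℕ → ℝ) (d : ℕ) (τ : ℝ) : ℝ :=
  EE L ζ c d τ fun x => iteratedDeriv 2 (Fl ζ c d τ) x ^ 2

/-- `E (w ^ 2 - 2 m v ^ 3)`. -/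
noncomputable def ga2 (L : ℕ) (ζ c : ℕ → ℝ) (d : ℕ) (τ : ℝ) : ℝ :=
  EE L ζ c d τ fun x =>
    iteratedDeriv 3 (Fl ζ c d τ) x ^ 2 - 2 * ζ d * iteratedDeriv 2 (Fl ζ c d τ) x ^ 3

/-- `E v ^ 2` at depth `k`. -/
noncomputable def sg (L : ℕ) (ζ c : ℕ → ℝ) (k : ℕ) : ℝ :=
  Ex ζ (g1s (dq c)) lc k (fun x => iteratedDeriv 2 (X1 ζ c k) x ^ 2) (L + 1) 0

/-- The path with all levels above `d` moved to zero. -/
def trunc (d : ℕ) (c : ℕ → ℝ) (k : ℕ) : ℝ := if k ≤ d then c k else 0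

/-- Space-time regularity of a solution of the Parisi equation with constant exponent `m`
on `[0, h]`, with its first four space derivatives. -/
structure Flow (m h K : ℝ) (Φ U V W Z : ℝ → ℝ → ℝ) : Prop where
  cΦ : ContinuousOn (Function.uncurry Φ) (Set.Icc 0 h ×ˢ Set.univ)
  cU : ContinuousOn (Function.uncurry U) (Set.Icc 0 h ×ˢ Set.univ)
  cV : ContinuousOn (Function.uncurry V) (Set.Icc 0 h ×ˢ Set.univ)
  cW : ContinuousOn (Function.uncurry W) (Set.Icc 0 h ×ˢ Set.univ)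
  cZ : ContinuousOn (Function.uncurry Z) (Set.Icc 0 h ×ˢ Set.univ)
  dx : ∀ τ ∈ Set.Icc 0 h, ∀ x, HasDerivAt (Φ τ) (U τ x) x ∧ HasDerivAt (U τ) (V τ x) x ∧
    HasDerivAt (V τ) (W τ x) x ∧ HasDerivAt (W τ) (Z τ x) x
  dt : ∀ τ ∈ Set.Ioo 0 h, ∀ x,
    HasDerivAt (fun s => Φ s x) (-(V τ x + m * U τ x ^ 2) / 2) τ ∧
    HasDerivAt (fun s => U s x) (-(W τ x / 2) - m * (U τ x * V τ x)) τ ∧
    HasDerivAt (fun s => V s x) (-(Z τ x / 2) - m * (V τ x ^ 2 + U τ x * W τ x)) τ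
  bd : ∀ τ ∈ Set.Icc 0 h, ∀ x, |U τ x| ≤ K ∧ |V τ x| ≤ K ∧ |W τ x| ≤ K ∧ |Z τ x| ≤ K
  semi : ∀ τ ∈ Set.Icc 0 h, T m (g1 τ) (Φ τ) = Φ 0

/-- Positive exponents at most one below the root. -/
structure ZP (L : ℕ) (ζ : ℕ → ℝ) : Prop where
  z : Zok ζ
  z0 : ζ 0 = 1
  pos : ∀ d, d < L → 0 < ζ d

/-- Paths with bounded total variance and no variance at the root level. -/
structure CP (L : ℕ) (V : ℝ) (c : ℕ → ℝ) : Prop where
  adm : CAdm L c
  root : c L = 0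
  top : c 0 ≤ V

/-- Overlap paths without root overlap. -/
structure QP (L : ℕ) (q : ℕ → ℝ) : Prop where
  adm : CAdm L q
  root : q L = 0
  top : q 0 = 1

/-- Minimizers of the Parisi functional over such paths. -/
def IsMinQ (L : ℕ) (ζ : ℕ → ℝ) (β : ℝ) (q : ℕ → ℝ) : Prop :=
  QP L q ∧ ∀ q', QP L q' → GG L ζ β q ≤ GG L ζ β q'

end Vale.Agent.P146L
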