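import Vale.Agent.P146L.Stm2

/-! # P146, lower bound: interpolation formula with an arbitrary root exponent -/

namespace Vale.Agent.P146L

open MeasureTheory ProbabilityTheory Vale.Agent.P157

namespace DerAux

theorem lse_scale {Ω : Type} [MeasurableSpace Ω] (μ : Measure Ω) {z : ℝ} (hz : z ≠ 0)
    (F : Ω → ℝ) : lse μ z F = z⁻¹ * lse μ 1 fun ω => z * F ω := by
  simp [lse, hz]

theorem lse_first {Ω : Type} [MeasurableSpace Ω] (μ : Measure Ω) [IsProbabilityMeasure μ]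
    (z : ℝ) {δ : Ω → ℝ} (hm : Measurable δ) {b : ℝ} (hb : ∀ ω, |δ ω| ≤ b) (b0 : 0 ≤ b) :
    |lse μ z δ - ∫ ω, δ ω ∂μ| ≤ (|z| + 12 * z ^ 2 * b) * b ^ 2 := by
  by_cases hz : z = 0
  · subst hz
    simp [lse]
  have hz0 : 0 < |z| := abs_pos.2 hz
  have hb' : ∀ ω, |z * δ ω| ≤ |z| * b := fun ω => by
    rw [abs_mul]
    exact mul_le_mul_of_nonneg_left (hb ω) hz0.le
  have h1 := cumulant (ν := μ) zero_le_one le_rfl (hm.const_mul z) hb'
  have h2 : |∫ ω, (z * δ ω) ^ 2 ∂μ| ≤ (|z| * b) ^ 2 := by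
    have := norm_integral_le_of_norm_le_const (μ := μ) (f := fun ω => (z * δ ω) ^ 2)
      (C := (|z| * b) ^ 2) (Filter.Eventually.of_forall fun ω => by
        rw [Real.norm_eq_abs, abs_pow]
        exact pow_le_pow_left₀ (abs_nonneg _) (hb' ω) 2)
    simpa using this
  have h3 : |∫ ω, z * δ ω ∂μ| ≤ |z| * b := by
    have := norm_integral_le_of_norm_le_const (μ := μ) (f := fun ω => z * δ ω)
      (C := |z| * b) (Filter.Eventually.of_forall fun ω => hb' ω)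
    simpa using this
  have h4 : (∫ ω, z * δ ω ∂μ) ^ 2 ≤ (|z| * b) ^ 2 := by
    rw [← sq_abs]
    exact pow_le_pow_left₀ (abs_nonneg _) h3 2
  have h5 : |lse μ 1 (fun ω => z * δ ω) - ∫ ω, z * δ ω ∂μ|
      ≤ (|z| * b) ^ 2 + 12 * (|z| * b) ^ 3 := by
    have a1 := abs_le.1 h1
    have a2 := abs_le.1 h2
    have a3 := sq_nonneg (∫ ω, z * δ ω ∂μ)
    rw [abs_le]
    constructor <;> linarith [a1.1, a1.2, a2.1, a2.2]
  have e : lse μ z δ - ∫ ω, δ ω ∂μ
      = z⁻¹ * (lse μ 1 (fun ω => z * δ ω) - ∫ ω, z * δ ω ∂μ) := by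
    rw [lse_scale μ hz, integral_const_mul z, mul_sub, inv_mul_cancel_left₀ hz]
  rw [e, abs_mul, abs_inv, inv_mul_le_iff₀ hz0]
  refine h5.trans (le_of_eq ?_)
  rw [← sq_abs z]
  ring

section W
variable {W : Type} [NormedAddCommGroup W] [MeasurableSpace W] [BorelSpace W]
  [SecondCountableTopology W]

theorem T_convN (z : ℝ) {ν ν' : Measure W} (h : Noise ν) (h' : Noise ν')
    {Ψ : W → ℝ} (hΨ : LG Ψ) : T z (ν.conv ν') Ψ = T z ν (T z ν' Ψ) := by
  have := h.prob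
  have := h'.prob
  funext w
  have e := hΨ.eint (h.conv h') w
  rw [T, Measure.conv, lse_map measurable_add z e.1,
    lse_prod z (CascAux.eint_map measurable_add e)]
  simp only [T, add_assoc]

/-- First order expansion through the root step. -/
theorem root_first (z : ℝ) {ν : Measure W} (hν : Noise ν) {Ψ Ψ' B : W → ℝ} (hΨ : LG Ψ)
    (hΨ' : Measurable Ψ') (hB : Measurable B) {K C h : ℝ} (hK : ∀ w, |B w| ≤ K) (C0 : 0 ≤ C)
    (h0 : 0 ≤ h) (h1 : h ≤ 1) (hd : ∀ w, |Ψ' w - Ψ w - h / 2 * B w| ≤ C * (h * √h)) (w : W) :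
    |T z ν Ψ' w - T z ν Ψ w - h / 2 * P z ν Ψ B w|
      ≤ (C + (|z| + 12 * z ^ 2 * (C + K)) * (C + K) ^ 2) * (h * √h) := by
  have := hν.prob
  have K0 : 0 ≤ K := (abs_nonneg _).trans (hK 0)
  have s0 := Real.sqrt_nonneg h
  have s1 : √h ≤ 1 := Real.sqrt_le_one.2 h1
  have s2 : h * √h ≤ h := mul_le_of_le_one_right h0 s1
  have s3 : h * h ≤ h * √h := mul_le_mul_of_nonneg_left (Real.le_sqrt_of_sq_le (by nlinarith)) h0
  have hb : ∀ u, |Ψ' u - Ψ u| ≤ h * (C + K) := fun u => by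
    have q1 : |h / 2 * B u| ≤ h * K := by
      rw [abs_mul, abs_of_nonneg (by positivity : 0 ≤ h / 2)]
      exact mul_le_mul (by linarith) (hK u) (abs_nonneg _) h0
    have q2 := abs_add_le (Ψ' u - Ψ u - h / 2 * B u) (h / 2 * B u)
    have q3 : C * (h * √h) ≤ C * h := by gcongr
    rw [sub_add_cancel] at q2
    linarith [hd u]
  have b1 : BM fun u => Ψ' u - Ψ u := ⟨hΨ'.sub hΨ.1, _, hb⟩
  have hL : LG Ψ' := by
    have := hΨ.add b1.lg
    simpa using this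
  have bB : BM B := ⟨hB, K, hK⟩
  have eΨ := hΨ.eint hν w
  have := eΨ.prob_tilted z
  have m1 : Measurable fun u => Ψ' (w + u) - Ψ (w + u) := b1.1.comp (measurable_const_add w)
  have f1 := lse_first (ν.tilted fun u => z * Ψ (w + u)) z m1 (fun u => hb (w + u))
    (by positivity)
  have f2 : |P z ν Ψ (fun u => Ψ' u - Ψ u - h / 2 * B u) w| ≤ C * (h * √h) :=
    abs_P_le z ν Ψ hd w
  have f3 : P z ν Ψ (fun u => Ψ' u - Ψ u - h / 2 * B u) w
      = ∫ u, Ψ' (w + u) - Ψ (w + u) ∂(ν.tilted fun u => z * Ψ (w + u))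
        - h / 2 * P z ν Ψ B w := by
    rw [P, gexp_sub z eΨ (b1.lg.eint hν w) ((bB.const_mul (h / 2)).lg.eint hν w),
      gexp_const_mul]
    rfl
  rw [T, T, lse_sub z eΨ (hL.eint hν w)]
  have f4 : (|z| + 12 * z ^ 2 * (h * (C + K))) * (h * (C + K)) ^ 2
      ≤ (|z| + 12 * z ^ 2 * (C + K)) * (C + K) ^ 2 * (h * √h) := by
    have q1 : h * (C + K) ≤ C + K := mul_le_of_le_one_left (by positivity) h1
    calc _ ≤ (|z| + 12 * z ^ 2 * (C + K)) * (h * (C + K)) ^ 2 := by gcongr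
      _ = (|z| + 12 * z ^ 2 * (C + K)) * (C + K) ^ 2 * (h * h) := by ring
      _ ≤ _ := by gcongr
  rw [f3] at f2
  have a1 := abs_le.1 f1
  have a2 := abs_le.1 f2
  rw [abs_le]
  constructor <;> linarith [a1.1, a1.2, a2.1, a2.2]

variable [NormedSpace ℝ W]

theorem small_any (z K : ℝ) : ∃ C : ℝ, 0 ≤ C ∧ ∀ (Ψ m a : W → ℝ) (v : W),
    Measurable Ψ → DJet Ψ v m a K → ∀ h : ℝ, 0 ≤ h → h ≤ 1 → ∀ w : W,
    |T z (line v h) Ψ w - Ψ w - h / 2 * (a w + z * m w ^ 2)| ≤ C * (h * √h) := by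
  by_cases hz : z = 0
  · obtain ⟨C, C0, hC⟩ := small_step K
    exact ⟨C, C0, fun Ψ m a v hΨ hj h h0 h1 w =>
      hC W z hz.ge (hz.le.trans zero_le_one) Ψ m a v hΨ hj h h0 h1 w⟩
  have hz0 : 0 < |z| := abs_pos.2 hz
  obtain ⟨C, C0, hC⟩ := small_step (|z| * K)
  refine ⟨|z|⁻¹ * C, by positivity, fun Ψ m a v hΨ hj h h0 h1 w => ?_⟩
  have hm : ∀ {p q : ℝ}, |p| ≤ q → |z * p| ≤ |z| * q := fun hp => by
    rw [abs_mul]
    exact mul_le_mul_of_nonneg_left hp hz0.le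
  have hj' : DJet (fun u => z * Ψ u) v (fun u => z * m u) (fun u => z * a u) (|z| * K) :=
    ⟨mul_nonneg hz0.le hj.K0, hj.mm.const_mul z, hj.ma.const_mul z, fun u => hm (hj.bm u),
      fun u => hm (hj.ba u), fun u t => by
        rw [← mul_sub, mul_assoc]
        exact hm (hj.lip u t), fun u t => by
        have := hm (hj.tay u t)
        rw [mul_assoc]
        refine le_trans (le_of_eq ?_) this
        congr 1
        ring⟩
  have h2 := hC W 1 zero_le_one le_rfl _ _ _ v (hΨ.const_mul z) hj' h h0 h1 w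
  have e : T z (line v h) Ψ w - Ψ w - h / 2 * (a w + z * m w ^ 2)
      = z⁻¹ * (T 1 (line v h) (fun u => z * Ψ u) w - z * Ψ w
        - h / 2 * (z * a w + 1 * (z * m w) ^ 2)) := by
    rw [T, lse_scale _ hz, T]
    field_simp
  rw [e, abs_mul, abs_inv, mul_assoc]
  exact mul_le_mul_of_nonneg_left h2 (by positivity)

variable {L : ℕ} {ζ : ℕ → ℝ} {ν : ℕ → Measure W} {Ψ : W → ℝ}

theorem jetN (hc : Cas (cut L ζ) ν Ψ) {v : W} {m a : W → ℝ} {K : ℝ} (hj : DJet Ψ v m a K)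
    {d : ℕ} (hd : d ≤ L) :
    DJet (X ζ ν Ψ d) v (Ex ζ ν Ψ 0 m d) (aa ζ ν Ψ m a d) (jc^[L] K) := by
  rw [X_cut hd, Ex_cut hd, aa_cut hd]
  exact (hc.jetX hj d).mono (DerivAux.jc_mono hj.K0 hd)

theorem bm_bbN (hc : Cas (cut L ζ) ν Ψ) {m a : W → ℝ} (hm : BM m) (ha : BM a) {d : ℕ}
    (hd : d ≤ L) : BM (bb ζ ν Ψ m a d) := by
  have h1 : BM (aa ζ ν Ψ m a d) := by
    rw [aa_cut hd]
    exact hc.bm_aa hm ha d
  exact h1.add (((bmExN hc 0 hm (hd.trans (Nat.le_succ L))).pow 2).const_mul (ζ d))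

theorem bb_formulaN (hc : Cas (cut L ζ) ν Ψ) {m a : W → ℝ} (hm : BM m) (ha : BM a) {d : ℕ}
    (hd : d ≤ L) (w : W) :
    Ex ζ ν Ψ d (bb ζ ν Ψ m a d) (L + 1) w
      = Ex ζ ν Ψ 0 (fun u => a u + ζ 0 * m u ^ 2) (L + 1) w
        - ∑ k ∈ Finset.range d, (ζ k - ζ (k + 1)) *
            Ex ζ ν Ψ (k + 1) (fun u => Ex ζ ν Ψ 0 m (k + 1) u ^ 2) (L + 1) w := by
  induction d with
  | zero =>
    rw [Finset.sum_range_zero, sub_zero]
    rfl
  | succ d ih =>
    rw [funext (bb_succ (ζ := ζ) (ν := ν) (Ψ := Ψ) m a d),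
      ExN_sub hc _ (bmExN hc d (bm_bbN hc hm ha (by omega)) (by omega))
        (((bmExN hc 0 hm (by omega)).pow 2).const_mul _) le_rfl, Ex_const_mul,
      Finset.sum_range_succ, ← sub_sub, ← ih (by omega),
      ← Ex_tower (Nat.le_succ d) (show d + 1 ≤ L + 1 by omega)]

/-- Adding a small variance at level `d ≤ L`. -/
theorem one_stepN (hζ : ZN L ζ) (K : ℝ) : ∃ C : ℝ, 0 ≤ C ∧
    ∀ (ν : ℕ → Measure W) (Ψ : W → ℝ), Cas (cut L ζ) ν Ψ → ∀ d, d ≤ L → ∀ (v : W) (m a : W → ℝ),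
      DJet Ψ v m a K → ∀ h : ℝ, 0 ≤ h → h ≤ 1 → ∀ w : W,
      |Ex ζ ν Ψ d (bb ζ ν Ψ m a d) (L + 1) w| ≤ C ∧
      |X ζ (Function.update ν d ((line v h).conv (ν d))) Ψ (L + 1) w - X ζ ν Ψ (L + 1) w
          - h / 2 * Ex ζ ν Ψ d (bb ζ ν Ψ m a d) (L + 1) w| ≤ C * (h * √h) := by
  obtain ⟨C1, C10, hC1⟩ := one_step (jc^[L] K)
  obtain ⟨C2, C20, hC2⟩ := small_any (W := W) (ζ L) (jc^[L] K)
  obtain ⟨K', hK'⟩ : ∃ K', K' = |jc^[L] K| + (1 + |ζ L|) * jc^[L] K ^ 2 := ⟨_, rfl⟩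
  have K0 : 0 ≤ K' := by rw [hK']; positivity
  obtain ⟨C, hC⟩ : ∃ C, C = C1 + C2 := ⟨_, rfl⟩
  have C0 : 0 ≤ C := by rw [hC]; positivity
  have D0 : 0 ≤ C + (|ζ L| + 12 * ζ L ^ 2 * (C + K')) * (C + K') ^ 2 := by positivity
  refine ⟨K' + (C + (|ζ L| + 12 * ζ L ^ 2 * (C + K')) * (C + K') ^ 2), by positivity,
    fun ν Ψ hc d hd v m a hj h h0 h1 w => ?_⟩
  have s4 : 0 ≤ h * √h := by positivity
  have hbb : ∀ u, |bb ζ ν Ψ m a d u| ≤ K' := fun u => by
    have hJ := jetN hc hj hd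
    have z1 : |ζ d| ≤ 1 + |ζ L| := by
      rcases hd.eq_or_lt with rfl | hd'
      · linarith
      · rw [abs_of_nonneg (hζ.nn d hd')]
        linarith [hζ.le_one hd, abs_nonneg (ζ L)]
    rw [bb, hK']
    refine (abs_add_le _ _).trans (add_le_add ((hJ.ba u).trans (le_abs_self _)) ?_)
    rw [abs_mul, abs_pow]
    exact mul_le_mul z1 (pow_le_pow_left₀ (abs_nonneg _) (hJ.bm u) 2) (by positivity)
      (by positivity)
  refine ⟨(abs_Ex_le d hbb _ w).trans (le_add_of_nonneg_right D0), le_trans ?_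
    (mul_le_mul_of_nonneg_right (le_add_of_nonneg_left K0) s4)⟩
  have hc' := hc.update d ((noise_line v h).conv (hc.noise d))
  have bB := bmExN hc d (bm_bbN hc hj.bm_m hj.bm_a hd) (Nat.le_succ L)
  rw [X_succ, X_succ, Ex_succ hd]
  rcases hd.eq_or_lt with rfl | hd'
  · have e0 : X ζ (Function.update ν d ((line v h).conv (ν d))) Ψ d = X ζ ν Ψ d :=
      X_congr fun j hj => ⟨rfl, by rw [Function.update_of_ne hj.ne]⟩
    have := (hc.noise d).prob
    have := (noise_line v h).prob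
    rw [e0, Function.update_self, Measure.conv_comm,
      T_convN _ (hc.noise d) (noise_line v h) (lgXN hc le_rfl)]
    refine root_first _ (hc.noise d) (lgXN hc le_rfl) (measurable_T _ _ (lgXN hc le_rfl).1)
      bB.1 (abs_Ex_le d hbb d) C0 h0 h1 (fun u => ?_) w
    rw [Ex_of_le le_rfl]
    refine (hC2 _ _ _ v (lgXN hc le_rfl).1 (jetN hc hj le_rfl) h h0 h1 u).trans ?_
    exact mul_le_mul_of_nonneg_right (by linarith) s4
  · rw [Function.update_of_ne hd'.ne']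
    refine root_first _ (hc.noise L) (lgXN hc le_rfl) (lgXN hc' le_rfl).1
      bB.1 (abs_Ex_le d hbb L) C0 h0 h1 (fun u => ?_) w
    have hJ := (hc.jetX hj (d + 1)).mono (DerivAux.jc_mono hj.K0 hd')
    have h3 := hC1 W _ ν Ψ hc d L hd' v _ _ hJ h h0 h1 u
    rw [← DerivAux.Exbb_eq hd'] at h3
    have e : bb ζ ν Ψ m a d = bb (cut L ζ) ν Ψ m a d := by
      funext y
      rw [bb, bb, aa_cut hd, Ex_cut hd, cut_of_lt ζ hd']
    rw [X_cut le_rfl, X_cut (ν := ν) le_rfl, Ex_cut le_rfl, e]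
    exact h3.trans (mul_le_mul_of_nonneg_right (by linarith) s4)

end W

theorem derivN {ι : Type} [Fintype ι] [DecidableEq ι] {L : ℕ} {ζ : ℕ → ℝ} (hζ : ZN L ζ)
    {Ψ : (ι → ℝ) → ℝ} (hΨ : LG Ψ) {m a : ι → (ι → ℝ) → ℝ} {K : ℝ}
    (hj : ∀ i, DJet Ψ (Pi.single i 1) (m i) (a i) K) (s u : ℕ → ι → ℝ)
    (hs : ∀ d i, 0 ≤ s d i) (hsu : ∀ d i, 0 ≤ s d i + u d i) (w : ι → ℝ) :
    ∀ t ∈ Set.Icc (0 : ℝ) 1, HasDerivWithinAt (fun t : ℝ => X ζ (gvs (s + t • u)) Ψ (L + 1) w)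
      ((∑ d ∈ Finset.range (L + 1), ∑ i, u d i *
        Ex ζ (gvs (s + t • u)) Ψ d (bb ζ (gvs (s + t • u)) Ψ (m i) (a i) d) (L + 1) w) / 2)
      (Set.Icc 0 1) t := by
  set N : (ℕ × ι → ℝ) → ℕ → Measure (ι → ℝ) := fun σ d => gv fun i => σ (d, i) with hN
  have hcas : ∀ σ, Cas (cut L ζ) (N σ) Ψ := fun σ => ⟨hζ.zok_cut, fun d => noise_gv _, hΨ⟩
  obtain ⟨C, hC0, hC⟩ := one_stepN (W := ι → ℝ) hζ K
  obtain ⟨h1, -⟩ := orth (Finset.range (L + 1) ×ˢ Finset.univ) (fun σ => X ζ (N σ) Ψ (L + 1) w)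
    (fun k σ => Ex ζ (N σ) Ψ k.1 (bb ζ (N σ) Ψ (m k.2) (a k.2) k.1) (L + 1) w / 2) C
    (fun σ _ k hk => by
      have hd : k.1 < L + 1 := Finset.mem_range.1 (Finset.mem_product.1 hk).1
      have h3 := (hC (N σ) Ψ (hcas σ) k.1 (by omega) _ _ _ (hj k.2) 0 le_rfl zero_le_one w).1
      rw [abs_div, abs_two]
      linarith)
    (fun σ hσ k hk h h0 h1 => by
      obtain ⟨d, i⟩ := k
      have hd : d < L + 1 := Finset.mem_range.1 (Finset.mem_product.1 hk).1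
      have e : N (Function.update σ (d, i) (σ (d, i) + h)) =
          Function.update (N σ) d ((line (Pi.single i (1 : ℝ)) h).conv (N σ d)) := by
        funext j
        by_cases hjd : j = d
        · subst hjd
          rw [Function.update_self, hN]
          refine Eq.trans ?_ (gv_conv_line (fun i => hσ (j, i)) i h0)
          refine congrArg gv (funext fun i' => ?_)
          by_cases hi : i' = i
          · subst hi
            simp
          · simp [hi]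
        · rw [Function.update_of_ne hjd, hN]
          refine congrArg gv (funext fun i' => ?_)
          simp [hjd]
      have h3 := (hC (N σ) Ψ (hcas σ) d (by omega) _ _ _ (hj i) h h0 h1 w).2
      rw [← e] at h3
      rw [← mul_div_assoc, mul_div_right_comm]
      exact h3)
    (fun k => s k.1 k.2) (fun k => if k.1 < L + 1 then u k.1 k.2 else 0) (fun k => hs _ _)
    (fun k => by
      split_ifs
      · exact hsu _ _
      · simpa using hs _ _)
    (fun k hk => if_neg fun h => hk (Finset.mem_product.2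
      ⟨Finset.mem_range.2 h, Finset.mem_univ _⟩))
  have e : ∀ (t : ℝ) (j : ℕ), j < L + 1 → N ((fun k : ℕ × ι => s k.1 k.2) +
      t • fun k : ℕ × ι => if k.1 < L + 1 then u k.1 k.2 else 0) j = gvs (s + t • u) j := by
    intro t j hj
    refine congrArg gv (funext fun i => ?_)
    simp only [Pi.add_apply, Pi.smul_apply, if_pos hj]
  intro t ht
  have h3 := h1 t ht
  simp only [fun t => X_congr (ζ := ζ) (ζ' := ζ) (Ψ := Ψ) fun j hj => ⟨rfl, e t j hj⟩] at h3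
  refine h3.congr_deriv ?_
  rw [Finset.sum_product, Finset.sum_div]
  refine Finset.sum_congr rfl fun d hd => ?_
  rw [Finset.sum_div]
  refine Finset.sum_congr rfl fun i _ => ?_
  have hd' := Finset.mem_range.1 hd
  simp only [if_pos hd']
  rw [DerivAux.Exbb_congr hd'.le (e t), mul_div_assoc]

end DerAux

open DerAux

theorem der : S_der := by
  intro S _ _ L ζ g g' x x' hζ hg hg' hx hx' t ht
  have h1 := derivN hζ (hg_HH.lg_gtop (μ := cube S)) (fun c => jet_gtop hg_HH (fjet_single c))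
    (pf L g x) (pf L g' x' - pf L g x) (pf_nonneg L hg hx)
    (fun d c => by simpa using pf_nonneg L hg' hx' d c) 0 t ht
  simp only [← pf_interp] at h1
  refine h1.congr_deriv ?_
  congr 1
  obtain ⟨s, hs⟩ : ∃ s, s = pf L (g + t • (g' - g)) (x + t • (x' - x)) := ⟨_, rfl⟩
  have hc := hζ.cas s
  have key : ∀ d, d ≤ L → ∀ c : Cs S, Ex ζ (gvs s) (gtop (cube S) HH) d
      (bb ζ (gvs s) (gtop (cube S) HH) (gib (cube S) HH fun _ b => xi c b)
        (fun w => gib (cube S) HH (fun _ b => 0 + xi c b ^ 2) w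
          - gib (cube S) HH (fun _ b => xi c b) w ^ 2) d) (L + 1) 0
      = 1 - QQ ζ (Esq ζ (gvs s) (cube S) HH (fun _ b => xi c b) L) d := by
    intro d hd c
    have b1 := hg_HH.bm_gib (μ := cube S) (bm2_conf (xi c))
    have b2 := hg_HH.bm_gib (μ := cube S) (bm2_conf fun b => 0 + xi c b ^ 2)
    rw [bb_formulaN hc b1 (b2.sub (b1.pow 2)) hd, hζ.z0]
    have e : (fun u => gib (cube S) HH (fun _ b => 0 + xi c b ^ 2) u
        - gib (cube S) HH (fun _ b => xi c b) u ^ 2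
        + 1 * gib (cube S) HH (fun _ b => xi c b) u ^ 2) = fun _ => 1 := by
      funext u
      simp only [xi_sq, zero_add, one_mul, sub_add_cancel]
      exact gexp_const 1 (hg_HH.eint u) 1
    rw [e, ExN_const hc 0 1 le_rfl]
    rfl
  rw [← hs, Finset.sum_congr rfl fun d hd => Finset.sum_congr rfl fun c _ => by
    rw [key d (Nat.le_of_lt_succ (Finset.mem_range.1 hd)) c]]
  simp only [Fintype.sum_sum_type, Finset.sum_add_distrib, vD]
  congr 1
  · rw [Finset.sum_eq_single L (fun d _ hd => by simp [pf, hd]) (by simp),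
      Fintype.sum_prod_type]
    subst hs
    simp only [pf, Pi.sub_apply, if_true]
    rfl
  · subst hs
    rfl

end Vale.Agent.P146L
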