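import Vale.Agent.P146L.Stm2

/-! # P146, lower bound: the system without couplings -/

namespace Vale.Agent.P146L

open MeasureTheory ProbabilityTheory Vale.Agent.P157

namespace FreeAux

/-- Field coordinates. -/
def fsel {S : Type} : Cs S → Option S
  | .inl _ => none
  | .inr i => some i

theorem fsel_inj {S : Type} (k l : Cs S) (i : S) (hk : fsel k = some i) (hl : fsel l = some i) :
    k = l := by
  rcases k with p | j
  · cases hk
  · rcases l with p | j'
    · cases hl
    · cases hk
      cases hl
      rfl

variable {S : Type} [Fintype S] [DecidableEq S]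

theorem gtop_fsel (u : S → ℝ) :
    gtop (cube S) HH (fun k => (fsel k).elim 0 u) = ∑ i, lc (u i) := by
  have hm : Measurable fun x : Sph S => Real.exp (∑ i, u i * x.1 i) :=
    (Finset.measurable_sum _ fun i _ => (measurable_sph_coord i).const_mul _).exp
  rw [gtop_eq, ← log_integral_ising, ising,
    integral_map measurable_spin.aemeasurable hm.aestronglyMeasurable]
  refine congrArg Real.log (integral_congr_ae (ae_of_all _ fun b => ?_))
  refine congrArg Real.exp ?_
  rw [HH, Fintype.sum_sum_type]
  simp only [fsel, Option.elim_none, Option.elim_some, zero_mul, Finset.sum_const_zero, zero_add]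
  rfl

end FreeAux

open FreeAux

theorem free : S_free := by
  intro S _ _ L ζ c hζ hc
  have h1 : gv (pf L (0 : S → S → ℝ) (fun d _ => dq c d) L) = Measure.dirac 0 := by
    refine gv_of_nonpos fun k => ?_
    rcases k with p | i
    · simp [pf]
    · exact hc.le
  have h2 : Vl ζ L (0 : S → S → ℝ) (fun d _ => dq c d)
      = XS (cut L ζ) L (0 : S → S → ℝ) (fun d _ => dq c d) L 0 := by
    rw [← XS_cut _ _ le_rfl, Vl, XS, X_succ, gvs, h1, T_dirac]
    rfl
  have h3 : psi L (cut L ζ) c lc = X (cut L ζ) (g1s (dq c)) lc L 0 := by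
    rw [psi_eq_X L _ c lg_lc.1, X_succ, g1s, g1_of_nonpos hc.le, T_dirac]
  rw [h2, h3, XS, ← X_sel (fsel (S := S)) fsel_inj (cut L ζ) (fun d _ => dq c d) _
    (hg_HH.lg_gtop (μ := cube S)).1 (fun j _ k => ?_)]
  · simp only [gtop_fsel]
    refine (X_pi (cas_g1s hζ.zok_cut (dq c) lg_lc) L 0).trans ?_
    simp only [Pi.zero_apply, Finset.sum_const, Finset.card_univ, nsmul_eq_mul]
  · rcases k with p | i
    · simp [pf, fsel]
    · rfl

end Vale.Agent.P146L
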