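import Vale.Agent.P146L.Stm2

/-! # P146, lower bound: Guerra's interpolation with an arbitrary root exponent -/

namespace Vale.Agent.P146L

open MeasureTheory ProbabilityTheory Vale.Agent.P157

namespace GuerraAux

variable {S : Type} [Fintype S] [DecidableEq S]

omit [DecidableEq S] in
theorem gt_interp (β t : ℝ) : gt S β 0 + t • (gt S β 1 - gt S β 0) = gt S β t := by
  funext i j
  simp only [gt, Pi.add_apply, Pi.smul_apply, Pi.sub_apply, smul_eq_mul]
  ring

omit [Fintype S] [DecidableEq S] in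
theorem xt_interp (β t : ℝ) (q : ℕ → ℝ) :
    xt S β q 0 + t • (xt S β q 1 - xt S β q 0) = xt S β q t := by
  funext d i
  simp only [xt, Pi.add_apply, Pi.smul_apply, Pi.sub_apply, smul_eq_mul]
  ring

omit [DecidableEq S] in
theorem gt_zero (β : ℝ) : gt S β 0 = 0 := by
  funext i j
  simp [gt]

omit [Fintype S] [DecidableEq S] in
theorem xt_one (β : ℝ) (q : ℕ → ℝ) : xt S β q 1 = 0 := by
  funext d i
  simp [xt]

omit [Fintype S] [DecidableEq S] in
theorem xt_zero (β : ℝ) (q : ℕ → ℝ) : xt S β q 0 = fun d _ => dq (β ^ 2 • q) d := by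
  funext d i
  simp only [xt, dq, Pi.smul_apply, smul_eq_mul]
  ring

omit [DecidableEq S] in
theorem gt_nonneg (β : ℝ) {t : ℝ} (ht : 0 ≤ t) (i j : S) : 0 ≤ gt S β t i j := by
  unfold gt
  positivity

omit [Fintype S] [DecidableEq S] in
theorem xt_nonneg (β : ℝ) {q : ℕ → ℝ} (hq : Antitone q) {t : ℝ} (ht : t ≤ 1) (d : ℕ) (i : S) :
    0 ≤ xt S β q t d i :=
  mul_nonneg (mul_nonneg (sub_nonneg.2 ht) (sq_nonneg β)) (sub_nonneg.2 (hq (Nat.le_succ d)))

theorem pairing_cut {L : ℕ} (ζ : ℕ → ℝ) {q : ℕ → ℝ} (hq : q L = 0) :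
    pairing L (cut L ζ) q q = pairing L ζ q q := by
  refine Finset.sum_congr rfl fun k hk => ?_
  rw [Finset.mem_range] at hk
  rcases (Nat.succ_le_of_lt hk).eq_or_lt with h | h
  · have h0 : q (k + 1) = 0 := by rw [← hq, ← h]
    rw [h0]
    simp
  · rw [cut_of_lt ζ hk, cut_of_lt ζ h]

theorem vD_eq [Nonempty S] (L : ℕ) (ζ : ℕ → ℝ) {q : ℕ → ℝ} (β t : ℝ) (hq : QP L q) :
    vD ζ L (gt S β 0) (gt S β 1) (xt S β q 0) (xt S β q 1) t
      = -(β ^ 2 * Fintype.card S / 2) * (1 - pairing L ζ q q)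
        - β ^ 2 * Fintype.card S / 2 * QQ ζ (rem ζ L (gt S β t) (xt S β q t) q) L := by
  have hN : (0 : ℝ) < Fintype.card S := by exact_mod_cast Fintype.card_pos
  rw [vD, gt_interp, xt_interp]
  obtain ⟨A, hA⟩ : ∃ A, A = E2 ζ L (gt S β t) (xt S β q t) := ⟨_, rfl⟩
  obtain ⟨B, hB⟩ : ∃ B, B = E1 ζ L (gt S β t) (xt S β q t) := ⟨_, rfl⟩
  have hr : rem ζ L (gt S β t) (xt S β q t) q = fun k =>
      (∑ i, ∑ j, A i j k) / (Fintype.card S : ℝ) ^ 2
        - 2 * q k * (∑ i, B i k) / Fintype.card S + q k ^ 2 := by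
    funext k
    rw [hA, hB, rem]
  rw [hr, ← hA, ← hB]
  have e1 : ∑ i, ∑ j, (gt S β 1 i j - gt S β 0 i j) * (1 - QQ ζ (A i j) L)
      = β ^ 2 / (2 * Fintype.card S) * ((Fintype.card S : ℝ) ^ 2
        - ∑ k ∈ Finset.range L, (ζ k - ζ (k + 1)) * ∑ i, ∑ j, A i j (k + 1)) := by
    have e0 : ∀ i j : S, gt S β 1 i j - gt S β 0 i j = β ^ 2 / (2 * Fintype.card S) := by
      intro i j
      simp [gt]
    simp only [e0, ← Finset.mul_sum, Finset.sum_sub_distrib, Finset.sum_const, Finset.card_univ,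
      nsmul_eq_mul, mul_one, QQ]
    congr 2
    · ring
    · simp only [Finset.mul_sum]
      rw [Finset.sum_comm (s := Finset.range L)]
      refine Finset.sum_congr rfl fun i _ => ?_
      rw [Finset.sum_comm]
  have e2 : ∑ d ∈ Finset.range (L + 1), ∑ i, (xt S β q 1 d i - xt S β q 0 d i)
        * (1 - QQ ζ (B i) d)
      = -β ^ 2 * (Fintype.card S
        - ∑ k ∈ Finset.range L, (ζ k - ζ (k + 1)) * (q (k + 1) * ∑ i, B i (k + 1))) := by
    have e0 : ∀ (d : ℕ) (i : S), xt S β q 1 d i - xt S β q 0 d i = -β ^ 2 * dq q d := by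
      intro d i
      simp only [xt]
      ring
    rw [Finset.sum_comm]
    simp only [e0, mul_assoc, ← Finset.mul_sum, QQ]
    simp only [sum_dq_mul (hq.adm.zero (L + 1) (Nat.lt_succ_self L)), hq.top,
      Finset.sum_sub_distrib, Finset.sum_const, Finset.card_univ, nsmul_eq_mul, mul_one]
    congr 2
    rw [Finset.sum_comm]
    refine Finset.sum_congr rfl fun k _ => ?_
    simp only [Finset.mul_sum]
    refine Finset.sum_congr rfl fun i _ => ?_
    ring
  rw [e1, e2]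
  have e3 : QQ ζ (fun k => (∑ i, ∑ j, A i j k) / (Fintype.card S : ℝ) ^ 2
        - 2 * q k * (∑ i, B i k) / Fintype.card S + q k ^ 2) L
      = (∑ k ∈ Finset.range L, (ζ k - ζ (k + 1)) * ∑ i, ∑ j, A i j (k + 1))
          / (Fintype.card S : ℝ) ^ 2
        - 2 * (∑ k ∈ Finset.range L, (ζ k - ζ (k + 1)) * (q (k + 1) * ∑ i, B i (k + 1)))
          / Fintype.card S + pairing L ζ q q := by
    rw [QQ, pairing, Finset.mul_sum, Finset.sum_div, Finset.sum_div, ← Finset.sum_sub_distrib,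
      ← Finset.sum_add_distrib]
    refine Finset.sum_congr rfl fun k _ => ?_
    ring
  rw [e3]
  field_simp
  ring

/-- Mean value step. -/
theorem mvt {f R : ℝ → ℝ} {δ : ℝ} (h0 : 0 < δ) (h1 : δ ≤ 1)
    (hf : ∀ t ∈ Set.Icc (0 : ℝ) 1, HasDerivWithinAt f (-R t) (Set.Icc 0 1) t)
    (hR : ∀ t, 0 ≤ R t) : ∃ t ∈ Set.Ioo (1 - δ) 1, δ * R t ≤ f 0 - f 1 := by
  have hc : ContinuousOn f (Set.Icc 0 1) := fun t ht => (hf t ht).continuousWithinAt
  have hd : ∀ t ∈ Set.Ioo (0 : ℝ) 1, HasDerivAt f (-R t) t := fun t ht =>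
    (hf t (Set.Ioo_subset_Icc_self ht)).hasDerivAt (Icc_mem_nhds ht.1 ht.2)
  obtain ⟨t, ht, e⟩ := exists_hasDerivAt_eq_slope f (fun t => -R t) (show 1 - δ < 1 by linarith)
    (hc.mono (Set.Icc_subset_Icc (by linarith) le_rfl))
    (fun t ht => hd t ⟨by linarith [ht.1], ht.2⟩)
  refine ⟨t, ht, ?_⟩
  have e1 : f 1 - f (1 - δ) = -(δ * R t) := by
    rw [sub_sub_cancel, eq_div_iff h0.ne'] at e
    linarith
  have e2 : f (1 - δ) ≤ f 0 := by
    rcases h1.eq_or_lt with h | h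
    · rw [h, sub_self]
    · obtain ⟨s, hs, e'⟩ := exists_hasDerivAt_eq_slope f (fun t => -R t)
        (show (0 : ℝ) < 1 - δ by linarith)
        (hc.mono (Set.Icc_subset_Icc le_rfl (by linarith)))
        (fun t ht => hd t ⟨ht.1, by linarith [ht.2]⟩)
      rw [sub_zero, eq_div_iff (by linarith : (0 : ℝ) < 1 - δ).ne'] at e'
      nlinarith [mul_nonneg (hR s) (by linarith : (0 : ℝ) ≤ 1 - δ)]
  linarith

end GuerraAux

open GuerraAux in
theorem guerra (h1 : S_der) (h2 : S_free) : S_guerra := by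
  intro S _ _ _ L ζ q β δ hζ hq hδ0 hδ1
  have hN : (0 : ℝ) < Fintype.card S := by exact_mod_cast Fintype.card_pos
  have hR : ∀ t : ℝ, 0 ≤ QQ ζ (rem ζ L (gt S β t) (xt S β q t) q) L := fun t =>
    Finset.sum_nonneg fun k hk => mul_nonneg (hζ.delta_nonneg (Finset.mem_range.1 hk))
      (hζ.rem_nonneg _ _ q (by have := Finset.mem_range.1 hk; omega))
  obtain ⟨t, ht, e⟩ := mvt
    (f := fun t => Vl ζ L (gt S β t) (xt S β q t)
      + β ^ 2 * Fintype.card S / 4 * (1 - pairing L ζ q q) * t)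
    (R := fun t => β ^ 2 * Fintype.card S / 4 * QQ ζ (rem ζ L (gt S β t) (xt S β q t) q) L)
    hδ0 hδ1 (fun t ht => by
      have h := h1 S L ζ (gt S β 0) (gt S β 1) (xt S β q 0) (xt S β q 1) hζ
        (gt_nonneg β le_rfl) (gt_nonneg β zero_le_one) (xt_nonneg β hq.adm.anti zero_le_one)
        (xt_nonneg β hq.adm.anti le_rfl) t ht
      simp only [gt_interp, xt_interp] at h
      rw [vD_eq L ζ β t hq] at h
      have h' := ((hasDerivAt_id t).const_mul
        (β ^ 2 * Fintype.card S / 4 * (1 - pairing L ζ q q))).hasDerivWithinAt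
        (s := Set.Icc 0 1)
      refine (h.fun_add h').congr_deriv ?_
      ring)
    (fun t => mul_nonneg (by positivity) (hR t))
  refine ⟨t, ht, fun k _ hk => hζ.rem_nonneg _ _ q (by omega), ?_⟩
  have hd : dq (β ^ 2 • q) L = 0 := by
    simp [dq, hq.root, hq.adm.zero (L + 1) (Nat.lt_succ_self L)]
  simp only [gt_zero, xt_one, xt_zero] at e
  rw [h2 S L ζ _ hζ hd] at e
  rw [GG, pairing_cut ζ hq.root]
  nlinarith

end Vale.Agent.P146L
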