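import Vale.Agent.P146L.Stm2

/-! # P146, lower bound: the model of the statement inside the cascade calculus -/

namespace Vale.Agent.P146L

open MeasureTheory ProbabilityTheory Vale.Agent.P157

namespace LinkAux

theorem sum_symm {n : ℕ} (hn : 1 ≤ n) (β c : ℝ) (F : Fin n → Fin n → ℝ)
    (hs : ∀ i j, F i j = F j i) (hd : ∀ i, F i i = c) :
    ∑ i, ∑ j, (gt (Fin n) β 1 i j - tri n β i j) * F i j = β ^ 2 * c / 2 := by
  have hn' : (n : ℝ) ≠ 0 := by positivity
  have e1 : ∑ i, ∑ j, (gt (Fin n) β 1 i j - tri n β i j) * F i j =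
      ∑ i, ∑ j, (gt (Fin n) β 1 j i - tri n β j i) * F i j := by
    rw [Finset.sum_comm]
    exact Finset.sum_congr rfl fun i _ => Finset.sum_congr rfl fun j _ => by rw [hs j i]
  have e2 : ∑ i, ∑ j, (gt (Fin n) β 1 i j - tri n β i j) * F i j +
      ∑ i, ∑ j, (gt (Fin n) β 1 j i - tri n β j i) * F i j = β ^ 2 * c := by
    rw [← Finset.sum_add_distrib]
    calc _ = ∑ _i : Fin n, β ^ 2 / n * c := Finset.sum_congr rfl fun i _ => by
          rw [← Finset.sum_add_distrib, Finset.sum_eq_single i (fun j _ hj => ?_) (by simp)]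
          · simp only [gt, tri, lt_self_iff_false, if_false, Fintype.card_fin, hd]
            field_simp
            ring
          · rcases lt_or_gt_of_ne hj with h | h
            · simp only [gt, tri, h, h.not_gt, if_true, if_false, Fintype.card_fin]
              field_simp
              ring
            · simp only [gt, tri, h, h.not_gt, if_true, if_false, Fintype.card_fin]
              field_simp
              ring
      _ = _ := by
          rw [Finset.sum_const, Finset.card_univ, Fintype.card_fin, nsmul_eq_mul]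
          field_simp
  linarith

theorem vD_eq {n : ℕ} (hn : 1 ≤ n) (β : ℝ) {L : ℕ} {ζ : ℕ → ℝ} (h : ZN L ζ) (t : ℝ) :
    vD ζ L (tri n β) (gt (Fin n) β 1) 0 0 t / 2 = β ^ 2 * ζ L / 4 := by
  rw [vD, sum_symm hn β (ζ L) _ (fun i j => ?_) (fun i => ?_)]
  · simp only [sub_self, zero_mul, Finset.sum_const_zero]
    ring
  · congr 2
    funext k
    exact E2_symm _ _ i j k
  · rw [QQ, Finset.sum_congr rfl fun k hk => by
      rw [h.E2_diag _ _ i (by have := Finset.mem_range.1 hk; omega), mul_one], sum_delta, h.z0]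
    ring

end LinkAux

theorem link (h1 : S_der) (h2 : S_tri) (h3 : S_cvx) : S_link := by
  intro n β hn
  refine ⟨(h3 n β).1, (h3 n β).2, fun L ζ h => ?_⟩
  have hd := h1 (Fin n) L ζ (tri n β) (gt (Fin n) β 1) 0 0 h
    (fun i j => by unfold tri; split_ifs <;> positivity) (fun i j => by unfold gt; positivity)
    (fun _ _ => le_rfl) fun _ _ => le_rfl
  have a1 := le_of_derivWithin hd fun t _ => (LinkAux.vD_eq hn β h t).le
  have a2 := ge_of_derivWithin hd fun t _ => (LinkAux.vD_eq hn β h t).ge
  simp only [one_smul, zero_smul, add_sub_cancel, add_zero, sub_self] at a1 a2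
  rw [h2 n β hn L ζ] at a1 a2
  linarith

end Vale.Agent.P146L
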