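import Vale.Agent.P146L.Stm2

/-! # P146, lower bound: Lipschitz bound and monotonicity in the variances -/

namespace Vale.Agent.P146L

open MeasureTheory ProbabilityTheory Vale.Agent.P157

namespace LipAux

theorem fac {L : ℕ} {ζ c : ℕ → ℝ} (h : ZAdm L ζ) (h0 : ∀ k, 0 ≤ c k) (h1 : ∀ k, c k ≤ 1) (d : ℕ) :
    0 ≤ 1 - QQ ζ c d ∧ 1 - QQ ζ c d ≤ 1 := by
  have hd : ∀ k, 0 ≤ ζ k - ζ (k + 1) := fun k => sub_nonneg.2 (h.zok.anti (Nat.le_succ k))
  have a : 0 ≤ QQ ζ c d := Finset.sum_nonneg fun k _ => mul_nonneg (hd k) (h0 _)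
  have b : QQ ζ c d ≤ ζ 0 - ζ d := by
    rw [← sum_delta]
    exact Finset.sum_le_sum fun k _ => mul_le_of_le_one_right (hd k) (h1 _)
  constructor <;> linarith [h.zok.nn d, h.z0]

theorem abs_le' {a f : ℝ} (h : 0 ≤ f ∧ f ≤ 1) : |a * f| ≤ |a| := by
  rw [abs_mul, abs_of_nonneg h.1]
  exact mul_le_of_le_one_right (abs_nonneg a) h.2

end LipAux

open LipAux in
theorem lip (h : S_der) : S_lip := by
  intro S _ _ L ζ g g' x x' hζ hg hg' hx hx'
  have hD := h S L ζ g g' x x' (zn_of_zadm hζ) hg hg' hx hx'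
  have f1 : ∀ (g : S → S → ℝ) (x : ℕ → S → ℝ) i d, _ := fun g x i d =>
    fac hζ (E1_nonneg (ζ := ζ) (L := L) g x i) (E1_le_one g x i) d
  have f2 : ∀ (g : S → S → ℝ) (x : ℕ → S → ℝ) i j d, _ := fun g x i j d =>
    fac hζ (E2_nonneg (ζ := ζ) (L := L) g x i j) (E2_le_one g x i j) d
  have b : ∀ t, |vD ζ L g g' x x' t| ≤ ∑ i, ∑ j, |g' i j - g i j|
      + ∑ d ∈ Finset.range (L + 1), ∑ i, |x' d i - x d i| := fun t => by
    refine (abs_add_le _ _).trans (add_le_add ?_ ?_)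
    · refine (Finset.abs_sum_le_sum_abs _ _).trans (Finset.sum_le_sum fun i _ => ?_)
      exact (Finset.abs_sum_le_sum_abs _ _).trans
        (Finset.sum_le_sum fun j _ => abs_le' (f2 _ _ i j _))
    · refine (Finset.abs_sum_le_sum_abs _ _).trans (Finset.sum_le_sum fun d _ => ?_)
      exact (Finset.abs_sum_le_sum_abs _ _).trans
        (Finset.sum_le_sum fun i _ => abs_le' (f1 _ _ i _))
  refine ⟨abs_le.2 ⟨?_, ?_⟩, fun h1 h2 => ?_⟩
  · simpa using ge_of_derivWithin (κ := -((∑ i, ∑ j, |g' i j - g i j|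
      + ∑ d ∈ Finset.range (L + 1), ∑ i, |x' d i - x d i|) / 2)) hD fun t _ => by
        linarith [(abs_le.1 (b t)).1]
  · simpa using le_of_derivWithin (κ := (∑ i, ∑ j, |g' i j - g i j|
      + ∑ d ∈ Finset.range (L + 1), ∑ i, |x' d i - x d i|) / 2) hD fun t _ => by
        linarith [(abs_le.1 (b t)).2]
  · simpa using ge_of_derivWithin (κ := 0) hD fun t _ => div_nonneg (add_nonneg
      (Finset.sum_nonneg fun i _ => Finset.sum_nonneg fun j _ =>
        mul_nonneg (sub_nonneg.2 (h1 i j)) (f2 _ _ i j _).1)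
      (Finset.sum_nonneg fun d _ => Finset.sum_nonneg fun i _ =>
        mul_nonneg (sub_nonneg.2 (h2 d i)) (f1 _ _ i _).1)) zero_le_two

end Vale.Agent.P146L
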