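import Vale.Agent.P146L.Stm2

/-! # P146, lower bound: the final bookkeeping -/

namespace Vale.Agent.P146L

open MeasureTheory ProbabilityTheory Vale.Agent.P157

namespace LowerAux

theorem small {u A R N δ : ℝ} (u0 : 0 < u) (u1 : u ≤ 1) (hA : 1 ≤ A) (hR0 : 0 ≤ R)
    (hR : R ≤ 4 * A * u ^ 61) (hN : 1 ≤ N * u ^ 1944) (hm : 1 ≤ N * u ^ 72) (hδ : u ^ 9 ≤ δ) :
    √R + R + (1 + N * u ^ 72) / (N * δ ^ 5) + 1 / (√N * δ ^ 2) ≤ 9 * A * u ^ 27 := by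
  have N0 : 0 < N := by
    by_contra h
    have := mul_nonpos_of_nonpos_of_nonneg (not_lt.1 h) (pow_pos u0 72).le
    linarith
  have d0 : 0 < δ := lt_of_lt_of_le (by positivity) hδ
  have a1 : √R ≤ 2 * A * u ^ 27 := by
    refine Real.sqrt_le_iff.2 ⟨by positivity, hR.trans ?_⟩
    have : u ^ 61 ≤ u ^ 54 := pow_le_pow_of_le_one u0.le u1 (by norm_num)
    calc 4 * A * u ^ 61 ≤ 4 * (A * A) * u ^ 54 := by gcongr; nlinarith
      _ = _ := by ring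
  have a2 : R ≤ 4 * A * u ^ 27 :=
    hR.trans (by gcongr ?_ * ?_; exact pow_le_pow_of_le_one u0.le u1 (by norm_num))
  have a3 : (1 + N * u ^ 72) / (N * δ ^ 5) ≤ 2 * u ^ 27 := by
    rw [div_le_iff₀ (by positivity)]
    calc 1 + N * u ^ 72 ≤ 2 * (N * u ^ 72) := by linarith
      _ = 2 * u ^ 27 * (N * (u ^ 9) ^ 5) := by ring
      _ ≤ _ := by gcongr
  have a4 : 1 / (√N * δ ^ 2) ≤ u ^ 27 := by
    rw [div_le_iff₀ (by positivity)]
    have b1 : 1 ≤ √N * u ^ 45 := by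
      refine le_of_pow_le_pow_left₀ (n := 2) (by norm_num) (by positivity) ?_
      rw [mul_pow, Real.sq_sqrt N0.le, one_pow, ← pow_mul]
      exact hN.trans (mul_le_mul_of_nonneg_left (pow_le_pow_of_le_one u0.le u1 (by norm_num)) N0.le)
    calc 1 ≤ √N * u ^ 45 := b1
      _ = u ^ 27 * (√N * (u ^ 9) ^ 2) := by ring
      _ ≤ _ := by gcongr
  have : u ^ 27 ≤ A * u ^ 27 := le_mul_of_one_le_left (by positivity) hA
  linarith

theorem marg {u K β x : ℝ} (u0 : 0 < u) (u2 : u ≤ 1 / 2) (hK : 1 ≤ K) (hβ : 1 ≤ β)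
    (h : |x - 1| ^ 13 ≤ K * u ^ 144) : |x - 1| ≤ β * K * u ^ 9 / 2 := by
  refine le_of_pow_le_pow_left₀ (n := 13) (by norm_num) (by positivity) (h.trans ?_)
  have a : u ^ 27 ≤ (1 / 2) ^ 13 :=
    (pow_le_pow_left₀ u0.le u2 27).trans (by norm_num)
  have b : K ≤ (β * K) ^ 13 :=
    (le_mul_of_one_le_left (by linarith) hβ).trans
      (le_self_pow₀ (one_le_mul_of_one_le_of_one_le hβ hK) (by norm_num))
  calc K * u ^ 144 = K * u ^ 27 * u ^ 117 := by ring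
    _ ≤ (β * K) ^ 13 * (1 / 2) ^ 13 * u ^ 117 := by gcongr
    _ = _ := by ring

theorem core (h4 : S_guerra) {n L : ℕ} {β K A C1 W u : ℝ} {q : ℕ → ℝ} (hn : 1 ≤ n) (hL : 1 ≤ L)
    (hres : ∀ (ζ q : ℕ → ℝ) (t δ s μ0 : ℝ), ZN L ζ → ζ L ≤ 0 → QP L q → 0 < β → 0 < t → t ≤ 1 →
      0 < δ → δ ≤ 1 / 4 → 0 < s → s ≤ 1 → 0 ≤ μ0 →
      1 - 2 * δ ≤ β * √t * csDelta ζ q L → β * √t * csDelta ζ q L ≤ 1 + δ / 2 →
      (∀ d, d < L → q (d + 1) < q d → q (d + 1) < s → ζ d ≤ μ0) → β * μ0 * s ≤ δ →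
      C1 * (1 + β) ^ 2 * (√(QQ ζ (rem ζ L (gt (Fin n) β t) (xt (Fin n) β q t) q) L)
        + QQ ζ (rem ζ L (gt (Fin n) β t) (xt (Fin n) β q t) q) L
        + (1 + |ζ L|) / (n * δ ^ 5) + 1 / (√(n : ℝ) * δ ^ 2)) ≤ s * δ ^ 2 →
      s ^ 2 ≤ C1 * δ ^ 3 * (n * rem ζ L (gt (Fin n) β t) (xt (Fin n) β q t) q L))
    (hβ : 1 ≤ β) (hK : 1 ≤ K) (hA : 1 ≤ A) (hC : 1 ≤ C1) (W0 : 1 ≤ W) (u0 : 0 < u)
    (u2 : u ≤ 1 / 2) (u3 : β * K * u ≤ 1 / 4) (u4 : 9 * A * C1 * (1 + β) ^ 2 * u ≤ 1)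
    (hW : W * u ^ 2 ≤ 1) (hN : 1 ≤ (n : ℝ) * u ^ 1944) (hq : QP L q)
    (hm : |β * csDelta (grid L) q L - 1| ^ 13 ≤ K * u ^ 144)
    (hg : ∀ d, d < L → q (d + 1) < q d →
      grid L d ^ 8 ≤ K * q (d + 1) ∨ grid L d ^ 13 ≤ K * u ^ 144)
    (hgap : n * GG L (grid L) β q -
      Vl (Function.update (grid L) L (-(n * u ^ 72))) L (gt (Fin n) β 1) 0 ≤ n * u ^ 72 * A * W) :
    1 ≤ 4 * A * C1 * β ^ 2 * K ^ 2 * W * u ^ 2 := by
  have : Nonempty (Fin n) := ⟨⟨0, hn⟩⟩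
  have u1 : u ≤ 1 := by linarith
  have N0 : (0 : ℝ) < n := by exact_mod_cast hn
  have m1 : 1 ≤ (n : ℝ) * u ^ 72 :=
    hN.trans (mul_le_mul_of_nonneg_left (pow_le_pow_of_le_one u0.le u1 (by norm_num)) N0.le)
  have za := zadm_grid hL
  have zg := zn_of_zadm za
  obtain ⟨ζ, e1, e2⟩ : ∃ ζ : ℕ → ℝ, ζ = Function.update (grid L) L (-(n * u ^ 72)) ∧
      ∀ d, d < L → ζ d = grid L d := ⟨_, rfl, fun d hd => Function.update_of_ne hd.ne _ _⟩
  have e3 : ζ L = -(n * u ^ 72) := by rw [e1, Function.update_self]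
  rw [← e1] at hgap
  have zn : ZN L ζ := by
    refine ⟨hL, by rw [e2 0 hL, zg.z0], fun d hd => ?_, fun d hd => by rw [e2 d hd]; exact zg.nn d hd⟩
    rcases (Nat.succ_le_of_lt hd).eq_or_lt with h | h
    · rw [show d + 1 = L from h, e3, e2 d hd]
      linarith [zg.nn d hd]
    · rw [e2 _ h, e2 d hd]
      exact zg.anti d hd
  have ec : cut L ζ = grid L := by
    rw [← cut_of_zadm za]
    funext d
    by_cases h : d < L
    · rw [cut_of_lt _ h, cut_of_lt _ h, e2 d h]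
    · rw [cut_of_le _ (not_lt.1 h), cut_of_le _ (not_lt.1 h)]
  have es : csDelta ζ q L = csDelta (grid L) q L :=
    Finset.sum_congr rfl fun k hk => by rw [e2 k (Finset.mem_range.1 hk)]
  have hx := abs_le.1 (marg u0 u2 hK hβ hm)
  have bK : 1 ≤ β * K := one_le_mul_of_one_le_of_one_le hβ hK
  have d1 : u ^ 9 ≤ β * K * u ^ 9 := le_mul_of_one_le_left (by positivity) bK
  have d2 : β * K * u ^ 9 ≤ 1 / 4 :=
    le_trans (by gcongr; exact pow_le_of_le_one u0.le u1 (by norm_num)) u3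
  have d3 : β * (K * u) * u ^ 8 = β * K * u ^ 9 := by ring
  have d4 : 4 * A * C1 * β ^ 2 * K ^ 2 * W * u ^ 2 * u ^ 16 =
      4 * A * C1 * (β * K * u ^ 9) ^ 2 * W := by ring
  generalize β * K * u ^ 9 = δ at hx d1 d2 d3 d4
  have d0 : 0 < δ := lt_of_lt_of_le (by positivity) d1
  obtain ⟨t, ht, r0, hG⟩ := h4 (Fin n) L ζ q β δ zn hq d0 (by linarith)
  rw [ec, Fintype.card_fin] at hG
  have hres' := hres ζ q t δ (u ^ 8) (K * u)
  have hlast : (ζ (L - 1) - ζ (L - 1 + 1)) * rem ζ L (gt (Fin n) β t) (xt (Fin n) β q t) q (L - 1 + 1)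
      ≤ QQ ζ (rem ζ L (gt (Fin n) β t) (xt (Fin n) β q t) q) L :=
    Finset.single_le_sum (f := fun k => (ζ k - ζ (k + 1)) *
      rem ζ L (gt (Fin n) β t) (xt (Fin n) β q t) q (k + 1)) (fun k hk =>
        mul_nonneg (zn.delta_nonneg (Finset.mem_range.1 hk))
          (r0 _ (by omega) (Finset.mem_range.1 hk))) (Finset.mem_range.2 (by omega))
  rw [Nat.sub_add_cancel hL, e3] at hlast
  have rL := r0 L hL le_rfl
  have zl := zn.nn (L - 1) (by omega)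
  generalize QQ ζ (rem ζ L (gt (Fin n) β t) (xt (Fin n) β q t) q) L = R at hG hres' hlast
  generalize rem ζ L (gt (Fin n) β t) (xt (Fin n) β q t) q L = ρ at hres' hlast rL
  have k1 : n * u ^ 72 * ρ ≤ R := le_trans (by gcongr; linarith) hlast
  have R0 : 0 ≤ R := le_trans (by positivity) k1
  have k2 : δ * R ≤ 4 * A * W * u ^ 72 := by
    have a : n / 4 * δ * R ≤ β ^ 2 * n / 4 * δ * R := by
      gcongr
      exact le_mul_of_one_le_left N0.le (one_le_pow₀ hβ)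
    refine le_of_mul_le_mul_left ?_ (show (0 : ℝ) < n / 4 by positivity)
    linarith
  have k3 : R ≤ 4 * A * u ^ 61 := by
    refine le_of_mul_le_mul_left ?_ (pow_pos u0 9)
    calc u ^ 9 * R ≤ δ * R := by gcongr
      _ ≤ 4 * A * u ^ 70 * (W * u ^ 2) := by linarith
      _ ≤ 4 * A * u ^ 70 * 1 := by gcongr
      _ = _ := by ring
  have k4 : δ * (n * ρ) ≤ 4 * A * W := by
    refine le_of_mul_le_mul_left ?_ (pow_pos u0 72)
    have := mul_le_mul_of_nonneg_left k1 d0.le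
    linarith
  have t0 : 0 < t := by linarith [ht.1]
  have s1 : √t ≤ 1 := Real.sqrt_le_one.2 ht.2.le
  have s2 : 1 - δ ≤ √t := ht.1.le.trans (Real.le_sqrt_of_sq_le (by nlinarith [ht.2]))
  have fin := hres' zn (by rw [e3]; linarith) hq (by linarith) t0 ht.2.le d0 d2 (by positivity)
    (pow_le_one₀ u0.le u1) (by positivity) ?_ ?_ (fun d hd h1 h2 => ?_) d3.le ?_
  · refine le_of_mul_le_mul_right ?_ (pow_pos u0 16)
    rw [d4]
    calc 1 * u ^ 16 = (u ^ 8) ^ 2 := by ring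
      _ ≤ C1 * δ ^ 2 * (δ * (n * ρ)) := by linarith
      _ ≤ C1 * δ ^ 2 * (4 * A * W) := by gcongr
      _ = _ := by ring
  · rw [es, mul_right_comm]
    calc 1 - 2 * δ ≤ (1 - δ / 2) * (1 - δ) := by nlinarith
      _ ≤ _ := by gcongr <;> linarith [hx.1]
  · rw [es, mul_right_comm]
    exact (mul_le_of_le_one_right (by linarith [hx.1]) s1).trans (by linarith [hx.2])
  · rw [e2 d hd]
    rcases hg d hd h1 with h | h
    · refine le_of_pow_le_pow_left₀ (n := 8) (by norm_num) (by positivity) (h.trans ?_)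
      rw [mul_pow]
      calc K * q (d + 1) ≤ K * u ^ 8 := mul_le_mul_of_nonneg_left h2.le (by linarith)
        _ ≤ _ := mul_le_mul_of_nonneg_right (le_self_pow₀ hK (by norm_num)) (by positivity)
    · refine le_of_pow_le_pow_left₀ (n := 13) (by norm_num) (by positivity) (h.trans ?_)
      rw [mul_pow]
      exact mul_le_mul (le_self_pow₀ hK (by norm_num))
        (pow_le_pow_of_le_one u0.le u1 (by norm_num)) (by positivity) (by positivity)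
  · rw [e3, abs_neg, abs_of_nonneg (by positivity)]
    calc _ ≤ C1 * (1 + β) ^ 2 * (9 * A * u ^ 27) := by
          gcongr
          exact small u0 u1 hA R0 k3 hN m1 d1
      _ = 9 * A * C1 * (1 + β) ^ 2 * u * (u ^ 8 * (u ^ 9) ^ 2) := by ring
      _ ≤ 1 * (u ^ 8 * δ ^ 2) := by gcongr
      _ = _ := one_mul _

theorem pick {x : ℝ} {p : ℕ} (P0 : (0 : ℝ) < p) {c : ℝ} (h : x ≤ c * p) : x * (p : ℝ)⁻¹ ≤ c := by
  rwa [← div_eq_mul_inv, div_le_iff₀ P0]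

theorem root (k p0 n : ℕ) (hk : k ≠ 0) (hn : p0 ^ k ≤ n) :
    ∃ p : ℕ, p0 ≤ p ∧ p ^ k ≤ n ∧ n < (p + 1) ^ k :=
  ⟨Nat.nthRoot k n, Nat.lt_succ_iff.1 (lt_of_pow_lt_pow_left₀ k (Nat.zero_le _)
    (hn.trans_lt (Nat.lt_pow_nthRoot_add_one hk n))), Nat.pow_nthRoot_le (Or.inl hk),
    Nat.lt_pow_nthRoot_add_one hk n⟩

end LowerAux

open LowerAux in
theorem lower (h1 : S_onesite) (h2 : S_res) (h3 : S_mean2) (h4 : S_guerra) (h5 : S_tail)
    (h6 : S_link) : S_lower := by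
  intro β hβ
  obtain ⟨K, hK, H1⟩ := h1 β hβ
  obtain ⟨C1, hC1, H2⟩ := h2
  obtain ⟨C2, hC2, H3⟩ := h3 β
  obtain ⟨C3, hC3, H5⟩ := h5
  obtain ⟨A, eA⟩ : ∃ A, A = K + C2 + β ^ 2 / 4 + C3 := ⟨_, rfl⟩
  have hA : 1 ≤ A := by nlinarith [sq_nonneg β]
  obtain ⟨B, eB⟩ : ∃ B, B = 4 * A * C1 * β ^ 2 * K ^ 2 := ⟨_, rfl⟩
  have hB : 1 ≤ B := by
    rw [eB]
    calc (1 : ℝ) ≤ 4 * 1 * 1 * 1 ^ 2 * 1 ^ 2 := by norm_num
      _ ≤ _ := by gcongr
  obtain ⟨p0, hp0⟩ := exists_nat_ge (9 * A * C1 * (1 + β) ^ 2 + 4 * (β * K) + 2 * B + 2)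
  refine ⟨1 / (8 * B), by positivity, p0 ^ 1944, fun n hn => ?_⟩
  obtain ⟨p, p3, p1, p2⟩ := root 1944 p0 n (by norm_num) hn
  clear hn
  have p4 : 9 * A * C1 * (1 + β) ^ 2 + 4 * (β * K) + 2 * B + 2 ≤ p :=
    hp0.trans (by exact_mod_cast p3)
  have y1 : 0 ≤ 9 * A * C1 * (1 + β) ^ 2 := by positivity
  have y2 : 0 ≤ β * K := by positivity
  have P2 : (2 : ℝ) ≤ p := by linarith
  have P0 : (0 : ℝ) < p := by linarith
  have p5 : 2 ≤ p := by exact_mod_cast P2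
  have n1 : 1 ≤ n := (Nat.one_le_pow _ _ (by omega)).trans p1
  have V0 := variance_nonneg (P146.freeEnergy n β) (P146.disorder n)
  obtain ⟨l1, l2, l3⟩ := h6 n β n1
  have H5' := H5 (P146.Edge n) _ l1 l2
  change ∀ m : ℝ, 1 ≤ m → lse (P146.disorder n) 0 _ - lse (P146.disorder n) (-m) _ ≤
    C3 * m * (1 + variance _ (P146.disorder n)) at H5'
  generalize variance (P146.freeEnergy n β) (P146.disorder n) = V at V0 H5' ⊢
  have up : (p : ℝ) * (p : ℝ)⁻¹ = 1 := mul_inv_cancel₀ P0.ne'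
  have u0 : 0 < (p : ℝ)⁻¹ := inv_pos.2 P0
  have u2 : (p : ℝ)⁻¹ ≤ 1 / 2 := by
    rw [← one_mul (p : ℝ)⁻¹]
    exact pick P0 (by linarith only [P2])
  have u3 : β * K * (p : ℝ)⁻¹ ≤ 1 / 4 := pick P0 (by linarith only [p4, y1, hB])
  have u4 : 9 * A * C1 * (1 + β) ^ 2 * (p : ℝ)⁻¹ ≤ 1 := pick P0 (by linarith only [p4, y2, hB])
  have key : 1 ≤ B * (1 + V) * (p : ℝ)⁻¹ ^ 2 := by
    by_cases hW : (1 + V) * (p : ℝ)⁻¹ ^ 2 ≤ 1
    swap
    · rw [mul_assoc]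
      exact one_le_mul_of_one_le_of_one_le hB (not_le.1 hW).le
    have hL : 1 ≤ (p ^ 72) ^ 2 := Nat.one_le_pow _ _ (Nat.pow_pos (by omega))
    have hr : 2 ≤ p ^ 72 := p5.trans (Nat.le_self_pow (by norm_num) p)
    obtain ⟨q, q1, q2, q3, q4⟩ := H1 _ hL
    have eL : K / (((p ^ 72) ^ 2 : ℕ) : ℝ) = K * (p : ℝ)⁻¹ ^ 144 := by
      push_cast
      rw [← pow_mul, div_eq_mul_inv, inv_pow]
    have er : C2 * n / ((p ^ 72 : ℕ) : ℝ) = C2 * (n * (p : ℝ)⁻¹ ^ 72) := by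
      push_cast
      rw [div_eq_mul_inv, inv_pow, mul_assoc]
    have hN : 1 ≤ (n : ℝ) * (p : ℝ)⁻¹ ^ 1944 := by
      rw [inv_pow, ← div_eq_mul_inv, one_le_div (pow_pos P0 _)]
      exact_mod_cast p1
    have u1 : (p : ℝ)⁻¹ ≤ 1 := inv_le_one_of_one_le₀ (by linarith)
    have N0 : (0 : ℝ) ≤ n := Nat.cast_nonneg n
    have m1 : 1 ≤ (n : ℝ) * (p : ℝ)⁻¹ ^ 72 :=
      hN.trans (mul_le_mul_of_nonneg_left (pow_le_pow_of_le_one u0.le u1 (by norm_num)) N0)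
    have a1 := H3 (p ^ 72) n hr (by rw [← pow_mul]; exact p1)
      (GG _ (grid _) β q - K / (((p ^ 72) ^ 2 : ℕ) : ℝ)) fun q' b c => by linarith [q2 q' b c]
    rw [eL] at q3 q4 a1
    rw [er] at a1
    generalize (p ^ 72) ^ 2 = L at hL q1 q3 q4 a1
    have za := zadm_grid hL
    have zg := zn_of_zadm za
    rw [eB]
    refine core h4 n1 hL (fun ζ q t δ s μ0 => by
      simpa only [Fintype.card_fin] using
        @H2 (Fin n) _ _ ⟨⟨0, n1⟩⟩ L ζ q β t δ s μ0) hβ.le hK hA hC1 (by linarith) u0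
      u2 u3 u4 hW hN q1 q3 q4 ?_
    rw [l3 L _ zg, za.zn L le_rfl] at a1
    rw [l3, Function.update_self]
    · have a2 := H5' _ m1
      have a3 : n * (K * (p : ℝ)⁻¹ ^ 144) ≤ K * (n * (p : ℝ)⁻¹ ^ 72) := by
        rw [mul_left_comm]
        exact mul_le_mul_of_nonneg_left (mul_le_mul_of_nonneg_left
          (pow_le_pow_of_le_one u0.le u1 (by norm_num)) N0) (zero_le_one.trans hK)
      generalize (n : ℝ) * (p : ℝ)⁻¹ ^ 72 = m at a1 a2 a3 m1 ⊢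
      have a4 : (K + C2 + β ^ 2 / 4) * m ≤ (K + C2 + β ^ 2 / 4) * m * (1 + V) :=
        le_mul_of_one_le_right (by positivity) (by linarith)
      rw [eA]
      clear p1 p2 hN eL er q2 q3 q4
      nlinarith only [a1, a2, a3, a4]
    · refine ⟨hL, by rw [Function.update_of_ne (by omega), zg.z0], fun d hd => ?_,
        fun d hd => by rw [Function.update_of_ne hd.ne]; exact zg.nn d hd⟩
      rw [Function.update_of_ne hd.ne]
      rcases (Nat.succ_le_of_lt hd).eq_or_lt with h | h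
      · rw [show d + 1 = L from h, Function.update_self]
        linarith [zg.nn d hd]
      · rw [Function.update_of_ne (Nat.ne_of_lt h)]
        exact zg.anti d hd
  have b1 : (n : ℝ) ^ (1 / 1000 : ℝ) ≤ (2 * p) ^ 2 := by
    have c1 : (n : ℝ) ≤ (2 * p) ^ 1944 := by
      have : n ≤ (2 * p) ^ 1944 := p2.le.trans (Nat.pow_le_pow_left (by omega) _)
      exact_mod_cast this
    calc _ ≤ (((2 * p : ℝ)) ^ 1944) ^ (1 / 1000 : ℝ) :=
          Real.rpow_le_rpow (Nat.cast_nonneg n) c1 (by norm_num)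
      _ = (2 * p : ℝ) ^ (((1944 : ℕ) : ℝ) * (1 / 1000)) := by
          rw [Real.rpow_mul (mul_pos two_pos P0).le, Real.rpow_natCast]
      _ ≤ (2 * p : ℝ) ^ ((2 : ℕ) : ℝ) :=
          Real.rpow_le_rpow_of_exponent_le (by linarith) (by norm_num)
      _ = _ := Real.rpow_natCast _ _
  have b2 : (p : ℝ) ^ 2 ≤ B * (1 + V) := by
    rwa [inv_pow, ← div_eq_mul_inv, one_le_div (pow_pos P0 _)] at key
  clear p1 p2
  rw [one_div, inv_mul_le_iff₀ (by positivity)]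
  nlinarith only [b1, b2, p4, P2, y1, y2, hB]

end Vale.Agent.P146L
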