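import Vale.Agent.P146L.Stm2

/-! # P146, lower bound: the mean free energy -/

namespace Vale.Agent.P146L

open MeasureTheory ProbabilityTheory Vale.Agent.P157

namespace MeanAux

theorem gt_nonneg (S : Type) [Fintype S] (β : ℝ) (i j : S) : 0 ≤ gt S β 1 i j := by
  unfold gt
  positivity

theorem pm_le {L : ℕ} {ζ : ℕ → ℝ} (hζ : Zok ζ) (β : ℝ) {Pm : ℝ}
    (h : ∀ q : ℕ → ℝ, CAdm L q → q 0 = 1 → Pm ≤ GG L ζ β q) : Pm ≤ β ^ 2 / 2 := by
  have ha : Antitone fun k : ℕ => if k = 0 then (1 : ℝ) else 0 :=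
    antitone_nat_of_succ_le fun k => by
      rw [if_neg (Nat.succ_ne_zero k)]
      split_ifs <;> norm_num
  have h1 := h (fun k => if k = 0 then 1 else 0) ⟨ha, fun d hd => if_neg (by omega)⟩ (if_pos rfl)
  have h2 := (X_lc_bounds hζ (v := dq (β ^ 2 • fun k : ℕ => if k = 0 then (1 : ℝ) else 0))
    (fun d => by
      simp only [dq, Pi.smul_apply, smul_eq_mul]
      rw [← mul_sub]
      exact mul_nonneg (sq_nonneg β) (sub_nonneg.2 (ha (Nat.le_succ d)))) (L + 1)).2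
  have h3 : ∑ d ∈ Finset.range (L + 1), dq (β ^ 2 • fun k : ℕ => if k = 0 then (1 : ℝ) else 0) d
      = β ^ 2 := by
    simp only [dq]
    rw [Finset.sum_range_sub']
    simp
  have h4 : pairing L ζ (fun k : ℕ => if k = 0 then (1 : ℝ) else 0)
      (fun k : ℕ => if k = 0 then (1 : ℝ) else 0) = 0 := by
    simp [pairing]
  rw [GG, psi_eq_X _ _ _ lg_lc.1, h4] at h1
  rw [h3] at h2
  nlinarith [sq_nonneg β]

theorem lipV (h3 : S_lip) (M : ℕ) (β : ℝ) {L : ℕ} {ζ : ℕ → ℝ} (hζ : ZAdm L ζ) (θ : ℕ → ℝ) (j : ℕ)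
    {ε a b : ℝ} (ha0 : 0 ≤ a) (ha : a ≤ 3 * ε) (hb0 : 0 ≤ b) (hb : b ≤ 3 * ε) :
    |VN (Fin M) β ζ L (Function.update θ j a) - VN (Fin M) β ζ L (Function.update θ j b)|
      ≤ 3 * ε * M * |a - b| := by
  refine (h3 (Fin M) L ζ _ _ _ _ hζ (gt_nonneg _ β) (gt_nonneg _ β)
    (fun d _ => sq0_nonneg (Function.update θ j b) d)
    (fun d _ => sq0_nonneg (Function.update θ j a) d)).1.trans ?_
  have h1 : ∑ d ∈ Finset.range (L + 1),
      |sq0 (Function.update θ j a) d - sq0 (Function.update θ j b) d| ≤ |a ^ 2 - b ^ 2| :=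
    (Finset.sum_le_sum fun d _ => CrudeAux.sq0_upd θ j a b d).trans (CrudeAux.sum_up L j _)
  have h2 : |a ^ 2 - b ^ 2| ≤ 6 * ε * |a - b| := by
    rw [sq_sub_sq, abs_mul, abs_of_nonneg (add_nonneg ha0 hb0)]
    exact mul_le_mul_of_nonneg_right (by linarith) (abs_nonneg _)
  simp only [sub_self, abs_zero, Finset.sum_const, Finset.card_univ, Fintype.card_fin,
    nsmul_eq_mul, mul_zero, zero_add]
  rw [← Finset.mul_sum]
  have h4 := mul_le_mul_of_nonneg_left (h1.trans h2) (Nat.cast_nonneg (α := ℝ) M)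
  linarith

theorem sd_nonneg (M : ℕ) (β : ℝ) {L : ℕ} {ζ : ℕ → ℝ} (hζ : ZAdm L ζ) (θ : ℕ → ℝ) {j : ℕ}
    (hj : j ∈ Finset.Icc 1 L) {y : ℝ} (hy0 : 0 ≤ y) (hy : y < θ j) :
    0 ≤ sd2 (VN (Fin M) β ζ L) θ j y := by
  obtain ⟨h1, h2⟩ := Finset.mem_Icc.1 hj
  have h := sd_lower (cube (Fin M)) hζ.zok hj_HH (blk_HH (Function.Embedding.refl (Fin M)))
    (fam_pf L (gt_nonneg _ β) fam_refl) θ (Nat.one_le_iff_ne_zero.1 h1) h2 hy0 hy
  rw [zero_mul, zero_mul, neg_zero] at h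
  exact h

theorem vn_succ (h4 : S_dec) (M : ℕ) (β : ℝ) (L : ℕ) (ζ θ : ℕ → ℝ) :
    VN (Fin (M + 1)) β ζ L θ = VN (Option (Fin M)) β ζ L θ := by
  rw [VN, VN, h4.1 _ _ (finSuccEquiv M)]
  congr 1
  funext i j
  simp [gt]

theorem sum_sq0_le {r : ℕ} (hr : 2 ≤ r) {θ : ℕ → ℝ}
    (hθ : Box (Finset.Icc 1 (r ^ 2)) (1 / (r : ℝ) ^ 2) θ) :
    ∑ d ∈ Finset.range (r ^ 2 + 1), sq0 θ d ≤ 4 / (r : ℝ) ^ 2 := by
  have hR : (0 : ℝ) < r := by exact_mod_cast (by omega : 0 < r)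
  rw [CrudeAux.sum_sq0]
  refine (Finset.sum_le_sum (g := fun _ => (2 * (1 / (r : ℝ) ^ 2)) ^ 2) fun d hd => ?_).trans ?_
  · exact pow_le_pow_left₀ (le_trans (by positivity) (hθ d hd).1) (hθ d hd).2 2
  · rw [Finset.sum_const, Nat.card_Icc, nsmul_eq_mul, Nat.add_sub_cancel]
    push_cast
    refine le_of_eq ?_
    field_simp
    norm_num

theorem fin_ineq {N M0 R Pm C1 Mb B V : ℝ} (hR : 2 ≤ R) (hN : 0 ≤ N) (hM0 : 0 ≤ M0)
    (hM : M0 * R ≤ N) (hP : Pm ≤ B) (hB : 0 ≤ B) (hC : 0 ≤ C1) (hMb : 0 ≤ Mb)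
    (h : (N - M0) * (Pm - C1 / R - 6 * Mb * R ^ 2 / (2 * R ^ 3)) ≤ V + 2 * N / R ^ 2) :
    N * Pm - (C1 + 3 * Mb + B + 1) * N / R ≤ V := by
  have hR0 : 0 < R := by linarith
  have e1 : 6 * Mb * R ^ 2 / (2 * R ^ 3) = 3 * Mb / R := by
    field_simp
    ring
  rw [e1] at h
  have h1 : M0 ≤ N / R := (le_div_iff₀ hR0).2 hM
  have h2 : 2 * N / R ^ 2 ≤ N / R := by
    rw [div_le_div_iff₀ (by positivity) hR0]
    nlinarith [mul_nonneg hN hR0.le]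
  have h3 : M0 * (Pm - C1 / R - 3 * Mb / R) ≤ N / R * B := by
    have a1 : 0 ≤ C1 / R := by positivity
    have a2 : 0 ≤ 3 * Mb / R := by positivity
    calc _ ≤ M0 * B := mul_le_mul_of_nonneg_left (by linarith) hM0
      _ ≤ _ := mul_le_mul_of_nonneg_right h1 hB
  have e2 : (C1 + 3 * Mb + B + 1) * N / R
      = N * (C1 / R) + N * (3 * Mb / R) + N / R * B + N / R := by
    field_simp
  rw [e2]
  nlinarith

end MeanAux

open MeanAux in
theorem mean2 (h1 : S_step) (h2 : S_avg) (h3 : S_lip) (h4 : S_dec) (h5 : S_close) : S_mean2 := by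
  intro β
  obtain ⟨C1, hC1, hs⟩ := h1 β
  refine ⟨C1 + 3 * (2 * β ^ 2 + 1) + β ^ 2 / 2 + 1, by positivity, fun r N hr hN Pm hP => ?_⟩
  have hR : (2 : ℝ) ≤ r := by exact_mod_cast hr
  have hR0 : (0 : ℝ) < r := by linarith
  have hr1 : 1 ≤ r := by omega
  have hζ : ZAdm (r ^ 2) (grid (r ^ 2)) := zadm_grid (Nat.one_le_pow _ _ hr1)
  have hPm := pm_le hζ.zok β hP
  have hy : 1 / (r : ℝ) ^ 8 ≤ 1 / (r : ℝ) ^ 2 / 2 := by
    rw [div_div]
    refine one_div_le_one_div_of_le (by positivity) ?_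
    have a1 : (2 : ℝ) ≤ (r : ℝ) ^ 6 :=
      hR.trans (le_self_pow₀ (by linarith) (by norm_num))
    calc (r : ℝ) ^ 2 * 2 ≤ (r : ℝ) ^ 2 * (r : ℝ) ^ 6 := by gcongr
      _ = _ := by ring
  have hε : 0 < 1 / (r : ℝ) ^ 2 := by positivity
  have h41 : 4 / (r : ℝ) ^ 2 ≤ 1 := by
    rw [div_le_one (by positivity)]
    nlinarith
  have hM0 : 1 ≤ r ^ 26 := Nat.one_le_pow _ _ hr1
  have key := h2 (Finset.Icc 1 (r ^ 2)) (1 / (r : ℝ) ^ 2) (1 / (r : ℝ) ^ 8) (2 * (r : ℝ) ^ 3)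
    (Pm - C1 / r) (β ^ 2 + 1) (2 * β ^ 2 + 1)
    (Vl (grid (r ^ 2)) (r ^ 2) (gt (Fin N) β 1) 0 + 2 * N / (r : ℝ) ^ 2) (r ^ 6) (r ^ 26) N
    (fun M => VN (Fin M) β (grid (r ^ 2)) (r ^ 2)) (by positivity) hy
    (by push_cast; field_simp) (by positivity) (by positivity)
    (by
      have : 0 ≤ C1 / r := by positivity
      nlinarith [sq_nonneg β])
    hM0 ((Nat.pow_le_pow_right hr1 (by norm_num)).trans hN)
    (fun M _ _ θ _ j _ a b ha0 ha hb0 hb =>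
      lipV h3 M β hζ θ j (by linarith) ha (by linarith) hb)
    (fun M _ _ θ hθ j hj => sd_nonneg M β hζ θ hj (by positivity)
      (by linarith [(hθ j hj).1]))
    (fun M hM _ θ hθ hsd => by
      obtain ⟨q, hq, hq0, hq1⟩ := hs r hr (Fin M) (by rwa [Fintype.card_fin]) θ hθ
        (by rwa [Fintype.card_fin])
      rw [vn_succ h4]
      linarith [hP q hq hq0])
    (fun M hM _ θ hθ => by
      have : Nonempty (Fin M) := ⟨⟨0, by omega⟩⟩
      obtain ⟨-, a1, a2⟩ := h5 (Fin M) (r ^ 2) (grid (r ^ 2)) θ β hζ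
      have a3 := a1 1 (sq0 θ) zero_le_one le_rfl (sq0_nonneg θ)
      rw [a2] at a3
      rw [vn_succ h4]
      linarith [(abs_le.1 a3).1, sum_sq0_le hr hθ])
    (fun θ _ => by
      have a1 := (h3 (Fin (r ^ 26)) (r ^ 2) (grid (r ^ 2)) 0 (gt _ β 1) 0 (fun d _ => sq0 θ d) hζ
        (fun _ _ => le_rfl) (gt_nonneg _ β) (fun _ _ => le_rfl) (fun d _ => sq0_nonneg θ d)).2
        (gt_nonneg _ β) (fun d _ => sq0_nonneg θ d)
      rwa [h4.2.1] at a1)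
    (fun θ hθ => by
      have a1 := (h3 (Fin N) (r ^ 2) (grid (r ^ 2)) (gt _ β 1) (gt _ β 1) 0 (fun d _ => sq0 θ d) hζ
        (gt_nonneg _ β) (gt_nonneg _ β) (fun _ _ => le_rfl) (fun d _ => sq0_nonneg θ d)).1
      simp only [sub_self, abs_zero, Finset.sum_const, Finset.card_univ, Fintype.card_fin,
        nsmul_eq_mul, mul_zero, zero_add, Pi.zero_apply, sub_zero,
        abs_of_nonneg (sq0_nonneg θ _)] at a1
      rw [← Finset.mul_sum] at a1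
      have a2 := mul_le_mul_of_nonneg_left (sum_sq0_le hr hθ) (Nat.cast_nonneg (α := ℝ) N)
      have a3 : (N : ℝ) * (4 / (r : ℝ) ^ 2) / 2 = 2 * N / (r : ℝ) ^ 2 := by ring
      have a4 := (abs_le.1 a1).2
      rw [VN]
      linarith)
  rw [Nat.card_Icc, Nat.add_sub_cancel] at key
  push_cast at key
  refine fin_ineq hR (Nat.cast_nonneg N) (by positivity) ?_ hPm (by positivity) hC1
    (by positivity) key
  rw [← pow_succ]
  exact_mod_cast hN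

end Vale.Agent.P146L
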