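import Vale.Agent.P146L.OO2

/-! # P146, lower bound, one-site part: assembly -/

namespace Vale.Agent.P146L.One

open MeasureTheory Vale.Agent.P157 Set

theorem Loc.mono {Λ Λ' m W l : ℝ} {f g : ℝ → ℝ} (h : Loc Λ m W l f g) (hΛ : Λ ≤ Λ') :
    Loc Λ' m W l f g where
  cf := h.cf
  cg := h.cg
  ftc := h.ftc
  f0 := h.f0
  lip := fun a b h1 h2 h3 =>
    (h.lip a b h1 h2 h3).trans (mul_le_mul_of_nonneg_right hΛ (sub_nonneg.2 h2))
  conc := fun a b R h1 h2 h3 h4 h5 => (h.conc a b R h1 h2 h3 h4 h5).trans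
    (mul_le_mul_of_nonneg_left (sub_le_sub_right
      (mul_le_mul_of_nonneg_right hΛ (h1.trans (h2.trans h3))) _) (sub_nonneg.2 h2))
  low := h.low
  cvx := h.cvx

theorem Glo.mono {B Λ Λ' : ℝ} {n : ℕ} {ζ c : ℕ → ℝ} {V : ℝ} {γ g : ℝ → ℝ}
    (h : Glo B Λ n ζ c V γ g) (hc : CAdm n c) (hΛ : Λ ≤ Λ') : Glo B Λ' n ζ c V γ g where
  cγ := h.cγ
  cg := h.cg
  ftc := h.ftc
  γ0 := h.γ0
  g0 := h.g0
  V0 := h.V0
  V1 := h.V1
  lip := fun a b h1 h2 h3 =>
    (h.lip a b h1 h2 h3).trans (mul_le_mul_of_nonneg_right hΛ (sub_nonneg.2 h2))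
  conc := fun d a b R hd h1 h2 h3 h4 h5 => (h.conc d a b R hd h1 h2 h3 h4 h5).trans
    (mul_le_mul_of_nonneg_left (sub_le_sub_right (mul_le_mul_of_nonneg_right hΛ
      ((cadm_nn hc _).trans (h1.trans (h2.trans h3)))) _) (sub_nonneg.2 h2))

theorem Blo.mono {Λ Λ' : ℝ} {n : ℕ} {ζ c : ℕ → ℝ} {V : ℝ} {γ : ℝ → ℝ} {lγ lg : ℕ → ℝ → ℝ}
    (h : Blo Λ n ζ c V γ lγ lg) (hc : CAdm n c) (hΛ : Λ ≤ Λ') : Blo Λ' n ζ c V γ lγ lg where
  loc := fun d hd => (h.loc d hd).mono hΛ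
  close := fun d τ hd h1 h2 =>
    (h.close d τ hd h1 h2).trans (mul_le_mul_of_nonneg_right hΛ (cadm_nn hc _))
  top := h.top
  base := h.base

theorem grid_adm {L : ℕ} (hL : 1 ≤ L) : ZAdm L (grid L) := by
  have hL0 : (0 : ℝ) < L := by exact_mod_cast hL
  refine ⟨by simp [grid], fun d hd => ?_, fun d hd => ?_⟩
  · simp only [grid, if_pos (show d + 1 ≤ L by omega), if_pos hd.le]
    push_cast
    have : (d : ℝ) / L < (d + 1) / L := div_lt_div_of_pos_right (by linarith) hL0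
    linarith
  · rcases hd.eq_or_lt with rfl | h
    · simp [grid, hL0.ne']
    · simp [grid, not_le.2 h]

theorem grid_mesh {L k : ℕ} (hk : k < L) : grid L k - grid L (k + 1) = 1 / L := by
  simp only [grid, if_pos (show k + 1 ≤ L by omega), if_pos hk.le]
  push_cast
  ring

theorem grid_last {L d : ℕ} (hd : d + 1 = L) : grid L d = 1 / L := by
  have h := grid_mesh (show d < L by omega)
  rwa [(grid_adm (show 1 ≤ L by omega)).zn (d + 1) hd.ge, sub_zero] at h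

theorem cs_abel (ζ q : ℕ → ℝ) (d : ℕ) : csDelta ζ q d = ζ 0 * q 0 - ζ d * q d - QQ ζ q d := by
  induction d with
  | zero => simp [csDelta, QQ]
  | succ d ih =>
    unfold csDelta QQ at ih ⊢
    rw [Finset.sum_range_succ, Finset.sum_range_succ, ih]
    ring

theorem asm_num {β A K C : ℝ} (hβ : 1 < β) (hA : 0 ≤ A) (hK : 1 ≤ K) (hC : 0 ≤ C) :
    ∃ M : ℝ, 1 ≤ M ∧ β ^ 2 ≤ M ∧ K * β ^ 2 ≤ M ∧ K * C + 1 ≤ M ∧ A ≤ M ∧
      β ^ 52 * (K * C + 1) ≤ M ∧ (β + 1) ^ 13 * (64 * A) ≤ M ∧ 64 * A ≤ M := by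
  have hβ0 : 0 < β := by linarith
  have h1 : 0 ≤ β ^ 2 := by positivity
  have h2 : 0 ≤ K * β ^ 2 := by positivity
  have h3 : 0 ≤ K * C := by positivity
  have h4 : 0 ≤ β ^ 52 * (K * C + 1) := by positivity
  have h5 : 0 ≤ (β + 1) ^ 13 * (64 * A) := by positivity
  refine ⟨1 + β ^ 2 + K * β ^ 2 + K * C + β ^ 52 * (K * C + 1) + (β + 1) ^ 13 * (64 * A) + 64 * A,
    ?_, ?_, ?_, ?_, ?_, ?_, ?_, ?_⟩ <;> linarith

theorem asm (hmin : S_min) (hkkt : S_kkt) (hlev : S_lev) (hglo : S_glo) (hblo : S_blo)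
    (hopt : S_opt) (hlo : S_lo) (ho2 : S_o2) (hhi : S_hi) : S_onesite := by
  intro β hβ
  have hβ0 : 0 < β := by linarith
  have hB : 0 < β ^ 2 := by positivity
  obtain ⟨Λ1, Λ11, hglo⟩ := hglo
  obtain ⟨Λ2, Λ21, hblo⟩ := hblo
  obtain ⟨C, C0, hopt⟩ := hopt β hβ0
  have hΛ : 1 ≤ max Λ1 Λ2 := Λ11.trans (le_max_left _ _)
  obtain ⟨K, K1, ho2⟩ := ho2 β _ hβ hΛ
  obtain ⟨A, hA⟩ : ∃ A : ℝ, A = 6 * β ^ 6 * max Λ1 Λ2 ^ 2 * C := ⟨_, rfl⟩
  have A0 : 0 ≤ A := by rw [hA]; positivity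
  obtain ⟨M, M1, M2, M3, M4, M5, M6, M7, M8⟩ := asm_num hβ A0 K1 C0
  refine ⟨M, M1, fun L hL => ?_⟩
  have hL0 : (0 : ℝ) < L := by exact_mod_cast hL
  have hζ := grid_adm hL
  obtain ⟨q, hq, hnear⟩ := hmin L (grid L) β hζ
  have hdiv : ∀ x : ℝ, x ≤ M → x / L ≤ M / L := fun x hx =>
    div_le_div_of_nonneg_right hx hL0.le
  have hc : CAdm L (β ^ 2 • q) := by
    refine ⟨fun a b hab => ?_, fun d hd => ?_⟩
    · exact mul_le_mul_of_nonneg_left (hq.1.adm.anti hab) hB.le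
    · simp [hq.1.adm.zero d hd]
  have c0 : (β ^ 2 • q) 0 = β ^ 2 := by simp [hq.1.top]
  have cL : (β ^ 2 • q) L = 0 := by simp [hq.1.root]
  have hG := ((hglo L _ _ hζ hc).1.mono hc (le_max_left Λ1 Λ2))
  rw [c0] at hG
  have hBl := (hblo L _ _ hζ hc).mono hc (le_max_right Λ1 Λ2)
  have hO := hopt L _ q (1 / L) hζ (fun k hk => (grid_mesh hk).le) hq
  have hV : d2 (Phi L (grid L) (β ^ 2 • q) 0) 0 = csDelta (grid L) q L := by
    rw [(hlev L _ _ hζ hc).2.2.1, cs_abel, hζ.z0, hq.1.top, hq.1.root]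
    have : QQ (grid L) (rho1 L (grid L) (β ^ 2 • q)) L = QQ (grid L) q L :=
      Finset.sum_congr rfl fun k hk => by
        rw [(hkkt L _ q β hζ hβ0 hq).1 (k + 1) (by omega) (Finset.mem_range.1 hk)]
    rw [this]
    ring
  rw [hV] at hG hBl
  refine ⟨q, hq.1, fun q' a b => (hnear q' a b).trans ?_, ?_⟩
  · rw [grid_last (show L - 1 + 1 = L by omega), mul_one_div]
    linarith [hdiv _ M2]
  generalize csDelta (grid L) q L = V at hG hBl ⊢
  have E0 : 0 ≤ C * (1 / (L : ℝ)) := by positivity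
  have h1 := hlo β _ _ L _ _ V _ _ _ _ hβ hΛ E0 hζ hc c0 cL hG hBl hO
  have h1' : (1 - β * V) ^ 3 ≤ A / L := by
    rw [hA]
    refine h1.trans_eq ?_
    ring
  have z1 := zadm_le1 hζ
  have z0 := zadm_nn hζ
  by_cases hbig : 64 * A ≤ L
  swap
  · have hs : 1 ≤ 64 * A / L := by
      rw [le_div_iff₀ hL0]; linarith [not_le.1 hbig]
    refine ⟨?_, fun d _ _ => Or.inr ((pow_le_one₀ (z0 d) (z1 d)).trans (hs.trans (hdiv _ M8)))⟩
    have a1 : |β * V - 1| ≤ β + 1 := by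
      rw [abs_le]
      constructor <;> nlinarith [hG.V0, hG.V1]
    refine (pow_le_pow_left₀ (abs_nonneg _) a1 13).trans (le_trans ?_ (hdiv _ M7))
    rw [mul_div_assoc]
    exact le_mul_of_one_le_right (by positivity) hs
  have hV34 : 3 / 4 ≤ β * V := by
    by_contra hn
    have a1 : (1 / 4 : ℝ) ^ 3 < (1 - β * V) ^ 3 :=
      pow_lt_pow_left₀ (by linarith [not_le.1 hn]) (by norm_num) (by norm_num)
    have a2 : A / L ≤ 1 / 64 := by
      rw [div_le_iff₀ hL0]; linarith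
    norm_num at a1
    linarith
  have hmass : ∀ d, d < L → q (d + 1) < q d →
      grid L d ^ 3 ≤ K * β ^ 2 * q (d + 1) ∨ grid L d ^ 13 ≤ (K * C + 1) / L := by
    intro d hd hlt
    have kc : 0 ≤ K * C := by positivity
    rcases (show d + 1 < L ∨ d + 1 = L by omega) with h | h
    · rcases ho2 _ L _ _ V _ _ _ _ E0 hζ hc c0 cL hG hBl hO hV34 d h
        (mul_lt_mul_of_pos_left hlt hB) with h2 | h2
      · left
        rw [mul_assoc]
        exact h2
      · right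
        refine (pow_le_pow_of_le_one (z0 d) (z1 d) (by norm_num)).trans (h2.trans ?_)
        rw [add_div, ← mul_assoc, mul_one_div]
        have : 0 < 1 / (L : ℝ) := by positivity
        linarith
    · right
      have a1 : grid L d ^ 13 ≤ grid L d := by
        simpa using pow_le_pow_of_le_one (z0 d) (z1 d) (show 1 ≤ 13 by norm_num)
      refine a1.trans ?_
      rw [grid_last h]
      exact div_le_div_of_nonneg_right (by linarith) hL0.le
  refine ⟨?_, fun d hd hlt => ?_⟩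
  · rcases le_total (β * V) 1 with h | h
    · rw [abs_sub_comm, abs_of_nonneg (sub_nonneg.2 h)]
      exact (pow_le_pow_of_le_one (sub_nonneg.2 h) (by linarith) (by norm_num)).trans
        (h1'.trans (hdiv _ M5))
    · rw [abs_of_nonneg (sub_nonneg.2 h)]
      obtain ⟨d, hd, e0, e1, e2⟩ := hhi β _ _ L _ _ V _ _ _ _ hβ hζ hc c0 cL hG hBl hO
      have q0 : q (d + 1) = 0 := by simpa [hB.ne'] using e0
      have q1 : 0 < q d := (mul_pos_iff_of_pos_left hB).1 e1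
      rcases hmass d hd (by rw [q0]; exact q1) with h2 | h2
      · rw [q0, mul_zero] at h2
        exact absurd h2 (not_le.2 (pow_pos (zadm_pos hζ hd) 3))
      · refine (pow_le_pow_left₀ (sub_nonneg.2 h) e2 13).trans (le_trans ?_ (hdiv _ M6))
        rw [mul_pow, ← pow_mul, mul_div_assoc]
        exact mul_le_mul_of_nonneg_left h2 (by positivity)
  · rcases hmass d hd hlt with h2 | h2
    · left
      exact (pow_le_pow_of_le_one (z0 d) (z1 d) (by norm_num)).trans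
        (h2.trans (mul_le_mul_of_nonneg_right M3 (cadm_nn hq.1.adm _)))
    · exact Or.inr (h2.trans (hdiv _ M4))

end Vale.Agent.P146L.One
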