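import Vale.Agent.P146L.ODefs

/-! # P146, lower bound, one-site part: blocks started from the origin -/

namespace Vale.Agent.P146L.One

open MeasureTheory ProbabilityTheory Vale.Agent.P157 Set

namespace OBloAux

theorem loc_mono {Λ Λ' m W l : ℝ} {f g : ℝ → ℝ} (h : Loc Λ m W l f g) (hΛ : Λ ≤ Λ') :
    Loc Λ' m W l f g :=
  { h with
    lip := fun a b ha hab hb => (h.lip a b ha hab hb).trans
      (mul_le_mul_of_nonneg_right hΛ (sub_nonneg.2 hab))
    conc := fun a b R ha hab hR hW hb => (h.conc a b R ha hab hR hW hb).trans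
      (mul_le_mul_of_nonneg_left
        (by linarith [mul_le_mul_of_nonneg_right hΛ (ha.trans (hab.trans hR))])
        (sub_nonneg.2 hab)) }

theorem lip_of {f f' : ℝ → ℝ} {c : ℝ} {s : Set ℝ} (hs : Convex ℝ s)
    (h : ∀ x, HasDerivAt f (f' x) x) (hb : ∀ x ∈ s, |f' x| ≤ c) {x y : ℝ} (hx : x ∈ s)
    (hy : y ∈ s) : |f x - f y| ≤ c * |x - y| :=
  hs.norm_image_sub_le_of_norm_hasDerivWithin_le (fun z _ => (h z).hasDerivWithinAt) hb hy hx

theorem u_lip {K : ℝ} {Φ : ℝ → ℝ} (h : G0 K Φ) (x y : ℝ) : |d1 Φ x - d1 Φ y| ≤ |x - y| := by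
  have := lip_of convex_univ h.cu.der (c := 1)
    (fun z _ => (abs_of_nonneg (h.v0 z)).trans_le (h.v1 z)) (mem_univ x) (mem_univ y)
  rwa [one_mul] at this

theorem bm_of {A : ℝ} {f f' : ℝ → ℝ} (h : C11 A f f') : BM f :=
  ⟨(continuous_iff_continuousAt.2 fun x => (h.der x).continuousAt).measurable, A, h.b0⟩

theorem c11_sq {K : ℝ} {Φ : ℝ → ℝ} (hK : 1 ≤ K) (h : G0 K Φ) :
    C11 (4 * K) (fun x => d1 Φ x ^ 2) fun x => 2 * (d1 Φ x * d2 Φ x) := by
  have hv : ∀ x, |d2 Φ x| ≤ 1 := fun z => (abs_of_nonneg (h.v0 z)).trans_le (h.v1 z)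
  refine ⟨fun x => ?_, fun x => ?_, fun x => ?_, fun x y => ?_⟩
  · refine ((h.cu.der x).fun_pow 2).congr_deriv ?_
    norm_num; ring
  · rw [abs_pow]
    linarith [pow_le_one₀ (n := 2) (abs_nonneg _) (h.u1 x)]
  · rw [abs_mul, abs_mul, abs_two]
    linarith [mul_le_one₀ (h.u1 x) (abs_nonneg _) (hv x)]
  · have e : 2 * (d1 Φ x * d2 Φ x) - 2 * (d1 Φ y * d2 Φ y) =
        2 * (d1 Φ x * (d2 Φ x - d2 Φ y) + d2 Φ y * (d1 Φ x - d1 Φ y)) := by ring
    have a1 : |d1 Φ x * (d2 Φ x - d2 Φ y)| ≤ K * |x - y| := by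
      rw [abs_mul]
      exact (mul_le_of_le_one_left (abs_nonneg _) (h.u1 x)).trans (h.cu.lip x y)
    have a2 : |d2 Φ y * (d1 Φ x - d1 Φ y)| ≤ K * |x - y| := by
      rw [abs_mul]
      exact (mul_le_of_le_one_left (abs_nonneg _) (hv y)).trans ((u_lip h x y).trans
        (le_mul_of_one_le_left (abs_nonneg _) hK))
    rw [e, abs_mul, abs_two]
    linarith [abs_add_le (d1 Φ x * (d2 Φ x - d2 Φ y)) (d2 Φ y * (d1 Φ x - d1 Φ y))]

theorem d1_neg {K : ℝ} {Φ : ℝ → ℝ} (h : G0 K Φ) (x : ℝ) : d1 Φ (-x) = -d1 Φ x := by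
  have e : (fun x => Φ (-x)) = Φ := funext h.even
  have := deriv_comp_neg Φ x
  rw [e] at this
  unfold d1
  linarith

theorem bm_bump : BM bump := by
  refine ⟨by unfold bump; fun_prop, 1, fun x => ?_⟩
  unfold bump
  rw [abs_of_nonneg (by positivity), div_le_one (by positivity)]
  linarith

theorem even_bd {B : ℝ} {ψ ψ' : ℝ → ℝ} (h : C11 B ψ ψ') (he : ∀ x, ψ (-x) = ψ x) (x : ℝ) :
    |ψ x - ψ 0| ≤ 4 * B * bump x := by
  have hB : 0 ≤ B := (abs_nonneg _).trans (h.b0 0)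
  have h0 : ψ' 0 = 0 := by
    have e : (fun x => ψ (-x)) = ψ := funext he
    have := deriv_comp_neg ψ 0
    rw [e, neg_zero, (h.der 0).deriv] at this
    linarith
  have hx : 0 < 1 + x ^ 2 := by positivity
  unfold bump
  rw [← mul_div_assoc, le_div_iff₀ hx]
  rcases le_total (x ^ 2) 1 with h1 | h1
  · have a1 := lip_of (convex_closedBall (0 : ℝ) |x|) h.der (c := B * |x|) (fun z hz => by
      have b1 := h.lip z 0
      rw [h0, sub_zero, sub_zero] at b1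
      refine b1.trans (mul_le_mul_of_nonneg_left ?_ hB)
      simpa using hz) (x := x) (y := 0) (by simp) (by simp)
    rw [sub_zero, mul_assoc, abs_mul_abs_self] at a1
    nlinarith [abs_nonneg (ψ x - ψ 0), mul_nonneg hB (sq_nonneg x)]
  · have a1 : |ψ x - ψ 0| ≤ 2 * B := by linarith [abs_sub (ψ x) (ψ 0), h.b0 x, h.b0 0]
    nlinarith [mul_le_mul_of_nonneg_right a1 hx.le, mul_le_mul_of_nonneg_left h1 hB]

theorem lEr_zero (n : ℕ) (ζ c : ℕ → ℝ) (d : ℕ) (F : ℝ → ℝ) : lEr n ζ c d 0 F = F 0 := by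
  rw [lEr, g1_of_nonpos le_rfl, P_dirac]

end OBloAux

open OBloAux in
theorem blo (h1 : S_gd) (h2 : S_fl) (h3 : S_lev) (h4 : S_c11) (h5 : S_glo) (h6 : S_loc) :
    S_blo := by
  obtain ⟨K, hK, h1⟩ := h1
  obtain ⟨C, hC, h4⟩ := h4
  obtain ⟨Λ₁, hΛ₁, h5⟩ := h5
  obtain ⟨Λ₂, hΛ₂, h6⟩ := h6 K hK
  have hB : 0 ≤ 4 * (C * (4 * K)) := by positivity
  have hB' : 0 ≤ 4 * (C * (4 * K)) * Λ₁ := by positivity
  refine ⟨Λ₂ + 4 * (C * (4 * K)) * Λ₁, by linarith, fun n ζ c hζ hc => ?_⟩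
  have hz := hζ.zok
  have hG : ∀ r, Gd K (Phi n ζ c r) := fun r => (h1 ζ _ (n + 1) hz).1
  have hp : ∀ d, d2 (Phi n ζ c 0) 0 - c (d + 1) ≤ d2 (Phi n ζ c (c (d + 1))) 0 ∧
      Er n ζ c (c (d + 1)) bump ≤ Λ₁ * c (d + 1) := fun d =>
    (h5 n ζ c hζ hc).2 _ (hc.nonneg _) (hc.anti (Nat.zero_le _))
  refine ⟨fun d hd => ?_, fun d τ hd h0 hτ => ?_, ?_, fun d hd h0 => ?_⟩
  · refine loc_mono (h6 (ζ d) _ _ (lPhi n ζ c d) (hz.nn d) (hz.le_one d) (hc.dq_nonneg d) ?_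
      (h2 K n ζ c d hz hc hd.le hG).2) (by linarith)
    rw [lPhi, add_zero]
    exact (hp d).1
  · have hF := (h2 K n ζ c d hz hc hd.le hG).1
    obtain ⟨p, hpe⟩ : ∃ p, p = c (d + 1) := ⟨_, rfl⟩
    have hp2 := (hp d).2
    have hp0 : 0 ≤ p := hpe ▸ hc.nonneg _
    simp only [fa, lEr, lPhi]
    rw [← hpe] at hF hτ hp2 ⊢
    have g1' := (hG (p + τ)).g0
    have g2 := (hG p).g0
    have hsq := c11_sq hK g1'
    have e1 := hF.semi p (p + τ) le_rfl (by linarith) (by linarith)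
    have e2 := hF.cons p (p + τ) le_rfl (by linarith) (by linarith) _ (bm_of hsq)
    rw [add_sub_cancel_left] at e1 e2
    obtain ⟨ψ', hψ⟩ := h4 (fun _ => ζ d) (fun _ => τ) (Phi n ζ c (p + τ))
      (fun j => if j = 0 then d1 (Phi n ζ c (p + τ)) else d1 (Phi n ζ c p)) 1
      ⟨antitone_const, fun _ => hz.nn d, hz.le_one d⟩ g1'.lg
      (fun j hj x => by
        obtain rfl | rfl : j = 0 ∨ j = 1 := by omega
        · exact g1'.der x
        · have e3 : X (fun _ => ζ d) (g1s fun _ => τ) (Phi n ζ c (p + τ)) 1 = Phi n ζ c p :=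
            e1.symm
          rw [e3]
          exact g2.der x)
      (fun j _ x => by
        split_ifs
        exacts [g1'.u1 x, g2.u1 x])
      (fun j _ x y => by
        split_ifs
        · linarith [u_lip g1' x y, abs_nonneg (x - y)]
        · linarith [u_lip g2 x y, abs_nonneg (x - y)]) 0 _ _ _ hsq
    have e4 : Ex (fun _ => ζ d) (g1s fun _ => τ) (Phi n ζ c (p + τ)) 0
        (fun x => d1 (Phi n ζ c (p + τ)) x ^ 2) 1 =
        P (ζ d) (g1 τ) (Phi n ζ c (p + τ)) fun x => d1 (Phi n ζ c (p + τ)) x ^ 2 :=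
      Ex_succ le_rfl _
    rw [e4] at hψ
    have hev := P_even (ζ d) τ g1'.lg.1 (bm_of hsq).1 g1'.even
      fun x => by simp only [d1_neg g1' x, neg_sq]
    rw [e2]
    obtain ⟨ψ, hψe⟩ : ∃ ψ, ψ = P (ζ d) (g1 τ) (Phi n ζ c (p + τ))
      fun x => d1 (Phi n ζ c (p + τ)) x ^ 2 := ⟨_, rfl⟩
    rw [← hψe] at hψ hev ⊢
    have hb := even_bd hψ hev
    have hm : p ∈ Icc p (c d) := ⟨le_rfl, by linarith⟩
    have key : ∀ a : ℝ, Er n ζ c p (fun x => ψ 0 + a * bump x) = ψ 0 + a * Er n ζ c p bump :=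
      fun a => by
        rw [hF.add p hm _ _ (BM.const _) (bm_bump.const_mul a), hF.const p hm,
          hF.smul p hm a _ bm_bump]
    have a1 := hF.mono p hm ψ _ (bm_of hψ)
      ((BM.const (ψ 0)).add (bm_bump.const_mul (4 * (C * (4 * K)))))
      fun x => by linarith [(abs_le.1 (hb x)).2]
    have a2 := hF.mono p hm _ ψ ((BM.const (ψ 0)).add (bm_bump.const_mul (-(4 * (C * (4 * K))))))
      (bm_of hψ) fun x => by linarith [(abs_le.1 (hb x)).1]
    rw [key] at a1 a2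
    have a3 := mul_le_mul_of_nonneg_left hp2 hB
    have a4 : 0 ≤ Λ₂ * p := by positivity
    rw [abs_le]
    constructor <;> linarith
  · simp only [fb]
    rw [lEr_zero, lPhi, add_zero, zero_add, (h3 n ζ c hζ hc).2.2.2, one_pow]
  · simp only [fb]
    rw [lEr_zero, lPhi, add_zero, h0]

end Vale.Agent.P146L.One
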