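import Vale.Agent.P146L.ODefs

/-! # P146, lower bound, one-site part: `C11` bounds for conditional expectations -/

namespace Vale.Agent.P146L.One

open MeasureTheory ProbabilityTheory Vale.Agent.P157 Set

namespace OC11Aux

theorem meas {f f' : ℝ → ℝ} (h : ∀ x, HasDerivAt f (f' x) x) : Measurable f' := by
  have e : f' = deriv f := funext fun x => (h x).deriv.symm
  rw [e]
  exact measurable_deriv f

theorem meas0 {f f' : ℝ → ℝ} (h : ∀ x, HasDerivAt f (f' x) x) : Measurable f :=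
  (continuous_iff_continuousAt.2 fun x => (h x).continuousAt).measurable

theorem lip {f f' : ℝ → ℝ} {A : ℝ} (h : ∀ x, HasDerivAt f (f' x) x) (hb : ∀ x, |f' x| ≤ A)
    (x y : ℝ) : |f x - f y| ≤ A * |x - y| :=
  convex_univ.norm_image_sub_le_of_norm_hasDerivWithin_le
    (fun z _ => (h z).hasDerivWithinAt) (fun z _ => hb z) (mem_univ y) (mem_univ x)

theorem sum_le {ζ : ℕ → ℝ} (hζ : Zok ζ) (k n : ℕ) {f : ℕ → ℝ} {L : ℝ} (hL : 0 ≤ L)
    (h : ∀ i, i < n → |f i| ≤ L) :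
    |∑ i ∈ Finset.range n, (ζ (k + i) - ζ (k + i + 1)) * f i| ≤ L := by
  have hz : Zok fun i => ζ (k + i) :=
    ⟨fun a b hab => hζ.anti (by omega), fun i => hζ.nn _, hζ.le_one _⟩
  have h1 := UnifAux.sum_le hz n (f := fun i => if i < n then f i else 0) hL fun i => by
    split_ifs with hi
    · exact h i hi
    · rwa [abs_zero]
  refine le_of_eq_of_le (congrArg _ (Finset.sum_congr rfl fun i hi => ?_)) h1
  rw [if_pos (Finset.mem_range.1 hi)]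
  rfl

theorem mul_lip {u f : ℝ → ℝ} {A L : ℝ} (h1 : ∀ x, |u x| ≤ 1)
    (h2 : ∀ x y, |u x - u y| ≤ 2 * |x - y|) (h3 : ∀ x, |f x| ≤ A)
    (h4 : ∀ x y, |f x - f y| ≤ L * |x - y|) (x y : ℝ) :
    |u x * f x - u y * f y| ≤ (2 * A + L) * |x - y| := by
  have e : u x * f x - u y * f y = (u x - u y) * f x + u y * (f x - f y) := by ring
  have a1 : |(u x - u y) * f x| ≤ 2 * |x - y| * A := by
    rw [abs_mul]
    exact mul_le_mul (h2 x y) (h3 x) (abs_nonneg _) (by positivity)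
  have a2 : |u y * (f x - f y)| ≤ L * |x - y| := by
    rw [abs_mul]
    exact (mul_le_of_le_one_left (abs_nonneg _) (h1 y)).trans (h4 x y)
  rw [e]
  refine (abs_add_le _ _).trans ?_
  linarith

theorem mul_bd {u f : ℝ → ℝ} {A : ℝ} (h1 : ∀ x, |u x| ≤ 1) (h3 : ∀ x, |f x| ≤ A) (x : ℝ) :
    |u x * f x| ≤ A := by
  rw [abs_mul]
  exact (mul_le_of_le_one_left (abs_nonneg _) (h1 x)).trans (h3 x)

variable {ζ : ℕ → ℝ} {ν : ℕ → Measure ℝ} {Ψ : ℝ → ℝ}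

theorem ex_lip (h : Cas ζ ν Ψ) (hb : ∀ x y, |Ψ x - Ψ y| ≤ 1 * |x - y|) (k : ℕ)
    {φ : ℝ → ℝ} (hφ : Measurable φ) {a L : ℝ} (h1 : ∀ w, |φ w| ≤ a)
    (hL : ∀ x y, |φ x - φ y| ≤ L * |x - y|) (d : ℕ) (x y : ℝ) :
    |Ex ζ ν Ψ k φ d x - Ex ζ ν Ψ k φ d y| ≤ (L + 32 * a) * |x - y| := by
  have ha : 0 ≤ a := (abs_nonneg _).trans (h1 0)
  have hL0 : 0 ≤ L := by
    have := (abs_nonneg _).trans (hL 1 0)
    simpa using this
  obtain ⟨c, rfl⟩ : ∃ c, x = y + c := ⟨x - y, by ring⟩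
  rw [add_sub_cancel_left]
  rcases le_or_gt |c| 1 with hc | hc
  swap
  · have t1 := abs_le.1 (abs_Ex_le (ζ := ζ) (ν := ν) (Ψ := Ψ) k h1 d (y + c))
    have t2 := abs_le.1 (abs_Ex_le (ζ := ζ) (ν := ν) (Ψ := Ψ) k h1 d y)
    have t3 : 2 * a ≤ (L + 32 * a) * |c| := by nlinarith
    rw [abs_le]
    constructor <;> linarith [t1.1, t1.2, t2.1, t2.2]
  have h' : Cas ζ ν fun w => Ψ (w + c) := ⟨h.z, h.noise, h.lg.shift c⟩
  have hm : Measurable fun w => φ (w + c) := hφ.comp (measurable_add_const c)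
  have e : Ex ζ ν (fun w => Ψ (w + c)) k (fun w => φ (w + c)) d y = Ex ζ ν Ψ k φ d (y + c) :=
    Ex_push (AddMonoidHom.id ℝ) measurable_id c (fun j => (h.noise j).prob) h.lg.1
      (fun _ => rfl) k hφ (fun _ => rfl) (fun j _ => Measure.map_id) y
  have hk : ∀ w, |X ζ ν (fun w => Ψ (w + c)) k w - X ζ ν Ψ k w| ≤ |c| :=
    chain_abs h h' (Nat.zero_le k) (fun _ _ _ => rfl) fun w => by
      have := hb (w + c) w
      rwa [one_mul, add_sub_cancel_left] at this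
  have h2 := density_abs h h' (d := d) (fun _ _ _ => rfl) hk hφ h1 y
  have h3 := abs_Ex_le (ζ := ζ) (ν := ν) (Ψ := fun w => Ψ (w + c)) k
    (φ := fun w => φ (w + c) - φ w) (C := L * |c|) (fun w => by
      have := hL (w + c) w
      rwa [add_sub_cancel_left] at this) d y
  rw [h'.Ex_sub k ⟨hm, a, fun w => h1 _⟩ ⟨hφ, a, h1⟩, e] at h3
  have h4 := mul_le_mul_of_nonneg_left (UnifAux.exp_le (abs_nonneg c) hc) ha
  rw [abs_le] at h2 h3 ⊢
  constructor <;> linarith [h2.1, h2.2, h3.1, h3.2]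

/-- The derivative of the conditional expectation. -/
noncomputable def DD (ζ : ℕ → ℝ) (ν : ℕ → Measure ℝ) (Ψ : ℝ → ℝ) (u : ℕ → ℝ → ℝ) (k : ℕ)
    (φ φ' : ℝ → ℝ) (n : ℕ) (x : ℝ) : ℝ :=
  Ex ζ ν Ψ k (fun y => φ' y + ζ k * (u k y * φ y)) (k + n) x
    - ∑ i ∈ Finset.range n, (ζ (k + i) - ζ (k + i + 1)) *
      Ex ζ ν Ψ (k + i + 1) (fun y => u (k + i + 1) y * Ex ζ ν Ψ k φ (k + i + 1) y) (k + n) x
    - ζ (k + n) * (u (k + n) x * Ex ζ ν Ψ k φ (k + n) x)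

variable {u : ℕ → ℝ → ℝ} {k n : ℕ} {φ φ' : ℝ → ℝ} {A : ℝ}

theorem bd0 (hζ : Zok ζ) (hu : ∀ x, |u k x| ≤ 1) (hφ : C11 A φ φ') (y : ℝ) :
    |φ' y + ζ k * (u k y * φ y)| ≤ 2 * A := by
  refine (abs_add_le _ _).trans ?_
  have a1 : |ζ k * (u k y * φ y)| ≤ A := by
    rw [abs_mul, abs_of_nonneg (hζ.nn k)]
    exact (mul_le_of_le_one_left (abs_nonneg _) (hζ.le_one k)).trans (mul_bd hu hφ.b0 y)
  linarith [hφ.b1 y]

theorem DD_bd (hζ : Zok ζ) (hu : ∀ j, j ≤ k + n → ∀ x, |u j x| ≤ 1) (hφ : C11 A φ φ')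
    (x : ℝ) : |DD ζ ν Ψ u k φ φ' n x| ≤ 4 * A := by
  have hA : 0 ≤ A := (abs_nonneg _).trans (hφ.b0 0)
  have a1 := abs_Ex_le (ζ := ζ) (ν := ν) (Ψ := Ψ) k (bd0 hζ (hu k (by omega)) hφ) (k + n) x
  have a2 := sum_le hζ k n (f := fun i => Ex ζ ν Ψ (k + i + 1)
      (fun y => u (k + i + 1) y * Ex ζ ν Ψ k φ (k + i + 1) y) (k + n) x) hA fun i hi =>
    abs_Ex_le _ (mul_bd (hu _ (by omega)) (abs_Ex_le k hφ.b0 _)) _ _
  have a3 : |ζ (k + n) * (u (k + n) x * Ex ζ ν Ψ k φ (k + n) x)| ≤ A := by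
    rw [abs_mul, abs_of_nonneg (hζ.nn _)]
    exact (mul_le_of_le_one_left (abs_nonneg _) (hζ.le_one _)).trans
      (mul_bd (hu _ le_rfl) (abs_Ex_le k hφ.b0 _) x)
  rw [abs_le] at a1 a2 a3 ⊢
  unfold DD
  constructor <;> linarith [a1.1, a1.2, a2.1, a2.2, a3.1, a3.2]

theorem DD_lip (h : Cas ζ ν Ψ) (hb : ∀ x y, |Ψ x - Ψ y| ≤ 1 * |x - y|)
    (hm : ∀ j, j ≤ k + n → Measurable (u j)) (hu : ∀ j, j ≤ k + n → ∀ x, |u j x| ≤ 1)
    (hl : ∀ j, j ≤ k + n → ∀ x y, |u j x - u j y| ≤ 2 * |x - y|) (hφ : C11 A φ φ')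
    (x y : ℝ) : |DD ζ ν Ψ u k φ φ' n x - DD ζ ν Ψ u k φ φ' n y| ≤ 202 * A * |x - y| := by
  have hA : 0 ≤ A := (abs_nonneg _).trans (hφ.b0 0)
  have hxy : 0 ≤ A * |x - y| := by positivity
  have hζ := h.z
  have mφ := meas0 hφ.der
  have l0 := lip hφ.der hφ.b1
  have l1 : ∀ j x y, |Ex ζ ν Ψ k φ j x - Ex ζ ν Ψ k φ j y| ≤ (A + 32 * A) * |x - y| :=
    fun j => ex_lip h hb k mφ hφ.b0 l0 j
  have l2 : ∀ j, j ≤ k + n → ∀ x y, |u j x * Ex ζ ν Ψ k φ j x - u j y * Ex ζ ν Ψ k φ j y|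
      ≤ (2 * A + (A + 32 * A)) * |x - y| :=
    fun j hj => mul_lip (hu j hj) (hl j hj) (abs_Ex_le k hφ.b0 j) (l1 j)
  have l3 : ∀ x y, |φ' x + ζ k * (u k x * φ x) - (φ' y + ζ k * (u k y * φ y))|
      ≤ (4 * A) * |x - y| := by
    intro x y
    have e : φ' x + ζ k * (u k x * φ x) - (φ' y + ζ k * (u k y * φ y))
        = (φ' x - φ' y) + ζ k * (u k x * φ x - u k y * φ y) := by ring
    have a1 : |ζ k * (u k x * φ x - u k y * φ y)| ≤ (2 * A + A) * |x - y| := by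
      rw [abs_mul, abs_of_nonneg (hζ.nn k)]
      exact (mul_le_of_le_one_left (abs_nonneg _) (hζ.le_one k)).trans
        (mul_lip (hu k (by omega)) (hl k (by omega)) hφ.b0 l0 x y)
    rw [e]
    refine (abs_add_le _ _).trans ?_
    linarith [hφ.lip x y]
  have a1 := ex_lip h hb k (φ := fun y => φ' y + ζ k * (u k y * φ y))
    ((meas hφ.der).add (((hm k (by omega)).mul mφ).const_mul (ζ k)))
    (bd0 hζ (hu k (by omega)) hφ) l3 (k + n) x y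
  have a2 := sum_le hζ k n (f := fun i => Ex ζ ν Ψ (k + i + 1)
      (fun y => u (k + i + 1) y * Ex ζ ν Ψ k φ (k + i + 1) y) (k + n) x
      - Ex ζ ν Ψ (k + i + 1)
      (fun y => u (k + i + 1) y * Ex ζ ν Ψ k φ (k + i + 1) y) (k + n) y)
      (L := (2 * A + (A + 32 * A) + 32 * A) * |x - y|) (by positivity) fun i hi =>
    ex_lip h hb _ ((hm _ (by omega)).mul (h.bmEx k ⟨mφ, A, hφ.b0⟩ _).1)
      (mul_bd (hu _ (by omega)) (abs_Ex_le k hφ.b0 _)) (l2 _ (by omega)) _ x y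
  have a3 : |ζ (k + n) * (u (k + n) x * Ex ζ ν Ψ k φ (k + n) x
      - u (k + n) y * Ex ζ ν Ψ k φ (k + n) y)| ≤ (2 * A + (A + 32 * A)) * |x - y| := by
    rw [abs_mul, abs_of_nonneg (hζ.nn _)]
    exact (mul_le_of_le_one_left (abs_nonneg _) (hζ.le_one _)).trans (l2 _ le_rfl x y)
  simp only [mul_sub (ζ _ - ζ _), Finset.sum_sub_distrib] at a2
  rw [mul_sub] at a3
  rw [abs_le] at a1 a2 a3 ⊢
  unfold DD
  constructor <;> linarith [a1.1, a1.2, a2.1, a2.2, a3.1, a3.2]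

theorem DD_der (hS : S_dP) {s : ℕ → ℝ} (h : Cas ζ (g1s s) Ψ) (hφ : C11 A φ φ') (n : ℕ)
    (hd : ∀ j, j ≤ k + n → ∀ x, HasDerivAt (X ζ (g1s s) Ψ j) (u j x) x)
    (hu : ∀ j, j ≤ k + n → ∀ x, |u j x| ≤ 1) (x : ℝ) :
    HasDerivAt (Ex ζ (g1s s) Ψ k φ (k + n)) (DD ζ (g1s s) Ψ u k φ φ' n x) x := by
  have hA : 0 ≤ A := (abs_nonneg _).trans (hφ.b0 0)
  have bφ : BM φ := ⟨meas0 hφ.der, A, hφ.b0⟩
  induction n generalizing x with
  | zero =>
    rw [Ex_of_le (show k + 0 ≤ k from le_rfl)]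
    refine (hφ.der x).congr_deriv ?_
    simp only [DD, Finset.range_zero, Finset.sum_empty, add_zero, Ex_of_le (le_refl k)]
    ring
  | succ n ih =>
    have hu' : ∀ j, j ≤ k + n → ∀ x, |u j x| ≤ 1 := fun j hj => hu j (by omega)
    have ih' := ih (fun j hj => hd j (by omega)) hu'
    have bu : ∀ j, j ≤ k + (n + 1) → BM (u j) := fun j hj => ⟨meas (hd j hj), 1, hu j hj⟩
    obtain ⟨k1, k2⟩ := hS (ζ (k + n)) (s (k + n)) (4 * A) (X ζ (g1s s) Ψ (k + n)) (u (k + n))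
      (Ex ζ (g1s s) Ψ k φ (k + n)) (DD ζ (g1s s) Ψ u k φ φ' n) (h.lgX _) (hd _ (by omega))
      (hu' _ le_rfl) ih' (fun y => (abs_Ex_le k hφ.b0 _ y).trans (by linarith))
      (DD_bd h.z hu' hφ) x
    have e1 : u (k + n + 1) x
        = P (ζ (k + n)) (g1 (s (k + n))) (X ζ (g1s s) Ψ (k + n)) (u (k + n)) x :=
      (hd (k + n + 1) (by omega) x).unique k1
    have e2 : ∀ j, j ≤ k + n → ∀ ψ : ℝ → ℝ, Ex ζ (g1s s) Ψ j ψ (k + n + 1)
        = P (ζ (k + n)) (g1 (s (k + n))) (X ζ (g1s s) Ψ (k + n)) (Ex ζ (g1s s) Ψ j ψ (k + n)) :=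
      fun j hj ψ => Ex_succ hj ψ
    have hX := CascAux.eX h (k + n) x
    have := (h.noise (k + n)).prob
    have b1 := h.bmEx k (BM.add ⟨meas hφ.der, A, hφ.b1⟩
      (((bu k (by omega)).mul bφ).const_mul (ζ k))) (k + n)
    have b2 : ∀ i ∈ Finset.range n, BM fun y => (ζ (k + i) - ζ (k + i + 1)) *
        Ex ζ (g1s s) Ψ (k + i + 1)
          (fun y => u (k + i + 1) y * Ex ζ (g1s s) Ψ k φ (k + i + 1) y) (k + n) y :=
      fun i hi => (h.bmEx _ ((bu _ (by have := Finset.mem_range.1 hi; omega)).mul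
        (h.bmEx k bφ _)) _).const_mul _
    have b3 := ((bu (k + n) (by omega)).mul (h.bmEx k bφ (k + n))).const_mul (ζ (k + n))
    have e3 : P (ζ (k + n)) (g1 (s (k + n))) (X ζ (g1s s) Ψ (k + n))
        (DD ζ (g1s s) Ψ u k φ φ' n) x
        = Ex ζ (g1s s) Ψ k (fun y => φ' y + ζ k * (u k y * φ y)) (k + n + 1) x
          - ∑ i ∈ Finset.range n, (ζ (k + i) - ζ (k + i + 1)) * Ex ζ (g1s s) Ψ (k + i + 1)
            (fun y => u (k + i + 1) y * Ex ζ (g1s s) Ψ k φ (k + i + 1) y) (k + n + 1) x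
          - ζ (k + n) * P (ζ (k + n)) (g1 (s (k + n))) (X ζ (g1s s) Ψ (k + n))
            (fun y => u (k + n) y * Ex ζ (g1s s) Ψ k φ (k + n) y) x := by
      have c1 := gexp_sub (ζ (k + n)) hX (CascAux.eB h (b1.sub (BM.sum _ b2)) (k + n) x)
        (CascAux.eB h b3 (k + n) x)
      have c2 := gexp_sub (ζ (k + n)) hX (CascAux.eB h b1 (k + n) x)
        (CascAux.eB h (BM.sum _ b2) (k + n) x)
      have c3 := gexp_sum (ζ (k + n)) hX (Finset.range n)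
        fun i hi => CascAux.eB h (b2 i hi) (k + n) x
      rw [c2, c3, gexp_const_mul] at c1
      refine c1.trans ?_
      rw [e2 k (by omega)]
      congr 2
      refine Finset.sum_congr rfl fun i hi => ?_
      rw [gexp_const_mul, e2 (k + i + 1) (by have := Finset.mem_range.1 hi; omega)]
      rfl
    change HasDerivAt (Ex ζ (g1s s) Ψ k φ (k + n + 1)) _ x
    rw [e2 k (by omega)]
    refine k2.congr_deriv ?_
    rw [e3, ← e1, ← e2 k (by omega), DD, Finset.sum_range_succ, ← add_assoc,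
      Ex_of_le (show k + n + 1 ≤ k + n + 1 from le_rfl)]
    ring

end OC11Aux

open OC11Aux in
theorem c11 (h : S_dP) : S_c11 := by
  refine ⟨202, by norm_num, fun ζ s Ψ u d hζ hΨ hd hu hl k A φ φ' hφ => ?_⟩
  have hA : 0 ≤ A := (abs_nonneg _).trans (hφ.b0 0)
  rcases le_total d k with hk | hk
  · rw [Ex_of_le hk]
    refine ⟨φ', hφ.der, fun x => (hφ.b0 x).trans (by linarith),
      fun x => (hφ.b1 x).trans (by linarith), fun x y => (hφ.lip x y).trans ?_⟩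
    exact mul_le_mul_of_nonneg_right (by linarith) (abs_nonneg _)
  · obtain ⟨n, rfl⟩ := Nat.exists_eq_add_of_le hk
    have hc := cas_g1s hζ s hΨ
    refine ⟨DD ζ (g1s s) Ψ u k φ φ' n, DD_der h hc hφ n hd hu,
      fun x => (abs_Ex_le k hφ.b0 _ x).trans (by linarith),
      fun x => (DD_bd hζ hu hφ x).trans (by linarith), ?_⟩
    exact DD_lip hc (lip (hd 0 (Nat.zero_le _)) (hu 0 (Nat.zero_le _)))
      (fun j hj => meas (hd j hj)) hu hl hφ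

end Vale.Agent.P146L.One
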