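import Vale.Agent.P146L.ODefs

/-! # P146, lower bound: the pointwise certificate of the first-block lemma -/

namespace Vale.Agent.P146L.One

open MeasureTheory ProbabilityTheory Vale.Agent.P157 Set

namespace OCertAux

theorem mid (Y b p : ℝ) (hY : 0 ≤ Y) (hp : 0 ≤ p) (hb : p ≤ b) :
    0 ≤ 2 * p ^ 2 + Y ^ 2 * b ^ 2 * (2 * b ^ 2 - 9 / 16 * (b - 2 * p) ^ 2 - 3 / 2 * p * (b - p))
      - p * Y * (3 * b * (b - 2 * p) + 8 * b * p - 2 * p ^ 2 - 3 / 2 * p * (b - p)) := by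
  have h0 : 0 ≤ p * (b - p) := mul_nonneg hp (sub_nonneg.2 hb)
  have hA : 23 / 16 * b ^ 2 ≤ 2 * b ^ 2 - 9 / 16 * (b - 2 * p) ^ 2 - 3 / 2 * p * (b - p) := by
    linarith only [h0, sq_nonneg b]
  have hB : 3 * b * (b - 2 * p) + 8 * b * p - 2 * p ^ 2 - 3 / 2 * p * (b - p) ≤ 25 / 8 * b ^ 2 := by
    linarith only [sq_nonneg (b - 2 * p)]
  have h1 := mul_le_mul_of_nonneg_left hA (show 0 ≤ Y ^ 2 * b ^ 2 by positivity)
  have h2 := mul_le_mul_of_nonneg_left hB (mul_nonneg hp hY)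
  linarith only [h1, h2, sq_nonneg (p - 25 / 32 * (Y * b ^ 2)), sq_nonneg (Y * b ^ 2)]

end OCertAux

theorem cert : S_cert := by
  intro m τ x u v w hm hτ hx hv hvu
  obtain ⟨b, rfl⟩ : ∃ b, u = x * b := ⟨u / x, by field_simp⟩
  have hb : x * b / x = b := by field_simp
  rw [hb] at hvu
  obtain ⟨p, rfl⟩ : ∃ p, v = b - p := ⟨b - v, by ring⟩
  have hp : 0 ≤ p := by linarith
  have hpb : p ≤ b := by linarith
  have h1 := OCertAux.mid (m * x ^ 2) b p (by positivity) hp hpb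
  have h2 : 0 ≤ 3 / 2 * m * x ^ 4 * b * p * (b - p) / τ := by
    have : 0 ≤ b := hp.trans hpb
    positivity
  refine (mul_nonneg_iff_of_pos_left (show 0 < x ^ 2 by positivity)).1 ?_
  refine le_of_le_of_eq (add_nonneg (add_nonneg
    (sq_nonneg (-x * w - 2 * p - 3 / 4 * (m * x ^ 2) * b * (b - 2 * p))) h1) h2) ?_
  unfold cF cF'
  rw [hb]
  field_simp
  ring

end Vale.Agent.P146L.One
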