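import Vale.Agent.P146L.ODefs

/-! # P146, lower bound, one-site part: derivatives of one cascade step -/

namespace Vale.Agent.P146L.One

open MeasureTheory ProbabilityTheory Vale.Agent.P157 Set

namespace ODPAux

theorem meas {f f' : ℝ → ℝ} (h : ∀ x, HasDerivAt f (f' x) x) : Measurable f' := by
  have e : f' = deriv f := funext fun x => (h x).deriv.symm
  rw [e]
  exact measurable_deriv f

theorem meas0 {f f' : ℝ → ℝ} (h : ∀ x, HasDerivAt f (f' x) x) : Measurable f :=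
  (continuous_iff_continuousAt.2 fun x => (h x).continuousAt).measurable

theorem lip {f f' : ℝ → ℝ} {A : ℝ} (h : ∀ x, HasDerivAt f (f' x) x) (hb : ∀ x, |f' x| ≤ A)
    (x y : ℝ) : |f x - f y| ≤ A * |x - y| :=
  convex_univ.norm_image_sub_le_of_norm_hasDerivWithin_le
    (fun z _ => (h z).hasDerivWithinAt) (fun z _ => hb z) (mem_univ y) (mem_univ x)

theorem int_mul {ν : Measure ℝ} (hν : Noise ν) {Ψ φ : ℝ → ℝ} (hΨ : LG Ψ) (hφ : BM φ)
    (m x : ℝ) : Integrable (fun z => Real.exp (m * Ψ (x + z)) * φ (x + z)) ν := by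
  obtain ⟨hm, C, hC⟩ := hφ
  exact ((hΨ.eint hν x).2 m).mul_bdd (hm.comp (measurable_const_add x)).aestronglyMeasurable
    (ae_of_all _ fun z => hC (x + z))

theorem key {ν : Measure ℝ} (hν : Noise ν) (m : ℝ) {A : ℝ} {Ψ u φ φ' : ℝ → ℝ} (hΨ : LG Ψ)
    (hd : ∀ x, HasDerivAt Ψ (u x) x) (hu : ∀ x, |u x| ≤ 1) (hφ : ∀ x, HasDerivAt φ (φ' x) x)
    (h0 : ∀ x, |φ x| ≤ A) (h1 : ∀ x, |φ' x| ≤ A) (x : ℝ) :
    HasDerivAt (fun y => ∫ z, Real.exp (m * Ψ (y + z)) * φ (y + z) ∂ν)
      (∫ z, Real.exp (m * Ψ (x + z)) * φ' (x + z) ∂ν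
        + m * ∫ z, Real.exp (m * Ψ (x + z)) * (u (x + z) * φ (x + z)) ∂ν) x := by
  have bφ : BM φ := ⟨meas0 hφ, A, h0⟩
  have bφ' : BM φ' := ⟨meas hφ, A, h1⟩
  have bu : BM u := ⟨meas hd, 1, hu⟩
  have hA : 0 ≤ A := (abs_nonneg _).trans (h0 0)
  have i1 := int_mul hν hΨ bφ' m x
  have i2 := int_mul hν hΨ (bu.mul bφ) m x
  have h := (hasDerivAt_integral_of_dominated_loc_of_deriv_le (μ := ν)
    (F := fun y z => Real.exp (m * Ψ (y + z)) * φ (y + z))
    (F' := fun y z => Real.exp (m * Ψ (y + z)) * φ' (y + z)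
      + m * (Real.exp (m * Ψ (y + z)) * (u (y + z) * φ (y + z))))
    (bound := fun z => (Real.exp |m| * (A + |m| * A)) * Real.exp (m * Ψ (x + z)))
    (Metric.ball_mem_nhds x one_pos)
    (Filter.Eventually.of_forall fun y => (int_mul hν hΨ bφ m y).aestronglyMeasurable)
    (int_mul hν hΨ bφ m x) (i1.add (i2.const_mul m)).aestronglyMeasurable
    (ae_of_all _ fun z y hy => ?_) (((hΨ.eint hν x).2 m).const_mul _)
    (ae_of_all _ fun z y _ => ?_)).2
  · rw [integral_add i1 (i2.const_mul m), integral_const_mul] at h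
    exact h
  · have e1 : |Ψ (y + z) - Ψ (x + z)| ≤ 1 := by
      refine (lip hd hu _ _).trans ?_
      rw [one_mul, add_sub_add_right_eq_sub]
      exact (mem_ball_iff_norm.1 hy).le
    have e2 : Real.exp (m * Ψ (y + z)) ≤ Real.exp |m| * Real.exp (m * Ψ (x + z)) := by
      rw [← Real.exp_add, Real.exp_le_exp]
      have e3 : m * (Ψ (y + z) - Ψ (x + z)) ≤ |m| := by
        refine (le_abs_self _).trans ?_
        rw [abs_mul]
        exact mul_le_of_le_one_right (abs_nonneg m) e1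
      linarith
    have e4 : |φ' (y + z) + m * (u (y + z) * φ (y + z))| ≤ A + |m| * A := by
      refine (abs_add_le _ _).trans (add_le_add (h1 _) ?_)
      rw [abs_mul, abs_mul]
      refine mul_le_mul_of_nonneg_left ?_ (abs_nonneg m)
      exact (mul_le_of_le_one_left (abs_nonneg _) (hu _)).trans (h0 _)
    have e5 : Real.exp (m * Ψ (y + z)) * φ' (y + z)
        + m * (Real.exp (m * Ψ (y + z)) * (u (y + z) * φ (y + z)))
        = Real.exp (m * Ψ (y + z)) * (φ' (y + z) + m * (u (y + z) * φ (y + z))) := by ring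
    rw [Real.norm_eq_abs, e5, abs_mul, abs_of_pos (Real.exp_pos _)]
    refine (mul_le_mul e2 e4 (abs_nonneg _) (by positivity)).trans (le_of_eq ?_)
    ring
  · have e1 := (((hd (y + z)).comp_add_const y z).const_mul m).exp.fun_mul
      ((hφ (y + z)).comp_add_const y z)
    refine e1.congr_deriv ?_
    ring

theorem key0 {ν : Measure ℝ} (hν : Noise ν) {Ψ u : ℝ → ℝ} (hΨ : LG Ψ)
    (hd : ∀ x, HasDerivAt Ψ (u x) x) (hu : ∀ x, |u x| ≤ 1) (x : ℝ) :
    HasDerivAt (fun y => ∫ z, Ψ (y + z) ∂ν) (∫ z, u (x + z) ∂ν) x := by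
  have := hν.prob
  exact (hasDerivAt_integral_of_dominated_loc_of_deriv_le (μ := ν)
    (F := fun y z => Ψ (y + z)) (F' := fun y z => u (y + z)) (bound := fun _ => 1)
    (Metric.ball_mem_nhds x one_pos)
    (Filter.Eventually.of_forall fun y => (hΨ.eint hν y).1.aestronglyMeasurable)
    (hΨ.eint hν x).integrable ((meas hd).comp (measurable_const_add x)).aestronglyMeasurable
    (ae_of_all _ fun z y _ => hu _) (integrable_const 1)
    (ae_of_all _ fun z y _ => (hd (y + z)).comp_add_const y z)).2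

end ODPAux

open ODPAux in
theorem dP : S_dP := by
  intro m h A Ψ u φ φ' hΨ hd hu hφ h0 h1 x
  have hν := noise_g1 h
  have hZ : 0 < ∫ z, Real.exp (m * Ψ (x + z)) ∂(g1 h) := by
    rw [← exp_mul_lse ((hΨ.eint hν x).2 m)]
    exact Real.exp_pos _
  have k1 := key hν m (A := 1) hΨ hd hu (fun y => hasDerivAt_const y (1 : ℝ))
    (fun _ => abs_one.le) (fun _ => by simp) x
  simp only [mul_one, mul_zero, integral_zero, zero_add] at k1
  constructor
  · by_cases hm : m = 0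
    · subst hm
      have e : T 0 (g1 h) Ψ = fun y => ∫ z, Ψ (y + z) ∂(g1 h) := funext fun y => if_pos rfl
      rw [e, P, gexp_zero]
      exact key0 hν hΨ hd hu x
    · have e : T m (g1 h) Ψ
          = fun y => m⁻¹ * Real.log (∫ z, Real.exp (m * Ψ (y + z)) ∂(g1 h)) :=
        funext fun y => if_neg hm
      rw [e, P, gexp_eq]
      refine ((k1.log hZ.ne').const_mul m⁻¹).congr_deriv ?_
      field_simp
  · have e : P m (g1 h) Ψ φ = fun y => (∫ z, Real.exp (m * Ψ (y + z)) * φ (y + z) ∂(g1 h))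
        / ∫ z, Real.exp (m * Ψ (y + z)) ∂(g1 h) := funext fun y => gexp_eq m _ _
    have k2 := (key hν m hΨ hd hu hφ h0 h1 x).fun_div k1 hZ.ne'
    rw [← e] at k2
    refine k2.congr_deriv ?_
    simp only [P, gexp_eq]
    field_simp
    ring

theorem stepT : S_step := by
  intro K m h Ψ hG
  have k := dP m h K Ψ (d1 Ψ) (d1 Ψ) (d2 Ψ) hG.lg hG.der hG.u1 hG.cu.der hG.cu.b0 hG.cu.b1
  have e : d1 (T m (g1 h) Ψ) = P m (g1 h) Ψ (d1 Ψ) := funext fun x => (k x).1.deriv
  refine ⟨e, fun x => ?_⟩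
  change deriv (d1 (T m (g1 h) Ψ)) x = _
  rw [e, (k x).2.deriv]
  simp only [sq]

end Vale.Agent.P146L.One
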