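import Vale.Agent.P146L.Stm
import Vale.Agent.P157.Unif
import Vale.Agent.P157.PsiLip

/-! # P146, lower bound, one-site part: definitions and interface statements -/

namespace Vale.Agent.P146L.One

open MeasureTheory ProbabilityTheory Vale.Agent.P157 Set

/-- First derivative. -/
noncomputable def d1 (Φ : ℝ → ℝ) : ℝ → ℝ := deriv Φ

/-- Second derivative. -/
noncomputable def d2 (Φ : ℝ → ℝ) : ℝ → ℝ := deriv (deriv Φ)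

/-- Third derivative. -/
noncomputable def d3 (Φ : ℝ → ℝ) : ℝ → ℝ := deriv (deriv (deriv Φ))

/-- Bounded functions with bounded Lipschitz derivative. -/
structure C11 (A : ℝ) (f f' : ℝ → ℝ) : Prop where
  der : ∀ x, HasDerivAt f (f' x) x
  b0 : ∀ x, |f x| ≤ A
  b1 : ∀ x, |f' x| ≤ A
  lip : ∀ x y, |f' x - f' y| ≤ A * |x - y|

/-- Regular even convex potentials. -/
structure G0 (K : ℝ) (Φ : ℝ → ℝ) : Prop where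
  lg : LG Φ
  even : ∀ x, Φ (-x) = Φ x
  der : ∀ x, HasDerivAt Φ (d1 Φ x) x
  cu : C11 K (d1 Φ) (d2 Φ)
  cv : C11 K (d2 Φ) (d3 Φ)
  u1 : ∀ x, |d1 Φ x| ≤ 1
  v0 : ∀ x, 0 ≤ d2 Φ x
  v1 : ∀ x, d2 Φ x ≤ 1

/-- Regular potentials whose second derivative decreases on the half line. -/
structure Gd (K : ℝ) (Φ : ℝ → ℝ) : Prop where
  g0 : G0 K Φ
  ghs : AntitoneOn (d2 Φ) (Ici 0)

/-- Mixed differences of `(s, t) ↦ Ψ (s + t) + Ψ (s - t)` are nonpositive on the quadrant. -/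
def RR (Ψ : ℝ → ℝ) : Prop := ∀ s s' t t' : ℝ, 0 ≤ s → s ≤ s' → 0 ≤ t → t ≤ t' →
  Ψ (s + t) + Ψ (s - t) + (Ψ (s' + t') + Ψ (s' - t'))
    ≤ Ψ (s' + t) + Ψ (s' - t) + (Ψ (s + t') + Ψ (s - t'))

/-- A bounded substitute of the square. -/
noncomputable def bump (x : ℝ) : ℝ := x ^ 2 / (1 + x ^ 2)

/-- A family of potentials and of expectations that is consistent with the tilted Gaussian steps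
of exponent `m` on the time interval `[a, b]`. -/
structure Flo (K m a b : ℝ) (Φ : ℝ → ℝ → ℝ) (E : ℝ → (ℝ → ℝ) → ℝ) : Prop where
  gd : ∀ τ ∈ Icc a b, Gd K (Φ τ)
  semi : ∀ s t, a ≤ s → s ≤ t → t ≤ b → Φ s = T m (g1 (t - s)) (Φ t)
  cons : ∀ s t, a ≤ s → s ≤ t → t ≤ b → ∀ F, BM F → E t F = E s (P m (g1 (t - s)) (Φ t) F)
  add : ∀ τ ∈ Icc a b, ∀ F G, BM F → BM G → E τ (fun x => F x + G x) = E τ F + E τ G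
  smul : ∀ τ ∈ Icc a b, ∀ (c : ℝ) F, BM F → E τ (fun x => c * F x) = c * E τ F
  mono : ∀ τ ∈ Icc a b, ∀ F G, BM F → BM G → (∀ x, F x ≤ G x) → E τ F ≤ E τ G
  const : ∀ τ ∈ Icc a b, ∀ c : ℝ, E τ (fun _ => c) = c

/-- `E u ^ 2`. -/
noncomputable def fa (Φ : ℝ → ℝ → ℝ) (E : ℝ → (ℝ → ℝ) → ℝ) (τ : ℝ) : ℝ :=
  E τ fun x => d1 (Φ τ) x ^ 2

/-- `E v ^ 2`. -/
noncomputable def fb (Φ : ℝ → ℝ → ℝ) (E : ℝ → (ℝ → ℝ) → ℝ) (τ : ℝ) : ℝ :=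
  E τ fun x => d2 (Φ τ) x ^ 2

/-- `E (w ^ 2 - 2 m v ^ 3)`. -/
noncomputable def fc (m : ℝ) (Φ : ℝ → ℝ → ℝ) (E : ℝ → (ℝ → ℝ) → ℝ) (τ : ℝ) : ℝ :=
  E τ fun x => d3 (Φ τ) x ^ 2 - 2 * m * d2 (Φ τ) x ^ 3

/-- `E v`. -/
noncomputable def fv (Φ : ℝ → ℝ → ℝ) (E : ℝ → (ℝ → ℝ) → ℝ) (τ : ℝ) : ℝ := E τ (d2 (Φ τ))

/-- The potential at time `r`. -/
noncomputable def Phi (n : ℕ) (ζ c : ℕ → ℝ) (r : ℝ) : ℝ → ℝ :=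
  X ζ (g1s (dq fun k => max (c k) r)) lc (n + 1)

/-- The expectation at time `r`. -/
noncomputable def Er (n : ℕ) (ζ c : ℕ → ℝ) (r : ℝ) (F : ℝ → ℝ) : ℝ :=
  Ex ζ (g1s (dq fun k => min (c k) r)) (Phi n ζ c r) 0 F (n + 1) 0

/-- The potential at time `τ` after the bottom of the block `d`. -/
noncomputable def lPhi (n : ℕ) (ζ c : ℕ → ℝ) (d : ℕ) (τ : ℝ) : ℝ → ℝ :=
  Phi n ζ c (c (d + 1) + τ)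

/-- The expectation in the block `d` started from the origin at the bottom of the block. -/
noncomputable def lEr (n : ℕ) (ζ c : ℕ → ℝ) (d : ℕ) (τ : ℝ) (F : ℝ → ℝ) : ℝ :=
  P (ζ d) (g1 τ) (lPhi n ζ c d τ) F 0

/-- The calibration of the first-block lemma. -/
noncomputable def cF (m τ x u v : ℝ) : ℝ :=
  -2 * (u / x - v) ^ 2 / x + 2 * x * (u / x) ^ 2 * (m * (u / x) + 1 / τ)
    - 3 / 2 * m * x * (u / x) * (u / x - v) * v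

/-- Its derivative along `u' = v`, `v' = w`. -/
noncomputable def cF' (m τ x u v w : ℝ) : ℝ :=
  -4 * (u / x - v) * (-(u / x - v) / x - w) / x + 2 * (u / x - v) ^ 2 / x ^ 2
    + 2 * (u / x) ^ 2 * (m * (u / x) + 1 / τ)
    + 2 * x * (3 * m * (u / x) ^ 2 + 2 * (u / x) / τ) * (-(u / x - v) / x)
    - 3 / 2 * m * ((u / x) * (u / x - v) * v + x * (-(u / x - v) / x) * (u / x - v) * v
      + x * (u / x) * (-(u / x - v) / x - w) * v + x * (u / x) * (u / x - v) * w)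

/-- Real-variable data of a block started from the origin. -/
structure Loc (Λ m W l : ℝ) (f g : ℝ → ℝ) : Prop where
  cf : ContinuousOn f (Icc 0 l)
  cg : ContinuousOn g (Icc 0 l)
  ftc : ∀ a b, 0 ≤ a → a ≤ b → b ≤ l → f b - f a = ∫ τ in a..b, g τ
  f0 : f 0 = 0
  lip : ∀ a b, 0 ≤ a → a ≤ b → b ≤ l → |g b - g a| ≤ Λ * (b - a)
  conc : ∀ a b R, 0 ≤ a → a ≤ b → b ≤ R → R ≤ W → b ≤ l →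
    g b - g a ≤ (b - a) * (Λ * R - 2 * m * (W - R) ^ 3)
  low : ∀ a b, 0 ≤ a → a ≤ b → b ≤ l → -(2 * m * (b - a)) ≤ g b - g a
  cvx : ConvexOn ℝ (Ioc 0 l) fun τ => f τ / τ

/-- Real-variable data on the whole time interval. -/
structure Glo (B Λ : ℝ) (n : ℕ) (ζ c : ℕ → ℝ) (V : ℝ) (γ g : ℝ → ℝ) : Prop where
  cγ : ContinuousOn γ (Icc 0 B)
  cg : ContinuousOn g (Icc 0 B)
  ftc : ∀ a b, 0 ≤ a → a ≤ b → b ≤ B → γ b - γ a = ∫ τ in a..b, g τ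
  γ0 : γ 0 = 0
  g0 : g 0 = V ^ 2
  V0 : 0 ≤ V
  V1 : V ≤ 1
  lip : ∀ a b, 0 ≤ a → a ≤ b → b ≤ B → |g b - g a| ≤ Λ * (b - a)
  conc : ∀ d a b R, d < n → c (d + 1) ≤ a → a ≤ b → b ≤ R → R ≤ V → b ≤ B →
    g b - g a ≤ (b - a) * (Λ * R - 2 * ζ d * (V - R) ^ 3)

/-- Blocks started from the origin, compared with the true blocks. -/
structure Blo (Λ : ℝ) (n : ℕ) (ζ c : ℕ → ℝ) (V : ℝ) (γ : ℝ → ℝ) (lγ lg : ℕ → ℝ → ℝ) :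
    Prop where
  loc : ∀ d, d < n → Loc Λ (ζ d) (V - c (d + 1)) (c d - c (d + 1)) (lγ d) (lg d)
  close : ∀ d τ, d < n → 0 ≤ τ → τ ≤ c d - c (d + 1) →
    |γ (c (d + 1) + τ) - lγ d τ| ≤ Λ * c (d + 1)
  top : lg 0 0 = 1
  base : ∀ d, d < n → c (d + 1) = 0 → lg d 0 = V ^ 2

/-- Optimality conditions. -/
structure Opt (B E : ℝ) (n : ℕ) (c : ℕ → ℝ) (γ : ℝ → ℝ) : Prop where
  k0 : ∀ k, 1 ≤ k → k ≤ n → γ (c k) = c k / B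
  up : ∀ d σ, d + 1 < n → c (d + 1) ≤ σ → σ ≤ c d → ∫ τ in c (d + 1)..σ, (γ τ - τ / B) ≤ E
  dn : ∀ d σ, 1 ≤ d → d < n → c (d + 1) ≤ σ → σ ≤ c d → -E ≤ ∫ τ in σ..c d, (γ τ - τ / B)

/-! ## Interface statements -/

/-- Derivatives of one cascade step. -/
def S_dP : Prop := ∀ (m h A : ℝ) (Ψ u φ φ' : ℝ → ℝ), LG Ψ → (∀ x, HasDerivAt Ψ (u x) x) →
  (∀ x, |u x| ≤ 1) → (∀ x, HasDerivAt φ (φ' x) x) → (∀ x, |φ x| ≤ A) → (∀ x, |φ' x| ≤ A) → ∀ x,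
  HasDerivAt (T m (g1 h) Ψ) (P m (g1 h) Ψ u x) x ∧
  HasDerivAt (P m (g1 h) Ψ φ) (P m (g1 h) Ψ φ' x + m * (P m (g1 h) Ψ (fun y => u y * φ y) x
    - P m (g1 h) Ψ u x * P m (g1 h) Ψ φ x)) x

/-- First and second derivative after one step. -/
def S_step : Prop := ∀ (K m h : ℝ) (Ψ : ℝ → ℝ), G0 K Ψ →
  d1 (T m (g1 h) Ψ) = P m (g1 h) Ψ (d1 Ψ) ∧
  ∀ x, d2 (T m (g1 h) Ψ) x = P m (g1 h) Ψ (d2 Ψ) x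
    + m * (P m (g1 h) Ψ (fun y => d1 Ψ y ^ 2) x - P m (g1 h) Ψ (d1 Ψ) x ^ 2)

/-- Conditional expectations keep `C11` bounds, uniformly in the number of levels. -/
def S_c11 : Prop := ∃ C : ℝ, 1 ≤ C ∧ ∀ (ζ s : ℕ → ℝ) (Ψ : ℝ → ℝ) (u : ℕ → ℝ → ℝ) (d : ℕ),
  Zok ζ → LG Ψ → (∀ j, j ≤ d → ∀ x, HasDerivAt (X ζ (g1s s) Ψ j) (u j x) x) →
  (∀ j, j ≤ d → ∀ x, |u j x| ≤ 1) → (∀ j, j ≤ d → ∀ x y, |u j x - u j y| ≤ 2 * |x - y|) →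
  ∀ (k : ℕ) (A : ℝ) (φ φ' : ℝ → ℝ), C11 A φ φ' → ∃ ψ', C11 (C * A) (Ex ζ (g1s s) Ψ k φ d) ψ'

/-- Uniform regularity of the cascade started from `log cosh`. -/
def S_g0 : Prop := ∃ K : ℝ, 1 ≤ K ∧ ∀ (ζ s : ℕ → ℝ) (d : ℕ), Zok ζ →
  G0 K (X ζ (g1s s) lc d) ∧ d1 (X ζ (g1s s) lc d) = Ex ζ (g1s s) lc 0 Real.tanh d ∧
  d2 (X ζ (g1s s) lc d) = aa ζ (g1s s) lc Real.tanh (fun x => 1 - Real.tanh x ^ 2) d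

/-- One step preserves `RR`. -/
def S_rrT : Prop := ∀ (m h : ℝ) (Ψ : ℝ → ℝ), 0 ≤ m → LG Ψ → (∀ x, Ψ (-x) = Ψ x) →
  (∀ x y, |Ψ x - Ψ y| ≤ |x - y|) → RR Ψ → RR (T m (g1 h) Ψ)

/-- `RR` holds at the top and gives the monotonicity of the second derivative. -/
def S_ghs : Prop := RR lc ∧ ∀ (K : ℝ) (Φ : ℝ → ℝ), G0 K Φ → RR Φ → AntitoneOn (d2 Φ) (Ici 0)

/-- Uniform regularity, with monotonicity. -/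
def S_gd : Prop := ∃ K : ℝ, 1 ≤ K ∧ ∀ (ζ s : ℕ → ℝ) (d : ℕ), Zok ζ →
  Gd K (X ζ (g1s s) lc d) ∧ d1 (X ζ (g1s s) lc d) = Ex ζ (g1s s) lc 0 Real.tanh d ∧
  d2 (X ζ (g1s s) lc d) = aa ζ (g1s s) lc Real.tanh (fun x => 1 - Real.tanh x ^ 2) d

/-- Small steps of the tilted kernel. -/
def S_sv : Prop := ∃ C : ℝ, 0 ≤ C ∧ ∀ (m h A : ℝ) (Ψ : ℝ → ℝ), 0 ≤ m → m ≤ 1 → 0 ≤ h → h ≤ 1 →
  LG Ψ → (∀ x y, |Ψ x - Ψ y| ≤ |x - y|) →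
  (∀ f : ℝ → ℝ, (∀ x, |f x| ≤ A) → (∀ x y, |f x - f y| ≤ A * |x - y|) →
    ∀ x, |P m (g1 h) Ψ f x - f x| ≤ C * A * √h) ∧
  ∀ f f' : ℝ → ℝ, C11 A f f' → ∀ x, |P m (g1 h) Ψ f x - f x| ≤ C * A * h ∧
    |P m (g1 h) Ψ (fun y => f y ^ 2) x - P m (g1 h) Ψ f x ^ 2 - h * f' x ^ 2|
      ≤ C * A ^ 2 * (h * √h)

/-- Derivatives from uniform one-sided expansions. -/
def S_hold : Prop := ∀ (a b C M : ℝ) (f g : ℝ → ℝ), (∀ t ∈ Icc a b, |g t| ≤ M) →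
  (∀ s t, a ≤ s → s ≤ t → t ≤ b → t - s ≤ 1 →
    |f t - f s - (t - s) * g t| ≤ C * ((t - s) * √(t - s))) →
  ContinuousOn f (Icc a b) ∧ ContinuousOn g (Ioc a b) ∧ ∀ t ∈ Ioo a b, HasDerivAt f (g t) t

/-- Time derivatives along a flow. -/
def S_flow1 : Prop := ∀ (K m a b : ℝ) (Φ : ℝ → ℝ → ℝ) (E : ℝ → (ℝ → ℝ) → ℝ), 1 ≤ K → 0 ≤ m →
  m ≤ 1 → Flo K m a b Φ E →
  ContinuousOn (fa Φ E) (Icc a b) ∧ ContinuousOn (fb Φ E) (Icc a b) ∧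
  ∀ τ ∈ Ioo a b, HasDerivAt (fa Φ E) (fb Φ E τ) τ ∧ HasDerivAt (fb Φ E) (fc m Φ E τ) τ

/-- Inequalities along a flow. -/
def S_flow2 : Prop := ∃ C : ℝ, 1 ≤ C ∧ ∀ (K m a b : ℝ) (Φ : ℝ → ℝ → ℝ)
  (E : ℝ → (ℝ → ℝ) → ℝ), 1 ≤ K → 0 ≤ m → m ≤ 1 → Flo K m a b Φ E →
  (∀ s t, a ≤ s → s ≤ t → t ≤ b →
    fv Φ E s ≤ fv Φ E t + (fa Φ E t - fa Φ E s) ∧ E t bump - E s bump ≤ C * (t - s)) ∧
  ∀ τ ∈ Icc a b, 0 ≤ fb Φ E τ ∧ fb Φ E τ ≤ 1 ∧ -(2 * m) ≤ fc m Φ E τ ∧ fc m Φ E τ ≤ K ^ 2 ∧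
    fv Φ E τ ≤ d2 (Φ τ) 0 ∧
    ∀ y, 0 ≤ y → y ≤ fv Φ E τ → fc m Φ E τ ≤ 2 * K ^ 2 * E τ bump - 2 * m * y ^ 3

/-- The pointwise certificate. -/
def S_cert : Prop := ∀ m τ x u v w : ℝ, 0 ≤ m → 0 < τ → 0 < x → 0 ≤ v → v ≤ u / x →
  0 ≤ w ^ 2 - 2 * m * v ^ 3 - 2 * v ^ 2 / τ + 2 * u ^ 2 / τ ^ 2
    + cF' m τ x u v w - cF m τ x u v * (x / τ - m * u)

/-- The first-block inequality. -/
def S_lemA : Prop := ∀ (K m τ : ℝ) (Φ : ℝ → ℝ), Gd K Φ → 0 ≤ m → 0 < τ →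
  0 ≤ P m (g1 τ) Φ (fun x => d3 Φ x ^ 2 - 2 * m * d2 Φ x ^ 3 - 2 * d2 Φ x ^ 2 / τ
    + 2 * d1 Φ x ^ 2 / τ ^ 2) 0

/-- Normal forms inside a block. -/
def S_norm : Prop := ∀ (n : ℕ) (ζ c : ℕ → ℝ) (d : ℕ) (r : ℝ), Zok ζ → CAdm n c → d ≤ n →
  c (d + 1) ≤ r → r ≤ c d →
  Phi n ζ c r = T (ζ d) (g1 (c d - r)) (X ζ (g1s (dq c)) lc d) ∧
  ∀ F, BM F → Er n ζ c r F
    = Ex ζ (g1s (dq c)) lc (d + 1) (P (ζ d) (g1 (r - c (d + 1))) (Phi n ζ c r) F) (n + 1) 0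

/-- The global and the local flows. -/
def S_fl : Prop := ∀ (K : ℝ) (n : ℕ) (ζ c : ℕ → ℝ) (d : ℕ), Zok ζ → CAdm n c → d ≤ n →
  (∀ r, Gd K (Phi n ζ c r)) →
  Flo K (ζ d) (c (d + 1)) (c d) (Phi n ζ c) (Er n ζ c) ∧
  Flo K (ζ d) 0 (c d - c (d + 1)) (lPhi n ζ c d) (lEr n ζ c d)

/-- Values at the levels. -/
def S_lev : Prop := ∀ (n : ℕ) (ζ c : ℕ → ℝ), ZAdm n ζ → CAdm n c →
  (∀ k, 1 ≤ k → k ≤ n → fa (Phi n ζ c) (Er n ζ c) (c k) = rho1 n ζ c k) ∧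
  (∀ F, Er n ζ c 0 F = F 0) ∧
  d2 (Phi n ζ c 0) 0 = 1 - QQ ζ (rho1 n ζ c) n ∧ d2 (Phi n ζ c (c 1)) 0 = 1

/-- Dependence of one step on the exponent. -/
def S_sens1 : Prop := ∀ H : ℝ, ∃ C : ℝ, 0 ≤ C ∧ ∀ (m m' h : ℝ) (Ψ : ℝ → ℝ), 0 ≤ m → m ≤ 1 →
  0 ≤ m' → m' ≤ 1 → 0 ≤ h → h ≤ H → LG Ψ → (∀ x y, |Ψ x - Ψ y| ≤ |x - y|) → ∀ x,
  |T m (g1 h) Ψ x - T m' (g1 h) Ψ x| ≤ C * |m - m'| ∧
  ∀ F : ℝ → ℝ, Measurable F → (∀ y, |F y| ≤ 1) →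
    |P m (g1 h) Ψ F x - P m' (g1 h) Ψ F x| ≤ C * |m - m'|

/-- Moving one level changes the overlap function by the weight of the level. -/
def S_sens : Prop := ∀ B : ℝ, ∃ C : ℝ, 0 ≤ C ∧ ∀ (n : ℕ) (ζ c : ℕ → ℝ) (k : ℕ) (τ : ℝ),
  ZAdm n ζ → CAdm n c → c 0 ≤ B → 1 ≤ k → k ≤ n → c (k + 1) ≤ τ → τ ≤ c (k - 1) →
  |rho1 n ζ (Function.update c k τ) k - fa (Phi n ζ c) (Er n ζ c) τ| ≤ C * (ζ (k - 1) - ζ k)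

/-- Derivative of the value when one level moves. -/
def S_move : Prop := ∀ (n : ℕ) (ζ c : ℕ → ℝ) (k : ℕ), ZAdm n ζ → CAdm n c → 1 ≤ k → k ≤ n →
  ContinuousOn (fun τ => rho1 n ζ (Function.update c k τ) k) (Icc (c (k + 1)) (c (k - 1))) ∧
  ∀ σ ∈ Icc (c (k + 1)) (c (k - 1)), psi n ζ (Function.update c k σ) lc - psi n ζ c lc
    = -((ζ (k - 1) - ζ k) / 2) * ∫ τ in c k..σ, rho1 n ζ (Function.update c k τ) k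

/-- First order conditions at a minimizer. -/
def S_kkt : Prop := ∀ (L : ℕ) (ζ q : ℕ → ℝ) (β : ℝ), ZAdm L ζ → 0 < β → IsMinQ L ζ β q →
  (∀ k, 1 ≤ k → k ≤ L → rho1 L ζ (β ^ 2 • q) k = q k) ∧
  ∀ k, 1 ≤ k → k < L → ∀ σ ∈ Icc ((β ^ 2 • q) (k + 1)) ((β ^ 2 • q) (k - 1)),
    0 ≤ ∫ τ in (β ^ 2 • q) k..σ, (τ / β ^ 2 - rho1 L ζ (Function.update (β ^ 2 • q) k τ) k)

/-- Existence of a minimizer, and the cost of the constraint at the root. -/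
def S_min : Prop := ∀ (L : ℕ) (ζ : ℕ → ℝ) (β : ℝ), ZAdm L ζ → ∃ q, IsMinQ L ζ β q ∧
  ∀ q' : ℕ → ℝ, CAdm L q' → q' 0 = 1 → GG L ζ β q ≤ GG L ζ β q' + β ^ 2 * ζ (L - 1)

/-- The global real-variable data. -/
def S_glo : Prop := ∃ Λ : ℝ, 1 ≤ Λ ∧ ∀ (n : ℕ) (ζ c : ℕ → ℝ), ZAdm n ζ → CAdm n c →
  Glo (c 0) Λ n ζ c (d2 (Phi n ζ c 0) 0) (fa (Phi n ζ c) (Er n ζ c)) (fb (Phi n ζ c) (Er n ζ c)) ∧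
  ∀ r, 0 ≤ r → r ≤ c 0 →
    d2 (Phi n ζ c 0) 0 - r ≤ d2 (Phi n ζ c r) 0 ∧ Er n ζ c r bump ≤ Λ * r

/-- The local real-variable data of a flow started from the origin. -/
def S_loc : Prop := ∀ K : ℝ, 1 ≤ K → ∃ Λ : ℝ, 1 ≤ Λ ∧ ∀ (m l W : ℝ) (Φ : ℝ → ℝ → ℝ),
  0 ≤ m → m ≤ 1 → 0 ≤ l → W ≤ d2 (Φ 0) 0 → Flo K m 0 l Φ (fun τ F => P m (g1 τ) (Φ τ) F 0) →
  Loc Λ m W l (fa Φ fun τ F => P m (g1 τ) (Φ τ) F 0) (fb Φ fun τ F => P m (g1 τ) (Φ τ) F 0)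

/-- The blocks started from the origin. -/
def S_blo : Prop := ∃ Λ : ℝ, 1 ≤ Λ ∧ ∀ (n : ℕ) (ζ c : ℕ → ℝ), ZAdm n ζ → CAdm n c →
  Blo Λ n ζ c (d2 (Phi n ζ c 0) 0) (fa (Phi n ζ c) (Er n ζ c))
    (fun d => fa (lPhi n ζ c d) (lEr n ζ c d)) (fun d => fb (lPhi n ζ c d) (lEr n ζ c d))

/-- The optimality conditions for the overlap function. -/
def S_opt : Prop := ∀ β : ℝ, 0 < β → ∃ C : ℝ, 0 ≤ C ∧ ∀ (L : ℕ) (ζ q : ℕ → ℝ) (D : ℝ),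
  ZAdm L ζ → (∀ k, k < L → ζ k - ζ (k + 1) ≤ D) → IsMinQ L ζ β q →
  Opt (β ^ 2) (C * D) L (β ^ 2 • q) (fa (Phi L ζ (β ^ 2 • q)) (Er L ζ (β ^ 2 • q)))

/-- No long first block. -/
def S_fb : Prop := ∀ (Λ m W l B E ε μ a : ℝ) (f g : ℝ → ℝ), Loc Λ m W l f g → 0 < a →
  2 * a ≤ l → 0 < μ → 0 ≤ E → 0 ≤ ε → (∀ s t, 0 ≤ s → s ≤ t → t ≤ a → g t - g s ≤ -(μ * (t - s))) →
  |f l - l / B| ≤ ε → (∀ σ, 0 ≤ σ → σ ≤ l → ∫ τ in (0 : ℝ)..σ, (f τ - τ / B) ≤ E + ε * σ) →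
  (∀ σ, 0 ≤ σ → σ ≤ l → -(E + ε * l) ≤ ∫ τ in σ..l, (f τ - τ / B)) →
  μ * a ^ 3 / 96 ≤ E + 2 * ε * a

/-- Lower half of marginality. -/
def S_lo : Prop := ∀ (β Λ E : ℝ) (n : ℕ) (ζ c : ℕ → ℝ) (V : ℝ) (γ g : ℝ → ℝ)
  (lγ lg : ℕ → ℝ → ℝ), 1 < β → 1 ≤ Λ → 0 ≤ E → ZAdm n ζ → CAdm n c → c 0 = β ^ 2 → c n = 0 →
  Glo (β ^ 2) Λ n ζ c V γ g → Blo Λ n ζ c V γ lγ lg → Opt (β ^ 2) E n c γ →
  (1 - β * V) ^ 3 ≤ 6 * β ^ 6 * Λ ^ 2 * E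

/-- Little mass near zero. -/
def S_o2 : Prop := ∀ β Λ : ℝ, 1 < β → 1 ≤ Λ → ∃ K : ℝ, 1 ≤ K ∧ ∀ (E : ℝ) (n : ℕ) (ζ c : ℕ → ℝ)
  (V : ℝ) (γ g : ℝ → ℝ) (lγ lg : ℕ → ℝ → ℝ), 0 ≤ E → ZAdm n ζ → CAdm n c → c 0 = β ^ 2 →
  c n = 0 → Glo (β ^ 2) Λ n ζ c V γ g → Blo Λ n ζ c V γ lγ lg → Opt (β ^ 2) E n c γ →
  3 / 4 ≤ β * V → ∀ d, d + 1 < n → c (d + 1) < c d → ζ d ^ 3 ≤ K * c (d + 1) ∨ ζ d ^ 10 ≤ K * E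

/-- Upper half of marginality. -/
def S_hi : Prop := ∀ (β Λ E : ℝ) (n : ℕ) (ζ c : ℕ → ℝ) (V : ℝ) (γ g : ℝ → ℝ)
  (lγ lg : ℕ → ℝ → ℝ), 1 < β → ZAdm n ζ → CAdm n c → c 0 = β ^ 2 → c n = 0 →
  Glo (β ^ 2) Λ n ζ c V γ g → Blo Λ n ζ c V γ lγ lg → Opt (β ^ 2) E n c γ →
  ∃ d, d < n ∧ c (d + 1) = 0 ∧ 0 < c d ∧ β * V - 1 ≤ β ^ 4 * ζ d

end Vale.Agent.P146L.One
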