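import Vale.Agent.P146L.ODefs

/-! # P146, lower bound, one-site part: no long first block -/

namespace Vale.Agent.P146L.One

open MeasureTheory ProbabilityTheory Vale.Agent.P157 Set

namespace OFbAux

theorem poly (A B C p q : ℝ) : ∫ τ in p..q, (A + B * τ + C * τ ^ 2) =
    A * (q - p) + B * (q ^ 2 - p ^ 2) / 2 + C * (q ^ 3 - p ^ 3) / 3 := by
  have h : ∀ τ : ℝ, HasDerivAt (fun τ : ℝ => A * τ + B / 2 * τ ^ 2 + C / 3 * τ ^ 3)
      (A + B * τ + C * τ ^ 2) τ := fun τ =>
    ((((hasDerivAt_id τ).const_mul A).add ((hasDerivAt_pow 2 τ).const_mul (B / 2))).add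
      ((hasDerivAt_pow 3 τ).const_mul (C / 3))).congr_deriv (by push_cast; ring)
  rw [intervalIntegral.integral_eq_sub_of_hasDerivAt (fun τ _ => h τ)
    (Continuous.intervalIntegrable (by fun_prop) _ _)]
  ring

theorem le_poly {u : ℝ → ℝ} {A B C p q l : ℝ} (hu : ContinuousOn u (Icc 0 l)) (hp : 0 ≤ p)
    (hpq : p ≤ q) (hq : q ≤ l) (h : ∀ τ ∈ Icc p q, u τ ≤ A + B * τ + C * τ ^ 2) :
    ∫ τ in p..q, u τ ≤ A * (q - p) + B * (q ^ 2 - p ^ 2) / 2 + C * (q ^ 3 - p ^ 3) / 3 := by
  rw [← poly]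
  exact intervalIntegral.integral_mono_on hpq
    ((hu.mono (Icc_subset_Icc hp hq)).intervalIntegrable_of_Icc hpq)
    (Continuous.intervalIntegrable (by fun_prop) _ _) h

theorem poly_le {u : ℝ → ℝ} {A B C p q l : ℝ} (hu : ContinuousOn u (Icc 0 l)) (hp : 0 ≤ p)
    (hpq : p ≤ q) (hq : q ≤ l) (h : ∀ τ ∈ Icc p q, A + B * τ + C * τ ^ 2 ≤ u τ) :
    A * (q - p) + B * (q ^ 2 - p ^ 2) / 2 + C * (q ^ 3 - p ^ 3) / 3 ≤ ∫ τ in p..q, u τ := by
  rw [← poly]
  exact intervalIntegral.integral_mono_on hpq (Continuous.intervalIntegrable (by fun_prop) _ _)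
    ((hu.mono (Icc_subset_Icc hp hq)).intervalIntegrable_of_Icc hpq) h

theorem slope {Λ m W l μ a : ℝ} {f g : ℝ → ℝ} (h : Loc Λ m W l f g) (hal : a ≤ l)
    (hg : ∀ s t, 0 ≤ s → s ≤ t → t ≤ a → g t - g s ≤ -(μ * (t - s))) {s t : ℝ} (hs : 0 < s)
    (hst : s ≤ t) (ht : t ≤ a) : f t / t + μ / 2 * (t - s) ≤ f s / s := by
  have h1 := poly_le (A := g s + μ * s) (B := -μ) (C := 0) h.cg le_rfl hs.le
    (hst.trans (ht.trans hal)) fun τ hτ => by
      have := hg τ s hτ.1 hτ.2 (hst.trans ht)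
      linarith
  have h2 := le_poly (A := g s + μ * s) (B := -μ) (C := 0) h.cg hs.le hst (ht.trans hal)
    fun τ hτ => by
      have := hg s τ hs.le hτ.1 (hτ.2.trans ht)
      linarith
  rw [← h.ftc 0 s le_rfl hs.le (hst.trans (ht.trans hal)), h.f0] at h1
  rw [← h.ftc s t hs.le hst (ht.trans hal)] at h2
  have ht0 : 0 < t := hs.trans_le hst
  rw [div_add' _ _ _ ht0.ne', div_le_div_iff₀ ht0 hs]
  have h3 := mul_le_mul_of_nonneg_right h1 (sub_nonneg.2 hst)
  have h4 := mul_le_mul_of_nonneg_right h2 hs.le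
  linarith

end OFbAux

open OFbAux in
theorem fb1 : S_fb := by
  intro Λ m W l B E ε μ a f g h ha hal hμ hE hε hg hl h1 h2
  have hal' : a ≤ l := by linarith
  have hl0 : 0 < l := by linarith
  have hu : ContinuousOn (fun τ => f τ - τ / B) (Icc 0 l) := h.cf.sub (by fun_prop)
  have he : ∀ t : ℝ, 0 < t → f t - t / B = t * (f t / t - 1 / B) := fun t ht => by field_simp
  rcases le_or_gt (1 / B) (f (a / 2) / (a / 2)) with hc | hc
  · have h3 := poly_le (A := 0) (B := μ * a / 4) (C := -(μ / 2)) hu le_rfl (half_pos ha).le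
      (by linarith) fun τ hτ => by
        rcases hτ.1.eq_or_lt with rfl | h0
        · simp [h.f0]
        · have h4 := slope h hal' hg h0 hτ.2 (by linarith)
          have h5 : μ / 2 * (a / 2 - τ) ≤ f τ / τ - 1 / B := by linarith
          rw [he τ h0]
          have := mul_le_mul_of_nonneg_left h5 h0.le
          linarith
    have h4 := h1 (a / 2) (half_pos ha).le (by linarith)
    have h5 := mul_nonneg hε ha.le
    linarith
  · have hla : 0 < l - a := by linarith
    have h3 : f a / a - 1 / B ≤ -(μ * a / 4) := by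
      have := slope h hal' hg (half_pos ha) (half_le_self ha.le) le_rfl
      linarith
    have h4 : f l / l - 1 / B ≤ ε / l := by
      rw [le_div_iff₀ hl0, mul_comm, ← he l hl0]
      exact (le_abs_self _).trans hl
    obtain ⟨c, hc0⟩ : ∃ c, c = μ * a ^ 2 / 4 / (l - a) := ⟨_, rfl⟩
    have hc1 : c * (l - a) = μ * a ^ 2 / 4 := by rw [hc0]; field_simp
    have h5 := le_poly (A := ε - c * l) (B := c) (C := 0) hu ha.le hal' le_rfl fun τ hτ => by
      have h0 : 0 < τ := ha.trans_le hτ.1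
      have a1 : 0 ≤ (l - τ) / (l - a) := div_nonneg (sub_nonneg.2 hτ.2) hla.le
      have a2 : 0 ≤ (τ - a) / (l - a) := div_nonneg (sub_nonneg.2 hτ.1) hla.le
      have a3 : (l - τ) / (l - a) + (τ - a) / (l - a) = 1 := by field_simp; ring
      have a4 : ((l - τ) / (l - a)) • a + ((τ - a) / (l - a)) • l = τ := by
        simp only [smul_eq_mul]; field_simp; ring
      have a5 := h.cvx.2 (⟨ha, hal'⟩ : a ∈ Ioc 0 l) (⟨hl0, le_rfl⟩ : l ∈ Ioc 0 l) a1 a2 a3
      have a6 : c * (l - τ) = (l - τ) / (l - a) * (μ * a / 4) * a := by rw [hc0]; field_simp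
      rw [a4] at a5
      simp only [smul_eq_mul] at a5
      generalize (l - τ) / (l - a) = x at a1 a3 a5 a6
      generalize (τ - a) / (l - a) = y at a2 a3 a5
      have b1 := mul_le_mul_of_nonneg_left h3 a1
      have b2 := mul_le_mul_of_nonneg_left h4 a2
      have b3 : y * (ε / l) ≤ ε / l := mul_le_of_le_one_left (by positivity) (by linarith)
      have b4 : x * (1 / B) + y * (1 / B) = 1 / B := by rw [← add_mul, a3, one_mul]
      have b5 : f τ / τ - 1 / B ≤ -(x * (μ * a / 4)) + ε / l := by linarith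
      have b6 := mul_le_mul_of_nonneg_left b5 h0.le
      have b7 : τ * (ε / l) ≤ ε := by
        rw [← mul_div_assoc, div_le_iff₀ hl0, mul_comm]
        exact mul_le_mul_of_nonneg_left hτ.2 hε
      have b8 : x * (μ * a / 4) * a ≤ x * (μ * a / 4) * τ :=
        mul_le_mul_of_nonneg_left hτ.1 (by positivity)
      rw [he τ h0]
      linarith
    have h6 := h2 a ha.le hal'
    have h7 : c * (l - a) * (l - a) = μ * a ^ 2 / 4 * (l - a) := by rw [hc1]
    have h8 : μ * a ^ 2 / 8 * (l / 2) ≤ μ * a ^ 2 / 8 * (l - a) :=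
      mul_le_mul_of_nonneg_left (by linarith) (by positivity)
    have h9 := mul_nonneg hε ha.le
    have h10 : μ * a ^ 2 / 16 * l ≤ E + 2 * ε * l := by linarith
    have h11 := mul_le_mul_of_nonneg_right h10 ha.le
    have h12 := mul_le_mul_of_nonneg_left hal' hE
    have h13 : 0 ≤ μ * a ^ 3 * l := by positivity
    refine le_of_mul_le_mul_right ?_ hl0
    linarith

end Vale.Agent.P146L.One
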