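import Vale.Agent.P146L.ODefs

/-! # P146, lower bound, one-site part: the global and the local flows -/

namespace Vale.Agent.P146L.One

open MeasureTheory ProbabilityTheory Vale.Agent.P157 Set

namespace OFlAux

theorem eb (v : ℝ) {F : ℝ → ℝ} (hF : BM F) (w : ℝ) : EInt (g1 v) fun z => F (w + z) := by
  have := (noise_g1 v).prob
  obtain ⟨hm, C, hC⟩ := hF
  exact BM.eint ⟨hm.comp (measurable_const_add w), C, fun z => hC _⟩

theorem semi (h : S_norm) {n : ℕ} {ζ c : ℕ → ℝ} {d : ℕ} (hζ : Zok ζ) (hc : CAdm n c)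
    (hd : d ≤ n) {s t : ℝ} (h1 : c (d + 1) ≤ s) (h2 : s ≤ t) (h3 : t ≤ c d) :
    Phi n ζ c s = T (ζ d) (g1 (t - s)) (Phi n ζ c t) := by
  rw [(h n ζ c d s hζ hc hd h1 (h2.trans h3)).1, (h n ζ c d t hζ hc hd (h1.trans h2) h3).1,
    ← T_conv (hζ.nn d) (noise_g1 _) (noise_g1 _) ((cas_g1s hζ _ lg_lc).lgX d),
    ← g1_conv (by linarith) (by linarith)]
  congr 2
  ring

theorem pc {m a b : ℝ} (hm : 0 ≤ m) (ha : 0 ≤ a) (hb : 0 ≤ b) {Ψ F : ℝ → ℝ} (hΨ : LG Ψ)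
    (hF : BM F) : P m (g1 (b + a)) Ψ F = P m (g1 a) (T m (g1 b) Ψ) (P m (g1 b) Ψ F) := by
  rw [g1_conv hb ha, P_conv hm (noise_g1 _) (noise_g1 _) hΨ hF]

end OFlAux

open OFlAux

theorem fl (h : S_norm) : S_fl := by
  intro K n ζ c d hζ hc hd hG
  have hlg : ∀ r, LG (Phi n ζ c r) := fun r => (hG r).g0.lg
  refine ⟨⟨fun τ _ => hG τ, fun s t h1 h2 h3 => semi h hζ hc hd h1 h2 h3, ?_,
    fun τ _ F G hF hG' => (cas_g1s hζ _ (hlg τ)).Ex_add 0 hF hG' _ _,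
    fun τ _ a F _ => Ex_const_mul 0 a F _ _,
    fun τ _ F G hF hG' hle => (cas_g1s hζ _ (hlg τ)).Ex_mono 0 hF hG' hle _ _,
    fun τ _ a => (cas_g1s hζ _ (hlg τ)).Ex_const 0 a _ _⟩,
    ⟨fun τ _ => hG _, fun s t h1 h2 h3 => ?_, ?_, ?_, ?_, ?_, ?_⟩⟩
  · intro s t h1 h2 h3 F hF
    rw [(h n ζ c d t hζ hc hd (h1.trans h2) h3).2 F hF,
      (h n ζ c d s hζ hc hd h1 (h2.trans h3)).2 _ (hF.kernel _ (noise_g1 _) (hlg t)),
      semi h hζ hc hd h1 h2 h3,
      ← pc (hζ.nn d) (by linarith) (by linarith) (hlg t) hF]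
    have e : t - s + (s - c (d + 1)) = t - c (d + 1) := by ring
    rw [e]
  · have e : t - s = c (d + 1) + t - (c (d + 1) + s) := by ring
    rw [e]
    exact semi h hζ hc hd (by linarith) (by linarith) (by linarith)
  · intro s t h1 h2 h3 F hF
    have e : t - s = c (d + 1) + t - (c (d + 1) + s) := by ring
    have h4 : lPhi n ζ c d s = T (ζ d) (g1 (t - s)) (lPhi n ζ c d t) := by
      rw [e]
      exact semi h hζ hc hd (by linarith) (by linarith) (by linarith)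
    unfold lEr
    rw [h4, ← pc (Ψ := lPhi n ζ c d t) (hζ.nn d) h1 (by linarith) (hlg _) hF, sub_add_cancel]
  · intro τ _ F G hF hG'
    have := (noise_g1 τ).prob
    exact gexp_add _ ((hlg _).eint (noise_g1 τ) 0) (eb τ hF 0) (eb τ hG' 0)
  · intro τ _ a F _
    exact gexp_const_mul _ _ _ a
  · intro τ _ F G hF hG' hle
    have := (noise_g1 τ).prob
    exact gexp_mono _ ((hlg _).eint (noise_g1 τ) 0) (eb τ hF 0) (eb τ hG' 0) fun z => hle _
  · intro τ _ a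
    have := (noise_g1 τ).prob
    exact gexp_const _ ((hlg _).eint (noise_g1 τ) 0) a

end Vale.Agent.P146L.One
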