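import Vale.Agent.P146L.ODefs

/-! # Time derivatives along a flow -/

namespace Vale.Agent.P146L.One

open MeasureTheory ProbabilityTheory Vale.Agent.P157 Set

namespace OFlow1Aux

theorem lip_of_der {f f' : ℝ → ℝ} {A : ℝ} (h : ∀ x, HasDerivAt f (f' x) x)
    (hb : ∀ x, |f' x| ≤ A) (x y : ℝ) : |f x - f y| ≤ A * |x - y| := by
  have := (convex_univ (𝕜 := ℝ) (E := ℝ)).norm_image_sub_le_of_norm_hasDerivWithin_le
    (f := f) (f' := f') (C := A) (fun z _ => (h z).hasDerivWithinAt)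
    (fun z _ => by simpa using hb z) (mem_univ y) (mem_univ x)
  simpa using this

theorem bm_of_lip {f : ℝ → ℝ} {A B : ℝ} (h0 : ∀ x, |f x| ≤ B)
    (h : ∀ x y, |f x - f y| ≤ A * |x - y|) : BM f :=
  ⟨(LipschitzWith.of_dist_le' (K := A) (fun x y => by simpa [Real.dist_eq] using h x y)
    ).continuous.measurable, B, h0⟩

theorem bm0 {A : ℝ} {f f' : ℝ → ℝ} (h : C11 A f f') : BM f :=
  bm_of_lip h.b0 (lip_of_der h.der h.b1)

theorem bm1 {A : ℝ} {f f' : ℝ → ℝ} (h : C11 A f f') : BM f' := bm_of_lip h.b1 h.lip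

variable {K m a b : ℝ} {Φ : ℝ → ℝ → ℝ} {E : ℝ → (ℝ → ℝ) → ℝ}

theorem lin (hF : Flo K m a b Φ E) {s : ℝ} (hs : s ∈ Icc a b) {G H : ℝ → ℝ} (hG : BM G)
    (hH : BM H) (h B : ℝ) : E s (fun x => G x + h * H x + B) = E s G + h * E s H + B := by
  rw [hF.add s hs (fun x => G x + h * H x) (fun _ => B) (hG.add (hH.const_mul h)) (BM.const B),
    hF.add s hs G (fun x => h * H x) hG (hH.const_mul h), hF.smul s hs h H hH, hF.const s hs]

theorem comb (hF : Flo K m a b Φ E) {s : ℝ} (hs : s ∈ Icc a b) {F G H : ℝ → ℝ} (h0 : BM F)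
    (hG : BM G) (hH : BM H) {h B : ℝ} (hb : ∀ x, |F x - G x - h * H x| ≤ B) :
    |E s F - E s G - h * E s H| ≤ B := by
  have h1 := hF.mono s hs F (fun x => G x + h * H x + B) h0
    ((hG.add (hH.const_mul h)).add (BM.const B)) fun x => by linarith [(abs_le.1 (hb x)).2]
  have h2 := hF.mono s hs (fun x => G x + h * H x + -B) F
    ((hG.add (hH.const_mul h)).add (BM.const (-B))) h0
    fun x => by linarith [(abs_le.1 (hb x)).1]
  rw [lin hF hs hG hH] at h1 h2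
  exact abs_le.2 ⟨by linarith, by linarith⟩

theorem bound (hF : Flo K m a b Φ E) {s : ℝ} (hs : s ∈ Icc a b) {F : ℝ → ℝ} (h0 : BM F)
    {B : ℝ} (hb : ∀ x, |F x| ≤ B) : |E s F| ≤ B := by
  have := comb hF hs h0 (BM.const 0) (BM.const 0) (h := 0) (B := B) fun x => by simpa using hb x
  rw [hF.const s hs] at this
  simpa using this

theorem sq_b {K : ℝ} {Ψ : ℝ → ℝ} (hK : 1 ≤ K) (h : G0 K Ψ) (x : ℝ) : |d2 Ψ x ^ 2| ≤ 2 * K := by
  have h0 := h.v0 x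
  have h1 := h.v1 x
  rw [abs_of_nonneg (sq_nonneg _)]
  nlinarith

theorem sq_l {K : ℝ} {Ψ : ℝ → ℝ} (h : G0 K Ψ) (x y : ℝ) :
    |d2 Ψ x ^ 2 - d2 Ψ y ^ 2| ≤ 2 * K * |x - y| := by
  have h1 := h.cu.lip x y
  have h2 : |d2 Ψ x + d2 Ψ y| ≤ 2 :=
    abs_le.2 ⟨by linarith [h.v0 x, h.v0 y], by linarith [h.v1 x, h.v1 y]⟩
  rw [sq_sub_sq, abs_mul]
  nlinarith [mul_le_mul h2 h1 (abs_nonneg _) (by norm_num : (0 : ℝ) ≤ 2)]

theorem g_b {K m : ℝ} {Ψ : ℝ → ℝ} (hK : 1 ≤ K) (m0 : 0 ≤ m) (m1 : m ≤ 1) (h : G0 K Ψ) (x : ℝ) :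
    |d3 Ψ x ^ 2 - 2 * m * d2 Ψ x ^ 3| ≤ 8 * K ^ 2 := by
  have h0 := h.v0 x
  have h1 := h.v1 x
  have h2 : d3 Ψ x ^ 2 ≤ K ^ 2 := sq_le_sq' (abs_le.1 (h.cv.b1 x)).1 (abs_le.1 (h.cv.b1 x)).2
  have h3 : 0 ≤ d2 Ψ x ^ 3 := pow_nonneg h0 3
  have h4 : d2 Ψ x ^ 3 ≤ 1 := pow_le_one₀ h0 h1
  have h5 : m * d2 Ψ x ^ 3 ≤ 1 := mul_le_one₀ m1 h3 h4
  have h6 : 0 ≤ m * d2 Ψ x ^ 3 := mul_nonneg m0 h3
  have h7 : 1 ≤ K ^ 2 := one_le_pow₀ hK
  exact abs_le.2 ⟨by nlinarith [sq_nonneg (d3 Ψ x)], by nlinarith⟩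

theorem g_l {K m : ℝ} {Ψ : ℝ → ℝ} (hK : 1 ≤ K) (m0 : 0 ≤ m) (m1 : m ≤ 1) (h : G0 K Ψ)
    (x y : ℝ) : |d3 Ψ x ^ 2 - 2 * m * d2 Ψ x ^ 3 - (d3 Ψ y ^ 2 - 2 * m * d2 Ψ y ^ 3)|
      ≤ 8 * K ^ 2 * |x - y| := by
  have h1 := h.cu.lip x y
  have h2 := h.cv.lip x y
  have hd := abs_nonneg (x - y)
  have a1 : |d3 Ψ x + d3 Ψ y| ≤ 2 * K :=
    (abs_add_le _ _).trans (by linarith [h.cv.b1 x, h.cv.b1 y])
  have a2 : |d3 Ψ x ^ 2 - d3 Ψ y ^ 2| ≤ 2 * K * (K * |x - y|) := by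
    rw [sq_sub_sq, abs_mul]
    exact mul_le_mul a1 h2 (abs_nonneg _) (by linarith)
  have a3 : |2 * m * (d2 Ψ x ^ 2 + d2 Ψ x * d2 Ψ y + d2 Ψ y ^ 2)| ≤ 6 := by
    have := h.v0 x
    have := h.v1 x
    have := h.v0 y
    have := h.v1 y
    have b1 : 0 ≤ d2 Ψ x ^ 2 + d2 Ψ x * d2 Ψ y + d2 Ψ y ^ 2 := by positivity
    have b2 : d2 Ψ x ^ 2 + d2 Ψ x * d2 Ψ y + d2 Ψ y ^ 2 ≤ 3 := by nlinarith
    rw [abs_of_nonneg (by positivity)]
    nlinarith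
  have a4 : |2 * m * d2 Ψ x ^ 3 - 2 * m * d2 Ψ y ^ 3| ≤ 6 * (K * |x - y|) := by
    have e : 2 * m * d2 Ψ x ^ 3 - 2 * m * d2 Ψ y ^ 3 =
        2 * m * (d2 Ψ x ^ 2 + d2 Ψ x * d2 Ψ y + d2 Ψ y ^ 2) * (d2 Ψ x - d2 Ψ y) := by ring
    rw [e, abs_mul]
    exact mul_le_mul a3 h1 (abs_nonneg _) (by norm_num)
  have e : d3 Ψ x ^ 2 - 2 * m * d2 Ψ x ^ 3 - (d3 Ψ y ^ 2 - 2 * m * d2 Ψ y ^ 3) =
      d3 Ψ x ^ 2 - d3 Ψ y ^ 2 - (2 * m * d2 Ψ x ^ 3 - 2 * m * d2 Ψ y ^ 3) := by ring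
  rw [e]
  refine (abs_sub _ _).trans ?_
  have a5 : K * |x - y| ≤ K * (K * |x - y|) :=
    le_mul_of_one_le_left (mul_nonneg (by linarith) hd) hK
  nlinarith

theorem alg {D m h r v e1 e2 e3 e4 : ℝ} (hD : 0 ≤ D) (m0 : 0 ≤ m) (m1 : m ≤ 1) (h0 : 0 ≤ h)
    (hr : h ≤ r) (r1 : r ≤ 1) (v0 : 0 ≤ v) (v1 : v ≤ 1) (a1 : |e1| ≤ D * (h * r))
    (a2 : |e2| ≤ D * (h * r)) (a3 : |e3| ≤ D * h) (a4 : |e4| ≤ 8 * D * r) :
    |e1 - 2 * m * (v * e2 + e3 * (h * v ^ 2 + e2)) - m ^ 2 * (h * v ^ 2 + e2) ^ 2 - h * e4|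
      ≤ (11 * D + 2 * (D * (1 + D)) + (1 + D) ^ 2) * (h * r) := by
  have r0 : 0 ≤ r := h0.trans hr
  have hhr : h * h ≤ h * r := mul_le_mul_of_nonneg_left hr h0
  have b1 : |h * v ^ 2 + e2| ≤ (1 + D) * h := by
    refine (abs_add_le _ _).trans ?_
    rw [abs_of_nonneg (by positivity)]
    have c1 : h * v ^ 2 ≤ h := mul_le_of_le_one_right h0 (pow_le_one₀ v0 v1)
    have c2 : D * (h * r) ≤ D * h :=
      mul_le_mul_of_nonneg_left (mul_le_of_le_one_right h0 r1) hD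
    linarith
  have b2 : |v * e2| ≤ D * (h * r) := by
    rw [abs_mul, abs_of_nonneg v0]
    exact (mul_le_of_le_one_left (abs_nonneg _) v1).trans a2
  have b3 : |e3 * (h * v ^ 2 + e2)| ≤ D * (1 + D) * (h * r) := by
    rw [abs_mul]
    refine (mul_le_mul a3 b1 (abs_nonneg _) (by positivity)).trans ?_
    have : D * h * ((1 + D) * h) = D * (1 + D) * (h * h) := by ring
    rw [this]
    exact mul_le_mul_of_nonneg_left hhr (by positivity)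
  have b4 : |2 * m * (v * e2 + e3 * (h * v ^ 2 + e2))| ≤
      2 * (D * (h * r) + D * (1 + D) * (h * r)) := by
    rw [abs_mul, abs_of_nonneg (by positivity : 0 ≤ 2 * m)]
    exact mul_le_mul (by linarith) ((abs_add_le _ _).trans (add_le_add b2 b3)) (abs_nonneg _)
      (by norm_num)
  have b5 : |m ^ 2 * (h * v ^ 2 + e2) ^ 2| ≤ (1 + D) ^ 2 * (h * r) := by
    rw [abs_of_nonneg (by positivity)]
    refine (mul_le_of_le_one_left (sq_nonneg _) (pow_le_one₀ m0 m1)).trans ?_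
    refine (sq_le_sq' (abs_le.1 b1).1 (abs_le.1 b1).2).trans ?_
    have : ((1 + D) * h) ^ 2 = (1 + D) ^ 2 * (h * h) := by ring
    rw [this]
    exact mul_le_mul_of_nonneg_left hhr (by positivity)
  have b6 : |h * e4| ≤ 8 * D * (h * r) := by
    rw [abs_mul, abs_of_nonneg h0]
    refine (mul_le_mul_of_nonneg_left a4 h0).trans (le_of_eq ?_)
    ring
  have t1 := abs_sub (e1 - 2 * m * (v * e2 + e3 * (h * v ^ 2 + e2)) -
    m ^ 2 * (h * v ^ 2 + e2) ^ 2) (h * e4)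
  have t2 := abs_sub (e1 - 2 * m * (v * e2 + e3 * (h * v ^ 2 + e2)))
    (m ^ 2 * (h * v ^ 2 + e2) ^ 2)
  have t3 := abs_sub e1 (2 * m * (v * e2 + e3 * (h * v ^ 2 + e2)))
  linarith

end OFlow1Aux

open OFlow1Aux in
theorem flow1 (h1 : S_step) (h2 : S_sv) (h3 : S_hold) : S_flow1 := by
  intro K m a b Φ E hK m0 m1 hF
  obtain ⟨C, hC, hsv⟩ := h2
  have hK2 : K ≤ K ^ 2 := by nlinarith
  have g0 : ∀ τ ∈ Icc a b, G0 K (Φ τ) := fun τ h => (hF.gd τ h).g0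
  have bu : ∀ τ ∈ Icc a b, BM fun x => d1 (Φ τ) x ^ 2 := fun τ h => (bm0 (g0 τ h).cu).pow 2
  have bv : ∀ τ ∈ Icc a b, BM fun x => d2 (Φ τ) x ^ 2 := fun τ h => (bm0 (g0 τ h).cv).pow 2
  have bg : ∀ τ ∈ Icc a b, BM fun x => d3 (Φ τ) x ^ 2 - 2 * m * d2 (Φ τ) x ^ 3 :=
    fun τ h => bm_of_lip (g_b hK m0 m1 (g0 τ h)) (g_l hK m0 m1 (g0 τ h))
  have A := h3 a b (3 * (C * K ^ 2)) (2 * K) (fa Φ E) (fb Φ E)
    (fun t ht => bound hF ht (bv t ht) (sq_b hK (g0 t ht))) (fun s t hs hst ht hh => by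
      have is : s ∈ Icc a b := ⟨hs, hst.trans ht⟩
      have it : t ∈ Icc a b := ⟨hs.trans hst, ht⟩
      have h0 : 0 ≤ t - s := sub_nonneg.2 hst
      have gt := g0 t it
      have l1 : ∀ x y, |Φ t x - Φ t y| ≤ |x - y| := fun x y => by
        simpa using lip_of_der gt.der gt.u1 x y
      unfold fa fb
      rw [hF.cons s t hs hst ht _ (bu t it), hF.cons s t hs hst ht _ (bv t it)]
      refine comb hF is ((bu t it).kernel m (noise_g1 _) gt.lg) (bu s is)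
        ((bv t it).kernel m (noise_g1 _) gt.lg) fun x => ?_
      rw [hF.semi s t hs hst ht, (h1 K m (t - s) (Φ t) gt).1]
      have e2 := ((hsv m (t - s) K (Φ t) m0 m1 h0 hh gt.lg l1).2 _ _ gt.cu x).2
      have e4 := (hsv m (t - s) (2 * K) (Φ t) m0 m1 h0 hh gt.lg l1).1 _ (sq_b hK gt)
        (sq_l gt) x
      have e5 : |(t - s) * (P m (g1 (t - s)) (Φ t) (fun x => d2 (Φ t) x ^ 2) x -
          d2 (Φ t) x ^ 2)| ≤ 2 * (C * K ^ 2) * ((t - s) * √(t - s)) := by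
        rw [abs_mul, abs_of_nonneg h0]
        refine (mul_le_mul_of_nonneg_left e4 h0).trans ?_
        have : C * K * ((t - s) * √(t - s)) ≤ C * K ^ 2 * ((t - s) * √(t - s)) :=
          mul_le_mul_of_nonneg_right (mul_le_mul_of_nonneg_left hK2 hC) (by positivity)
        linarith
      have a1 := abs_le.1 e2
      have a2 := abs_le.1 e5
      exact abs_le.2 ⟨by linarith [a1.1, a2.2], by linarith [a1.2, a2.1]⟩)
  have B := h3 a b (11 * (C * K ^ 2) + 2 * (C * K ^ 2 * (1 + C * K ^ 2)) + (1 + C * K ^ 2) ^ 2)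
    (8 * K ^ 2) (fb Φ E) (fc m Φ E)
    (fun t ht => bound hF ht (bg t ht) (g_b hK m0 m1 (g0 t ht))) (fun s t hs hst ht hh => by
      have is : s ∈ Icc a b := ⟨hs, hst.trans ht⟩
      have it : t ∈ Icc a b := ⟨hs.trans hst, ht⟩
      have h0 : 0 ≤ t - s := sub_nonneg.2 hst
      have gt := g0 t it
      have l1 : ∀ x y, |Φ t x - Φ t y| ≤ |x - y| := fun x y => by
        simpa using lip_of_der gt.der gt.u1 x y
      unfold fb fc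
      rw [hF.cons s t hs hst ht _ (bv t it), hF.cons s t hs hst ht _ (bg t it)]
      refine comb hF is ((bv t it).kernel m (noise_g1 _) gt.lg) (bv s is)
        ((bg t it).kernel m (noise_g1 _) gt.lg) fun x => ?_
      rw [hF.semi s t hs hst ht, (h1 K m (t - s) (Φ t) gt).2 x]
      have e2 := ((hsv m (t - s) K (Φ t) m0 m1 h0 hh gt.lg l1).2 _ _ gt.cu x).2
      obtain ⟨e3, e1⟩ := (hsv m (t - s) K (Φ t) m0 m1 h0 hh gt.lg l1).2 _ _ gt.cv x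
      have e4 := (hsv m (t - s) (8 * K ^ 2) (Φ t) m0 m1 h0 hh gt.lg l1).1 _ (g_b hK m0 m1 gt)
        (g_l hK m0 m1 gt) x
      have r1 : √(t - s) ≤ 1 := Real.sqrt_le_one.2 hh
      have hr : t - s ≤ √(t - s) := by
        have := Real.mul_self_sqrt h0
        nlinarith [Real.sqrt_nonneg (t - s)]
      have e3' := e3.trans (mul_le_mul_of_nonneg_right (mul_le_mul_of_nonneg_left hK2 hC) h0)
      have e4' := e4.trans (le_of_eq (by ring : C * (8 * K ^ 2) * √(t - s) =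
        8 * (C * K ^ 2) * √(t - s)))
      refine le_trans (le_of_eq ?_) (alg (by positivity) m0 m1 h0 hr r1 (gt.v0 x) (gt.v1 x)
        e1 e2 e3' e4')
      congr 1
      ring)
  exact ⟨A.1, B.1, fun τ hτ => ⟨A.2.2 τ hτ, B.2.2 τ hτ⟩⟩

end Vale.Agent.P146L.One
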