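import Vale.Agent.P146L.ODefs

namespace Vale.Agent.P146L.One

open MeasureTheory ProbabilityTheory Vale.Agent.P157 Set

namespace OFlow2Aux

theorem lip {f f' : ℝ → ℝ} {A : ℝ} (h : ∀ x, HasDerivAt f (f' x) x) (hb : ∀ x, |f' x| ≤ A)
    (x y : ℝ) : |f x - f y| ≤ A * |x - y| :=
  (convex_univ (𝕜 := ℝ)).norm_image_sub_le_of_norm_hasDerivWithin_le
    (fun z _ => (h z).hasDerivWithinAt) (fun z _ => hb z) (mem_univ y) (mem_univ x)

theorem bump01 (x : ℝ) : 0 ≤ bump x ∧ bump x ≤ 1 :=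
  ⟨by unfold bump; positivity, (div_le_one (by positivity)).2 (by linarith)⟩

theorem c11_bump : C11 6 bump fun x => 2 * x / (1 + x ^ 2) ^ 2 := by
  have hp : ∀ x : ℝ, 0 < 1 + x ^ 2 := fun x => by positivity
  have h1 : ∀ x : ℝ, HasDerivAt (fun x : ℝ => 1 + x ^ 2) (2 * x) x := fun x => by
    simpa using (hasDerivAt_pow 2 x).const_add 1
  refine ⟨fun x => ?_, fun x => ?_, fun x => ?_,
    lip (f' := fun x => (2 - 6 * x ^ 2) / (1 + x ^ 2) ^ 3) (fun x => ?_) fun x => ?_⟩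
  · refine ((hasDerivAt_pow 2 x).div (h1 x) (hp x).ne').congr_deriv ?_
    simp only [Nat.cast_ofNat, Nat.add_one_sub_one, pow_one]
    ring
  · rw [abs_of_nonneg (bump01 x).1]; linarith [(bump01 x).2]
  · rw [abs_div, abs_of_pos (pow_pos (hp x) 2), div_le_iff₀ (pow_pos (hp x) 2), abs_le]
    constructor <;> nlinarith [sq_nonneg (x + 1), sq_nonneg (x - 1), sq_nonneg (x ^ 2)]
  · refine (((hasDerivAt_id x).const_mul 2).div ((h1 x).pow 2) (pow_pos (hp x) 2).ne').congr_deriv ?_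
    have := (hp x).ne'
    simp only [id, Pi.pow_apply, Nat.cast_ofNat, Nat.add_one_sub_one, pow_one]
    field_simp
    ring
  · rw [abs_div, abs_of_pos (pow_pos (hp x) 3), div_le_iff₀ (pow_pos (hp x) 3), abs_le]
    constructor <;> nlinarith [sq_nonneg x, sq_nonneg (x ^ 2), sq_nonneg (x ^ 3)]

theorem bm_bump : BM bump :=
  ⟨by unfold bump; fun_prop, 6, c11_bump.b0⟩

variable {K : ℝ} {Φ : ℝ → ℝ}

theorem bm1 (h : G0 K Φ) : BM (d1 Φ) := ⟨measurable_deriv _, 1, h.u1⟩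

theorem bm2 (h : G0 K Φ) : BM (d2 Φ) := ⟨measurable_deriv _, K, h.cv.b0⟩

theorem bm3 (h : G0 K Φ) : BM (d3 Φ) := ⟨measurable_deriv _, K, h.cv.b1⟩

theorem v_le (h : Gd K Φ) (x : ℝ) : d2 Φ x ≤ d2 Φ 0 := by
  have e1 : ∀ x, deriv Φ (-x) = -deriv Φ x := fun x => by
    have := deriv_comp_neg Φ x
    simp only [h.g0.even] at this
    exact (neg_eq_iff_eq_neg.1 this.symm)
  have e2 : d2 Φ (-x) = d2 Φ x := by
    have := deriv_comp_neg (deriv Φ) x
    simp only [e1, deriv.fun_neg] at this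
    exact (neg_inj.1 this).symm
  rcases le_total 0 x with hx | hx
  · exact h.ghs self_mem_Ici hx hx
  · rw [← e2]; exact h.ghs self_mem_Ici (neg_nonneg.2 hx) (neg_nonneg.2 hx)

theorem w_le (h : Gd K Φ) (x : ℝ) : d3 Φ x ^ 2 ≤ 2 * K ^ 2 * bump x := by
  have w0 : d3 Φ 0 = 0 :=
    IsLocalMax.hasDerivAt_eq_zero (Filter.Eventually.of_forall (v_le h)) (h.g0.cv.der 0)
  have a1 := h.g0.cv.lip x 0
  rw [w0, sub_zero, sub_zero, ← abs_of_nonneg ((abs_nonneg _).trans (h.g0.cv.b1 x)), ← abs_mul,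
    ← sq_le_sq] at a1
  have a2 := pow_le_pow_left₀ (abs_nonneg _) (h.g0.cv.b1 x) 2
  rw [sq_abs] at a2
  have a3 := mul_le_mul_of_nonneg_right a2 (sq_nonneg x)
  rw [bump, ← mul_div_assoc, le_div_iff₀ (by positivity)]
  linarith

end OFlow2Aux

open OFlow2Aux in
theorem flow2 (h1 : S_step) (h2 : S_sv) : S_flow2 := by
  obtain ⟨C, hC, h2⟩ := h2
  refine ⟨C * 6 + 1, by linarith, fun K m a b Φ E hK m0 m1 F => ⟨fun s t hs hst ht => ?_,
    fun τ hτ => ?_⟩⟩
  · have ms : s ∈ Icc a b := ⟨hs, hst.trans ht⟩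
    have mt : t ∈ Icc a b := ⟨hs.trans hst, ht⟩
    have gs := (F.gd s ms).g0
    have gt := (F.gd t mt).g0
    have N := noise_g1 (t - s)
    have := N.prob
    constructor
    · obtain ⟨e1, e2⟩ := h1 K m (t - s) (Φ t) gt
      rw [← F.semi s t hs hst ht] at e1 e2
      have b1 := (bm2 gt).kernel m N gt.lg
      have b2 := ((bm1 gt).pow 2).kernel m N gt.lg
      have := F.mono s ms _ _ ((bm2 gs).add ((bm1 gs).pow 2)) (b1.add b2) fun x => by
        have v : P m (g1 (t - s)) (Φ t) (d1 (Φ t)) x ^ 2 ≤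
            P m (g1 (t - s)) (Φ t) (fun y => d1 (Φ t) y ^ 2) x :=
          sq_gexp_le m (gt.lg.eint N x) ((bm1 gt).lg.eint N x)
        rw [e2, e1]
        nlinarith
      rw [F.add s ms _ _ (bm2 gs) ((bm1 gs).pow 2), F.add s ms _ _ b1 b2,
        ← F.cons s t hs hst ht _ (bm2 gt), ← F.cons s t hs hst ht _ ((bm1 gt).pow 2)] at this
      unfold fv fa
      linarith
    · have h0 : 0 ≤ t - s := sub_nonneg.2 hst
      rcases le_total (t - s) 1 with h | h
      · have hl := (h2 m (t - s) 6 (Φ t) m0 m1 h0 h gt.lg fun x y => by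
          simpa using lip gt.der gt.u1 x y).2 _ _ c11_bump
        have := F.mono s ms _ _ (bm_bump.kernel m N gt.lg)
          (bm_bump.add (BM.const (C * 6 * (t - s)))) fun x => by
            linarith [(abs_le.1 (hl x).1).2]
        rw [F.add s ms _ _ bm_bump (BM.const _), F.const s ms,
          ← F.cons s t hs hst ht _ bm_bump] at this
        linarith
      · have a1 := F.mono t mt _ _ bm_bump (BM.const 1) fun x => (bump01 x).2
        have a2 := F.mono s ms _ _ (BM.const 0) bm_bump fun x => (bump01 x).1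
        rw [F.const t mt] at a1
        rw [F.const s ms] at a2
        nlinarith [mul_nonneg hC h0]
  · have gd := F.gd τ hτ
    have g := gd.g0
    have bc : BM fun x => d3 (Φ τ) x ^ 2 - 2 * m * d2 (Φ τ) x ^ 3 :=
      ((bm3 g).pow 2).sub (((bm2 g).pow 3).const_mul _)
    have lo : ∀ G c, BM G → (∀ x, c ≤ G x) → c ≤ E τ G := fun G c hG h =>
      (F.const τ hτ c).symm.trans_le (F.mono τ hτ _ _ (BM.const c) hG h)
    have up : ∀ G c, BM G → (∀ x, G x ≤ c) → E τ G ≤ c := fun G c hG h =>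
      (F.mono τ hτ _ _ hG (BM.const c) h).trans_eq (F.const τ hτ c)
    refine ⟨lo _ _ ((bm2 g).pow 2) fun x => sq_nonneg _,
      up _ _ ((bm2 g).pow 2) fun x => pow_le_one₀ (g.v0 x) (g.v1 x), lo _ _ bc fun x => ?_,
      up _ _ bc fun x => ?_, up _ _ (bm2 g) (v_le gd), fun y y0 hy => ?_⟩
    · nlinarith [mul_le_mul_of_nonneg_left (pow_le_one₀ (n := 3) (g.v0 x) (g.v1 x)) m0,
        sq_nonneg (d3 (Φ τ) x)]
    · have a2 := pow_le_pow_left₀ (abs_nonneg _) (g.cv.b1 x) 2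
      rw [sq_abs] at a2
      nlinarith [mul_nonneg m0 (pow_nonneg (g.v0 x) 3)]
    · have b1 := bm_bump.const_mul (2 * K ^ 2)
      have b2 := (bm2 g).const_mul (-(6 * m * y ^ 2))
      have := F.mono τ hτ _ _ bc ((b1.add b2).add (BM.const (4 * m * y ^ 3))) fun x => by
        have a1 := w_le gd x
        have a2 := mul_nonneg m0 (mul_nonneg (sq_nonneg (d2 (Φ τ) x - y))
          (show 0 ≤ d2 (Φ τ) x + 2 * y by linarith [g.v0 x]))
        linarith
      rw [F.add τ hτ _ _ (b1.add b2) (BM.const _), F.add τ hτ _ _ b1 b2, F.const τ hτ,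
        F.smul τ hτ _ _ bm_bump, F.smul τ hτ _ _ (bm2 g)] at this
      have a3 := mul_le_mul_of_nonneg_left hy (show 0 ≤ 6 * m * y ^ 2 by positivity)
      unfold fv at a3
      unfold fc
      linarith

end Vale.Agent.P146L.One
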