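import Vale.Agent.P146L.ODefs

/-! # P146, lower bound, one-site part: uniform regularity of the cascade from `log cosh` -/

namespace Vale.Agent.P146L.One

open MeasureTheory ProbabilityTheory Vale.Agent.P157 Set

namespace OG0Aux

/-- `C11` with some derivative. -/
def E11 (A : ℝ) (f : ℝ → ℝ) : Prop := ∃ f', C11 A f f'

theorem lip_of {f f' : ℝ → ℝ} {A : ℝ} (hd : ∀ x, HasDerivAt f (f' x) x) (hb : ∀ x, |f' x| ≤ A)
    (x y : ℝ) : |f x - f y| ≤ A * |x - y| :=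
  convex_univ.norm_image_sub_le_of_norm_hasDerivWithin_le (f := f) (f' := f')
    (fun z _ => (hd z).hasDerivWithinAt) (fun z _ => hb z) (mem_univ y) (mem_univ x)

theorem c_mono {A B : ℝ} {f f' : ℝ → ℝ} (h : C11 A f f') (hAB : A ≤ B) : C11 B f f' :=
  ⟨h.der, fun x => (h.b0 x).trans hAB, fun x => (h.b1 x).trans hAB,
    fun x y => (h.lip x y).trans (mul_le_mul_of_nonneg_right hAB (abs_nonneg _))⟩

theorem E11.mono {A B : ℝ} {f : ℝ → ℝ} (h : E11 A f) (hAB : A ≤ B) : E11 B f :=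
  h.imp fun _ h => c_mono h hAB

theorem E11.const (c : ℝ) : E11 |c| fun _ => c :=
  ⟨fun _ => 0, fun x => hasDerivAt_const x c, fun _ => le_rfl, fun _ => by simp,
    fun _ _ => by simpa using mul_nonneg (abs_nonneg _) (abs_nonneg _)⟩

theorem E11.add {A B : ℝ} {f g : ℝ → ℝ} (hf : E11 A f) (hg : E11 B g) :
    E11 (A + B) fun x => f x + g x := by
  obtain ⟨f', hf⟩ := hf
  obtain ⟨g', hg⟩ := hg
  refine ⟨fun x => f' x + g' x, fun x => (hf.der x).add (hg.der x),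
    fun x => (abs_add_le _ _).trans (add_le_add (hf.b0 x) (hg.b0 x)),
    fun x => (abs_add_le _ _).trans (add_le_add (hf.b1 x) (hg.b1 x)), fun x y => ?_⟩
  rw [add_sub_add_comm, add_mul]
  exact (abs_add_le _ _).trans (add_le_add (hf.lip x y) (hg.lip x y))

theorem E11.const_mul {A : ℝ} {f : ℝ → ℝ} (hf : E11 A f) (c : ℝ) :
    E11 (|c| * A) fun x => c * f x := by
  obtain ⟨f', hf⟩ := hf
  refine ⟨fun x => c * f' x, fun x => (hf.der x).const_mul c, fun x => ?_, fun x => ?_,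
    fun x y => ?_⟩
  · rw [abs_mul]; exact mul_le_mul_of_nonneg_left (hf.b0 x) (abs_nonneg _)
  · rw [abs_mul]; exact mul_le_mul_of_nonneg_left (hf.b1 x) (abs_nonneg _)
  · rw [← mul_sub, abs_mul, mul_assoc]
    exact mul_le_mul_of_nonneg_left (hf.lip x y) (abs_nonneg _)

theorem E11.sum {A : ℝ} (s : Finset ℕ) (c : ℕ → ℝ) {f : ℕ → ℝ → ℝ} (hf : ∀ k, E11 A (f k)) :
    E11 ((∑ k ∈ s, |c k|) * A) fun x => ∑ k ∈ s, c k * f k x := by
  induction s using Finset.induction_on with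
  | empty => simpa using E11.const 0
  | insert k s hk ih =>
    simp only [Finset.sum_insert hk, add_mul]
    exact ((hf k).const_mul (c k)).add ih

theorem E11.sq {A : ℝ} {f : ℝ → ℝ} (hf : E11 A f) : E11 (4 * A ^ 2) fun x => f x ^ 2 := by
  obtain ⟨f', hf⟩ := hf
  have hA : 0 ≤ A := (abs_nonneg _).trans (hf.b0 0)
  refine ⟨fun x => 2 * (f x * f' x), fun x => ?_, fun x => ?_, fun x => ?_, fun x y => ?_⟩
  · exact ((hf.der x).pow 2).congr_deriv (by push_cast; ring)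
  · rw [abs_pow]
    nlinarith [pow_le_pow_left₀ (abs_nonneg _) (hf.b0 x) 2]
  · rw [abs_mul, abs_mul, abs_two]
    nlinarith [mul_le_mul (hf.b0 x) (hf.b1 x) (abs_nonneg _) hA]
  · have e : 2 * (f x * f' x) - 2 * (f y * f' y)
        = 2 * (f x * (f' x - f' y) + f' y * (f x - f y)) := by ring
    have h1 : |f x * (f' x - f' y)| ≤ A * (A * |x - y|) := by
      rw [abs_mul]; exact mul_le_mul (hf.b0 x) (hf.lip x y) (abs_nonneg _) hA
    have h2 : |f' y * (f x - f y)| ≤ A * (A * |x - y|) := by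
      rw [abs_mul]; exact mul_le_mul (hf.b1 y) (lip_of hf.der hf.b1 x y) (abs_nonneg _) hA
    rw [e, abs_mul, abs_two]
    nlinarith [abs_add_le (f x * (f' x - f' y)) (f' y * (f x - f y))]

theorem E11.c11 {A : ℝ} {f : ℝ → ℝ} (hf : E11 A f) : C11 A f (deriv f) := by
  obtain ⟨f', hf⟩ := hf
  have e : deriv f = f' := funext fun x => (hf.der x).deriv
  rwa [e]

theorem abs_tanh (x : ℝ) : |Real.tanh x| ≤ 1 :=
  abs_le.2 ⟨(Real.neg_one_lt_tanh x).le, (Real.tanh_lt_one x).le⟩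

theorem sq_tanh (x : ℝ) : Real.tanh x ^ 2 ≤ 1 := (sq_le_one_iff_abs_le_one _).2 (abs_tanh x)

variable {ζ : ℕ → ℝ} (hζ : Zok ζ) (s : ℕ → ℝ)

/-- first derivative of the cascade -/
noncomputable abbrev uu (ζ s : ℕ → ℝ) (d : ℕ) : ℝ → ℝ := Ex ζ (g1s s) lc 0 Real.tanh d

/-- second derivative of the cascade -/
noncomputable abbrev vv (ζ s : ℕ → ℝ) (d : ℕ) : ℝ → ℝ :=
  aa ζ (g1s s) lc Real.tanh (fun x => 1 - Real.tanh x ^ 2) d

include hζ

theorem derX (d : ℕ) (x : ℝ) : HasDerivAt (X ζ (g1s s) lc d) (uu ζ s d x) x := by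
  simpa using ((cas_g1s hζ s lg_lc).jetX djet_lc d).hasDerivAt 0 x

theorem derU (d : ℕ) (x : ℝ) : HasDerivAt (uu ζ s d) (vv ζ s d x) x := by
  simpa using ((cas_g1s hζ s lg_lc).jetX djet_lc d).hasDerivAt_m 0 x

theorem bounds (d : ℕ) : ∀ x, 0 ≤ vv ζ s d x ∧ vv ζ s d x + ζ d * uu ζ s d x ^ 2 ≤ 1 := by
  have hc := cas_g1s hζ s lg_lc
  induction d with
  | zero =>
    intro x
    have h1 := sq_tanh x
    have h2 := mul_le_mul_of_nonneg_right hζ.le1 (sq_nonneg (Real.tanh x))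
    exact ⟨sub_nonneg.2 h1, by
      show 1 - Real.tanh x ^ 2 + ζ 0 * Real.tanh x ^ 2 ≤ 1
      linarith⟩
  | succ d ih =>
    intro x
    have hj := hc.jetX djet_lc d
    have hν := hc.noise d
    have := hν.prob
    have hF := (hc.lgX d).eint hν x
    have hu : BM (uu ζ s d) := hj.bm_m
    have hv : BM (vv ζ s d) := hj.bm_a
    have hz := hζ.nn d
    have e0 : uu ζ s (d + 1) x = P (ζ d) (g1s s d) (X ζ (g1s s) lc d) (uu ζ s d) x := by
      rw [uu, Ex_succ (Nat.zero_le d)]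
    have e1 : vv ζ s (d + 1) x = P (ζ d) (g1s s d) (X ζ (g1s s) lc d)
        (fun y => vv ζ s d y + ζ d * uu ζ s d y ^ 2) x - ζ d * uu ζ s (d + 1) x ^ 2 := rfl
    have h1 := sq_gexp_le (ζ d) hF (hu.lg.eint hν x)
    have h2 := gexp_mono (ζ d) hF (((hu.pow 2).const_mul (ζ d)).lg.eint hν x)
      ((hv.add ((hu.pow 2).const_mul (ζ d))).lg.eint hν x)
      fun z => le_add_of_nonneg_left (ih (x + z)).1
    rw [gexp_const_mul] at h2
    have h3 := abs_P_le (ζ d) (g1s s d) (X ζ (g1s s) lc d)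
      (φ := fun y => vv ζ s d y + ζ d * uu ζ s d y ^ 2) (C := 1)
      (fun y => abs_le.2 ⟨by nlinarith [(ih y).1, mul_nonneg hz (sq_nonneg (uu ζ s d y))],
        (ih y).2⟩) x
    have h4 := mul_le_mul_of_nonneg_left h1 hz
    have h5 := mul_le_mul_of_nonneg_right (hζ.anti (Nat.le_succ d)) (sq_nonneg (uu ζ s (d + 1) x))
    rw [e1]
    refine ⟨?_, by linarith [(abs_le.1 h3).2]⟩
    rw [e0]
    unfold P
    linarith

theorem abs_v (d : ℕ) (x : ℝ) : |vv ζ s d x| ≤ 1 := by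
  obtain ⟨h1, h2⟩ := bounds hζ s d x
  exact abs_le.2 ⟨by linarith, by nlinarith [mul_nonneg (hζ.nn d) (sq_nonneg (uu ζ s d x))]⟩

omit hζ in
theorem e_tanh : E11 2 Real.tanh := by
  have hd : ∀ x, HasDerivAt Real.tanh (1 - Real.tanh x ^ 2) x := fun x => by
    simpa using djet_lc.hasDerivAt_m 0 x
  have hb : ∀ x, |1 - Real.tanh x ^ 2| ≤ 1 := fun x =>
    abs_le.2 ⟨by linarith [sq_tanh x], by linarith [sq_nonneg (Real.tanh x)]⟩
  refine ⟨fun x => 1 - Real.tanh x ^ 2, hd, fun x => (abs_tanh x).trans one_le_two,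
    fun x => (hb x).trans one_le_two, fun x y => ?_⟩
  have e : 1 - Real.tanh x ^ 2 - (1 - Real.tanh y ^ 2)
      = -(Real.tanh x + Real.tanh y) * (Real.tanh x - Real.tanh y) := by ring
  have h1 : |Real.tanh x + Real.tanh y| ≤ 2 :=
    (abs_add_le _ _).trans (by linarith [abs_tanh x, abs_tanh y])
  have h2 := lip_of hd hb x y
  rw [one_mul] at h2
  rw [e, abs_mul, abs_neg]
  exact mul_le_mul h1 h2 (abs_nonneg _) zero_le_two

end OG0Aux

open OG0Aux in
theorem g0 (h : S_c11) : S_g0 := by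
  obtain ⟨C, hC, h⟩ := h
  have hC0 : 0 < C := zero_lt_one.trans_le hC
  refine ⟨33 * C + 16 * C ^ 3 + 16 * C ^ 2, by nlinarith [pow_pos hC0 3, pow_pos hC0 2],
    fun ζ s d hζ => ?_⟩
  have hc := cas_g1s hζ s lg_lc
  have hu1 : ∀ j x, |uu ζ s j x| ≤ 1 := fun j x => abs_Ex_le 0 abs_tanh j x
  have hE : ∀ (n k : ℕ) (A : ℝ) (φ : ℝ → ℝ), E11 A φ → E11 (C * A) (Ex ζ (g1s s) lc k φ n) := by
    rintro n k A φ ⟨φ', hφ⟩
    exact h ζ s lc (uu ζ s) n hζ lg_lc (fun j _ x => derX hζ s j x) (fun j _ x => hu1 j x)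
      (fun j _ x y => (lip_of (derU hζ s j) (abs_v hζ s j) x y).trans
        (mul_le_mul_of_nonneg_right one_le_two (abs_nonneg _))) k A φ φ' hφ
  have hU : ∀ j, E11 (C * 2) (uu ζ s j) := fun j => hE j 0 2 _ e_tanh
  have e1 : d1 (X ζ (g1s s) lc d) = uu ζ s d := funext fun x => (derX hζ s d x).deriv
  have e2 : d2 (X ζ (g1s s) lc d) = vv ζ s d := funext fun x => by
    have e : d2 (X ζ (g1s s) lc d) = deriv (d1 (X ζ (g1s s) lc d)) := rfl
    rw [e, e1]
    exact (derU hζ s d x).deriv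
  have hz : ∀ j, |ζ j| ≤ 1 := fun j => abs_le.2 ⟨by linarith [hζ.nn j], hζ.le_one j⟩
  have h0 : E11 33 fun x => 1 - Real.tanh x ^ 2 + ζ 0 * Real.tanh x ^ 2 := by
    have h1 := (((E11.const 1).add (e_tanh.sq.const_mul (-1))).add
      (e_tanh.sq.const_mul (ζ 0))).mono (B := 33) (by
        rw [abs_one, abs_neg, abs_one]; linarith [hz 0])
    simpa only [neg_one_mul, ← sub_eq_add_neg] using h1
  have hsum : ∑ k ∈ Finset.range d, |ζ k - ζ (k + 1)| ≤ 1 := by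
    rw [Finset.sum_congr rfl fun k _ => abs_of_nonneg (sub_nonneg.2 (hζ.anti (Nat.le_succ k))),
      Finset.sum_range_sub']
    linarith [hζ.le1, hζ.nn d]
  have hV : E11 (33 * C + 16 * C ^ 3 + 16 * C ^ 2) (vv ζ s d) := by
    have h1 := ((hE d 0 33 _ h0).add ((E11.sum (Finset.range d) (fun k => ζ k - ζ (k + 1))
      fun k => hE d (k + 1) _ _ (hU (k + 1)).sq).const_mul (-1))).add
      ((hU d).sq.const_mul (-ζ d))
    have e : vv ζ s d = fun x => Ex ζ (g1s s) lc 0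
        (fun x => 1 - Real.tanh x ^ 2 + ζ 0 * Real.tanh x ^ 2) d x
        + -1 * ∑ k ∈ Finset.range d, (ζ k - ζ (k + 1)) *
          Ex ζ (g1s s) lc (k + 1) (fun x => uu ζ s (k + 1) x ^ 2) d x
        + -ζ d * uu ζ s d x ^ 2 := by
      funext x
      have h2 := hc.bb_formula djet_lc.bm_m djet_lc.bm_a (le_refl d) x
      rw [Ex_of_le le_rfl, bb] at h2
      linarith
    rw [e]
    refine h1.mono ?_
    rw [abs_neg, abs_one, abs_neg]
    have h3 := mul_le_mul_of_nonneg_right hsum (by positivity : 0 ≤ C * (4 * (C * 2) ^ 2))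
    have h4 := mul_le_mul_of_nonneg_right (hz d) (by positivity : 0 ≤ 4 * (C * 2) ^ 2)
    nlinarith
  refine ⟨⟨hc.lgX d, (lc_structure hζ s d).1.1, fun x => ?_, ?_, ?_, fun x => ?_, fun x => ?_,
    fun x => ?_⟩, e1, e2⟩
  · rw [e1]; exact derX hζ s d x
  · have h1 := ((hU d).mono (B := 33 * C + 16 * C ^ 3 + 16 * C ^ 2) (by
      nlinarith [pow_pos hC0 3, pow_pos hC0 2]))
    rw [← e1] at h1
    exact h1.c11
  · rw [← e2] at hV
    exact hV.c11
  · rw [e1]; exact hu1 d x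
  · rw [e2]; exact (bounds hζ s d x).1
  · rw [e2]; exact (abs_le.1 (abs_v hζ s d x)).2

end Vale.Agent.P146L.One
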