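import Vale.Agent.P146L.ODefs

namespace Vale.Agent.P146L.One

open MeasureTheory ProbabilityTheory Vale.Agent.P157 Set

theorem gd (h1 : S_g0) (h2 : S_rrT) (h3 : S_ghs) : S_gd := by
  obtain ⟨K, hK, h⟩ := h1
  refine ⟨K, hK, fun ζ s d hζ => ⟨⟨(h ζ s d hζ).1, h3.2 K _ (h ζ s d hζ).1 ?_⟩, (h ζ s d hζ).2⟩⟩
  induction d with
  | zero => exact h3.1
  | succ d ih =>
    have h4 := (h ζ s d hζ).1
    refine h2 (ζ d) (s d) _ (hζ.nn d) h4.lg h4.even (fun x y => ?_) ih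
    have h5 := convex_univ.norm_image_sub_le_of_norm_hasDerivWithin_le
      (fun z _ => (h4.der z).hasDerivWithinAt) (fun z _ => h4.u1 z) (mem_univ y) (mem_univ x)
    rwa [one_mul] at h5

end Vale.Agent.P146L.One
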