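import Vale.Agent.P146L.ODefs

/-! # P146, lower bound, one-site part: monotonicity of the second derivative -/

namespace Vale.Agent.P146L.One

open MeasureTheory ProbabilityTheory Vale.Agent.P157 Set

namespace OGhsAux

theorem der_nonpos {g : ℝ → ℝ} {g' x : ℝ} (hx : 0 ≤ x) (hd : HasDerivAt g g' x)
    (hg : AntitoneOn g (Ici 0)) : g' ≤ 0 := by
  have h1 : UniqueDiffWithinAt ℝ (Ici (0 : ℝ)) x := uniqueDiffOn_Ici 0 x hx
  have h2 := hg.derivWithin_nonpos (x := x)
  rwa [hd.hasDerivWithinAt.derivWithin h1] at h2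

theorem lc_sum (s t : ℝ) :
    lc (s + t) + lc (s - t) = Real.log ((Real.cosh (2 * s) + Real.cosh (2 * t)) / 2) := by
  unfold lc
  rw [← Real.log_mul (Real.cosh_pos _).ne' (Real.cosh_pos _).ne']
  congr 1
  rw [Real.cosh_add, Real.cosh_sub, Real.cosh_two_mul, Real.cosh_two_mul]
  have h1 := Real.cosh_sq s
  have h2 := Real.cosh_sq t
  nlinarith [h1, h2]

theorem rr_lc : RR lc := by
  intro s s' t t' hs hss ht htt
  rw [lc_sum, lc_sum, lc_sum, lc_sum]
  have ha : Real.cosh (2 * s) ≤ Real.cosh (2 * s') := by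
    rw [Real.cosh_le_cosh, abs_of_nonneg (by linarith), abs_of_nonneg (by linarith)]
    linarith
  have hb : Real.cosh (2 * t) ≤ Real.cosh (2 * t') := by
    rw [Real.cosh_le_cosh, abs_of_nonneg (by linarith), abs_of_nonneg (by linarith)]
    linarith
  have p1 := Real.cosh_pos (2 * s)
  have p2 := Real.cosh_pos (2 * s')
  have p3 := Real.cosh_pos (2 * t)
  have p4 := Real.cosh_pos (2 * t')
  generalize Real.cosh (2 * s) = a at *
  generalize Real.cosh (2 * s') = a' at *
  generalize Real.cosh (2 * t) = b at *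
  generalize Real.cosh (2 * t') = b' at *
  rw [← Real.log_mul (by positivity) (by positivity),
    ← Real.log_mul (by positivity) (by positivity)]
  apply Real.log_le_log (by positivity)
  nlinarith [mul_nonneg (sub_nonneg.2 ha) (sub_nonneg.2 hb)]

theorem first {Φ u : ℝ → ℝ} (hd : ∀ x, HasDerivAt Φ (u x) x) (h : RR Φ) {s s' t : ℝ}
    (hs : 0 ≤ s) (hss : s ≤ s') (ht : 0 ≤ t) :
    u (s' + t) - u (s' - t) ≤ u (s + t) - u (s - t) := by
  have hA : AntitoneOn (fun τ => Φ (s' + τ) + Φ (s' - τ) - (Φ (s + τ) + Φ (s - τ))) (Ici 0) := by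
    intro a ha b _ hab
    have := h s s' a b hs hss ha hab
    beta_reduce
    linarith
  have d1 : HasDerivAt (fun τ => Φ (s' + τ)) (u (s' + t)) t := (hd (s' + t)).comp_const_add s' t
  have d2 : HasDerivAt (fun τ => Φ (s' - τ)) (-u (s' - t)) t := (hd (s' - t)).comp_const_sub s' t
  have d3 : HasDerivAt (fun τ => Φ (s + τ)) (u (s + t)) t := (hd (s + t)).comp_const_add s t
  have d4 : HasDerivAt (fun τ => Φ (s - τ)) (-u (s - t)) t := (hd (s - t)).comp_const_sub s t
  have := der_nonpos ht ((d1.fun_add d2).fun_sub (d3.fun_add d4)) hA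
  linarith

theorem second {Φ u v : ℝ → ℝ} (hd : ∀ x, HasDerivAt Φ (u x) x)
    (hu : ∀ x, HasDerivAt u (v x) x) (h : RR Φ) {s t : ℝ} (hs : 0 ≤ s) (ht : 0 ≤ t) :
    v (s + t) ≤ v (s - t) := by
  have hA : AntitoneOn (fun σ => u (σ + t) - u (σ - t)) (Ici 0) := by
    intro a ha b _ hab
    exact first hd h ha hab ht
  have d1 : HasDerivAt (fun σ => u (σ + t)) (v (s + t)) s := (hu (s + t)).comp_add_const s t
  have d2 : HasDerivAt (fun σ => u (σ - t)) (v (s - t)) s := (hu (s - t)).comp_sub_const s t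
  have := der_nonpos hs (d1.fun_sub d2) hA
  linarith

end OGhsAux

theorem ghs : S_ghs := by
  refine ⟨OGhsAux.rr_lc, fun K Φ hΦ h a ha b _ hab => ?_⟩
  have ha0 : (0 : ℝ) ≤ a := ha
  have := OGhsAux.second hΦ.der hΦ.cu.der h (s := (a + b) / 2) (t := (b - a) / 2)
    (by linarith) (by linarith)
  have e1 : (a + b) / 2 + (b - a) / 2 = b := by ring
  have e2 : (a + b) / 2 - (b - a) / 2 = a := by ring
  rwa [e1, e2] at this

end Vale.Agent.P146L.One
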