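import Vale.Agent.P146L.ODefs

/-! # P146, lower bound, one-site part: the global real-variable data -/

namespace Vale.Agent.P146L.One

open MeasureTheory ProbabilityTheory Vale.Agent.P157 Set

namespace OGloAux

theorem chain {n : ℕ} {c : ℕ → ℝ} (hc : CAdm n c) (Q : ℝ → ℝ → Prop)
    (tr : ∀ a b e, a ≤ b → b ≤ e → Q a b → Q b e → Q a e)
    (blk : ∀ d, d ≤ n → ∀ a b, c (d + 1) ≤ a → a ≤ b → b ≤ c d → Q a b) :
    ∀ a b, 0 ≤ a → a ≤ b → b ≤ c 0 → Q a b := by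
  have key : ∀ d, d ≤ n → ∀ a b, c (d + 1) ≤ a → a ≤ b → b ≤ c 0 → Q a b := by
    intro d
    induction d with
    | zero => exact blk 0
    | succ d ih =>
      intro hd a b ha hab hb
      rcases le_total (c (d + 1)) a with h | h
      · exact ih (by omega) a b h hab hb
      · rcases le_total b (c (d + 1)) with h' | h'
        · exact blk (d + 1) hd a b ha hab h'
        · exact tr a _ b h h' (blk (d + 1) hd a _ ha h le_rfl) (ih (by omega) _ b le_rfl h' hb)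
  intro a b ha
  exact key n le_rfl a b ((hc.zero (n + 1) (by omega)).le.trans ha)

theorem mvt {f f' : ℝ → ℝ} {A B a b : ℝ} (hf : ContinuousOn f (Icc A B))
    (hd : ∀ τ ∈ Ioo A B, HasDerivAt f (f' τ) τ) (ha : A ≤ a) (hab : a < b) (hb : b ≤ B) :
    ∃ τ ∈ Ioo a b, f b - f a = f' τ * (b - a) := by
  obtain ⟨τ, hτ, h⟩ := exists_hasDerivAt_eq_slope f f' hab (hf.mono (Icc_subset_Icc ha hb))
    fun x hx => hd x ⟨ha.trans_lt hx.1, hx.2.trans_le hb⟩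
  refine ⟨τ, hτ, ?_⟩
  rw [h, div_mul_cancel₀ _ (sub_pos.2 hab).ne']

theorem mvt_abs {f f' : ℝ → ℝ} {A B a b M : ℝ} (hf : ContinuousOn f (Icc A B))
    (hd : ∀ τ ∈ Ioo A B, HasDerivAt f (f' τ) τ) (hM : ∀ τ ∈ Icc A B, |f' τ| ≤ M) (ha : A ≤ a)
    (hab : a ≤ b) (hb : b ≤ B) : |f b - f a| ≤ M * (b - a) := by
  rcases hab.eq_or_lt with rfl | hab
  · simp
  · obtain ⟨τ, hτ, h⟩ := mvt hf hd ha hab hb
    rw [h, abs_mul, abs_of_pos (sub_pos.2 hab)]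
    exact mul_le_mul_of_nonneg_right (hM τ ⟨ha.trans hτ.1.le, hτ.2.le.trans hb⟩)
      (sub_pos.2 hab).le

theorem cont_of_lip {f : ℝ → ℝ} {B L : ℝ}
    (h : ∀ a b, 0 ≤ a → a ≤ b → b ≤ B → |f b - f a| ≤ L * (b - a)) :
    ContinuousOn f (Icc 0 B) := by
  refine (LipschitzOnWith.of_dist_le' (K := L) fun x hx y hy => ?_).continuousOn
  rw [Real.dist_eq, Real.dist_eq]
  rcases le_total x y with hxy | hxy
  · rw [abs_sub_comm, abs_sub_comm x y, abs_of_nonneg (sub_nonneg.2 hxy)]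
    exact h x y hx.1 hxy hy.2
  · rw [abs_of_nonneg (sub_nonneg.2 hxy)]
    exact h y x hy.1 hxy hx.2

theorem lip_tr {f : ℝ → ℝ} {L : ℝ} (a b e : ℝ) (h1 : |f b - f a| ≤ L * (b - a))
    (h2 : |f e - f b| ≤ L * (e - b)) : |f e - f a| ≤ L * (e - a) := by
  have := abs_sub_le (f e) (f b) (f a)
  linarith

theorem d1_zero {K : ℝ} {Φ : ℝ → ℝ} (h : G0 K Φ) : d1 Φ 0 = 0 := by
  have h1 : HasDerivAt (fun x => Φ (-x)) (d1 Φ (-0) * (-1)) 0 :=
    (h.der (-0)).comp 0 (hasDerivAt_neg 0)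
  have h2 : (fun x => Φ (-x)) = Φ := funext h.even
  rw [h2, neg_zero] at h1
  have := h1.unique (h.der 0)
  linarith

end OGloAux

open OGloAux in
theorem glo (h1 : S_gd) (h2 : S_fl) (h3 : S_lev) (h4 : S_flow1) (h5 : S_flow2) : S_glo := by
  obtain ⟨K, hK, h1⟩ := h1
  obtain ⟨C, hC, h5⟩ := h5
  have hK2 : 0 ≤ K ^ 2 := sq_nonneg K
  have hKC : 0 ≤ K ^ 2 * C := mul_nonneg hK2 (by linarith)
  refine ⟨K ^ 2 + 2 + 2 * (K ^ 2 * C) + C, by linarith, fun n ζ c hζ hc => ?_⟩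
  have hz := hζ.zok
  have hgd : ∀ r, Gd K (Phi n ζ c r) := fun r => (h1 ζ _ (n + 1) hz).1
  have hfl : ∀ d, d ≤ n → Flo K (ζ d) (c (d + 1)) (c d) (Phi n ζ c) (Er n ζ c) :=
    fun d hd => (h2 K n ζ c d hz hc hd hgd).1
  have hE0 : ∀ F, Er n ζ c 0 F = F 0 := (h3 n ζ c hζ hc).2.1
  have a4 := fun d hd => h4 K _ _ _ _ _ hK (hz.nn d) (hz.le_one d) (hfl d hd)
  have a5 := fun d hd => h5 K _ _ _ _ _ hK (hz.nn d) (hz.le_one d) (hfl d hd)
  generalize Phi n ζ c = Φ at *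
  generalize Er n ζ c = E at *
  have f1 : ∀ a b, 0 ≤ a → a ≤ b → b ≤ c 0 → |fa Φ E b - fa Φ E a| ≤ 1 * (b - a) := by
    refine chain hc _ (fun a b e _ _ => lip_tr a b e) fun d hd a b ha hab hb => ?_
    refine mvt_abs (a4 d hd).1 (fun τ hτ => ((a4 d hd).2.2 τ hτ).1) (fun τ hτ => ?_) ha hab hb
    obtain ⟨k1, k2, -⟩ := (a5 d hd).2 τ hτ
    rwa [abs_of_nonneg k1]
  have f2 : ∀ a b, 0 ≤ a → a ≤ b → b ≤ c 0 →
      |fb Φ E b - fb Φ E a| ≤ (K ^ 2 + 2 + 2 * (K ^ 2 * C) + C) * (b - a) := by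
    refine chain hc _ (fun a b e _ _ => lip_tr a b e) fun d hd a b ha hab hb => ?_
    refine mvt_abs (a4 d hd).2.1 (fun τ hτ => ((a4 d hd).2.2 τ hτ).2) (fun τ hτ => ?_) ha hab hb
    obtain ⟨-, -, k3, k4, -⟩ := (a5 d hd).2 τ hτ
    have := hz.le_one d
    rw [abs_le]
    constructor <;> linarith
  have f3 : ∀ a b, 0 ≤ a → a ≤ b → b ≤ c 0 →
      fv Φ E a ≤ fv Φ E b + (fa Φ E b - fa Φ E a) ∧ E b bump - E a bump ≤ C * (b - a) := by
    refine chain hc _ (fun a b e _ _ k1 k2 => ⟨by linarith [k1.1, k2.1],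
      by linarith [k1.2, k2.2]⟩) fun d hd a b ha hab hb => (a5 d hd).1 a b ha hab hb
  have f4 : ∀ a b, 0 ≤ a → a ≤ b → b ≤ c 0 → fv Φ E b ≤ d2 (Φ b) 0 := by
    refine chain hc (fun _ b => fv Φ E b ≤ d2 (Φ b) 0) (fun a b e _ _ _ k2 => k2)
      fun d hd a b ha hab hb => ((a5 d hd).2 b ⟨ha.trans hab, hb⟩).2.2.2.2.1
  have cg := cont_of_lip f2
  have hint : ∀ a b, 0 ≤ a → a ≤ b → b ≤ c 0 → IntervalIntegrable (fb Φ E) volume a b :=
    fun a b ha hab hb => (cg.mono (Icc_subset_Icc ha hb)).intervalIntegrable_of_Icc hab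
  have f5 : ∀ a b, 0 ≤ a → a ≤ b → b ≤ c 0 → 0 ≤ a → b ≤ c 0 →
      fa Φ E b - fa Φ E a = ∫ τ in a..b, fb Φ E τ := by
    refine chain hc _ (fun a b e hab hbe k1 k2 ha he => ?_) fun d hd a b ha hab hb h0 hb0 => ?_
    · rw [← intervalIntegral.integral_add_adjacent_intervals (hint a b ha hab (hbe.trans he))
        (hint b e (ha.trans hab) hbe he), ← k1 ha (hbe.trans he), ← k2 (ha.trans hab) he]
      ring
    · exact (intervalIntegral.integral_eq_sub_of_hasDerivAt_of_le hab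
        ((a4 d hd).1.mono (Icc_subset_Icc ha hb))
        (fun x hx => ((a4 d hd).2.2 x ⟨ha.trans_lt hx.1, hx.2.trans_le hb⟩).1)
        (hint a b h0 hab hb0)).symm
  have hγ0 : fa Φ E 0 = 0 := by
    unfold fa
    rw [hE0, d1_zero (hgd 0).g0]
    simp
  have hv0 : fv Φ E 0 = d2 (Φ 0) 0 := hE0 _
  have hb0 : E 0 bump = 0 := by
    rw [hE0]
    simp [bump]
  have f6 : ∀ r, 0 ≤ r → r ≤ c 0 → d2 (Φ 0) 0 - r ≤ fv Φ E r ∧ E r bump ≤ C * r := by
    intro r h0 hr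
    have k1 := f3 0 r le_rfl h0 hr
    have k2 := (abs_le.1 (f1 0 r le_rfl h0 hr)).2
    exact ⟨by linarith [k1.1], by linarith [k1.2]⟩
  refine ⟨⟨cont_of_lip f1, cg, fun a b ha hab hb => f5 a b ha hab hb ha hb, hγ0, hE0 _,
    (hgd 0).g0.v0 0, (hgd 0).g0.v1 0, f2, fun d a b R hd ha hab hbR hRV hb => ?_⟩,
    fun r h0 hr => ⟨(f6 r h0 hr).1.trans (f4 r r h0 le_rfl hr), ?_⟩⟩
  · refine chain hc (fun a b => c (d + 1) ≤ a → b ≤ R → fb Φ E b - fb Φ E a ≤ (b - a) *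
      ((K ^ 2 + 2 + 2 * (K ^ 2 * C) + C) * R - 2 * ζ d * (d2 (Φ 0) 0 - R) ^ 3))
      (fun a b e hab hbe k1 k2 ha he => ?_) (fun d' hd' a b ha' hab hb' ha hbR => ?_) a b
      ((hc.nonneg _).trans ha) hab hb ha hbR
    · have := k1 ha (hbe.trans he)
      have := k2 (ha.trans hab) he
      linarith
    · rcases hab.eq_or_lt with rfl | hab
      · simp
      · obtain ⟨τ, hτ, h⟩ := mvt (a4 d' hd').2.1 (fun τ hτ => ((a4 d' hd').2.2 τ hτ).2) ha' hab hb'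
        have hdd : d' ≤ d := by
          by_contra hn
          have := hc.anti (show d + 1 ≤ d' by omega)
          linarith
        have hτ0 : 0 ≤ τ := ((hc.nonneg _).trans ha).trans hτ.1.le
        have hτR : τ ≤ R := hτ.2.le.trans hbR
        have k6 := f6 τ hτ0 ((hτ.2.le.trans hb').trans (hc.anti (Nat.zero_le _)))
        have hy : 0 ≤ d2 (Φ 0) 0 - R := sub_nonneg.2 hRV
        have k7 := ((a5 d' hd').2 τ ⟨ha'.trans hτ.1.le, hτ.2.le.trans hb'⟩).2.2.2.2.2 _ hy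
          (by linarith [k6.1])
        rw [h, mul_comm]
        refine mul_le_mul_of_nonneg_left (k7.trans ?_) (sub_pos.2 hab).le
        have k8 : ζ d * (d2 (Φ 0) 0 - R) ^ 3 ≤ ζ d' * (d2 (Φ 0) 0 - R) ^ 3 :=
          mul_le_mul_of_nonneg_right (hz.anti hdd) (pow_nonneg hy 3)
        have k9 : K ^ 2 * E τ bump ≤ K ^ 2 * (C * R) :=
          mul_le_mul_of_nonneg_left
            (k6.2.trans (mul_le_mul_of_nonneg_left hτR (by linarith))) hK2
        have k10 : 0 ≤ (K ^ 2 + 2 + C) * R := mul_nonneg (by linarith) (hτ0.trans hτR)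
        linarith
  · have k10 : 0 ≤ (K ^ 2 + 2 + 2 * (K ^ 2 * C)) * r := mul_nonneg (by linarith) h0
    linarith [(f6 r h0 hr).2]

end Vale.Agent.P146L.One
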