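import Vale.Agent.P146L.ODefs

open MeasureTheory ProbabilityTheory Vale.Agent.P157 Set Filter Topology

namespace Vale.Agent.P146L.One

namespace OHoldAux

theorem sq_tend (t : ℝ) (C : ℝ) : Tendsto (fun s : ℝ => C * √|s - t|) (𝓝 t) (𝓝 0) := by
  have : Continuous fun s : ℝ => C * √|s - t| := by fun_prop
  simpa using this.tendsto t

end OHoldAux

open OHoldAux

theorem hold : S_hold := by
  intro a b C M f g hM h
  have h' : ∀ s t, a ≤ s → s ≤ t → t ≤ b → t - s ≤ 1 →
      |f t - f s - (t - s) * g t| ≤ |C| * ((t - s) * √(t - s)) := fun s t h1 h2 h3 h4 =>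
    (h s t h1 h2 h3 h4).trans (mul_le_mul_of_nonneg_right (le_abs_self C)
      (mul_nonneg (by linarith) (Real.sqrt_nonneg _)))
  have hC := abs_nonneg C
  have gs : ∀ s t, a ≤ s - (t - s) → s ≤ t → t ≤ b → 2 * (t - s) ≤ 1 →
      |g t - g s| ≤ 6 * |C| * √(t - s) := by
    intro s t h1 h2 h3 h4
    rcases h2.eq_or_lt with rfl | h2
    · simp
    have e1 := h' (s - (t - s)) s h1 (by linarith) (by linarith) (by linarith)
    have e2 := h' s t (by linarith) h2.le h3 (by linarith)
    have e3 := h' (s - (t - s)) t h1 (by linarith) h3 (by linarith)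
    rw [sub_sub_cancel] at e1
    have e4 : √(t - (s - (t - s))) ≤ 2 * √(t - s) := by
      rw [Real.sqrt_le_left (by positivity), mul_pow, Real.sq_sqrt (by linarith)]
      linarith
    have e5 : |C| * ((t - (s - (t - s))) * √(t - (s - (t - s))))
        ≤ |C| * ((t - (s - (t - s))) * (2 * √(t - s))) := by
      gcongr
      linarith
    have hp : 0 < t - s := by linarith
    refine le_of_mul_le_mul_left ?_ hp
    rw [← abs_of_pos hp, ← abs_mul, abs_of_pos hp]
    rw [abs_le] at e1 e2 e3 ⊢
    constructor <;> nlinarith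
  have fs : ∀ s t, a ≤ s → s ≤ t → t ≤ b → t - s ≤ 1 → |f t - f s| ≤ (M + |C|) * √(t - s) := by
    intro s t h1 h2 h3 h4
    have e1 := h' s t h1 h2 h3 h4
    have e2 := hM t ⟨h1.trans h2, h3⟩
    have e3 : t - s ≤ √(t - s) := Real.le_sqrt_of_sq_le (by nlinarith)
    have e4 : |(t - s) * g t| ≤ √(t - s) * M := by
      rw [abs_mul, abs_of_nonneg (by linarith)]
      gcongr
    have e5 : |C| * ((t - s) * √(t - s)) ≤ |C| * (1 * √(t - s)) := by gcongr
    have e6 := abs_add_le (f t - f s - (t - s) * g t) ((t - s) * g t)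
    rw [sub_add_cancel] at e6
    linarith
  have near : ∀ (t δ : ℝ), 0 < δ → ∀ᶠ s in 𝓝 t, |s - t| < δ := fun t δ hδ => by
    filter_upwards [Metric.ball_mem_nhds t hδ] with s hs
    rwa [Metric.mem_ball, Real.dist_eq] at hs
  have gs' : ∀ t ∈ Ioc a b, ∀ᶠ s in 𝓝 t, s ≤ b → |g s - g t| ≤ 6 * |C| * √|s - t| := by
    intro t ht
    filter_upwards [near t (min (1 / 2) ((t - a) / 2)) (lt_min (by norm_num) (by linarith [ht.1]))]
      with s hs hsb
    rw [lt_min_iff, abs_lt, abs_lt] at hs
    rcases le_total s t with h1 | h1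
    · rw [abs_sub_comm, abs_sub_comm s, abs_of_nonneg (by linarith : 0 ≤ t - s)]
      exact gs s t (by linarith) h1 ht.2 (by linarith)
    · rw [abs_of_nonneg (by linarith : 0 ≤ s - t)]
      exact gs t s (by linarith [ht.1]) h1 hsb (by linarith)
  refine ⟨fun t ht => ?_, fun t ht => ?_, fun t ht => ?_⟩
  · rw [ContinuousWithinAt, tendsto_iff_norm_sub_tendsto_zero]
    refine squeeze_zero' (Eventually.of_forall fun _ => norm_nonneg _) ?_
      ((sq_tend t (M + |C|)).mono_left nhdsWithin_le_nhds)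
    filter_upwards [self_mem_nhdsWithin, nhdsWithin_le_nhds (near t 1 one_pos)] with s hs h1
    rw [abs_lt] at h1
    rw [Real.norm_eq_abs]
    rcases le_total s t with h2 | h2
    · rw [abs_sub_comm, abs_sub_comm s, abs_of_nonneg (by linarith : 0 ≤ t - s)]
      exact fs s t hs.1 h2 ht.2 (by linarith)
    · rw [abs_of_nonneg (by linarith : 0 ≤ s - t)]
      exact fs t s ht.1 h2 hs.2 (by linarith)
  · rw [ContinuousWithinAt, tendsto_iff_norm_sub_tendsto_zero]
    refine squeeze_zero' (Eventually.of_forall fun _ => norm_nonneg _) ?_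
      ((sq_tend t (6 * |C|)).mono_left nhdsWithin_le_nhds)
    filter_upwards [self_mem_nhdsWithin, nhdsWithin_le_nhds (gs' t ht)] with s hs h1
    exact h1 hs.2
  · rw [hasDerivAt_iff_isLittleO, Asymptotics.isLittleO_iff]
    intro c hc
    filter_upwards [(sq_tend t (7 * |C|)).eventually (gt_mem_nhds hc), near t 1 one_pos,
      gs' t ⟨ht.1, ht.2.le⟩, Ioo_mem_nhds ht.1 ht.2] with s h1 h2 h3 h4
    rw [abs_lt] at h2
    rw [Real.norm_eq_abs, Real.norm_eq_abs, smul_eq_mul]
    have hq := Real.sqrt_nonneg |s - t|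
    rcases le_total s t with h5 | h5
    · have e := h' s t h4.1.le h5 ht.2.le (by linarith)
      rw [abs_sub_comm s, abs_of_nonneg (by linarith : 0 ≤ t - s)] at h1 hq ⊢
      rw [← abs_neg, show -(f s - f t - (s - t) * g t) = f t - f s - (t - s) * g t by ring]
      have : 0 ≤ t - s := by linarith
      nlinarith [mul_nonneg hC hq]
    · have e := h' t s ht.1.le h5 h4.2.le (by linarith)
      have e2 := h3 h4.2.le
      rw [abs_of_nonneg (by linarith : 0 ≤ s - t)] at h1 hq e2 ⊢
      have h6 : 0 ≤ s - t := by linarith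
      have e3 := abs_add_le (f s - f t - (s - t) * g s) ((s - t) * (g s - g t))
      rw [show f s - f t - (s - t) * g s + (s - t) * (g s - g t) = f s - f t - (s - t) * g t by
        ring, abs_mul, abs_of_nonneg h6] at e3
      nlinarith [mul_le_mul_of_nonneg_left e2 h6, mul_le_mul_of_nonneg_left h1.le h6]

end Vale.Agent.P146L.One
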