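import Vale.Agent.P146L.ODefs

/-! # P146, lower bound, one-site part: first order conditions -/

namespace Vale.Agent.P146L.One

open MeasureTheory ProbabilityTheory Vale.Agent.P157 Set

namespace OKktAux

theorem sign_up {g : ℝ → ℝ} {a b p : ℝ} (hg : ContinuousOn g (Icc a b)) (h1 : a ≤ p) (h2 : p < b)
    (h : ∀ σ ∈ Icc a b, 0 ≤ ∫ τ in p..σ, g τ) : 0 ≤ g p := by
  by_contra hc
  obtain ⟨δ, hδ, hb⟩ := Metric.continuousWithinAt_iff.1 (hg p ⟨h1, h2.le⟩) (-g p)
    (by linarith [not_le.1 hc])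
  have s1 : p < min b (p + δ / 2) := lt_min h2 (by linarith)
  have s2 : min b (p + δ / 2) ≤ b := min_le_left _ _
  have s3 : min b (p + δ / 2) ≤ p + δ / 2 := min_le_right _ _
  have hsub : uIcc p (min b (p + δ / 2)) ⊆ Icc a b :=
    uIcc_subset_Icc ⟨h1, h2.le⟩ ⟨by linarith, s2⟩
  have := intervalIntegral.intervalIntegral_pos_of_pos_on (f := fun τ => -g τ)
    (hg.mono hsub).neg.intervalIntegrable (fun x hx => by
      have := hb ⟨by linarith [hx.1], by linarith [hx.2]⟩ (show dist x p < δ by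
        rw [Real.dist_eq, abs_lt]
        constructor <;> linarith [hx.1, hx.2])
      rw [Real.dist_eq, abs_lt] at this
      linarith [this.2]) s1
  rw [intervalIntegral.integral_neg] at this
  linarith [h _ ⟨by linarith, s2⟩]

theorem sign_dn {g : ℝ → ℝ} {a b p : ℝ} (hg : ContinuousOn g (Icc a b)) (h1 : a < p) (h2 : p ≤ b)
    (h : ∀ σ ∈ Icc a b, 0 ≤ ∫ τ in p..σ, g τ) : g p ≤ 0 := by
  by_contra hc
  obtain ⟨δ, hδ, hb⟩ := Metric.continuousWithinAt_iff.1 (hg p ⟨h1.le, h2⟩) (g p) (not_le.1 hc)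
  have s1 : max a (p - δ / 2) < p := max_lt h1 (by linarith)
  have s2 : a ≤ max a (p - δ / 2) := le_max_left _ _
  have s3 : p - δ / 2 ≤ max a (p - δ / 2) := le_max_right _ _
  have hsub : uIcc (max a (p - δ / 2)) p ⊆ Icc a b :=
    uIcc_subset_Icc ⟨s2, by linarith⟩ ⟨h1.le, h2⟩
  have := intervalIntegral.intervalIntegral_pos_of_pos_on (f := g)
    (hg.mono hsub).intervalIntegrable (fun x hx => by
      have := hb ⟨by linarith [hx.1], by linarith [hx.2]⟩ (show dist x p < δ by
        rw [Real.dist_eq, abs_lt]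
        constructor <;> linarith [hx.1, hx.2])
      rw [Real.dist_eq, abs_lt] at this
      linarith [this.1]) s1
  rw [intervalIntegral.integral_symm] at this
  linarith [h _ ⟨s2, by linarith⟩]

theorem cadm_upd {n : ℕ} {c : ℕ → ℝ} (hc : CAdm n c) {j : ℕ} (hj : j < n) {τ : ℝ}
    (h1 : c (j + 1 + 1) ≤ τ) (h2 : τ ≤ c j) : CAdm n (Function.update c (j + 1) τ) := by
  refine ⟨antitone_nat_of_succ_le fun d => ?_, fun d hd => ?_⟩
  · by_cases a1 : d = j + 1
    · subst a1
      rw [Function.update_self, Function.update_of_ne (by omega)]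
      exact h1
    · by_cases a2 : d = j
      · subst a2
        rw [Function.update_self, Function.update_of_ne (by omega)]
        exact h2
      · rw [Function.update_of_ne a1, Function.update_of_ne (by omega)]
        exact hc.anti d.le_succ
  · rw [Function.update_of_ne (by omega)]
    exact hc.zero d hd

theorem pairing_upd {n : ℕ} (ζ q : ℕ → ℝ) {j : ℕ} (hj : j < n) (x : ℝ) :
    pairing n ζ (Function.update q (j + 1) x) (Function.update q (j + 1) x) - pairing n ζ q q =
      (ζ j - ζ (j + 1)) * (x ^ 2 - q (j + 1) ^ 2) := by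
  rw [pairing, pairing, ← Finset.sum_sub_distrib, Finset.sum_eq_single j]
  · rw [Function.update_self]
    ring
  · intro i _ hi
    rw [Function.update_of_ne (by omega), sub_self]
  · intro hc
    exact absurd (Finset.mem_range.2 hj) hc

end OKktAux

open OKktAux

theorem kkt (h : S_move) : S_kkt := by
  intro L ζ q β hζ hβ ⟨hq, hmin⟩
  have hB : 0 < β ^ 2 := by positivity
  have hc : CAdm L (β ^ 2 • q) :=
    ⟨fun a b hab => mul_le_mul_of_nonneg_left (hq.adm.anti hab) hB.le,
      fun d hd => by simp [hq.adm.zero d hd]⟩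
  have hg : ∀ k, 1 ≤ k → k ≤ L → ContinuousOn
      (fun τ => τ / β ^ 2 - rho1 L ζ (Function.update (β ^ 2 • q) k τ) k)
      (Icc ((β ^ 2 • q) (k + 1)) ((β ^ 2 • q) (k - 1))) := fun k h1 h2 =>
    ContinuousOn.sub (by fun_prop) (h L ζ _ k hζ hc h1 h2).1
  have part2 : ∀ k, 1 ≤ k → k < L → ∀ σ ∈ Icc ((β ^ 2 • q) (k + 1)) ((β ^ 2 • q) (k - 1)),
      0 ≤ ∫ τ in (β ^ 2 • q) k..σ,
        (τ / β ^ 2 - rho1 L ζ (Function.update (β ^ 2 • q) k τ) k) := by
    intro k hk1 hkL σ hσ
    obtain ⟨m1, m2⟩ := h L ζ _ k hζ hc hk1 hkL.le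
    have m3 := m2 σ hσ
    obtain ⟨j, rfl⟩ : ∃ j, k = j + 1 := ⟨k - 1, by omega⟩
    rw [Nat.add_sub_cancel] at hσ m1 m3
    have hj : j < L := by omega
    have hΔ : 0 < ζ j - ζ (j + 1) := sub_pos.2 (hζ.zlt j hj)
    have hσ' := hσ
    simp only [Pi.smul_apply, smul_eq_mul, mem_Icc] at hσ'
    have hq' : QP L (Function.update q (j + 1) (σ / β ^ 2)) :=
      ⟨cadm_upd hq.adm hj ((le_div_iff₀' hB).2 hσ'.1) ((div_le_iff₀' hB).2 hσ'.2),
        by rw [Function.update_of_ne (by omega), hq.root],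
        by rw [Function.update_of_ne (by omega), hq.top]⟩
    have e1 : β ^ 2 • Function.update q (j + 1) (σ / β ^ 2) =
        Function.update (β ^ 2 • q) (j + 1) σ := by
      funext d
      by_cases hd : d = j + 1
      · subst hd
        simp only [Pi.smul_apply, Function.update_self, smul_eq_mul]
        field_simp
      · simp [Function.update_of_ne hd]
    have h1 := hmin _ hq'
    rw [GG, GG, e1] at h1
    have h2 := pairing_upd ζ q hj (σ / β ^ 2)
    have hp : (β ^ 2 • q) (j + 1) ∈ Icc ((β ^ 2 • q) (j + 1 + 1)) ((β ^ 2 • q) j) :=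
      ⟨hc.anti (Nat.le_succ _), hc.anti (Nat.le_succ _)⟩
    rw [intervalIntegral.integral_sub (Continuous.intervalIntegrable (by fun_prop) _ _)
      (m1.mono (uIcc_subset_Icc hp hσ)).intervalIntegrable, intervalIntegral.integral_div,
      integral_id]
    generalize ∫ τ in (β ^ 2 • q) (j + 1)..σ,
      rho1 L ζ (Function.update (β ^ 2 • q) (j + 1) τ) (j + 1) = J at m3 ⊢
    have h3 : 0 ≤ (ζ j - ζ (j + 1)) / 2 *
        ((σ ^ 2 - (β ^ 2 • q) (j + 1) ^ 2) / 2 / β ^ 2 - J) := by
      have e2 : (σ ^ 2 - (β ^ 2 • q) (j + 1) ^ 2) / 2 / β ^ 2 =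
          β ^ 2 / 2 * ((σ / β ^ 2) ^ 2 - q (j + 1) ^ 2) := by
        simp only [Pi.smul_apply, smul_eq_mul]
        field_simp
      rw [e2]
      have e3 := congrArg (fun x => β ^ 2 / 4 * x) h2
      linarith
    exact le_of_mul_le_mul_left (by rw [mul_zero]; exact h3) (half_pos hΔ)
  refine ⟨?_, part2⟩
  have val : ∀ k, (β ^ 2 • q) k / β ^ 2 -
      rho1 L ζ (Function.update (β ^ 2 • q) k ((β ^ 2 • q) k)) k =
      q k - rho1 L ζ (β ^ 2 • q) k := fun k => by
    rw [Function.update_eq_self]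
    simp only [Pi.smul_apply, smul_eq_mul]
    field_simp
  have tie : ∀ k, (β ^ 2 • q) k = (β ^ 2 • q) (k + 1) → q k = q (k + 1) := fun k e =>
    mul_left_cancel₀ hB.ne' e
  have lower : ∀ i k, k + i = L → 1 ≤ k → q k ≤ rho1 L ζ (β ^ 2 • q) k := by
    intro i
    induction i with
    | zero =>
      intro k hk _
      rw [show k = L from hk, hq.root]
      exact rho1_nonneg _ _ _ _
    | succ i ih =>
      intro k hk hk1
      rcases (hc.anti (Nat.le_succ k)).lt_or_eq with a | a
      · have := sign_dn (hg k hk1 (by omega)) a (hc.anti (Nat.sub_le k 1))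
          (part2 k hk1 (by omega))
        simp only [val] at this
        linarith
      · rw [tie k a.symm, ← rho1_succ_of_zero L ζ _ (by omega) a.symm]
        exact ih (k + 1) (by omega) (by omega)
  have upper : ∀ j, j + 1 < L → rho1 L ζ (β ^ 2 • q) (j + 1) ≤ q (j + 1) := by
    have step : ∀ j, j + 1 < L → (β ^ 2 • q) (j + 1) < (β ^ 2 • q) j →
        rho1 L ζ (β ^ 2 • q) (j + 1) ≤ q (j + 1) := fun j hj a => by
      have := sign_up (hg (j + 1) (by omega) hj.le) (hc.anti (Nat.le_succ _)) a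
        (part2 (j + 1) (by omega) hj)
      simp only [val] at this
      linarith
    intro j
    induction j with
    | zero =>
      intro hj
      rcases (hc.anti (Nat.le_succ 0)).lt_or_eq with a | a
      · exact step 0 hj a
      · rw [← tie 0 a.symm, hq.top]
        exact rho1_le_one _ _ _ _
    | succ j ih =>
      intro hj
      rcases (hc.anti (Nat.le_succ (j + 1))).lt_or_eq with a | a
      · exact step _ hj a
      · rw [← tie _ a.symm, rho1_succ_of_zero L ζ _ (by omega) a.symm]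
        exact ih (by omega)
  intro k hk1 hkL
  refine le_antisymm ?_ (lower (L - k) k (by omega) hk1)
  rcases hkL.lt_or_eq with a | rfl
  · obtain ⟨j, rfl⟩ : ∃ j, k = j + 1 := ⟨k - 1, by omega⟩
    exact upper j a
  · rw [← rho1_succ_of_zero k ζ _ le_rfl (by simp [hq.root, hq.adm.zero]), hq.root, rho1,
      Ex_of_le le_rfl]
    have := (lc_structure hζ.zok (dq (β ^ 2 • q)) (k + 1)).2.1 0
    rw [neg_zero] at this
    have e : Ex ζ (g1s (dq (β ^ 2 • q))) lc 0 Real.tanh (k + 1) 0 = 0 := by linarith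
    simp [e]

end Vale.Agent.P146L.One
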