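import Vale.Agent.P146L.ODefs

/-! # P146, lower bound, one-site part: the first-block inequality -/

namespace Vale.Agent.P146L.One

open MeasureTheory ProbabilityTheory Vale.Agent.P157 Set

namespace OLemAAux

open Filter Topology

/-- The unnormalized density. -/
noncomputable def rhoA (m τ : ℝ) (Φ : ℝ → ℝ) (x : ℝ) : ℝ := Real.exp (m * Φ x - x ^ 2 / (2 * τ))

/-- The integrand. -/
noncomputable def GA (m τ : ℝ) (Φ : ℝ → ℝ) (x : ℝ) : ℝ :=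
  d3 Φ x ^ 2 - 2 * m * d2 Φ x ^ 3 - 2 * d2 Φ x ^ 2 / τ + 2 * d1 Φ x ^ 2 / τ ^ 2

/-- The calibration times the density. -/
noncomputable def HH (m τ : ℝ) (Φ : ℝ → ℝ) (x : ℝ) : ℝ :=
  cF m τ x (d1 Φ x) (d2 Φ x) * rhoA m τ Φ x

theorem d1_neg {Φ : ℝ → ℝ} (h : ∀ x, Φ (-x) = Φ x) (x : ℝ) : d1 Φ (-x) = -d1 Φ x := by
  have e : (fun y => Φ (-y)) = Φ := funext h
  have := deriv_comp_neg Φ x
  rw [e] at this
  unfold d1
  rw [this, neg_neg]

theorem d2_neg {Φ : ℝ → ℝ} (h : ∀ x, Φ (-x) = Φ x) (x : ℝ) : d2 Φ (-x) = d2 Φ x := by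
  have e : (fun y => deriv Φ (-y)) = -deriv Φ := funext (d1_neg h)
  have := deriv_comp_neg (deriv Φ) x
  rw [e, deriv.neg] at this
  unfold d2
  exact (neg_injective this).symm

theorem d3_neg {Φ : ℝ → ℝ} (h : ∀ x, Φ (-x) = Φ x) (x : ℝ) : d3 Φ (-x) = -d3 Φ x :=
  d1_neg (Φ := deriv (deriv Φ)) (d2_neg h) x

theorem GG_abs {m τ : ℝ} {Φ : ℝ → ℝ} (h : ∀ x, Φ (-x) = Φ x) (x : ℝ) :
    GA m τ Φ |x| * rhoA m τ Φ |x| = GA m τ Φ x * rhoA m τ Φ x := by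
  rcases abs_cases x with ⟨e, -⟩ | ⟨e, -⟩
  · rw [e]
  · rw [e]
    unfold GA rhoA
    rw [d1_neg h, d2_neg h, d3_neg h, h, neg_sq, neg_sq, neg_sq]

theorem rho_pos (m τ : ℝ) (Φ : ℝ → ℝ) (x : ℝ) : 0 < rhoA m τ Φ x := Real.exp_pos _

theorem rho_le {m τ : ℝ} {Φ : ℝ → ℝ} (hΦ : LG Φ) (hm : 0 ≤ m) (hτ : 0 < τ) :
    ∃ D : ℝ, 0 < D ∧ ∀ x, rhoA m τ Φ x ≤ D * Real.exp (-(1 / (4 * τ)) * x ^ 2) := by
  obtain ⟨-, C, hC⟩ := hΦ
  refine ⟨Real.exp (m * C + (m * C) ^ 2 * τ), Real.exp_pos _, fun x => ?_⟩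
  unfold rhoA
  rw [← Real.exp_add]
  refine Real.exp_le_exp.2 ?_
  have h1 : m * Φ x ≤ m * (C * (1 + |x|)) :=
    mul_le_mul_of_nonneg_left ((le_abs_self _).trans (hC x)) hm
  have h2 : 0 ≤ (|x| - 2 * τ * (m * C)) ^ 2 / (4 * τ) := by positivity
  have h3 : (|x| - 2 * τ * (m * C)) ^ 2 / (4 * τ) =
      1 / (4 * τ) * x ^ 2 - m * C * |x| + (m * C) ^ 2 * τ := by
    rw [← sq_abs x]
    field_simp
    ring
  have h4 : x ^ 2 / (2 * τ) = 2 * (1 / (4 * τ) * x ^ 2) := by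
    field_simp
    ring
  rw [h4]
  nlinarith

theorem rho_der {K m τ : ℝ} {Φ : ℝ → ℝ} (h : G0 K Φ) (hτ : 0 < τ) (x : ℝ) :
    HasDerivAt (rhoA m τ Φ) (rhoA m τ Φ x * (m * d1 Φ x - x / τ)) x := by
  have h1 := (((h.der x).const_mul m).fun_sub
    (((hasDerivAt_id' x).fun_pow 2).div_const (2 * τ))).exp
  refine h1.congr_deriv ?_
  unfold rhoA
  have : ((2 : ℕ) : ℝ) * x ^ (2 - 1) * 1 / (2 * τ) = x / τ := by
    norm_num
    field_simp
  rw [this]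

theorem cF_der {K m τ : ℝ} {Φ : ℝ → ℝ} (h : G0 K Φ) {x : ℝ} (hx : 0 < x) :
    HasDerivAt (fun y => cF m τ y (d1 Φ y) (d2 Φ y))
      (cF' m τ x (d1 Φ x) (d2 Φ x) (d3 Φ x)) x := by
  have hu := h.cu.der x
  have hv := h.cv.der x
  have hi := hasDerivAt_id' x
  have ha : HasDerivAt (fun y => d1 Φ y / y) (-(d1 Φ x / x - d2 Φ x) / x) x := by
    refine (hu.fun_div hi hx.ne').congr_deriv ?_
    field_simp
    ring
  have hr := ha.fun_sub hv
  have t1 := ((hr.fun_pow 2).const_mul (-2)).fun_div hi hx.ne'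
  have t2 := (((hi.const_mul 2).fun_mul (ha.fun_pow 2))).fun_mul
    ((ha.const_mul m).add_const (1 / τ))
  have t3 := ((((hi.const_mul (3 / 2 * m)).fun_mul ha).fun_mul hr).fun_mul hv)
  refine ((t1.fun_add t2).fun_sub t3).congr_deriv ?_
  unfold cF'
  generalize d1 Φ x / x = a
  norm_num
  field_simp
  ring

theorem slope_facts {K : ℝ} {Φ : ℝ → ℝ} (h : Gd K Φ) {x : ℝ} (hx : 0 < x) :
    d2 Φ x ≤ d1 Φ x / x ∧ d1 Φ x / x ≤ 1 ∧ d1 Φ x / x - d2 Φ x ≤ K * x := by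
  have h0 : d1 Φ 0 = 0 := by
    have := d1_neg h.g0.even 0
    rw [neg_zero] at this
    linarith
  obtain ⟨c, hc, e⟩ := exists_hasDerivAt_eq_slope (d1 Φ) (d2 Φ) hx
    (fun y _ => (h.g0.cu.der y).continuousAt.continuousWithinAt) fun y _ => h.g0.cu.der y
  rw [h0, sub_zero, sub_zero] at e
  rw [← e]
  have hK : 0 ≤ K := (abs_nonneg _).trans (h.g0.cu.b0 0)
  refine ⟨h.ghs hc.1.le hx.le hc.2.le, h.g0.v1 c, ?_⟩
  have h1 := (le_abs_self _).trans (h.g0.cu.lip c x)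
  have h2 : |c - x| ≤ x := by
    rw [abs_le]
    constructor <;> linarith [hc.1, hc.2]
  exact h1.trans (mul_le_mul_of_nonneg_left h2 hK)

theorem cF_bound {K m τ : ℝ} {Φ : ℝ → ℝ} (h : Gd K Φ) (hm : 0 ≤ m) (hτ : 0 < τ) {x : ℝ}
    (hx : 0 ≤ x) :
    |cF m τ x (d1 Φ x) (d2 Φ x)| ≤ (2 * K ^ 2 + 2 * (m + 1 / τ) + 3 / 2 * m) * x := by
  rcases hx.eq_or_lt with rfl | hx
  · simp [cF]
  obtain ⟨h1, h2, h3⟩ := slope_facts h hx
  have hv := h.g0.v0 x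
  unfold cF
  generalize d1 Φ x / x = a at h1 h2 h3
  generalize d2 Φ x = v at h1 h3 hv
  have ha : 0 ≤ a := hv.trans h1
  have hr : 0 ≤ a - v := by linarith
  have hτ' : 0 < 1 / τ := by positivity
  have e1 : 0 ≤ (a - v) ^ 2 / x := by positivity
  have e2 : (a - v) ^ 2 / x ≤ K ^ 2 * x := by
    rw [div_le_iff₀ hx]
    have := pow_le_pow_left₀ hr h3 2
    nlinarith
  have e3 : 0 ≤ a ^ 2 * (m * a + 1 / τ) := by positivity
  have e4 : a ^ 2 * (m * a + 1 / τ) ≤ m + 1 / τ := by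
    have a1 : a ^ 2 ≤ 1 := pow_le_one₀ ha h2
    have a2 : m * a ≤ m := mul_le_of_le_one_right hm h2
    have a3 : 0 ≤ m * a + 1 / τ := by positivity
    exact (mul_le_of_le_one_left a3 a1).trans (by linarith)
  have e5 : 0 ≤ a * (a - v) * v := by positivity
  have e6 : a * (a - v) * v ≤ 1 :=
    mul_le_one₀ (mul_le_one₀ h2 hr (by linarith)) hv (h1.trans h2)
  have f3 := mul_nonneg hx.le e3
  have f4 := mul_le_mul_of_nonneg_left e4 hx.le
  have f5 := mul_nonneg (mul_nonneg hm hx.le) e5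
  have f6 := mul_le_mul_of_nonneg_left e6 (mul_nonneg hm hx.le)
  have g1 : 0 ≤ K ^ 2 * x := by positivity
  have g2 : 0 ≤ x * (m + 1 / τ) := by positivity
  have g3 : 0 ≤ m * x := by positivity
  have ee : -2 * (a - v) ^ 2 / x + 2 * x * a ^ 2 * (m * a + 1 / τ)
      - 3 / 2 * m * x * a * (a - v) * v =
      -2 * ((a - v) ^ 2 / x) + 2 * (x * (a ^ 2 * (m * a + 1 / τ)))
        - 3 / 2 * (m * x * (a * (a - v) * v)) := by ring
  have ef : (2 * K ^ 2 + 2 * (m + 1 / τ) + 3 / 2 * m) * x =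
      2 * (K ^ 2 * x) + 2 * (x * (m + 1 / τ)) + 3 / 2 * (m * x) := by ring
  rw [ee, ef, abs_le]
  constructor <;> linarith

theorem GG_cont {K m τ : ℝ} {Φ : ℝ → ℝ} (h : G0 K Φ) : Continuous (GA m τ Φ) := by
  have hK : 0 ≤ K := (abs_nonneg _).trans (h.cu.b0 0)
  have c1 : Continuous (d1 Φ) := continuous_iff_continuousAt.2 fun y => (h.cu.der y).continuousAt
  have c2 : Continuous (d2 Φ) := continuous_iff_continuousAt.2 fun y => (h.cv.der y).continuousAt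
  have c3 : Continuous (d3 Φ) :=
    (LipschitzWith.of_dist_le_mul (K := ⟨K, hK⟩) fun x y => h.cv.lip x y).continuous
  unfold GA
  fun_prop

theorem GG_bound {K m τ : ℝ} {Φ : ℝ → ℝ} (h : G0 K Φ) (hm : 0 ≤ m) (hτ : 0 < τ) (x : ℝ) :
    |GA m τ Φ x| ≤ K ^ 2 + 2 * m + 2 / τ + 2 / τ ^ 2 := by
  have a1 : d3 Φ x ^ 2 ≤ K ^ 2 := sq_le_sq' (abs_le.1 (h.cv.b1 x)).1 (abs_le.1 (h.cv.b1 x)).2
  have a2 : d2 Φ x ^ 3 ≤ 1 := pow_le_one₀ (h.v0 x) (h.v1 x)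
  have a3 : d2 Φ x ^ 2 ≤ 1 := pow_le_one₀ (h.v0 x) (h.v1 x)
  have a4 : d1 Φ x ^ 2 ≤ 1 := (sq_le_one_iff_abs_le_one _).2 (h.u1 x)
  have hv := h.v0 x
  have b1 : 0 ≤ d3 Φ x ^ 2 := by positivity
  have b2 : 0 ≤ 2 * m * d2 Φ x ^ 3 := by positivity
  have b3 : 0 ≤ 2 * d2 Φ x ^ 2 / τ := by positivity
  have b4 : 0 ≤ 2 * d1 Φ x ^ 2 / τ ^ 2 := by positivity
  have c2 : 2 * m * d2 Φ x ^ 3 ≤ 2 * m := mul_le_of_le_one_right (by positivity) a2
  have c3 : 2 * d2 Φ x ^ 2 / τ ≤ 2 / τ := div_le_div_of_nonneg_right (by linarith) hτ.le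
  have c4 : 2 * d1 Φ x ^ 2 / τ ^ 2 ≤ 2 / τ ^ 2 :=
    div_le_div_of_nonneg_right (by linarith) (by positivity)
  unfold GA
  rw [abs_le]
  constructor <;> linarith

theorem half_nonneg (hc : S_cert) {K m τ : ℝ} {Φ : ℝ → ℝ} (h : Gd K Φ) (hm : 0 ≤ m)
    (hτ : 0 < τ) : 0 ≤ ∫ x in Ioi (0 : ℝ), GA m τ Φ x * rhoA m τ Φ x := by
  obtain ⟨D, hD, hρ⟩ := rho_le (τ := τ) h.g0.lg hm hτ
  have hb : 0 < 1 / (4 * τ) := by positivity
  set b : ℝ := 1 / (4 * τ) with hbdef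
  set C : ℝ := 2 * K ^ 2 + 2 * (m + 1 / τ) + 3 / 2 * m with hCdef
  have hC : 0 ≤ C := by positivity
  have cρ : Continuous (rhoA m τ Φ) :=
    continuous_iff_continuousAt.2 fun y => (rho_der h.g0 hτ y).continuousAt
  have cG : Continuous fun x => GA m τ Φ x * rhoA m τ Φ x := (GG_cont h.g0).mul cρ
  have hint : Integrable fun x => GA m τ Φ x * rhoA m τ Φ x := by
    refine (((integrable_exp_neg_mul_sq hb).const_mul D).const_mul
      (K ^ 2 + 2 * m + 2 / τ + 2 / τ ^ 2)).mono' cG.aestronglyMeasurable (ae_of_all _ fun x => ?_)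
    rw [Real.norm_eq_abs, abs_mul, abs_of_pos (rho_pos m τ Φ x)]
    exact mul_le_mul (GG_bound h.g0 hm hτ x) (hρ x) (rho_pos m τ Φ x).le (by positivity)
  have hH : ∀ x, 0 ≤ x → ‖HH m τ Φ x‖ ≤ C * D * (x * Real.exp (-b * x ^ 2)) := by
    intro x hx
    unfold HH
    rw [Real.norm_eq_abs, abs_mul, abs_of_pos (rho_pos m τ Φ x)]
    refine (mul_le_mul (cF_bound h hm hτ hx) (hρ x) (rho_pos m τ Φ x).le (by positivity)).trans
      (le_of_eq (by ring))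
  have hH0 : HH m τ Φ 0 = 0 := by simpa using hH 0 le_rfl
  have hHc : ContinuousWithinAt (HH m τ Φ) (Ici 0) 0 := by
    unfold ContinuousWithinAt
    rw [hH0]
    refine squeeze_zero_norm' (eventually_mem_nhdsWithin.mono fun x hx => hH x hx) ?_
    have c : Continuous fun x : ℝ => C * D * (x * Real.exp (-b * x ^ 2)) := by fun_prop
    have := (c.tendsto 0).mono_left (nhdsWithin_le_nhds (s := Ici (0 : ℝ)))
    simpa using this
  have hHt : Tendsto (HH m τ Φ) atTop (𝓝 0) := by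
    refine squeeze_zero_norm' (a := fun x => C * D / b * x⁻¹) ?_ ?_
    · filter_upwards [eventually_gt_atTop 0] with x hx
      refine (hH x hx.le).trans ?_
      have e1 : b * x ^ 2 ≤ Real.exp (b * x ^ 2) := by linarith [Real.add_one_le_exp (b * x ^ 2)]
      have e2 : Real.exp (-b * x ^ 2) ≤ (b * x ^ 2)⁻¹ := by
        rw [neg_mul, Real.exp_neg]
        exact inv_anti₀ (by positivity) e1
      have e3 : C * D / b * x⁻¹ = C * D * (x * (b * x ^ 2)⁻¹) := by field_simp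
      rw [e3]
      exact mul_le_mul_of_nonneg_left (mul_le_mul_of_nonneg_left e2 hx.le) (by positivity)
    · simpa using tendsto_inv_atTop_zero.const_mul (C * D / b)
  have hder : ∀ x ∈ Ioi (0 : ℝ), HasDerivAt
      (fun y => (∫ t in (0 : ℝ)..y, GA m τ Φ t * rhoA m τ Φ t) + HH m τ Φ y)
      ((GA m τ Φ x + cF' m τ x (d1 Φ x) (d2 Φ x) (d3 Φ x)
        - cF m τ x (d1 Φ x) (d2 Φ x) * (x / τ - m * d1 Φ x)) * rhoA m τ Φ x) x := by
    intro x hx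
    have h1 := (cG.integral_hasStrictDerivAt 0 x).hasDerivAt
    have h2 := (cF_der (m := m) (τ := τ) h.g0 hx).fun_mul (rho_der (m := m) h.g0 hτ x)
    refine (h1.fun_add h2).congr_deriv ?_
    ring
  have hpos : ∀ x ∈ Ioi (0 : ℝ), 0 ≤ (GA m τ Φ x + cF' m τ x (d1 Φ x) (d2 Φ x) (d3 Φ x)
      - cF m τ x (d1 Φ x) (d2 Φ x) * (x / τ - m * d1 Φ x)) * rhoA m τ Φ x := fun x hx =>
    mul_nonneg (hc m τ x (d1 Φ x) (d2 Φ x) (d3 Φ x) hm hτ hx (h.g0.v0 x) (slope_facts h hx).1)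
      (rho_pos m τ Φ x).le
  have hcont : ContinuousWithinAt
      (fun y => (∫ t in (0 : ℝ)..y, GA m τ Φ t * rhoA m τ Φ t) + HH m τ Φ y) (Ici 0) 0 :=
    (cG.integral_hasStrictDerivAt 0 0).hasDerivAt.continuousAt.continuousWithinAt.add hHc
  have hlim := (intervalIntegral_tendsto_integral_Ioi 0 hint.integrableOn tendsto_id).add hHt
  have key := integral_Ioi_of_hasDerivAt_of_nonneg hcont hder hpos hlim
  have h0 := setIntegral_nonneg (μ := volume) measurableSet_Ioi hpos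
  rw [key, hH0, intervalIntegral.integral_same] at h0
  linarith

end OLemAAux

open OLemAAux in
theorem lemA (h : S_cert) : S_lemA := by
  intro K m τ Φ hΦ hm hτ
  show 0 ≤ P m (g1 τ) Φ (GA m τ Φ) 0
  unfold P
  rw [gexp_eq]
  refine div_nonneg ?_ (integral_nonneg fun x => (Real.exp_pos _).le)
  have hv : τ.toNNReal ≠ 0 := by simpa using hτ
  unfold g1
  rw [integral_gaussianReal_eq_integral_smul hv]
  have e : ∀ x : ℝ, gaussianPDFReal 0 τ.toNNReal x •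
      (Real.exp (m * Φ (0 + x)) * GA m τ Φ (0 + x)) =
      (√(2 * Real.pi * τ))⁻¹ * (GA m τ Φ |x| * rhoA m τ Φ |x|) := by
    intro x
    rw [GG_abs hΦ.g0.even, zero_add, smul_eq_mul]
    unfold gaussianPDFReal rhoA
    rw [Real.coe_toNNReal _ hτ.le, sub_zero, sub_eq_add_neg, Real.exp_add, neg_div]
    ring
  simp only [e]
  rw [integral_const_mul, integral_comp_abs (f := fun x => GA m τ Φ x * rhoA m τ Φ x)]
  have := half_nonneg h hΦ hm hτ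
  positivity

end Vale.Agent.P146L.One
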