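import Vale.Agent.P146L.ODefs

/-! # P146, lower bound, one-site part: values at the levels -/

namespace Vale.Agent.P146L.One

open MeasureTheory ProbabilityTheory Vale.Agent.P157 Set

namespace OLevAux

theorem d_jet {Ψ m a : ℝ → ℝ} {K : ℝ} (h : DJet Ψ 1 m a K) : d1 Ψ = m ∧ d2 Ψ = a := by
  have h1 : deriv Ψ = m := funext fun x => (MlrAux.jet_deriv h x).1.deriv
  refine ⟨h1, ?_⟩
  rw [d2, h1]
  exact funext fun x => (MlrAux.jet_deriv h x).2.deriv

theorem Ex_dirac (ζ : ℕ → ℝ) {ν : ℕ → Measure ℝ} (hν : ∀ d, ν d = Measure.dirac 0)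
    (Ψ F : ℝ → ℝ) (d : ℕ) : Ex ζ ν Ψ 0 F d = F := by
  induction d with
  | zero => rfl
  | succ d ih => rw [Ex_succ (Nat.zero_le d), hν, P_dirac, ih]

end OLevAux

open OLevAux

theorem lev (h : S_norm) : S_lev := by
  intro n ζ c hζ hc
  have hcas := cas_g1s hζ.zok (dq c) lg_lc
  refine ⟨fun k _ hk => ?_, fun F => ?_, ?_, ?_⟩
  · obtain ⟨h1, h2⟩ := h n ζ c k (c k) hζ.zok hc hk (hc.anti k.le_succ) le_rfl
    rw [sub_self, g1_of_nonpos le_rfl, T_dirac] at h1
    have hj := hcas.jetX djet_lc k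
    rw [fa, h1, (d_jet hj).1, h2 _ (hj.bm_m.pow 2), h1, rho1,
      ← Ex_tower k.le_succ (Nat.succ_le_succ hk), Ex_succ le_rfl, Ex_of_le le_rfl]
    rfl
  · rw [Er, Ex_dirac]
    intro d
    rw [g1s, dq, min_eq_right (hc.nonneg _), min_eq_right (hc.nonneg _), sub_self,
      g1_of_nonpos le_rfl]
  · have e : (fun k => max (c k) 0) = c := funext fun k => max_eq_left (hc.nonneg k)
    have h1 := ConcaveAux.Exbb hζ c (d := n) n.le_succ
    rw [bb_pre, hζ.zn n le_rfl, zero_mul, add_zero] at h1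
    rw [Phi, e, (d_jet (hcas.jetX djet_lc (n + 1))).2, h1]
    rfl
  · obtain ⟨h1, -⟩ := h n ζ c 0 (c 1) hζ.zok hc (Nat.zero_le n) le_rfl (hc.anti zero_le_one)
    have h2 : Phi n ζ c (c 1) = fun x => lc x + (c 0 - c 1) / 2 := by
      rw [h1, hζ.z0]
      exact funext fun x => MonoAux.T_lc (sub_nonneg.2 (hc.anti zero_le_one)) x
    have h3 : deriv (Phi n ζ c (c 1)) = deriv lc := by
      rw [h2]
      exact funext fun x => deriv_add_const _
    have h4 := congrFun (d_jet djet_lc).2 0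
    rw [d2] at h4
    rw [d2, h3, h4, Real.tanh_zero]
    norm_num

end Vale.Agent.P146L.One
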