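import Vale.Agent.P146L.ODefs

namespace Vale.Agent.P146L.One

open MeasureTheory ProbabilityTheory Vale.Agent.P157 Set

namespace OLoAux

open Filter Topology

theorem first {n : ℕ} {c : ℕ → ℝ} (h : CAdm n c) (h0 : 0 < c 0) (hn : c n = 0) :
    ∃ d, d < n ∧ c (d + 1) = 0 ∧ 0 < c d := by
  classical
  have hex : ∃ k, c k = 0 := ⟨n, hn⟩
  have h1 := Nat.find_spec hex
  obtain ⟨d, hd⟩ : ∃ d, Nat.find hex = d + 1 :=
    Nat.exists_eq_succ_of_ne_zero fun e => h0.ne' (e ▸ h1)
  have h2 : Nat.find hex ≤ n := Nat.find_min' hex hn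
  have h3 : c d ≠ 0 := Nat.find_min hex (by omega)
  rw [hd] at h1 h2
  exact ⟨d, h2, h1, lt_of_le_of_ne (h1 ▸ h.anti (Nat.le_succ d)) h3.symm⟩

variable {Λ m W l : ℝ} {f g : ℝ → ℝ}

theorem cmp (h : Loc Λ m W l f g) {t : ℝ} (t0 : 0 ≤ t) (tl : t ≤ l) :
    f t ≤ g 0 * t + Λ * t ^ 2 / 2 ∧ g 0 * t - m * t ^ 2 ≤ f t := by
  have h1 := h.ftc 0 t le_rfl t0 tl
  rw [h.f0, sub_zero] at h1
  have h2 : IntervalIntegrable g volume 0 t :=
    (h.cg.mono (Icc_subset_Icc_right tl)).intervalIntegrable_of_Icc t0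
  have h3 : ∀ a : ℝ, ∫ τ in (0 : ℝ)..t, (g 0 + a * τ) = g 0 * t + a * t ^ 2 / 2 := fun a => by
    rw [intervalIntegral.integral_add (by simp) (by
      exact (continuous_const.mul continuous_id).intervalIntegrable _ _),
      intervalIntegral.integral_const_mul, integral_id]
    simp only [intervalIntegral.integral_const, smul_eq_mul]
    ring
  have h4 : ∀ a : ℝ, IntervalIntegrable (fun τ : ℝ => g 0 + a * τ) volume 0 t := fun a =>
    (continuous_const.add (continuous_const.mul continuous_id)).intervalIntegrable _ _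
  constructor
  · rw [h1, ← h3]
    refine intervalIntegral.integral_mono_on t0 h2 (h4 _) fun τ hτ => ?_
    linarith [(abs_le.1 (h.lip 0 τ le_rfl hτ.1 (hτ.2.trans tl))).2]
  · have h5 := h3 (-(2 * m))
    have h6 := intervalIntegral.integral_mono_on t0 (h4 (-(2 * m))) h2 fun τ hτ => by
      linarith [h.low 0 τ le_rfl hτ.1 (hτ.2.trans tl)]
    linarith

theorem chord (h : Loc Λ m W l f g) {a t : ℝ} (hl : 0 < l) (ha : f l = l * a) (t0 : 0 ≤ t)
    (tl : t ≤ l) : l * (f t - t * a) ≤ -((a - g 0) * (t * l - t ^ 2)) := by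
  rcases t0.eq_or_lt with rfl | t1
  · simp [h.f0]
  have h1 : l * (f t / t) - (l - t) * g 0 - t * a ≤ 0 := by
    have h2 : Tendsto (fun s : ℝ => s * (f t / t + (l - t) * (Λ / 2) - a)) (𝓝[>] 0) (𝓝 0) := by
      have h3 : Continuous fun s : ℝ => s * (f t / t + (l - t) * (Λ / 2) - a) := by fun_prop
      have h4 := h3.tendsto 0
      rw [zero_mul] at h4
      exact h4.mono_left nhdsWithin_le_nhds
    refine ge_of_tendsto h2 ?_
    filter_upwards [Ioo_mem_nhdsGT t1] with s hs
    have sl : 0 < l - s := by linarith [hs.2]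
    have h3 := h.cvx.2 (x := s) (y := l) ⟨hs.1, by linarith⟩ ⟨hl, le_rfl⟩
      (div_nonneg (sub_nonneg.2 tl) sl.le) (div_nonneg (sub_nonneg.2 hs.2.le) sl.le)
      (by field_simp; ring)
    have h4 : ((l - t) / (l - s)) • s + ((t - s) / (l - s)) • l = t := by
      simp only [smul_eq_mul]
      field_simp
      ring
    have h5 : f s / s ≤ g 0 + s * (Λ / 2) := by
      rw [div_le_iff₀ hs.1]
      linarith [(cmp h hs.1.le (by linarith)).1]
    have h6 := mul_le_mul_of_nonneg_left h5 (sub_nonneg.2 tl)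
    simp only [h4] at h3
    rw [ha, mul_div_cancel_left₀ _ hl.ne', smul_eq_mul, smul_eq_mul, div_mul_eq_mul_div,
      div_mul_eq_mul_div, ← add_div, le_div_iff₀ sl] at h3
    linarith
  have h2 := mul_le_mul_of_nonneg_left h1 t0
  have h3 : t * (f t / t) = f t := mul_div_cancel₀ _ t1.ne'
  have h4 : t * (l * (f t / t)) = l * f t := by rw [mul_left_comm, h3]
  linarith

end OLoAux

open OLoAux

theorem lo : S_lo := by
  intro β Λ E n ζ c V γ g lγ lg hβ hΛ hE _ hc c0 cn hG hB hO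
  have b0 : 0 < β := by linarith
  by_cases h1 : 1 ≤ β * V
  · exact (Odd.pow_nonpos (by decide) (by linarith)).trans (by positivity)
  obtain ⟨d, hd, d1, d2⟩ := first hc (by rw [c0]; positivity) cn
  have hL := hB.loc d hd
  have hb := hB.base d hd d1
  have V0 := hG.V0
  have d0 : 1 ≤ d := by
    by_contra h
    obtain rfl : d = 0 := by omega
    rw [hB.top] at hb
    have : V = 1 := by nlinarith
    rw [this] at h1
    linarith
  rw [d1, sub_zero, sub_zero] at hL
  have he : ∀ τ, 0 ≤ τ → τ ≤ c d → γ τ = lγ d τ := fun τ h2 h3 => by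
    have := hB.close d τ hd h2 (by rw [d1, sub_zero]; exact h3)
    rw [d1, mul_zero, zero_add] at this
    exact sub_eq_zero.1 (abs_nonpos_iff.1 this)
  obtain ⟨a, ha⟩ : ∃ a, a = (β ^ 2)⁻¹ := ⟨_, rfl⟩
  have ha' : β ^ 2 * a = 1 := by rw [ha]; exact mul_inv_cancel₀ (by positivity)
  have k0 : lγ d (c d) = c d * a := by rw [← he _ d2.le le_rfl, hO.k0 d d0 hd.le, ha, div_eq_mul_inv]
  obtain ⟨η, hη⟩ : ∃ η, η = a - V ^ 2 := ⟨_, rfl⟩
  have e1 : 1 - β * V ≤ β ^ 2 * η := by
    have := mul_le_mul_of_nonneg_left (not_le.1 h1).le (mul_nonneg b0.le V0)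
    rw [hη]
    linarith
  have e0 : 0 ≤ η := le_of_mul_le_mul_left (a := β ^ 2) (by linarith) (by positivity)
  have e2 : η ≤ Λ * c d := by
    have h2 := (cmp hL d2.le le_rfl).1
    rw [k0, hb] at h2
    refine le_of_mul_le_mul_left ?_ d2
    have := mul_nonneg (zero_le_one.trans hΛ) (sq_nonneg (c d))
    rw [hη]
    linarith
  have e3 : η * c d ^ 2 ≤ 6 * E := by
    have h2 := hO.dn d 0 d0 hd d1.le d2.le
    have h3 : IntervalIntegrable (fun τ => γ τ - τ / β ^ 2) volume 0 (c d) :=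
      ((hG.cγ.mono (Icc_subset_Icc_right (c0 ▸ hc.anti (Nat.zero_le d)))).sub
        (continuous_id.div_const _).continuousOn).intervalIntegrable_of_Icc d2.le
    have h4 := intervalIntegral.integral_mono_on d2.le (h3.const_mul (c d))
      (Continuous.intervalIntegrable (u := fun τ : ℝ => -(η * (τ * c d - τ ^ 2))) (by fun_prop) _ _)
      fun τ hτ => by
        have := chord hL d2 k0 hτ.1 hτ.2
        rw [hb, ← hη] at this
        rw [he τ hτ.1 hτ.2, div_eq_mul_inv, ← ha]
        exact this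
    rw [intervalIntegral.integral_const_mul, intervalIntegral.integral_neg,
      intervalIntegral.integral_const_mul, intervalIntegral.integral_sub (f := fun x => x * c d)
        (Continuous.intervalIntegrable (by fun_prop) _ _)
        (Continuous.intervalIntegrable (by fun_prop) _ _), intervalIntegral.integral_mul_const,
      integral_id, integral_pow] at h4
    have h5 := mul_le_mul_of_nonneg_left h2 d2.le
    refine le_of_mul_le_mul_left ?_ d2
    norm_num at h4
    linarith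
  have e4 := pow_le_pow_left₀ (by linarith) e1 3
  have e5 := mul_le_mul_of_nonneg_left (pow_le_pow_left₀ e0 e2 2) e0
  have e6 := mul_le_mul_of_nonneg_left e3 (sq_nonneg Λ)
  have e7 := mul_le_mul_of_nonneg_left (show η ^ 3 ≤ 6 * Λ ^ 2 * E by linarith)
    (show 0 ≤ β ^ 6 by positivity)
  linarith

theorem hi : S_hi := by
  intro β Λ E n ζ c V γ g lγ lg hβ hζ hc c0 cn hG hB hO
  have b0 : 0 < β := by linarith
  obtain ⟨d, hd, d1, d2⟩ := first hc (by rw [c0]; positivity) cn
  refine ⟨d, hd, d1, d2, ?_⟩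
  have z0 := hζ.zok.nn d
  rcases Nat.eq_zero_or_pos d with rfl | d0
  · have h1 := mul_le_mul_of_nonneg_left hG.V1 b0.le
    have h2 : β ^ 1 ≤ β ^ 4 := pow_le_pow_right₀ hβ.le (by norm_num)
    rw [hζ.z0]
    linarith
  by_cases h1 : β * V ≤ 1
  · exact (sub_nonpos.2 h1).trans (by positivity)
  have hL := hB.loc d hd
  rw [d1, sub_zero, sub_zero] at hL
  have h2 := (cmp hL d2.le le_rfl).2
  have h3 := hB.close d (c d) hd d2.le (by rw [d1, sub_zero])
  rw [d1, mul_zero, zero_add, hO.k0 d d0 hd.le] at h3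
  rw [← sub_eq_zero.1 (abs_nonpos_iff.1 h3), hB.base d hd d1, le_div_iff₀ (by positivity)] at h2
  have h4 : (V ^ 2 - ζ d * c d) * β ^ 2 ≤ 1 := le_of_mul_le_mul_left (by linarith) d2
  have h5 : c d ≤ β ^ 2 := c0 ▸ hc.anti (Nat.zero_le d)
  have h6 := mul_le_mul_of_nonneg_left h5 (mul_nonneg z0 (sq_nonneg β))
  have h7 := mul_le_mul_of_nonneg_left (not_le.1 h1).le (by linarith : 0 ≤ β * V)
  linarith

end Vale.Agent.P146L.One
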