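import Vale.Agent.P146L.ODefs

/-! # P146, lower bound, one-site part: local real-variable data of a flow from the origin -/

namespace Vale.Agent.P146L.One

open MeasureTheory ProbabilityTheory Vale.Agent.P157 Set

namespace OLocAux

theorem mv_le {a b M : ℝ} {g h : ℝ → ℝ} (hab : a ≤ b) (hc : ContinuousOn g (Icc a b))
    (hd : ∀ x ∈ Ioo a b, HasDerivAt g (h x) x) (hM : ∀ x ∈ Ioo a b, h x ≤ M) :
    g b - g a ≤ M * (b - a) := by
  rcases hab.eq_or_lt with rfl | hlt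
  · simp
  · obtain ⟨c, hc1, hc2⟩ := exists_hasDerivAt_eq_slope g h hlt hc hd
    have := hM c hc1
    rw [hc2, div_le_iff₀ (by linarith)] at this
    exact this

theorem mv_ge {a b M : ℝ} {g h : ℝ → ℝ} (hab : a ≤ b) (hc : ContinuousOn g (Icc a b))
    (hd : ∀ x ∈ Ioo a b, HasDerivAt g (h x) x) (hM : ∀ x ∈ Ioo a b, M ≤ h x) :
    M * (b - a) ≤ g b - g a := by
  rcases hab.eq_or_lt with rfl | hlt
  · simp
  · obtain ⟨c, hc1, hc2⟩ := exists_hasDerivAt_eq_slope g h hlt hc hd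
    have := hM c hc1
    rw [hc2, le_div_iff₀ (by linarith)] at this
    exact this

theorem P_zero (m : ℝ) (Ψ F : ℝ → ℝ) : P m (g1 0) Ψ F 0 = F 0 := by
  have : g1 0 = Measure.dirac 0 := by simp [g1]
  rw [this, P_dirac]

theorem d1_zero {K : ℝ} {Ψ : ℝ → ℝ} (h : G0 K Ψ) : d1 Ψ 0 = 0 := by
  have h1 := h.der 0
  have h2 : HasDerivAt (fun x => Ψ (-x)) (d1 Ψ 0 * (-1)) 0 := by
    have h3 : HasDerivAt Ψ (d1 Ψ 0) (-(0 : ℝ)) := by simpa using h1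
    exact h3.comp (0 : ℝ) (hasDerivAt_neg (0 : ℝ))
  have h4 : (fun x => Ψ (-x)) = Ψ := funext h.even
  rw [h4] at h2
  have := h1.unique h2
  linarith

theorem bm1 {K : ℝ} {Ψ : ℝ → ℝ} (h : G0 K Ψ) : BM (d1 Ψ) :=
  ⟨measurable_deriv Ψ, K, h.cu.b0⟩

theorem bm2 {K : ℝ} {Ψ : ℝ → ℝ} (h : G0 K Ψ) : BM (d2 Ψ) :=
  ⟨measurable_deriv _, K, h.cv.b0⟩

theorem bm3 {K : ℝ} {Ψ : ℝ → ℝ} (h : G0 K Ψ) : BM (d3 Ψ) :=
  ⟨measurable_deriv _, K, h.cv.b1⟩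

theorem lin {K m l τ : ℝ} {Φ : ℝ → ℝ → ℝ} {E : ℝ → (ℝ → ℝ) → ℝ} (hF : Flo K m 0 l Φ E)
    (hτ : τ ∈ Icc 0 l) :
    E τ (fun x => d3 (Φ τ) x ^ 2 - 2 * m * d2 (Φ τ) x ^ 3 - 2 * d2 (Φ τ) x ^ 2 / τ
      + 2 * d1 (Φ τ) x ^ 2 / τ ^ 2)
      = fc m Φ E τ - 2 * fb Φ E τ / τ + 2 * fa Φ E τ / τ ^ 2 := by
  have hg := (hF.gd τ hτ).g0
  have b1 := (bm1 hg).pow 2
  have b2 := (bm2 hg).pow 2
  have b3 : BM fun x => d3 (Φ τ) x ^ 2 - 2 * m * d2 (Φ τ) x ^ 3 :=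
    ((bm3 hg).pow 2).sub (((bm2 hg).pow 3).const_mul (2 * m))
  have e : (fun x => d3 (Φ τ) x ^ 2 - 2 * m * d2 (Φ τ) x ^ 3 - 2 * d2 (Φ τ) x ^ 2 / τ
      + 2 * d1 (Φ τ) x ^ 2 / τ ^ 2) = fun x =>
      ((d3 (Φ τ) x ^ 2 - 2 * m * d2 (Φ τ) x ^ 3) + (-2 / τ) * d2 (Φ τ) x ^ 2)
        + (2 / τ ^ 2) * d1 (Φ τ) x ^ 2 := by
    funext x; ring
  rw [e, hF.add τ hτ _ _ (b3.add (b2.const_mul _)) (b1.const_mul _),
    hF.add τ hτ _ _ b3 (b2.const_mul _), hF.smul τ hτ _ _ b2, hF.smul τ hτ _ _ b1]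
  unfold fc fb fa
  ring

theorem cvx {l : ℝ} {f g h : ℝ → ℝ} (hc : ContinuousOn f (Icc 0 l))
    (hd : ∀ τ ∈ Ioo 0 l, HasDerivAt f (g τ) τ ∧ HasDerivAt g (h τ) τ)
    (hp : ∀ τ ∈ Ioo 0 l, 0 ≤ h τ - 2 * g τ / τ + 2 * f τ / τ ^ 2) :
    ConvexOn ℝ (Ioc 0 l) fun τ => f τ / τ := by
  refine convexOn_of_hasDerivWithinAt2_nonneg (convex_Ioc 0 l)
    (f' := fun τ => g τ / τ - f τ / τ ^ 2)
    (f'' := fun τ => (h τ - 2 * g τ / τ + 2 * f τ / τ ^ 2) / τ) ?_ ?_ ?_ ?_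
  · exact (hc.mono Ioc_subset_Icc_self).div continuousOn_id fun x hx => hx.1.ne'
  · intro x hx
    rw [interior_Ioc] at hx
    have hx0 : x ≠ 0 := hx.1.ne'
    have h1 := (hd x hx).1.div (hasDerivAt_id x) hx0
    have e : g x / x - f x / x ^ 2 = (g x * id x - f x * 1) / id x ^ 2 := by
      simp only [id]; field_simp
    rw [e]
    exact h1.hasDerivWithinAt
  · intro x hx
    rw [interior_Ioc] at hx
    have hx0 : x ≠ 0 := hx.1.ne'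
    have h1 := (hd x hx).2.div (hasDerivAt_id x) hx0
    have h2 := (hd x hx).1.div (hasDerivAt_pow 2 x) (pow_ne_zero 2 hx0)
    have h3 := h1.sub h2
    have e : (h x - 2 * g x / x + 2 * f x / x ^ 2) / x =
        (h x * id x - g x * 1) / id x ^ 2 -
          (g x * x ^ 2 - f x * (((2 : ℕ) : ℝ) * x ^ (2 - 1))) / (x ^ 2) ^ 2 := by
      simp only [id]; push_cast; field_simp; ring
    rw [e]
    exact h3.hasDerivWithinAt
  · intro x hx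
    rw [interior_Ioc] at hx
    exact div_nonneg (hp x hx) hx.1.le

end OLocAux

open OLocAux

theorem loc (h1 : S_flow1) (h2 : S_flow2) (h3 : S_lemA) : S_loc := by
  intro K hK
  obtain ⟨C, hC, h2⟩ := h2
  have hK2 : 1 ≤ K ^ 2 := one_le_pow₀ hK
  have hKC : K ^ 2 ≤ K ^ 2 * C := le_mul_of_one_le_right (by positivity) hC
  refine ⟨2 * K ^ 2 * C, by nlinarith, ?_⟩
  intro m l W Φ hm0 hm1 hl hW hF
  set E : ℝ → (ℝ → ℝ) → ℝ := fun τ F => P m (g1 τ) (Φ τ) F 0 with hE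
  obtain ⟨cf, cg, hd⟩ := h1 K m 0 l Φ E hK hm0 hm1 hF
  obtain ⟨hi, hb⟩ := h2 K m 0 l Φ E hK hm0 hm1 hF
  have h0 : (0 : ℝ) ∈ Icc 0 l := ⟨le_rfl, hl⟩
  have E0 : ∀ F, E 0 F = F 0 := fun F => P_zero m _ F
  have f0 : fa Φ E 0 = 0 := by
    unfold fa
    rw [E0, d1_zero (hF.gd 0 h0).g0]
    simp
  have sI : ∀ {a b : ℝ}, 0 ≤ a → b ≤ l → Icc a b ⊆ Icc 0 l := fun ha hb => Icc_subset_Icc ha hb
  have sO : ∀ {a b : ℝ}, 0 ≤ a → b ≤ l → Ioo a b ⊆ Ioo 0 l := fun ha hb => Ioo_subset_Ioo ha hb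
  have fle : ∀ τ, 0 ≤ τ → τ ≤ l → fa Φ E τ ≤ τ := by
    intro τ hτ0 hτ
    have := mv_le (M := 1) hτ0 (cf.mono (sI le_rfl hτ)) (fun x hx => (hd x (sO le_rfl hτ hx)).1)
      (fun x hx => (hb x (Ioo_subset_Icc_self (sO le_rfl hτ hx))).2.1)
    linarith
  have low : ∀ a b, 0 ≤ a → a ≤ b → b ≤ l → -(2 * m * (b - a)) ≤ fb Φ E b - fb Φ E a := by
    intro a b ha hab hbl
    have := mv_ge (M := -(2 * m)) hab (cg.mono (sI ha hbl)) (fun x hx => (hd x (sO ha hbl hx)).2)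
      (fun x hx => (hb x (Ioo_subset_Icc_self (sO ha hbl hx))).2.2.1)
    linarith
  refine ⟨cf, cg, ?_, f0, ?_, ?_, low, ?_⟩
  · intro a b ha hab hbl
    refine (intervalIntegral.integral_eq_sub_of_hasDerivAt_of_le hab (cf.mono (sI ha hbl))
      (fun x hx => (hd x (sO ha hbl hx)).1) ?_).symm
    exact (cg.mono (sI ha hbl)).intervalIntegrable_of_Icc hab
  · intro a b ha hab hbl
    have u := mv_le (M := K ^ 2) hab (cg.mono (sI ha hbl)) (fun x hx => (hd x (sO ha hbl hx)).2)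
      (fun x hx => (hb x (Ioo_subset_Icc_self (sO ha hbl hx))).2.2.2.1)
    have v := low a b ha hab hbl
    have hba : 0 ≤ b - a := by linarith
    have i1 : K ^ 2 * (b - a) ≤ 2 * K ^ 2 * C * (b - a) := by
      apply mul_le_mul_of_nonneg_right _ hba; nlinarith
    have i2 : 2 * m * (b - a) ≤ 2 * K ^ 2 * C * (b - a) := by
      apply mul_le_mul_of_nonneg_right _ hba; nlinarith
    rw [abs_le]
    constructor <;> linarith
  · intro a b R ha hab hbR hRW hbl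
    have u := mv_le (M := 2 * K ^ 2 * C * R - 2 * m * (W - R) ^ 3) hab (cg.mono (sI ha hbl))
      (fun x hx => (hd x (sO ha hbl hx)).2) ?_
    · linarith
    · intro x hx
      have hx' := sO ha hbl hx
      obtain ⟨j1, j2⟩ := hi 0 x le_rfl hx'.1.le hx'.2.le
      have v0 : fv Φ E 0 = d2 (Φ 0) 0 := E0 _
      have b0 : E 0 bump = 0 := by rw [E0]; simp [bump]
      have fx := fle x hx'.1.le hx'.2.le
      have hxR : x ≤ R := hx.2.le.trans hbR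
      have k := (hb x (Ioo_subset_Icc_self hx')).2.2.2.2.2 (W - R) (by linarith) (by linarith)
      have j3 : E x bump ≤ C * R := by
        have : C * (x - 0) ≤ C * R := mul_le_mul_of_nonneg_left (by linarith) (by linarith)
        linarith
      have j4 : 2 * K ^ 2 * E x bump ≤ 2 * K ^ 2 * (C * R) :=
        mul_le_mul_of_nonneg_left j3 (by positivity)
      linarith
  · refine cvx cf hd fun τ hτ => ?_
    rw [← lin hF (Ioo_subset_Icc_self hτ)]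
    exact h3 K m τ (Φ τ) (hF.gd τ (Ioo_subset_Icc_self hτ)) hm0 hτ.1

end Vale.Agent.P146L.One
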