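import Vale.Agent.P146L.ODefs

/-! # P146, lower bound, one-site part: existence of a minimizer -/

namespace Vale.Agent.P146L.One

open MeasureTheory ProbabilityTheory Vale.Agent.P157 Set

namespace OMinAux

open ConcaveAux

theorem ph_lip {n : ℕ} {ζ : ℕ → ℝ} (hζ : ZAdm n ζ) {c c' : ℕ → ℝ} (hc : CAdm n c)
    (hc' : CAdm n c') :
    |Ph n ζ c' - Ph n ζ c|
      ≤ (∑ k ∈ Finset.range n, |c' (k + 1) - c (k + 1)| * (ζ k - ζ (k + 1))) / 2 := by
  have h := (seg hζ hc hc').1
  have hb : ∀ t : ℝ, |∑ k ∈ Finset.range n, (c' (k + 1) - c (k + 1)) * gr n ζ (c + t • (c' - c)) k|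
      ≤ ∑ k ∈ Finset.range n, |c' (k + 1) - c (k + 1)| * (ζ k - ζ (k + 1)) := by
    intro t
    refine (Finset.abs_sum_le_sum_abs _ _).trans (Finset.sum_le_sum fun k _ => ?_)
    rw [abs_mul]
    refine mul_le_mul_of_nonneg_left ?_ (abs_nonneg _)
    have h1 := delta_nonneg hζ.zok k
    have h2 := rho1_nonneg n ζ (c + t • (c' - c)) (k + 1)
    have h3 := rho1_le_one n ζ (c + t • (c' - c)) (k + 1)
    rw [gr, abs_of_nonneg (mul_nonneg h1 h2)]
    exact mul_le_of_le_one_right h1 h3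
  have h1 := le_of_derivWithin h (κ := (∑ k ∈ Finset.range n,
    |c' (k + 1) - c (k + 1)| * (ζ k - ζ (k + 1))) / 2) fun t _ => by
      have := (abs_le.1 (hb t)).1
      linarith
  have h2 := ge_of_derivWithin h (κ := -((∑ k ∈ Finset.range n,
    |c' (k + 1) - c (k + 1)| * (ζ k - ζ (k + 1))) / 2)) fun t _ => by
      have := (abs_le.1 (hb t)).2
      linarith
  have e1 : c + (1 : ℝ) • (c' - c) = c' := by simp
  have e0 : c + (0 : ℝ) • (c' - c) = c := by simp
  simp only [e1, e0] at h1 h2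
  exact abs_le.2 ⟨h2, h1⟩

theorem cadm_smul {n : ℕ} {q : ℕ → ℝ} (hq : CAdm n q) {b : ℝ} (hb : 0 ≤ b) : CAdm n (b • q) :=
  ⟨fun _ _ hab => mul_le_mul_of_nonneg_left (hq.anti hab) hb, fun d hd => by
    rw [Pi.smul_apply, hq.zero d hd, smul_zero]⟩

theorem isCompact_QP (L : ℕ) : IsCompact {q : ℕ → ℝ | QP L q} := by
  have hK : IsCompact (Set.pi univ fun _ : ℕ => Icc (0 : ℝ) 1) :=
    isCompact_univ_pi fun _ => isCompact_Icc
  refine hK.of_isClosed_subset ?_ fun q hq d _ => ⟨hq.adm.nonneg d, ?_⟩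
  · have e : {q : ℕ → ℝ | QP L q} = (⋂ a, ⋂ b, ⋂ _ : a ≤ b, {q : ℕ → ℝ | q b ≤ q a}) ∩
        ((⋂ d, ⋂ _ : L < d, {q : ℕ → ℝ | q d = 0}) ∩
          ({q : ℕ → ℝ | q L = 0} ∩ {q : ℕ → ℝ | q 0 = 1})) := by
      ext q
      simp only [mem_ofPred_eq, mem_inter_iff, mem_iInter]
      exact ⟨fun h => ⟨fun a b hab => h.adm.anti hab, h.adm.zero, h.root, h.top⟩,
        fun h => ⟨⟨fun a b hab => h.1 a b hab, h.2.1⟩, h.2.2.1, h.2.2.2⟩⟩
    rw [e]
    refine (isClosed_iInter fun a => isClosed_iInter fun b => isClosed_iInter fun _ =>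
      isClosed_le (continuous_apply b) (continuous_apply a)).inter
      ((isClosed_iInter fun d => isClosed_iInter fun _ =>
        isClosed_eq (continuous_apply d) continuous_const).inter
      ((isClosed_eq (continuous_apply L) continuous_const).inter
        (isClosed_eq (continuous_apply 0) continuous_const)))
  · have := hq.adm.anti (Nat.zero_le d)
    rw [hq.top] at this
    exact this

theorem GG_eq (L : ℕ) (ζ : ℕ → ℝ) (β : ℝ) (q : ℕ → ℝ) :
    GG L ζ β q = Ph L ζ (β ^ 2 • q) + (β ^ 2 * q 0 / 2 - β ^ 2 / 4 * (1 - pairing L ζ q q)) := by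
  rw [GG, Ph, Pi.smul_apply, smul_eq_mul]
  ring

theorem cont_Ph {L : ℕ} {ζ : ℕ → ℝ} (hζ : ZAdm L ζ) (β : ℝ) :
    ContinuousOn (fun q : ℕ → ℝ => Ph L ζ (β ^ 2 • q)) {q : ℕ → ℝ | QP L q} := by
  intro q hq
  have hc : Continuous fun p : ℕ → ℝ => (∑ k ∈ Finset.range L,
      |(β ^ 2 • p) (k + 1) - (β ^ 2 • q) (k + 1)| * (ζ k - ζ (k + 1))) / 2 := by
    simp only [Pi.smul_apply, smul_eq_mul]
    fun_prop
  have h0 : Filter.Tendsto (fun p : ℕ → ℝ => (∑ k ∈ Finset.range L,
      |(β ^ 2 • p) (k + 1) - (β ^ 2 • q) (k + 1)| * (ζ k - ζ (k + 1))) / 2)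
      (nhdsWithin q {q : ℕ → ℝ | QP L q}) (nhds 0) := by
    have := (hc.tendsto q).mono_left (nhdsWithin_le_nhds (s := {q : ℕ → ℝ | QP L q}))
    simpa using this
  rw [ContinuousWithinAt, tendsto_iff_dist_tendsto_zero]
  refine squeeze_zero' (Filter.Eventually.of_forall fun _ => dist_nonneg) ?_ h0
  filter_upwards [self_mem_nhdsWithin] with p hp
  rw [Real.dist_eq]
  exact ph_lip hζ (cadm_smul hq.adm (sq_nonneg β)) (cadm_smul hp.adm (sq_nonneg β))

theorem cont_GG {L : ℕ} {ζ : ℕ → ℝ} (hζ : ZAdm L ζ) (β : ℝ) :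
    ContinuousOn (GG L ζ β) {q : ℕ → ℝ | QP L q} := by
  have e : GG L ζ β = fun q => Ph L ζ (β ^ 2 • q)
      + (β ^ 2 * q 0 / 2 - β ^ 2 / 4 * (1 - pairing L ζ q q)) := funext (GG_eq L ζ β)
  rw [e]
  refine (cont_Ph hζ β).add (Continuous.continuousOn ?_)
  unfold pairing
  fun_prop

theorem qp_update {L : ℕ} (hL : 1 ≤ L) {q : ℕ → ℝ} (hq : CAdm L q) (h0 : q 0 = 1) :
    QP L (Function.update q L 0) := by
  refine ⟨⟨fun a b hab => ?_, fun d hd => ?_⟩, Function.update_self .., ?_⟩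
  · by_cases hb : b = L
    · subst hb
      rw [Function.update_self]
      by_cases ha : a = b
      · rw [ha, Function.update_self]
      · rw [Function.update_of_ne ha]
        exact hq.nonneg a
    · rw [Function.update_of_ne hb]
      by_cases ha : a = L
      · rw [ha, Function.update_self, hq.zero b (by omega)]
      · rw [Function.update_of_ne ha]
        exact hq.anti hab
  · rw [Function.update_of_ne (by omega), hq.zero d hd]
  · rw [Function.update_of_ne (by omega), h0]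

theorem cost {L : ℕ} {ζ : ℕ → ℝ} (hζ : ZAdm L ζ) (β : ℝ) {q : ℕ → ℝ} (hq : CAdm L q)
    (h0 : q 0 = 1) : GG L ζ β (Function.update q L 0) ≤ GG L ζ β q + β ^ 2 * ζ (L - 1) := by
  have hL := hζ.one_le
  have hp := qp_update hL hq h0
  have h1 := ph_lip hζ (cadm_smul hq (sq_nonneg β)) (cadm_smul hp.adm (sq_nonneg β))
  have hq1 : q L ≤ 1 := h0 ▸ hq.anti (Nat.zero_le L)
  have hz : 0 ≤ ζ (L - 1) := by
    have := delta_nonneg hζ.zok (L - 1)
    rw [show L - 1 + 1 = L by omega, hζ.zn L le_rfl, sub_zero] at this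
    exact this
  have h2 : ∑ k ∈ Finset.range L, |(β ^ 2 • Function.update q L 0) (k + 1) - (β ^ 2 • q) (k + 1)|
      * (ζ k - ζ (k + 1)) ≤ β ^ 2 * ζ (L - 1) := by
    rw [Finset.sum_eq_single (L - 1)]
    · rw [show L - 1 + 1 = L by omega, hζ.zn L le_rfl, sub_zero, Pi.smul_apply, Pi.smul_apply,
        Function.update_self, smul_zero, zero_sub, abs_neg, smul_eq_mul,
        abs_of_nonneg (mul_nonneg (sq_nonneg β) (hq.nonneg L))]
      exact mul_le_mul_of_nonneg_right (mul_le_of_le_one_right (sq_nonneg β) hq1) hz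
    · intro k _ hk
      rw [Pi.smul_apply, Pi.smul_apply, Function.update_of_ne (by omega), sub_self, abs_zero,
        zero_mul]
    · intro h
      exact absurd (Finset.mem_range.2 (by omega)) h
  have h3 : pairing L ζ (Function.update q L 0) (Function.update q L 0) ≤ pairing L ζ q q := by
    refine pairing_le hζ.zok fun k _ => ?_
    by_cases hk : k = L
    · rw [hk, Function.update_self, mul_zero]
      exact mul_self_nonneg _
    · rw [Function.update_of_ne hk]
  have h4 := mul_le_mul_of_nonneg_left h3 (sq_nonneg β)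
  have h5 := mul_nonneg (sq_nonneg β) hz
  have h6 := (abs_le.1 h1).2
  rw [GG_eq, GG_eq, hp.top, h0]
  linarith

end OMinAux

open OMinAux

theorem minq (h : S_move) : S_min := by
  have _ := h
  intro L ζ β hζ
  have hL := hζ.one_le
  have hne : {q : ℕ → ℝ | QP L q}.Nonempty := by
    refine ⟨fun d => if d = 0 then 1 else 0, ⟨fun a b hab => ?_, fun d hd => if_neg (by omega)⟩,
      if_neg (by omega), if_pos rfl⟩
    split_ifs with h1 h2 h2
    · exact le_rfl
    · omega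
    · exact zero_le_one
    · exact le_rfl
  obtain ⟨q, hq, hmin⟩ := (isCompact_QP L).exists_isMinOn hne (cont_GG hζ β)
  have hm : ∀ q', QP L q' → GG L ζ β q ≤ GG L ζ β q' := fun q' hq' => hmin hq'
  exact ⟨q, ⟨hq, hm⟩, fun q' h1 h2 => (hm _ (qp_update hL h1 h2)).trans (cost hζ β h1 h2)⟩

end Vale.Agent.P146L.One
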