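import Vale.Agent.P146L.ODefs

/-! # P146, lower bound, one-site part: moving one level -/

namespace Vale.Agent.P146L.One

open MeasureTheory ProbabilityTheory Vale.Agent.P157 Set

namespace OMoveAux

theorem cadm_upd {n : ℕ} {c : ℕ → ℝ} (hc : CAdm n c) {j : ℕ} (hj : j < n) {τ : ℝ}
    (h1 : c (j + 1 + 1) ≤ τ) (h2 : τ ≤ c j) : CAdm n (Function.update c (j + 1) τ) := by
  refine ⟨antitone_nat_of_succ_le fun d => ?_, fun d hd => ?_⟩
  · by_cases a1 : d = j + 1
    · subst a1
      rw [Function.update_self, Function.update_of_ne (by omega)]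
      exact h1
    · by_cases a2 : d = j
      · subst a2
        rw [Function.update_self, Function.update_of_ne (by omega)]
        exact h2
      · rw [Function.update_of_ne a1, Function.update_of_ne (by omega)]
        exact hc.anti d.le_succ
  · rw [Function.update_of_ne (by omega)]
    exact hc.zero d hd

theorem seg_upd (c : ℕ → ℝ) (k : ℕ) (a b t : ℝ) :
    Function.update c k a + t • (Function.update c k b - Function.update c k a) =
      Function.update c k (a + t * (b - a)) := by
  funext d
  by_cases h : d = k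
  · subst h
    simp
  · simp [Function.update_of_ne h]

end OMoveAux

open OMoveAux ConcaveAux

theorem move : S_move := by
  intro n ζ c k hζ hc hk1 hkn
  obtain ⟨j, rfl⟩ : ∃ j, k = j + 1 := ⟨k - 1, by omega⟩
  rw [Nat.add_sub_cancel]
  have hj : j < n := hkn
  have l1 : c (j + 1 + 1) ≤ c (j + 1) := hc.anti (Nat.le_succ _)
  have l2 : c (j + 1) ≤ c j := hc.anti (Nat.le_succ _)
  rcases (l1.trans l2).eq_or_lt with h | h
  · rw [h, Icc_self]
    refine ⟨continuousOn_singleton _ _, fun σ hσ => ?_⟩
    have : σ = c (j + 1) := by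
      rw [mem_singleton_iff.1 hσ]
      linarith
    rw [this, Function.update_eq_self]
    simp
  · have hΔ : 0 < ζ j - ζ (j + 1) := sub_pos.2 (hζ.zlt j hj)
    obtain ⟨s1, s2⟩ := seg hζ (cadm_upd hc hj le_rfl h.le) (cadm_upd hc hj h.le le_rfl)
    simp only [seg_upd] at s1 s2
    generalize c (j + 1 + 1) = lo at *
    generalize c j = hi at *
    have hsum : ∀ r : ℕ → ℝ, ∑ i ∈ Finset.range n, (Function.update c (j + 1) hi (i + 1)
        - Function.update c (j + 1) lo (i + 1)) * r i = (hi - lo) * r j := fun r => by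
      rw [Finset.sum_eq_single j]
      · simp
      · intro i _ hi'
        rw [Function.update_of_ne (by omega), Function.update_of_ne (by omega), sub_self, zero_mul]
      · intro hc'
        exact absurd (Finset.mem_range.2 hj) hc'
    simp only [hsum] at s1
    have hd : 0 < hi - lo := sub_pos.2 h
    have hmap : MapsTo (fun τ : ℝ => (τ - lo) / (hi - lo)) (Icc lo hi) (Icc 0 1) := fun τ hτ =>
      ⟨div_nonneg (sub_nonneg.2 hτ.1) hd.le, (div_le_one hd).2 (by linarith [hτ.2])⟩
    have hinv : ∀ τ : ℝ, lo + (τ - lo) / (hi - lo) * (hi - lo) = τ := fun τ => by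
      field_simp
      ring
    have hcont : ContinuousOn (fun τ => rho1 n ζ (Function.update c (j + 1) τ) (j + 1))
        (Icc lo hi) := by
      have h1 := ((s2 j hj).comp (by fun_prop) hmap).div_const (ζ j - ζ (j + 1))
      refine h1.congr fun τ _ => ?_
      simp only [Function.comp_apply, hinv, gr]
      field_simp
    have hder : ∀ τ ∈ Icc lo hi, HasDerivWithinAt (fun τ => Ph n ζ (Function.update c (j + 1) τ))
        (-((ζ j - ζ (j + 1)) / 2) * rho1 n ζ (Function.update c (j + 1) τ) (j + 1))
        (Icc lo hi) τ := fun τ hτ => by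
      have h1 : HasDerivWithinAt (fun τ : ℝ => (τ - lo) / (hi - lo)) (1 / (hi - lo))
          (Icc lo hi) τ := (((hasDerivAt_id τ).sub_const lo).div_const _).hasDerivWithinAt
      have h2 := (s1 _ (hmap hτ)).comp τ h1 hmap
      simp only [Function.comp_def, hinv, gr] at h2
      refine h2.congr_deriv ?_
      field_simp
    refine ⟨hcont, fun σ hσ => ?_⟩
    have hp : c (j + 1) ∈ Icc lo hi := ⟨l1, l2⟩
    have hsub : uIcc (c (j + 1)) σ ⊆ Icc lo hi := uIcc_subset_Icc hp hσ
    have key := intervalIntegral.integral_eq_sub_of_hasDeriv_right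
      (f := fun τ => Ph n ζ (Function.update c (j + 1) τ))
      (f' := fun τ => -((ζ j - ζ (j + 1)) / 2) * rho1 n ζ (Function.update c (j + 1) τ) (j + 1))
      (a := c (j + 1)) (b := σ)
      (fun τ hτ => (hder τ (hsub hτ)).continuousWithinAt.mono hsub)
      (fun τ hτ => ((hder τ (hsub (Ioo_subset_Icc_self hτ))).hasDerivAt (Icc_mem_nhds
        (lt_of_le_of_lt (le_min hp.1 hσ.1) hτ.1)
        (lt_of_lt_of_le hτ.2 (max_le hp.2 hσ.2)))).hasDerivWithinAt)
      ((continuousOn_const.mul (hcont.mono hsub)).intervalIntegrable)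
    rw [intervalIntegral.integral_const_mul, Function.update_eq_self, Ph, Ph,
      Function.update_of_ne (by omega)] at key
    rw [key]
    ring

end Vale.Agent.P146L.One
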