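import Vale.Agent.P146L.ODefs

/-! # P146, lower bound, one-site part: normal forms inside a block -/

namespace Vale.Agent.P146L.One

open MeasureTheory ProbabilityTheory Vale.Agent.P157 Set

namespace ONormAux

theorem g1_zero : g1 0 = Measure.dirac 0 := by
  simp [g1]

theorem X_flat (ζ : ℕ → ℝ) (ν : ℕ → Measure ℝ) (Ψ : ℝ → ℝ) {k m : ℕ} (hkm : k ≤ m)
    (h : ∀ j, k ≤ j → j < m → ν j = Measure.dirac 0) : X ζ ν Ψ m = X ζ ν Ψ k := by
  induction m, hkm using Nat.le_induction with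
  | base => rfl
  | succ m hm ih =>
    rw [X_succ, h m hm (by omega), T_dirac, ih fun j hj hj' => h j hj (by omega)]

theorem Ex_flat (ζ : ℕ → ℝ) (ν : ℕ → Measure ℝ) (Ψ F : ℝ → ℝ) {m : ℕ}
    (h : ∀ j, j < m → ν j = Measure.dirac 0) : Ex ζ ν Ψ 0 F m = F := by
  induction m with
  | zero => rfl
  | succ m ih =>
    rw [Ex_succ (Nat.zero_le m), h m (by omega), P_dirac, ih fun j hj => h j (by omega)]

theorem phi_eq {n : ℕ} (ζ : ℕ → ℝ) {c : ℕ → ℝ} {d : ℕ} {r : ℝ} (hc : CAdm n c) (hd : d ≤ n)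
    (h1 : c (d + 1) ≤ r) (h2 : r ≤ c d) :
    Phi n ζ c r = T (ζ d) (g1 (c d - r)) (X ζ (g1s (dq c)) lc d) := by
  unfold Phi
  rw [X_flat ζ _ lc (k := d + 1) (by omega), X_succ]
  · have e1 : g1s (dq fun k => max (c k) r) d = g1 (c d - r) := by
      simp only [g1s, dq]
      rw [max_eq_left h2, max_eq_right h1]
    rw [e1]
    congr 1
    refine X_congr fun j hj => ⟨rfl, ?_⟩
    simp only [g1s, dq]
    rw [max_eq_left (h2.trans (hc.anti hj.le)), max_eq_left (h2.trans (hc.anti hj))]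
  · intro j hj _
    simp only [g1s, dq]
    rw [max_eq_right ((hc.anti hj).trans h1),
      max_eq_right ((hc.anti (show d + 1 ≤ j + 1 by omega)).trans h1), sub_self, g1_zero]

end ONormAux

open ONormAux in
theorem norm : S_norm := by
  intro n ζ c d r hζ hc hd h1 h2
  refine ⟨phi_eq ζ hc hd h1 h2, fun F _ => ?_⟩
  unfold Er
  have hz : ∀ j, j < d → g1s (dq fun k => min (c k) r) j = Measure.dirac 0 := by
    intro j hj
    simp only [g1s, dq]
    rw [min_eq_right (h2.trans (hc.anti hj.le)), min_eq_right (h2.trans (hc.anti hj)), sub_self,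
      g1_zero]
  have e1 : g1s (dq fun k => min (c k) r) d = g1 (r - c (d + 1)) := by
    simp only [g1s, dq]
    rw [min_eq_right h2, min_eq_left h1]
  have eX : X ζ (g1s (dq fun k => min (c k) r)) (Phi n ζ c r) d = Phi n ζ c r :=
    X_flat ζ _ _ (Nat.zero_le d) fun j _ hj => hz j hj
  rw [← Ex_tower (Nat.zero_le (d + 1)) (show d + 1 ≤ n + 1 by omega), Ex_succ (Nat.zero_le d),
    Ex_flat ζ _ _ F hz, eX, e1]
  refine congrFun (Ex_congr_above (fun j hj _ => ⟨rfl, ?_⟩) ?_ _) 0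
  · simp only [g1s, dq]
    rw [min_eq_left ((hc.anti hj).trans h1),
      min_eq_left ((hc.anti (show d + 1 ≤ j + 1 by omega)).trans h1)]
  · rw [X_succ, X_succ, eX, e1, phi_eq ζ hc hd h1 h2,
      ← T_conv (hζ.nn d) (noise_g1 _) (noise_g1 _) ((cas_g1s hζ _ lg_lc).lgX d),
      ← g1_conv (sub_nonneg.2 h2) (sub_nonneg.2 h1)]
    simp only [g1s, dq]
    rw [sub_add_sub_cancel]

end Vale.Agent.P146L.One
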