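import Vale.Agent.P146L.OO2A

/-! # P146, lower bound, one-site part: little mass near zero -/

namespace Vale.Agent.P146L.One

open MeasureTheory Vale.Agent.P157 Set

theorem zadm_nn {n : ℕ} {ζ : ℕ → ℝ} (h : ZAdm n ζ) (d : ℕ) : 0 ≤ ζ d := by
  by_cases hd : n ≤ d
  · exact (h.zn d hd).ge
  · have key : ∀ j, j ≤ n → 0 ≤ ζ (n - j) := by
      intro j
      induction j with
      | zero => intro _; exact (h.zn n le_rfl).ge
      | succ j ih =>
        intro hj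
        have e : n - j = n - (j + 1) + 1 := by omega
        have := h.zlt (n - (j + 1)) (by omega)
        rw [← e] at this
        linarith [ih (by omega)]
    have := key (n - d) (by omega)
    rwa [show n - (n - d) = d by omega] at this

theorem zadm_anti {n : ℕ} {ζ : ℕ → ℝ} (h : ZAdm n ζ) : Antitone ζ := by
  refine antitone_nat_of_succ_le fun d => ?_
  by_cases hd : d < n
  · exact (h.zlt d hd).le
  · rw [h.zn (d + 1) (by omega)]; exact zadm_nn h d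

theorem zadm_pos {n : ℕ} {ζ : ℕ → ℝ} (h : ZAdm n ζ) {d : ℕ} (hd : d < n) : 0 < ζ d :=
  (zadm_nn h (d + 1)).trans_lt (h.zlt d hd)

theorem zadm_le1 {n : ℕ} {ζ : ℕ → ℝ} (h : ZAdm n ζ) (d : ℕ) : ζ d ≤ 1 :=
  h.z0 ▸ zadm_anti h (Nat.zero_le d)

theorem cadm_nn {n : ℕ} {c : ℕ → ℝ} (h : CAdm n c) (d : ℕ) : 0 ≤ c d := by
  have := h.anti (show d ≤ d + n + 1 by omega)
  rwa [h.zero (d + n + 1) (by omega)] at this

/-- The concavity constant. -/
theorem conc_num {β Λ V m m' R x : ℝ} (hβ : 1 < β) (hΛ : 1 ≤ Λ) (hV : 3 / 4 ≤ β * V)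
    (hm : 0 < m) (hm1 : m ≤ 1) (hm' : m ≤ m') (hR : R = m / (8 * β ^ 3 * Λ)) {y : ℝ}
    (hy : y ≤ R) (hx : V - R ≤ x) :
    Λ * y - 2 * m' * x ^ 3 ≤ -(m / (8 * β ^ 3)) ∧ R ≤ 1 / 8 ∧ 0 < R ∧ 2 * R ≤ V := by
  have hβ0 : 0 < β := by linarith
  have hβ3 : β ≤ β ^ 3 := by nlinarith [mul_pos hβ0 hβ0, sq_nonneg (β - 1)]
  have hD : 8 * β ≤ 8 * β ^ 3 * Λ := by nlinarith [pow_pos hβ0 3]
  have R0 : 0 < R := by rw [hR]; positivity
  have R1 : β * R ≤ 1 / 8 := by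
    rw [hR, ← mul_div_assoc, div_le_iff₀ (by positivity)]
    nlinarith
  have R2 : R ≤ 1 / 8 := by nlinarith
  have eR : Λ * R = m / (8 * β ^ 3) := by rw [hR]; field_simp
  have hx1 : 1 / (2 * β) ≤ x := by
    rw [div_le_iff₀ (by positivity)]
    nlinarith
  have hx3 : 1 / (8 * β ^ 3) ≤ x ^ 3 := by
    have := pow_le_pow_left₀ (by positivity) hx1 3
    rwa [div_pow, mul_pow, show (2 : ℝ) ^ 3 = 8 by norm_num, one_pow] at this
  have h1 : m / (8 * β ^ 3) ≤ m' * x ^ 3 := by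
    rw [div_eq_mul_one_div]
    exact mul_le_mul hm' hx3 (by positivity) (by linarith)
  refine ⟨by nlinarith, R2, R0, ?_⟩
  refine le_of_mul_le_mul_left ?_ hβ0
  nlinarith

/-- The first level above the scale `R`, and the distance of the next level from the start. -/
theorem next_blk {β Λ E : ℝ} {n : ℕ} {ζ c : ℕ → ℝ} {V : ℝ} {γ g : ℝ → ℝ} (hβ : 1 < β)
    (hΛ : 1 ≤ Λ) (hE : 0 ≤ E) (hζ : ZAdm n ζ) (hc : CAdm n c) (c0 : c 0 = β ^ 2)
    (hG : Glo (β ^ 2) Λ n ζ c V γ g) (hO : Opt (β ^ 2) E n c γ) (hV : 3 / 4 ≤ β * V) {d : ℕ}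
    (hd : d + 1 < n) (hlt : c (d + 1) < c d) {R : ℝ} (hR : R = ζ d / (8 * β ^ 3 * Λ))
    (hp : c (d + 1) ≤ R) :
    ∃ e, e ≤ d ∧ R < c e ∧ c (e + 1) ≤ R ∧ c (d + 1) ≤ c (e + 1) ∧
      ζ d / (8 * β ^ 3) * (c (e + 1) - c (d + 1)) ^ 3 / 12 ≤ E := by
  have m0 := zadm_pos hζ (show d < n by omega)
  obtain ⟨hμ, R1, R0, RV⟩ := conc_num hβ hΛ hV m0 (zadm_le1 hζ d) le_rfl hR le_rfl le_rfl
  have hB : 1 < β ^ 2 := by nlinarith
  have hex : ∃ j, c (j + 1) ≤ R := ⟨d, hp⟩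
  classical
  have e1 : c (Nat.find hex + 1) ≤ R := Nat.find_spec hex
  have e2 : Nat.find hex ≤ d := Nat.find_min' hex hp
  have e3 : R < c (Nat.find hex) := by
    rcases Nat.eq_zero_or_eq_succ_pred (Nat.find hex) with h | h
    · rw [h, c0]; linarith
    · have := Nat.find_min hex (show (Nat.find hex).pred < Nat.find hex by
        rw [h]; exact Nat.lt_succ_self _)
      rw [h]
      exact not_le.1 this
  generalize Nat.find hex = e at e1 e2 e3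
  have e4 : c (d + 1) ≤ c (e + 1) := hc.anti (by omega)
  refine ⟨e, e2, e3, e1, e4, ?_⟩
  rcases e4.eq_or_lt with h | h
  · rw [h]; simpa using hE
  have hed : e < d := by
    rcases e2.eq_or_lt with h' | h'
    · rw [h'] at h; exact absurd h (lt_irrefl _)
    · exact h'
  have p0 := cadm_nn hc (d + 1)
  have hsub : ∀ b, b ≤ R → Icc (c (d + 1)) b ⊆ Icc 0 (β ^ 2) := fun b hb =>
    Icc_subset_Icc p0 (by linarith)
  have hf : ∀ b, b ≤ R → ∀ x y, c (d + 1) ≤ x → x ≤ y → y ≤ b →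
      γ y - γ x = ∫ s in x..y, g s := fun b hb x y h1 h2 h3 =>
    hG.ftc x y (p0.trans h1) h2 (by linarith)
  have hcc : ∀ b, b ≤ R → ∀ x y, c (d + 1) ≤ x → x ≤ y → y ≤ b →
      g y - g x ≤ -(ζ d / (8 * β ^ 3) * (y - x)) := by
    intro b hb x y h1 h2 h3
    have := hG.conc d x y R (by omega) h1 h2 (h3.trans hb) (by linarith) (by linarith)
    have h4 := mul_le_mul_of_nonneg_left hμ (sub_nonneg.2 h2)
    linarith
  have hde : c d ≤ c (e + 1) := hc.anti (by omega)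
  have k1 := hO.k0 (d + 1) (by omega) (by omega)
  have k2 := hO.k0 (e + 1) (by omega) (by omega)
  have k3 := hO.k0 d (by omega) (by omega)
  have hpar := sc_par h (hG.cg.mono (hsub _ e1)) (hf _ e1) (hcc _ e1) k1 k2 hlt.le hde
  rw [k3, sub_self] at hpar
  have heq : c (e + 1) = c d := by
    by_contra hne
    have a1 : 0 < c (e + 1) - c d := sub_pos.2 (lt_of_le_of_ne hde (Ne.symm hne))
    have a2 : 0 < c d - c (d + 1) := sub_pos.2 hlt
    have hβ0 : 0 < β := by linarith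
    have : 0 < ζ d / (8 * β ^ 3) / 2 * ((c d - c (d + 1)) * (c (e + 1) - c d)) := by positivity
    linarith
  rw [heq] at e1 ⊢
  exact (sc_int hlt (hG.cγ.mono (hsub _ e1)) (hG.cg.mono (hsub _ e1)) (hf _ e1) (hcc _ e1)
    k1 k3).trans (hO.up d (c d) hd hlt.le le_rfl)

/-- A long block that starts near the origin and is not the top block. -/
theorem mid_blk (h : S_fb) {β Λ E : ℝ} {n : ℕ} {ζ c : ℕ → ℝ} {V : ℝ} {γ g : ℝ → ℝ}
    {lγ lg : ℕ → ℝ → ℝ} (hβ : 1 < β) (hΛ : 1 ≤ Λ) (hE : 0 ≤ E) (hc : CAdm n c)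
    (c0 : c 0 = β ^ 2) (hG : Glo (β ^ 2) Λ n ζ c V γ g) (hB : Blo Λ n ζ c V γ lγ lg)
    (hO : Opt (β ^ 2) E n c γ) (hV : 3 / 4 ≤ β * V) {m R : ℝ} (m0 : 0 < m) (m1 : m ≤ 1)
    (hR : R = m / (8 * β ^ 3 * Λ)) {e : ℕ} (he1 : 1 ≤ e) (he : e + 1 < n) (hm : m ≤ ζ e)
    (h1 : R < c e) (h2 : c (e + 1) ≤ R / 2) :
    m / (8 * β ^ 3) * (R / 4) ^ 3 / 96 ≤ E + 2 * ((Λ + 1) * c (e + 1)) * (R / 4) := by
  have p0 := cadm_nn hc (e + 1)
  have hβ0 : 0 < β := by linarith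
  obtain ⟨hμ, R1, R0, RV⟩ := conc_num (x := V - c (e + 1) - R / 4) (y := R / 4) hβ hΛ hV m0 m1 hm
    hR (by
      have : 0 < R := by rw [hR]; positivity
      linarith) (by
      have : 0 < R := by rw [hR]; positivity
      linarith)
  have hB1 : 1 ≤ β ^ 2 := by nlinarith
  have hL := hB.loc e (by omega)
  have hcl := fun τ a b => hB.close e τ (by omega) a b
  have hγ : ContinuousOn γ (Icc (c (e + 1)) (c (e + 1) + (c e - c (e + 1)))) := by
    refine hG.cγ.mono (Icc_subset_Icc p0 ?_)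
    have := hc.anti (Nat.zero_le e)
    linarith
  refine h Λ (ζ e) (V - c (e + 1)) (c e - c (e + 1)) (β ^ 2) E ((Λ + 1) * c (e + 1))
    (m / (8 * β ^ 3)) (R / 4) (lγ e) (lg e) hL (by linarith) (by linarith) (by positivity) hE
    (by positivity) ?_ ?_ ?_ ?_
  · intro s t a1 a2 a3
    have := hL.conc s t (R / 4) a1 a2 a3 (by linarith) (by linarith)
    have h4 := mul_le_mul_of_nonneg_left hμ (sub_nonneg.2 a2)
    linarith
  · have a1 := abs_le.1 (hcl (c e - c (e + 1)) (by linarith) le_rfl)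
    rw [add_sub_cancel, hO.k0 e he1 (by omega)] at a1
    have a2 : c (e + 1) / β ^ 2 ≤ c (e + 1) := div_le_self p0 hB1
    have a3 : 0 ≤ c (e + 1) / β ^ 2 := by positivity
    rw [sub_div, abs_le]
    constructor <;> nlinarith [a1.1, a1.2]
  · intro σ a1 a2
    exact tr_up hB1 p0 a1 a2 hγ hL.cf hcl (hO.up e _ he (by linarith) (by linarith))
  · intro σ a1 a2
    refine tr_dn hB1 (by linarith) p0 a1 a2 hγ hL.cf hcl ?_
    rw [add_sub_cancel]
    exact hO.dn e _ he1 (by omega) (by linarith) (by linarith)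

/-- Bookkeeping of the alternatives. -/
theorem alt_num {a b : ℝ} (ha : 0 < a) (hb : 0 < b) : ∃ K : ℝ, 1 ≤ K ∧ ∀ m p s E : ℝ, 0 < m →
    m ≤ 1 → 0 ≤ p → p ≤ s → 0 ≤ E → b * m * (s - p) ^ 3 ≤ E →
    (a * m ^ 3 ≤ s ∨ a * m ^ 4 ≤ E) → m ^ 3 ≤ K * p ∨ m ^ 10 ≤ K * E := by
  refine ⟨1 + 2 / a + 8 / (b * a ^ 3), by
    have : 0 < 2 / a + 8 / (b * a ^ 3) := by positivity
    linarith, fun m p s E m0 m1 p0 ps E0 h1 h2 => ?_⟩
  have k1 : 0 < 2 / a := by positivity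
  have k2 : 0 < 8 / (b * a ^ 3) := by positivity
  rcases h2 with h2 | h2
  · by_cases h3 : a * m ^ 3 / 2 ≤ p
    · left
      have : m ^ 3 ≤ 2 / a * p := by
        rw [div_mul_eq_mul_div, le_div_iff₀ ha]; linarith
      nlinarith
    · right
      have h4 : a * m ^ 3 / 2 ≤ s - p := by linarith
      have h5 := pow_le_pow_left₀ (by positivity) h4 3
      have h6 := mul_le_mul_of_nonneg_left h5 (show 0 ≤ b * m by positivity)
      have : m ^ 10 ≤ 8 / (b * a ^ 3) * E := by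
        rw [div_mul_eq_mul_div, le_div_iff₀ (by positivity)]
        have e : b * m * (a * m ^ 3 / 2) ^ 3 = m ^ 10 * (b * a ^ 3) / 8 := by ring
        linarith
      nlinarith
  · right
    have h3 : m ^ 10 ≤ m ^ 4 := pow_le_pow_of_le_one m0.le m1 (by norm_num)
    have : m ^ 4 ≤ 2 / a * E := by
      rw [div_mul_eq_mul_div, le_div_iff₀ ha]; linarith
    nlinarith

theorem o2 (h : S_fb) : S_o2 := by
  intro β Λ hβ hΛ
  have hβ0 : 0 < β := by linarith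
  have hB : 1 < β ^ 2 := by nlinarith
  obtain ⟨κ, hκ⟩ : ∃ κ : ℝ, κ = 1 / (8 * β ^ 3 * Λ) := ⟨_, rfl⟩
  have κ0 : 0 < κ := by rw [hκ]; positivity
  obtain ⟨η, hη⟩ : ∃ η : ℝ, η = 1 - 1 / β ^ 2 := ⟨_, rfl⟩
  have η0 : 0 < η := by rw [hη, sub_pos, div_lt_one (by positivity)]; exact hB
  obtain ⟨σ, hσ⟩ : ∃ σ : ℝ, σ = η / (2 * Λ) := ⟨_, rfl⟩
  have σ0 : 0 < σ := by rw [hσ]; positivity
  obtain ⟨u, hu⟩ : ∃ u : ℝ, u = 1 / (8 * β ^ 3) * (κ / 4) ^ 3 / 96 := ⟨_, rfl⟩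
  have u0 : 0 < u := by rw [hu]; positivity
  obtain ⟨a, a0, a1, a2, a3, a4, a5⟩ : ∃ a : ℝ, 0 < a ∧ a ≤ κ / 2 ∧ a ≤ u / 2 ∧
      a ≤ u / ((Λ + 1) * κ) ∧ a ≤ η * σ ^ 2 / 8 ∧ a ≤ η * σ / (8 * (Λ + 1)) := by
    refine ⟨min (min (κ / 2) (u / 2)) (min (u / ((Λ + 1) * κ))
      (min (η * σ ^ 2 / 8) (η * σ / (8 * (Λ + 1))))), by positivity, ?_, ?_, ?_, ?_, ?_⟩
    · exact (min_le_left _ _).trans (min_le_left _ _)
    · exact (min_le_left _ _).trans (min_le_right _ _)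
    · exact (min_le_right _ _).trans (min_le_left _ _)
    · exact (min_le_right _ _).trans ((min_le_right _ _).trans (min_le_left _ _))
    · exact (min_le_right _ _).trans ((min_le_right _ _).trans (min_le_right _ _))
  obtain ⟨K, K1, hK⟩ := alt_num a0 (show 0 < 1 / (8 * β ^ 3) / 12 by positivity)
  refine ⟨K, K1, fun E n ζ c V γ g lγ lg hE hζ hc c0 _ hG hBl hO hV d hd hlt => ?_⟩
  have m0 := zadm_pos hζ (show d < n by omega)
  have m1 := zadm_le1 hζ d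
  have p0 := cadm_nn hc (d + 1)
  have m3 : ζ d ^ 3 ≤ ζ d := by
    simpa using pow_le_pow_of_le_one m0.le m1 (show 1 ≤ 3 by norm_num)
  have m4 : ζ d ^ 4 ≤ 1 := pow_le_one₀ m0.le m1
  have m3' : 0 < ζ d ^ 3 := by positivity
  have m4' : 0 < ζ d ^ 4 := by positivity
  obtain ⟨R, hR⟩ : ∃ R : ℝ, R = ζ d / (8 * β ^ 3 * Λ) := ⟨_, rfl⟩
  have eR : R = κ * ζ d := by rw [hR, hκ]; ring
  have hfar : a * ζ d ^ 3 ≤ R / 2 := by
    rw [eR]
    have := mul_le_mul a1 m3 m3'.le (by positivity)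
    linarith
  have R0 : 0 < R := by rw [eR]; positivity
  by_cases hp : c (d + 1) ≤ R
  swap
  · exact hK (ζ d) (c (d + 1)) (c (d + 1)) E m0 m1 p0 le_rfl hE (by simpa using hE)
      (Or.inl (by linarith [not_le.1 hp]))
  obtain ⟨e, ed, e1, e2, e3, e4⟩ := next_blk hβ hΛ hE hζ hc c0 hG hO hV hd hlt hR hp
  refine hK (ζ d) (c (d + 1)) (c (e + 1)) E m0 m1 p0 e3 hE (by
    have : 1 / (8 * β ^ 3) / 12 * ζ d * (c (e + 1) - c (d + 1)) ^ 3
      = ζ d / (8 * β ^ 3) * (c (e + 1) - c (d + 1)) ^ 3 / 12 := by ring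
    linarith) ?_
  by_cases hs : c (e + 1) ≤ R / 2
  swap
  · exact Or.inl (by linarith [not_le.1 hs])
  have s0 := cadm_nn hc (e + 1)
  rcases Nat.eq_zero_or_pos e with rfl | he
  · obtain ⟨-, R1, -, -⟩ := conc_num hβ hΛ hV m0 m1 le_rfl hR le_rfl le_rfl
    have hL := hBl.loc 0 (by omega)
    have hγ : ContinuousOn γ (Icc (c (0 + 1)) (c (0 + 1) + (c 0 - c (0 + 1)))) :=
      hG.cγ.mono (Icc_subset_Icc s0 (by linarith))
    have ht := top_blk (E := E) (ε := (Λ + 1) * c (0 + 1)) hB hΛ (by linarith) hL hBl.top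
      (fun τ b1 b2 => tr_up hB.le s0 b1 b2 hγ hL.cf (fun τ b1 b2 => hBl.close 0 τ (by omega) b1 b2)
        (hO.up 0 _ (by omega) (by linarith) (by linarith)))
    rw [← hη, ← hσ] at ht
    by_cases hE1 : η * σ ^ 2 / 8 ≤ E
    · right
      exact (mul_le_of_le_one_right a0.le m4).trans (a4.trans hE1)
    · left
      have b1 : η * σ / 8 * σ ≤ (Λ + 1) * c (0 + 1) * σ := by
        have : η * σ / 8 * σ = η * σ ^ 2 / 8 := by ring
        linarith
      have b2 := le_of_mul_le_mul_right b1 σ0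
      have b3 : η * σ / (8 * (Λ + 1)) ≤ c (0 + 1) := by
        rw [div_le_iff₀ (by positivity)]; linarith
      exact (mul_le_of_le_one_right a0.le (m3.trans m1)).trans (a5.trans b3)
  · have hm := mid_blk h hβ hΛ hE hc c0 hG hBl hO hV m0 m1 hR he (by omega)
      (zadm_anti hζ ed) e1 hs
    have eu : ζ d / (8 * β ^ 3) * (R / 4) ^ 3 / 96 = u * ζ d ^ 4 := by rw [eR, hu]; ring
    rw [eu] at hm
    by_cases hE1 : u * ζ d ^ 4 / 2 ≤ E
    · right
      have := mul_le_mul_of_nonneg_right a2 m4'.le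
      linarith
    · left
      have b1 : u * ζ d ^ 3 * ζ d ≤ (Λ + 1) * κ * c (e + 1) * ζ d := by
        have f1 : 2 * ((Λ + 1) * c (e + 1)) * (R / 4) = (Λ + 1) * κ * c (e + 1) * ζ d / 2 := by
          rw [eR]; ring
        have f2 : u * ζ d ^ 3 * ζ d = u * ζ d ^ 4 := by ring
        linarith
      have b2 := le_of_mul_le_mul_right b1 m0
      have b3 : u / ((Λ + 1) * κ) * ζ d ^ 3 ≤ c (e + 1) := by
        rw [div_mul_eq_mul_div, div_le_iff₀ (by positivity)]; linarith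
      exact (mul_le_mul_of_nonneg_right a3 m3'.le).trans b3

end Vale.Agent.P146L.One
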