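import Vale.Agent.P146L.ODefs

/-! # P146, lower bound, one-site part: real-variable lemmas for the mass near zero -/

namespace Vale.Agent.P146L.One

open MeasureTheory Vale.Agent.P157 Set

theorem int_aff (a b x y : ℝ) :
    ∫ s in a..b, (x + y * s) = x * (b - a) + y * (b ^ 2 - a ^ 2) / 2 := by
  rw [intervalIntegral.integral_add (by simp) ((by fun_prop : Continuous fun s : ℝ =>
    y * s).intervalIntegrable _ _), intervalIntegral.integral_const_mul, integral_id]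
  simp only [intervalIntegral.integral_const, smul_eq_mul]
  ring

theorem int_quad (a b x y z : ℝ) :
    ∫ s in a..b, (x + y * s + z * s ^ 2)
      = x * (b - a) + y * (b ^ 2 - a ^ 2) / 2 + z * (b ^ 3 - a ^ 3) / 3 := by
  rw [intervalIntegral.integral_add ((by fun_prop : Continuous fun s : ℝ =>
    x + y * s).intervalIntegrable _ _) ((by fun_prop : Continuous fun s : ℝ =>
    z * s ^ 2).intervalIntegrable _ _), int_aff, intervalIntegral.integral_const_mul,
    integral_pow]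
  push_cast
  ring

theorem sc_lo {γ g : ℝ → ℝ} {a t μ : ℝ} (hat : a ≤ t) (hg : ContinuousOn g (Icc a t))
    (hf : γ t - γ a = ∫ s in a..t, g s)
    (hc : ∀ s, a ≤ s → s ≤ t → g t - g s ≤ -(μ * (t - s))) :
    (t - a) * g t + μ * (t - a) ^ 2 / 2 ≤ γ t - γ a := by
  have h1 : ∫ s in a..t, ((g t + μ * t) + (-μ) * s) ≤ ∫ s in a..t, g s := by
    refine intervalIntegral.integral_mono_on hat ((by fun_prop : Continuous fun s : ℝ =>
      (g t + μ * t) + (-μ) * s).intervalIntegrable _ _) (hg.intervalIntegrable_of_Icc hat) ?_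
    intro s hs
    have := hc s hs.1 hs.2
    linarith
  rw [int_aff] at h1
  rw [hf]
  nlinarith [h1]

theorem sc_hi {γ g : ℝ → ℝ} {t b μ : ℝ} (htb : t ≤ b) (hg : ContinuousOn g (Icc t b))
    (hf : γ b - γ t = ∫ s in t..b, g s)
    (hc : ∀ s, t ≤ s → s ≤ b → g s - g t ≤ -(μ * (s - t))) :
    γ b - γ t ≤ (b - t) * g t - μ * (b - t) ^ 2 / 2 := by
  have h1 : ∫ s in t..b, g s ≤ ∫ s in t..b, ((g t + μ * t) + (-μ) * s) := by
    refine intervalIntegral.integral_mono_on htb (hg.intervalIntegrable_of_Icc htb)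
      ((by fun_prop : Continuous fun s : ℝ =>
      (g t + μ * t) + (-μ) * s).intervalIntegrable _ _) ?_
    intro s hs
    have := hc s hs.1 hs.2
    linarith
  rw [int_aff] at h1
  rw [hf]
  nlinarith [h1]

/-- A strongly concave function lies above the parabola through two zeros. -/
theorem sc_par {γ g : ℝ → ℝ} {a b B μ : ℝ} (hab : a < b) (hg : ContinuousOn g (Icc a b))
    (hf : ∀ x y, a ≤ x → x ≤ y → y ≤ b → γ y - γ x = ∫ s in x..y, g s)
    (hc : ∀ x y, a ≤ x → x ≤ y → y ≤ b → g y - g x ≤ -(μ * (y - x)))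
    (ha : γ a = a / B) (hb : γ b = b / B) {t : ℝ} (h1 : a ≤ t) (h2 : t ≤ b) :
    μ / 2 * ((t - a) * (b - t)) ≤ γ t - t / B := by
  have e1 := sc_lo h1 (hg.mono (Icc_subset_Icc le_rfl h2)) (hf a t le_rfl h1 h2)
    (fun s hs hs' => hc s t hs hs' h2)
  have e2 := sc_hi h2 (hg.mono (Icc_subset_Icc h1 le_rfl)) (hf t b h1 h2 le_rfl)
    (fun s hs hs' => hc t s h1 hs hs')
  rw [ha] at e1
  rw [hb] at e2
  have f1 := mul_le_mul_of_nonneg_left e1 (sub_nonneg.2 h2)
  have f2 := mul_le_mul_of_nonneg_left e2 (sub_nonneg.2 h1)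
  have hba : 0 < b - a := sub_pos.2 hab
  refine le_of_mul_le_mul_left ?_ hba
  have e : ∀ x : ℝ, x / B = x * B⁻¹ := fun x => div_eq_mul_inv x B
  rw [e] at f1 f2 ⊢
  generalize B⁻¹ = w at f1 f2 ⊢
  nlinarith [f1, f2]

theorem sc_int {γ g : ℝ → ℝ} {a b B μ : ℝ} (hab : a < b) (hγ : ContinuousOn γ (Icc a b))
    (hg : ContinuousOn g (Icc a b))
    (hf : ∀ x y, a ≤ x → x ≤ y → y ≤ b → γ y - γ x = ∫ s in x..y, g s)
    (hc : ∀ x y, a ≤ x → x ≤ y → y ≤ b → g y - g x ≤ -(μ * (y - x)))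
    (ha : γ a = a / B) (hb : γ b = b / B) :
    μ * (b - a) ^ 3 / 12 ≤ ∫ t in a..b, (γ t - t / B) := by
  have h1 : ∫ t in a..b, (-(μ / 2 * (a * b)) + (μ / 2 * (a + b)) * t + (-(μ / 2)) * t ^ 2)
      ≤ ∫ t in a..b, (γ t - t / B) := by
    refine intervalIntegral.integral_mono_on hab.le ((by fun_prop : Continuous fun t : ℝ =>
      -(μ / 2 * (a * b)) + (μ / 2 * (a + b)) * t + (-(μ / 2)) * t ^ 2).intervalIntegrable _ _)
      ((hγ.sub (by fun_prop)).intervalIntegrable_of_Icc hab.le) ?_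
    intro t ht
    have := sc_par hab hg hf hc ha hb ht.1 ht.2
    nlinarith [this]
  rw [int_quad] at h1
  nlinarith [h1]

/-- Transfer of the upward optimality condition to the block started from the origin. -/
theorem tr_up {γ f : ℝ → ℝ} {p l B Λ E σ : ℝ} (hB : 1 ≤ B) (hp : 0 ≤ p) (h0 : 0 ≤ σ)
    (hl : σ ≤ l) (hγ : ContinuousOn γ (Icc p (p + l))) (hf : ContinuousOn f (Icc 0 l))
    (hc : ∀ τ, 0 ≤ τ → τ ≤ l → |γ (p + τ) - f τ| ≤ Λ * p)
    (hE : ∫ τ in p..p + σ, (γ τ - τ / B) ≤ E) :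
    ∫ τ in (0 : ℝ)..σ, (f τ - τ / B) ≤ E + (Λ + 1) * p * σ := by
  have hγ' : ContinuousOn (fun τ => γ (p + τ) - (p + τ) / B) (Icc 0 σ) := by
    refine ContinuousOn.sub (hγ.comp (by fun_prop) ?_) (by fun_prop)
    intro τ hτ
    exact ⟨by linarith [hτ.1], by linarith [hτ.2]⟩
  have e1 : ∫ τ in (0 : ℝ)..σ, (γ (p + τ) - (p + τ) / B) = ∫ τ in p..p + σ, (γ τ - τ / B) := by
    have := intervalIntegral.integral_comp_add_left (fun τ => γ τ - τ / B) p (a := 0) (b := σ)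
    simpa using this
  have h1 : ∫ τ in (0 : ℝ)..σ, (f τ - τ / B)
      ≤ ∫ τ in (0 : ℝ)..σ, ((γ (p + τ) - (p + τ) / B) + (Λ + 1) * p) := by
    refine intervalIntegral.integral_mono_on h0
      (((hf.mono (Icc_subset_Icc le_rfl hl)).sub (by fun_prop)).intervalIntegrable_of_Icc h0)
      ((hγ'.add continuousOn_const).intervalIntegrable_of_Icc h0) ?_
    intro τ hτ
    have a1 := (abs_le.1 (hc τ hτ.1 (hτ.2.trans hl))).1
    have a2 : p / B ≤ p := div_le_self hp hB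
    rw [add_div]
    linarith
  rw [intervalIntegral.integral_add (hγ'.intervalIntegrable_of_Icc h0) (by simp), e1] at h1
  simp only [intervalIntegral.integral_const, sub_zero, smul_eq_mul] at h1
  linarith

/-- Transfer of the downward optimality condition to the block started from the origin. -/
theorem tr_dn {γ f : ℝ → ℝ} {p l B Λ E σ : ℝ} (hB : 1 ≤ B) (hΛ : 0 ≤ Λ) (hp : 0 ≤ p) (h0 : 0 ≤ σ)
    (hl : σ ≤ l) (hγ : ContinuousOn γ (Icc p (p + l))) (hf : ContinuousOn f (Icc 0 l))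
    (hc : ∀ τ, 0 ≤ τ → τ ≤ l → |γ (p + τ) - f τ| ≤ Λ * p)
    (hE : -E ≤ ∫ τ in p + σ..p + l, (γ τ - τ / B)) :
    -(E + (Λ + 1) * p * l) ≤ ∫ τ in σ..l, (f τ - τ / B) := by
  have hγ' : ContinuousOn (fun τ => γ (p + τ) - (p + τ) / B) (Icc σ l) := by
    refine ContinuousOn.sub (hγ.comp (by fun_prop) ?_) (by fun_prop)
    intro τ hτ
    exact ⟨by linarith [hτ.1], by linarith [hτ.2]⟩
  have e1 : ∫ τ in σ..l, (γ (p + τ) - (p + τ) / B) = ∫ τ in p + σ..p + l, (γ τ - τ / B) :=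
    intervalIntegral.integral_comp_add_left (fun τ => γ τ - τ / B) p
  have h1 : ∫ τ in σ..l, ((γ (p + τ) - (p + τ) / B) + -(Λ * p))
      ≤ ∫ τ in σ..l, (f τ - τ / B) := by
    refine intervalIntegral.integral_mono_on hl
      ((hγ'.add continuousOn_const).intervalIntegrable_of_Icc hl)
      (((hf.mono (Icc_subset_Icc h0 le_rfl)).sub (by fun_prop)).intervalIntegrable_of_Icc hl) ?_
    intro τ hτ
    have a1 := (abs_le.1 (hc τ (h0.trans hτ.1) hτ.2)).2
    have a2 : 0 ≤ p / B := div_nonneg hp (by linarith)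
    rw [add_div]
    linarith
  rw [intervalIntegral.integral_add (hγ'.intervalIntegrable_of_Icc hl) (by simp), e1] at h1
  simp only [intervalIntegral.integral_const, smul_eq_mul] at h1
  have a3 : 0 ≤ Λ * p * σ := by positivity
  have a4 : 0 ≤ p * l := mul_nonneg hp (h0.trans hl)
  nlinarith

/-- The top block cannot start near the origin. -/
theorem top_blk {f g : ℝ → ℝ} {Λ m W l B E ε : ℝ} (hB : 1 < B) (hΛ : 1 ≤ Λ) (hl : 1 / 2 ≤ l)
    (h : Loc Λ m W l f g) (hg : g 0 = 1)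
    (hE : ∀ σ, 0 ≤ σ → σ ≤ l → ∫ τ in (0 : ℝ)..σ, (f τ - τ / B) ≤ E + ε * σ) :
    (1 - 1 / B) * ((1 - 1 / B) / (2 * Λ)) ^ 2 / 4 ≤ E + ε * ((1 - 1 / B) / (2 * Λ)) := by
  set η := 1 - 1 / B with hη
  have hB0 : 0 < B := by linarith
  have η0 : 0 < η := by
    rw [hη, sub_pos, div_lt_one hB0]; exact hB
  have η1 : η ≤ 1 := by
    have : 0 < 1 / B := by positivity
    linarith
  set σ := η / (2 * Λ) with hσ
  have σ0 : 0 < σ := by positivity
  have eσ : Λ * σ = η / 2 := by rw [hσ]; field_simp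
  have σ1 : σ ≤ 1 / 2 := by nlinarith
  have hσl : σ ≤ l := σ1.trans hl
  have hf : ∀ τ, 0 ≤ τ → τ ≤ σ → τ - Λ * τ ^ 2 / 2 ≤ f τ := by
    intro τ h0 h1
    have e := h.ftc 0 τ le_rfl h0 (h1.trans hσl)
    rw [h.f0, sub_zero] at e
    have h2 : ∫ s in (0 : ℝ)..τ, (1 + (-Λ) * s) ≤ ∫ s in (0 : ℝ)..τ, g s := by
      refine intervalIntegral.integral_mono_on h0 ((by fun_prop : Continuous fun s : ℝ =>
        1 + (-Λ) * s).intervalIntegrable _ _)
        ((h.cg.mono (Icc_subset_Icc le_rfl (h1.trans hσl))).intervalIntegrable_of_Icc h0) ?_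
      intro s hs
      have := (abs_le.1 (h.lip 0 s le_rfl hs.1 (hs.2.trans (h1.trans hσl)))).1
      rw [hg] at this
      linarith
    rw [int_aff] at h2
    rw [e]
    linarith
  have h3 : ∫ τ in (0 : ℝ)..σ, (0 + η * τ + (-(Λ / 2)) * τ ^ 2)
      ≤ ∫ τ in (0 : ℝ)..σ, (f τ - τ / B) := by
    refine intervalIntegral.integral_mono_on σ0.le ((by fun_prop : Continuous fun τ : ℝ =>
        0 + η * τ + (-(Λ / 2)) * τ ^ 2).intervalIntegrable _ _)
      (((h.cf.mono (Icc_subset_Icc le_rfl hσl)).sub (by fun_prop)).intervalIntegrable_of_Icc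
        σ0.le) ?_
    intro τ hτ
    have := hf τ hτ.1 hτ.2
    have e : η * τ = τ - τ / B := by rw [hη]; ring
    linarith
  rw [int_quad] at h3
  have h4 := hE σ σ0.le hσl
  have h5 : Λ * σ ^ 3 = η / 2 * σ ^ 2 := by rw [← eσ]; ring
  have h6 : 0 ≤ η * σ ^ 2 := by positivity
  nlinarith

end Vale.Agent.P146L.One
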