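import Vale.Agent.P146L.ODefs

/-! # P146, lower bound: optimality conditions for the overlap function -/

namespace Vale.Agent.P146L.One

open MeasureTheory ProbabilityTheory Vale.Agent.P157 Set

namespace OOptAux

theorem cmp {γ ρ : ℝ → ℝ} {a b x σ B e : ℝ} (hx : x ∈ Icc a b) (hσ : σ ∈ Icc a b)
    (hγ : ContinuousOn γ (Icc a b)) (hρ : ContinuousOn ρ (Icc a b))
    (h : ∀ τ ∈ Icc a b, |ρ τ - γ τ| ≤ e) (h0 : 0 ≤ ∫ τ in x..σ, (τ / B - ρ τ)) :
    ∫ τ in x..σ, (γ τ - τ / B) ≤ e * (b - a) := by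
  have hs : uIcc x σ ⊆ Icc a b := uIcc_subset_Icc hx hσ
  have i1 : IntervalIntegrable (fun τ => γ τ - ρ τ) volume x σ :=
    ((hγ.sub hρ).mono hs).intervalIntegrable
  have i2 : IntervalIntegrable (fun τ => τ / B - ρ τ) volume x σ :=
    (((continuousOn_id.div_const B).sub hρ).mono hs).intervalIntegrable
  have e1 : ∫ τ in x..σ, (γ τ - τ / B) =
      (∫ τ in x..σ, (γ τ - ρ τ)) - ∫ τ in x..σ, (τ / B - ρ τ) := by
    rw [← intervalIntegral.integral_sub i1 i2]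
    exact intervalIntegral.integral_congr fun τ _ => by ring
  have e2 := intervalIntegral.norm_integral_le_of_norm_le_const (a := x) (b := σ) (C := e)
    (f := fun τ => γ τ - ρ τ) fun τ hτ => by
      rw [Real.norm_eq_abs, abs_sub_comm]
      exact h τ (hs (uIoc_subset_uIcc hτ))
  have e3 : |σ - x| ≤ b - a := abs_le.2 ⟨by linarith [hx.2, hσ.1], by linarith [hx.1, hσ.2]⟩
  have e4 : 0 ≤ e := (abs_nonneg _).trans (h x hx)
  have e5 := (le_abs_self _).trans (e2.trans (mul_le_mul_of_nonneg_left e3 e4))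
  linarith

end OOptAux

theorem opt (h1 : S_lev) (h2 : S_sens) (h3 : S_move) (h4 : S_kkt) (h5 : S_glo) : S_opt := by
  intro β hβ
  obtain ⟨C, hC, hs⟩ := h2 (β ^ 2)
  obtain ⟨Λ, -, hg⟩ := h5
  have hB : 0 < β ^ 2 := by positivity
  refine ⟨C * β ^ 2, by positivity, fun L ζ q D hζ hD hq => ?_⟩
  have hc : CAdm L (β ^ 2 • q) :=
    ⟨fun a b hab => mul_le_mul_of_nonneg_left (hq.1.1.anti hab) hB.le,
    fun d hd => by simp [hq.1.1.zero d hd]⟩
  have hc0 : (β ^ 2 • q) 0 = β ^ 2 := by simp [hq.1.top]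
  obtain ⟨k1, k2⟩ := h4 L ζ q β hζ hβ hq
  obtain ⟨c, hcq⟩ : ∃ c, c = β ^ 2 • q := ⟨_, rfl⟩
  have hck : ∀ k, c k / β ^ 2 = q k := fun k => by
    rw [hcq, Pi.smul_apply, smul_eq_mul, mul_div_cancel_left₀ _ hB.ne']
  rw [← hcq] at hc hc0 k1 k2 ⊢
  have hnn : ∀ k, 0 ≤ c k := fun k =>
    (hc.zero (max k (L + 1)) (by omega)).ge.trans (hc.anti (le_max_left _ _))
  have hle : ∀ k, c k ≤ β ^ 2 := fun k => (hc.anti (Nat.zero_le k)).trans hc0.le
  have key : ∀ k σ, 1 ≤ k → k < L → σ ∈ Icc (c (k + 1)) (c (k - 1)) →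
      ∫ τ in c k..σ, (fa (Phi L ζ c) (Er L ζ c) τ - τ / β ^ 2) ≤ C * β ^ 2 * D := by
    intro k σ a b hσ
    have hd := hD (k - 1) (by omega)
    rw [Nat.sub_add_cancel a] at hd
    have hd0 : 0 ≤ D := by
      have := hζ.zlt k b
      linarith [hD k b]
    have := OOptAux.cmp (e := C * D) ⟨hc.anti (Nat.le_succ k), hc.anti (Nat.sub_le k 1)⟩ hσ
      ((hg L ζ c hζ hc).1.cγ.mono (Icc_subset_Icc (hnn _) (hc.anti (Nat.zero_le _))))
      (h3 L ζ c k hζ hc a b.le).1 (fun τ hτ => (hs L ζ c k τ hζ hc hc0.le a b.le hτ.1 hτ.2).trans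
        (mul_le_mul_of_nonneg_left hd hC)) (k2 k a b σ hσ)
    refine this.trans ?_
    have h6 : c (k - 1) - c (k + 1) ≤ β ^ 2 := by linarith [hle (k - 1), hnn (k + 1)]
    nlinarith [mul_le_mul_of_nonneg_left h6 (mul_nonneg hC hd0)]
  refine ⟨fun k a b => ?_, fun d σ a b e => ?_, fun d σ a b e f => ?_⟩
  · rw [(h1 L ζ c hζ hc).1 k a b, k1 k a b, hck]
  · exact key (d + 1) σ (by omega) a ⟨(hc.anti (Nat.le_succ _)).trans b, e⟩
  · rw [intervalIntegral.integral_symm, neg_le_neg_iff]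
    exact key d σ a b ⟨e, f.trans (hc.anti (Nat.sub_le d 1))⟩

end Vale.Agent.P146L.One
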