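import Vale.Agent.P146L.ODefs

/-! # P146, lower bound, one-site part: one step preserves `RR` -/

namespace Vale.Agent.P146L.One

open MeasureTheory ProbabilityTheory Vale.Agent.P157 Set

namespace ORRAux

structure Good (B : ℝ → ℝ → ℝ) : Prop where
  ev1 : ∀ s t, B (-s) t = B s t
  ev2 : ∀ s t, B s (-t) = B s t
  lip1 : ∀ s s' t, |B s t - B s' t| ≤ 2 * |s - s'|
  lip2 : ∀ s t t', |B s t - B s t'| ≤ 2 * |t - t'|
  mix : ∀ s s' t t', 0 ≤ s → s ≤ s' → 0 ≤ t → t ≤ t' → B s t + B s' t' ≤ B s' t + B s t'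

theorem lg_of_lip {f : ℝ → ℝ} (h : ∀ x y, |f x - f y| ≤ 2 * |x - y|) : LG f := by
  refine ⟨(LipschitzWith.of_dist_le_mul (K := 2) fun x y => by
    simpa [Real.dist_eq] using h x y).continuous.measurable, |f 0| + 2, fun w => ?_⟩
  have h1 := h w 0
  have h2 := abs_sub_abs_le_abs_sub (f w) (f 0)
  rw [sub_zero] at h1
  rw [Real.norm_eq_abs]
  nlinarith [abs_nonneg (f 0), abs_nonneg w]

theorem Good.flip {B : ℝ → ℝ → ℝ} (h : Good B) : Good fun s t => B t s :=
  ⟨fun s t => h.ev2 t s, fun s t => h.ev1 t s, fun s s' t => h.lip2 t s s',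
    fun s t t' => h.lip1 t t' s, fun s s' t t' a b c d => by linarith [h.mix t t' s s' c d a b]⟩

theorem Good.step {B : ℝ → ℝ → ℝ} (h : Good B) {m : ℝ} (hm : 0 ≤ m) (v : ℝ) :
    Good fun s t => T m (g1 v) (fun x => B x t) s := by
  have := (noise_g1 v).prob
  have lg : ∀ t, LG fun x => B x t := fun t => lg_of_lip fun x y => h.lip1 x y t
  refine ⟨fun s t => T_even m v (lg t).1 (fun x => h.ev1 x t) s, fun s t => by simp only [h.ev2],
    fun s s' t => ?_, fun s t t' => ?_, fun s s' t t' a b c d => ?_⟩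
  · refine abs_lse_sub_le hm ((lg t).eint (noise_g1 v) s') ((lg t).eint (noise_g1 v) s)
      (ae_of_all _ fun z => ?_)
    simpa using h.lip1 (s + z) (s' + z) t
  · exact abs_lse_sub_le hm ((lg t').eint (noise_g1 v) s) ((lg t).eint (noise_g1 v) s)
      (ae_of_all _ fun z => h.lip2 _ t t')
  · have e := T_sub_T_EN hm v (lg t') (fun x => h.ev1 x t') (lg t)
      ⟨fun x => by simp only [h.ev1], fun x hx y _ hxy => by
        have := h.mix x y t t' hx hxy c d
        simp only
        linarith⟩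
      ⟨(lg t).1.sub (lg t').1, 2 * |t - t'|, fun x => h.lip2 x t t'⟩
    have := e.2 a (a.trans b) b
    simp only at this
    linarith

theorem rot {h : ℝ} (hh : 0 ≤ h) :
    ((g1 (h / 2)).prod (g1 (h / 2))).map (fun z : ℝ × ℝ => (z.2 + z.1, z.2 - z.1))
      = (g1 h).prod (g1 h) := by
  have := (noise_g1 h).prob
  have := (noise_g1 (h / 2)).prob
  have e := gauss_lin (ι := Fin 2) (κ := Fin 2) ![![1, 1], ![-1, 1]] (s := fun _ => h / 2)
    (s' := fun _ => h) (fun _ => by positivity) (fun k l => by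
      fin_cases k <;> fin_cases l <;> simp [Fin.sum_univ_two])
  rw [← (measurePreserving_finTwoArrow (g1 h)).map_eq,
    ← (measurePreserving_finTwoArrow (g1 (h / 2))).map_eq]
  unfold gv at e
  rw [← e, Measure.map_map (by fun_prop) (MeasurableEquiv.measurable _),
    Measure.map_map (MeasurableEquiv.measurable _) (by fun_prop)]
  congr 1
  funext z
  simp [MeasurableEquiv.finTwoArrow, Fin.sum_univ_two]
  constructor <;> ring

theorem two {m h : ℝ} (hh : 0 ≤ h) {Ψ : ℝ → ℝ} (hΨ : LG Ψ) (s t : ℝ) :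
    T m (g1 (h / 2)) (fun y => T m (g1 (h / 2)) (fun x => Ψ (x + y) + Ψ (x - y)) s) t
      = T m (g1 h) Ψ (s + t) + T m (g1 h) Ψ (s - t) := by
  have := (noise_g1 h).prob
  have := (noise_g1 (h / 2)).prob
  have e1 := hΨ.eint (noise_g1 h) (s + t)
  have e2 := hΨ.eint (noise_g1 h) (s - t)
  have e3 : EInt ((g1 h).prod (g1 h)) fun w : ℝ × ℝ => Ψ (s + t + w.1) + Ψ (s - t + w.2) :=
    (CascAux.eint_map (F := fun z => Ψ (s + t + z)) measurable_fst (by simpa using e1)).add
      (CascAux.eint_map (F := fun z => Ψ (s - t + z)) measurable_snd (by simpa using e2))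
  have hφ : Measurable fun z : ℝ × ℝ => (z.2 + z.1, z.2 - z.1) := by fun_prop
  have e4 := CascAux.lse_prod_add m e1 e2
  have e5 := lse_map (ν := (g1 (h / 2)).prod (g1 (h / 2))) hφ m e3.1
  rw [← rot hh] at e3
  rw [rot hh, e4, lse_prod m (CascAux.eint_map hφ e3)] at e5
  unfold T
  rw [e5]
  refine congrArg (lse _ m) (funext fun b => congrArg (lse _ m) (funext fun a => ?_))
  simp only
  congr 2 <;> ring

end ORRAux

open ORRAux in
theorem rrT : S_rrT := by
  intro m h Ψ hm hΨ hev hlip hR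
  rcases le_total h 0 with hh | hh
  · rwa [g1_of_nonpos hh, T_dirac]
  have g0 : Good fun s t => Ψ (s + t) + Ψ (s - t) := by
    refine ⟨fun s t => ?_, fun s t => ?_, fun s s' t => ?_, fun s t t' => ?_, hR⟩
    · rw [← hev (-s + t), ← hev (-s - t), add_comm (Ψ _)]
      congr 2 <;> ring
    · rw [add_comm (Ψ _), sub_neg_eq_add, ← sub_eq_add_neg]
    · have a1 := hlip (s + t) (s' + t)
      have a2 := hlip (s - t) (s' - t)
      rw [add_sub_add_right_eq_sub] at a1
      rw [sub_sub_sub_cancel_right] at a2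
      rw [add_sub_add_comm]
      exact (abs_add_le _ _).trans (by linarith)
    · have a1 := hlip (s + t) (s + t')
      have a2 := hlip (s - t) (s - t')
      rw [add_sub_add_left_eq_sub] at a1
      rw [sub_sub_sub_cancel_left, abs_sub_comm t'] at a2
      rw [add_sub_add_comm]
      exact (abs_add_le _ _).trans (by linarith)
  have g2 := ((g0.step hm (h / 2)).flip.step hm (h / 2)).flip
  intro s s' t t' a b c d
  have := g2.mix s s' t t' a b c d
  simpa only [two hh hΨ] using this

end Vale.Agent.P146L.One
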