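import Vale.Agent.P146L.ODefs

/-! # P146, lower bound, one-site part: sensitivity to one level -/

namespace Vale.Agent.P146L.One

open MeasureTheory ProbabilityTheory Vale.Agent.P157 Set

namespace OSensAux

theorem cadm_upd {n : ℕ} {c : ℕ → ℝ} (hc : CAdm n c) {j : ℕ} (hj : j < n) {τ : ℝ}
    (h1 : c (j + 1 + 1) ≤ τ) (h2 : τ ≤ c j) : CAdm n (Function.update c (j + 1) τ) := by
  refine ⟨antitone_nat_of_succ_le fun d => ?_, fun d hd => ?_⟩
  · by_cases a1 : d = j + 1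
    · subst a1
      rw [Function.update_self, Function.update_of_ne (by omega)]
      exact h1
    · by_cases a2 : d = j
      · subst a2
        rw [Function.update_self, Function.update_of_ne (by omega)]
        exact h2
      · rw [Function.update_of_ne a1, Function.update_of_ne (by omega)]
        exact hc.anti d.le_succ
  · rw [Function.update_of_ne (by omega)]
    exact hc.zero d hd

theorem cmp {ζ : ℕ → ℝ} (hζ : Zok ζ) (v : ℕ → ℝ) {Ψ Ψ' G G' : ℝ → ℝ} (h : LG Ψ) (h' : LG Ψ')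
    {b l : ℝ} (hb : ∀ x, |Ψ' x - Ψ x| ≤ b) (hG : Measurable G) (hG1 : ∀ x, |G x| ≤ 1)
    (hG' : BM G') (hl : ∀ x, |G' x - G x| ≤ l) (N : ℕ) :
    |Ex ζ (g1s v) Ψ' 0 G' N 0 - Ex ζ (g1s v) Ψ 0 G N 0| ≤ l + 2 * (Real.exp (2 * b) - 1) := by
  have c1 := cas_g1s hζ v h
  have c2 := cas_g1s hζ v h'
  have a1 := density_abs c1 c2 (k := 0) (d := N) (fun _ _ _ => rfl) hb hG hG1 0
  have a2 := abs_Ex_le (ζ := ζ) (ν := g1s v) (Ψ := Ψ') 0 hl N 0
  rw [c2.Ex_sub 0 hG' ⟨hG, 1, hG1⟩] at a2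
  refine (abs_sub_le _ (Ex ζ (g1s v) Ψ' 0 G N 0) _).trans ?_
  linarith

theorem lip {K : ℝ} {Φ : ℝ → ℝ} (h : G0 K Φ) (x y : ℝ) : |Φ x - Φ y| ≤ |x - y| := by
  have := Convex.norm_image_sub_le_of_norm_hasDerivWithin_le (f := Φ) (f' := d1 Φ) (C := 1)
    (s := univ) (fun z _ => (h.der z).hasDerivWithinAt) (fun z _ => h.u1 z) convex_univ
    (mem_univ y) (mem_univ x)
  simpa using this

theorem meas_d1 (Φ : ℝ → ℝ) : Measurable (d1 Φ) := measurable_deriv Φ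

theorem abs_sq_le {a : ℝ} (h : |a| ≤ 1) : |a ^ 2| ≤ 1 := by
  rw [abs_pow]
  exact pow_le_one₀ (abs_nonneg _) h

theorem sq_sub {a b l : ℝ} (ha : |a| ≤ 1) (hb : |b| ≤ 1) (h : |a - b| ≤ l) :
    |a ^ 2 - b ^ 2| ≤ 2 * l := by
  rw [sq_sub_sq, abs_mul]
  exact mul_le_mul ((abs_add_le _ _).trans (by linarith)) h (abs_nonneg _) two_pos.le

theorem exp_le (C : ℝ) {x : ℝ} (h0 : 0 ≤ x) (h1 : x ≤ 1) :
    Real.exp (2 * (C * x)) - 1 ≤ (Real.exp (2 * C) - 1) * x := by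
  have := convexOn_exp.2 (mem_univ 0) (mem_univ (2 * C)) (sub_nonneg.2 h1) h0 (by ring)
  simp only [smul_eq_mul, mul_zero, zero_add, Real.exp_zero, mul_one] at this
  rw [show 2 * (C * x) = x * (2 * C) by ring]
  linarith

end OSensAux

open OSensAux

theorem sens (h1 : S_gd) (h2 : S_step) (h3 : S_fl) (h4 : S_lev) (h5 : S_sens1) : S_sens := by
  intro B
  obtain ⟨C, hC, hs⟩ := h5 B
  obtain ⟨K, -, hK⟩ := h1
  have hE : 0 ≤ Real.exp (2 * C) - 1 := sub_nonneg.2 (Real.one_le_exp (by linarith))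
  refine ⟨2 * C + 2 * (Real.exp (2 * C) - 1), by positivity, ?_⟩
  intro n ζ c k τ hζ hc hB hk1 hkn t1 t2
  obtain ⟨j, rfl⟩ : ∃ j, k = j + 1 := ⟨k - 1, by omega⟩
  rw [Nat.add_sub_cancel] at t2 ⊢
  have hz := hζ.zok
  have hc' := cadm_upd hc hkn t1 t2
  set c' := Function.update c (j + 1) τ with hc'd
  have v1 : c' (j + 1) = τ := Function.update_self ..
  have v2 : ∀ i, i ≠ j + 1 → c' i = c i := fun i hi => Function.update_of_ne hi ..
  have gd : ∀ (e : ℕ → ℝ) (r : ℝ), Gd K (Phi n ζ e r) := fun e r => (hK ζ _ _ hz).1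
  have l1 : c (j + 1 + 1) ≤ c (j + 1) := hc.anti (Nat.le_succ _)
  have l2 : c (j + 1) ≤ c j := hc.anti (Nat.le_succ _)
  have l3 : c j ≤ B := (hc.anti (Nat.zero_le j)).trans hB
  have l4 : 0 ≤ c (j + 1 + 1) := hc.nonneg _
  have d0 : 0 ≤ ζ j - ζ (j + 1) := sub_nonneg.2 (hz.anti (Nat.le_succ j))
  have d1' : ζ j - ζ (j + 1) ≤ 1 := by linarith [hz.le_one j, hz.nn (j + 1)]
  have hx := exp_le C d0 d1'
  rw [← (h4 n ζ c' hζ hc').1 (j + 1) hk1 hkn, v1]
  rcases le_total (c (j + 1)) τ with h | h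
  · have e1 : Phi n ζ c' τ = Phi n ζ c τ := by
      unfold Phi
      congr 3
      funext i
      by_cases hi : i = j + 1
      · rw [hi, v1, max_self, max_eq_right h]
      · rw [v2 i hi]
    have e2 : (fun i => min (c' i) (c (j + 1))) = fun i => min (c i) (c (j + 1)) := by
      funext i
      by_cases hi : i = j + 1
      · rw [hi, v1, min_self, min_eq_right h]
      · rw [v2 i hi]
    have F1 := (h3 K n ζ c j hz hc (by omega) (gd c)).1
    have F2 := (h3 K n ζ c' (j + 1) hz hc' hkn (gd c')).1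
    rw [v1, v2 _ (by omega)] at F2
    have g0 := (gd c τ).g0
    have hF : BM fun x => d1 (Phi n ζ c τ) x ^ 2 :=
      ⟨(meas_d1 _).pow_const 2, 1, fun x => abs_sq_le (g0.u1 x)⟩
    have s0 := hs (ζ (j + 1)) (ζ j) (τ - c (j + 1)) (Phi n ζ c τ) (hz.nn _) (hz.le_one _)
      (hz.nn _) (hz.le_one _) (by linarith) (by linarith) g0.lg (lip g0)
    rw [abs_sub_comm (ζ (j + 1)), abs_of_nonneg d0] at s0
    rw [fa, fa, e1, F1.cons _ _ le_rfl h t2 _ hF, F2.cons _ _ l1 h le_rfl _ hF, e1, Er, Er, e2]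
    refine (cmp hz _ (gd c _).g0.lg (gd c' _).g0.lg (b := C * (ζ j - ζ (j + 1)))
      (l := C * (ζ j - ζ (j + 1))) (fun x => ?_) (measurable_P _ _ g0.lg.1 hF.1)
      (abs_P_le _ _ _ fun x => abs_sq_le (g0.u1 x)) (hF.kernel _ (noise_g1 _) g0.lg)
      (fun x => (s0 x).2 _ hF.1 fun y => abs_sq_le (g0.u1 y)) _).trans ?_
    · rw [F1.semi _ _ le_rfl h t2, F2.semi _ _ l1 h le_rfl, e1]
      exact (s0 x).1
    · nlinarith [mul_nonneg hC d0]
  · have e1 : Phi n ζ c' (c (j + 1)) = Phi n ζ c (c (j + 1)) := by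
      unfold Phi
      congr 3
      funext i
      by_cases hi : i = j + 1
      · rw [hi, v1, max_self, max_eq_right h]
      · rw [v2 i hi]
    have e2 : (fun i => min (c' i) τ) = fun i => min (c i) τ := by
      funext i
      by_cases hi : i = j + 1
      · rw [hi, v1, min_self, min_eq_right h]
      · rw [v2 i hi]
    have F1 := (h3 K n ζ c (j + 1) hz hc hkn (gd c)).1
    have F2 := (h3 K n ζ c' j hz hc' (by omega) (gd c')).1
    rw [v1, v2 _ (by omega)] at F2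
    have g0 := (gd c (c (j + 1))).g0
    have s0 := hs (ζ j) (ζ (j + 1)) (c (j + 1) - τ) (Phi n ζ c (c (j + 1))) (hz.nn _)
      (hz.le_one _) (hz.nn _) (hz.le_one _) (by linarith) (by linarith) g0.lg (lip g0)
    rw [abs_of_nonneg d0] at s0
    have p1 := F1.semi _ _ t1 h le_rfl
    have p2 := F2.semi _ _ le_rfl h l2
    rw [e1] at p2
    rw [fa, fa, Er, Er, e2]
    refine (cmp hz _ (gd c _).g0.lg (gd c' _).g0.lg (b := C * (ζ j - ζ (j + 1)))
      (l := 2 * (C * (ζ j - ζ (j + 1)))) (fun x => ?_) ((meas_d1 _).pow_const 2)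
      (fun x => abs_sq_le ((gd c τ).g0.u1 x))
      ⟨(meas_d1 _).pow_const 2, 1, fun x => abs_sq_le ((gd c' τ).g0.u1 x)⟩
      (fun x => sq_sub ((gd c' τ).g0.u1 x) ((gd c τ).g0.u1 x) ?_) _).trans ?_
    · rw [p1, p2]
      exact (s0 x).1
    · rw [p1, p2, (h2 K _ _ _ g0).1, (h2 K _ _ _ g0).1]
      exact (s0 x).2 _ (meas_d1 _) g0.u1
    · nlinarith

end Vale.Agent.P146L.One
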