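import Vale.Agent.P146L.ODefs

/-! # P146, lower bound: dependence of one step on the exponent -/

namespace Vale.Agent.P146L.One

open MeasureTheory ProbabilityTheory Vale.Agent.P157 Set

namespace OSens1Aux

theorem exp_sub_le {a b R : ℝ} (ha : a ≤ R) : Real.exp a - Real.exp b ≤ |a - b| * Real.exp R := by
  have h1 := mul_le_mul_of_nonneg_left (Real.add_one_le_exp (b - a)) (Real.exp_pos a).le
  rw [← Real.exp_add, add_sub_cancel] at h1
  have h2 : (a - b) * Real.exp a ≤ |a - b| * Real.exp R :=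
    mul_le_mul (le_abs_self _) (Real.exp_le_exp.2 ha) (Real.exp_pos a).le (abs_nonneg _)
  linarith

theorem mul_le_abs {m y : ℝ} (h0 : 0 ≤ m) (h1 : m ≤ 1) : m * y ≤ |y| :=
  (mul_le_mul_of_nonneg_left (le_abs_self y) h0).trans (mul_le_of_le_one_left (abs_nonneg y) h1)

theorem abs_le_exp (y : ℝ) : |y| ≤ Real.exp |y| := by linarith [Real.add_one_le_exp |y|]

theorem pt {m m' y g : ℝ} (h0 : 0 ≤ m) (h1 : m ≤ 1) (h0' : 0 ≤ m') (h1' : m' ≤ 1)
    (hg : |g| ≤ Real.exp |y|) :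
    |Real.exp (m * y) * g| ≤ Real.exp (3 * |y|) ∧
    |Real.exp (m * y) * g - Real.exp (m' * y) * g| ≤ |m - m'| * Real.exp (3 * |y|) := by
  have e3 : Real.exp (3 * |y|) = Real.exp |y| * Real.exp |y| * Real.exp |y| := by
    rw [← Real.exp_add, ← Real.exp_add]; congr 1; ring
  have p := (Real.exp_pos |y|).le
  constructor
  · rw [abs_mul, abs_of_pos (Real.exp_pos _), e3]
    refine mul_le_mul ((Real.exp_le_exp.2 (mul_le_abs h0 h1)).trans ?_) hg (abs_nonneg _)
      (by positivity)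
    exact le_mul_of_one_le_right p (Real.one_le_exp (abs_nonneg y))
  · have a : |Real.exp (m * y) - Real.exp (m' * y)| ≤ |m * y - m' * y| * Real.exp |y| := by
      refine abs_sub_le_iff.2 ⟨exp_sub_le (mul_le_abs h0 h1), ?_⟩
      rw [abs_sub_comm]
      exact exp_sub_le (mul_le_abs h0' h1')
    rw [← sub_mul, abs_mul] at a ⊢
    rw [e3, ← mul_assoc, ← mul_assoc]
    refine mul_le_mul (a.trans ?_) hg (abs_nonneg _) (by positivity)
    exact mul_le_mul_of_nonneg_right (mul_le_mul_of_nonneg_left (abs_le_exp y) (abs_nonneg _)) p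

variable {Ω : Type} [MeasurableSpace Ω] {ν : Measure Ω} [IsProbabilityMeasure ν] {Y g : Ω → ℝ}
  {B m m' : ℝ}

theorem num (hY : EInt ν Y) (hB : ∫ ω, Real.exp (3 * |Y ω|) ∂ν ≤ B) (hg : Measurable g)
    (hb : ∀ ω, |g ω| ≤ Real.exp |Y ω|) (h0 : 0 ≤ m) (h1 : m ≤ 1) (h0' : 0 ≤ m') (h1' : m' ≤ 1) :
    |∫ ω, Real.exp (m * Y ω) * g ω ∂ν| ≤ B ∧
    |∫ ω, Real.exp (m * Y ω) * g ω ∂ν - ∫ ω, Real.exp (m' * Y ω) * g ω ∂ν| ≤ |m - m'| * B := by
  have i3 := hY.abs.2 3
  have im : ∀ {m : ℝ}, 0 ≤ m → m ≤ 1 → Integrable (fun ω => Real.exp (m * Y ω) * g ω) ν :=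
    fun a b => i3.mono' ((hY.1.const_mul _).exp.mul hg).aestronglyMeasurable
      (ae_of_all _ fun ω => (pt a b a b (hb ω)).1)
  constructor
  · exact (norm_integral_le_of_norm_le (f := fun ω => Real.exp (m * Y ω) * g ω) i3
      (ae_of_all _ fun ω => (pt h0 h1 h0 h1 (hb ω)).1)).trans hB
  · rw [← integral_sub (im h0 h1) (im h0' h1')]
    refine (norm_integral_le_of_norm_le
      (f := fun ω => Real.exp (m * Y ω) * g ω - Real.exp (m' * Y ω) * g ω) (i3.const_mul |m - m'|)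
      (ae_of_all _ fun ω => (pt h0 h1 h0' h1' (hb ω)).2)).trans ?_
    rw [integral_const_mul]
    exact mul_le_mul_of_nonneg_left hB (abs_nonneg _)

theorem den (hY : EInt ν Y) (hB : ∫ ω, Real.exp (3 * |Y ω|) ∂ν ≤ B) (h0 : 0 ≤ m) (h1 : m ≤ 1) :
    (∫ ω, Real.exp (m * Y ω) ∂ν)⁻¹ ≤ Real.exp B := by
  rw [← exp_mul_lse (hY.2 m), ← Real.exp_neg, Real.exp_le_exp]
  have a := mean_le_lse h0 hY.integrable (hY.2 m)
  have b : |∫ ω, Y ω ∂ν| ≤ B := (norm_integral_le_of_norm_le (f := Y) (hY.abs.2 3)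
    (ae_of_all _ fun ω => (abs_le_exp (Y ω)).trans
      (Real.exp_le_exp.2 (by linarith [abs_nonneg (Y ω)])))).trans hB
  have c := mul_le_mul_of_nonneg_left a h0
  have d := mul_le_abs (y := -∫ ω, Y ω ∂ν) h0 h1
  rw [abs_neg] at d
  linarith

theorem gexp_lip (hY : EInt ν Y) (hB : ∫ ω, Real.exp (3 * |Y ω|) ∂ν ≤ B) (hg : Measurable g)
    (hb : ∀ ω, |g ω| ≤ Real.exp |Y ω|) (h0 : 0 ≤ m) (h1 : m ≤ 1) (h0' : 0 ≤ m') (h1' : m' ≤ 1) :
    |gexp ν m Y g - gexp ν m' Y g| ≤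
      (B * Real.exp B + B * B * Real.exp B * Real.exp B) * |m - m'| := by
  have a := (num hY hB hg hb h0 h1 h0' h1').2
  have b := (num hY hB hg hb h0' h1' h0 h1).1
  have c := (num (g := fun _ => 1) hY hB measurable_const
    (fun ω => abs_one.trans_le (Real.one_le_exp (abs_nonneg _))) h0' h1' h0 h1).2
  simp only [mul_one] at c
  have d := den hY hB h0 h1
  have d' := den hY hB h0' h1'
  have p := integral_exp_pos (hY.2 m)
  have p' := integral_exp_pos (hY.2 m')
  rw [gexp_eq, gexp_eq]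
  generalize ∫ ω, Real.exp (m * Y ω) * g ω ∂ν = N at *
  generalize ∫ ω, Real.exp (m' * Y ω) * g ω ∂ν = N' at *
  generalize ∫ ω, Real.exp (m * Y ω) ∂ν = M at *
  generalize ∫ ω, Real.exp (m' * Y ω) ∂ν = M' at *
  have e : N / M - N' / M' = (N - N') * M⁻¹ + N' * (M' - M) * M⁻¹ * M'⁻¹ := by
    field_simp
    ring
  have hB0 : 0 ≤ B := (abs_nonneg _).trans b
  have q := inv_pos.2 p
  have q' := inv_pos.2 p'
  rw [e]
  refine (abs_add_le _ _).trans ?_
  rw [abs_mul, abs_mul, abs_mul, abs_mul, abs_of_pos q, abs_of_pos q']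
  rw [abs_sub_comm m' m] at c
  have f1 : |N - N'| * M⁻¹ ≤ |m - m'| * B * Real.exp B := by gcongr
  have f2 : |N'| * |M' - M| * M⁻¹ * M'⁻¹ ≤ B * (|m - m'| * B) * Real.exp B * Real.exp B := by
    gcongr
  linarith

theorem tangent (hY : EInt ν Y) (m m' : ℝ) :
    (m' - m) * gexp ν m Y Y ≤ m' * lse ν m' Y - m * lse ν m Y := by
  have e : ∀ m : ℝ, lse ν 1 (fun ω => m * Y ω) = m * lse ν m Y := fun m => by
    have a := exp_mul_lse (ζ := 1) ((hY.const_mul m).2 1)
    simp only [one_mul] at a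
    exact Real.exp_injective (a.trans (exp_mul_lse (hY.2 m)).symm)
  have a := gexp_le_lse_sub zero_le_one (hY.const_mul m) (hY.const_mul m')
  rw [e, e] at a
  refine le_trans (le_of_eq ?_) a
  rw [← gexp_const_mul]
  simp only [gexp, one_mul, sub_mul]

theorem lse_lip {C : ℝ} (hY : EInt ν Y) (hC : 0 ≤ C) (h0' : 0 ≤ m') (h : m' ≤ m)
    (hg : gexp ν m Y Y - gexp ν 0 Y Y ≤ C * m) :
    |lse ν m Y - lse ν m' Y| ≤ 2 * C * |m - m'| := by
  have a := lse_mono_zeta h0' h hY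
  rw [abs_of_nonneg (sub_nonneg.2 a), abs_of_nonneg (sub_nonneg.2 h)]
  rcases (h0'.trans h).eq_or_lt with h0 | h0
  · rw [← h0, le_antisymm (h0 ▸ h) h0']
    simp
  have b := mean_le_lse h0' hY.integrable (hY.2 m')
  rw [gexp_zero] at hg
  have c : lse ν m Y ≤ gexp ν m Y Y := by
    have := tangent hY m 0
    exact le_of_mul_le_mul_left (by linarith) h0
  rcases le_total (2 * m') m with k | k
  · have := mul_le_mul_of_nonneg_left k hC
    linarith
  · have h1 : 0 < m' := by linarith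
    have d := tangent hY m m'
    have e : gexp ν m Y Y - lse ν m Y ≤ C * (2 * m') := by
      have := mul_le_mul_of_nonneg_left k hC
      linarith
    have f := mul_le_mul_of_nonneg_left e (sub_nonneg.2 h)
    exact le_of_mul_le_mul_left (by linarith) h1

theorem gexp_shift (m c : ℝ) (Y g : Ω → ℝ) : gexp ν m (fun ω => Y ω + c) g = gexp ν m Y g := by
  rw [gexp_eq, gexp_eq]
  simp only [mul_add, Real.exp_add, mul_right_comm _ (Real.exp (m * c)), integral_mul_const]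
  exact mul_div_mul_right _ _ (Real.exp_pos _).ne'

end OSens1Aux

open OSens1Aux in
theorem sens1 : S_sens1 := by
  intro H
  obtain ⟨B, hB⟩ : ∃ B, B = 2 * Real.exp (H * 3 ^ 2 / 2) := ⟨_, rfl⟩
  have hB0 : 0 ≤ B := by rw [hB]; positivity
  obtain ⟨C, hC⟩ : ∃ C, C = B * Real.exp B + B * B * Real.exp B * Real.exp B := ⟨_, rfl⟩
  have hC0 : 0 ≤ C := by rw [hC]; positivity
  refine ⟨2 * C, by positivity, fun m m' h Ψ h0 h1 h0' h1' hh hH hΨ hl x => ?_⟩
  have hY : EInt (g1 h) fun z => Ψ (x + z) - Ψ x := (hΨ.eint (noise_g1 h) x).sub (EInt.const _)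
  have hI : ∫ z, Real.exp (3 * |Ψ (x + z) - Ψ x|) ∂(g1 h) ≤ B := by
    have i1 : ∀ c : ℝ, Integrable (fun z => Real.exp (c * z)) (g1 h) := fun c =>
      integrable_exp_mul_gaussianReal c
    refine (integral_mono (hY.abs.2 3) ((i1 3).add (i1 (-3))) fun z => ?_).trans ?_
    · have a := hl (x + z) x
      rw [add_sub_cancel_left] at a
      have p1 := Real.exp_pos (3 * z)
      have p2 := Real.exp_pos (-3 * z)
      show Real.exp (3 * |Ψ (x + z) - Ψ x|) ≤ Real.exp (3 * z) + Real.exp (-3 * z)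
      rcases abs_cases z with k | k
      · exact (Real.exp_le_exp.2 (by linarith [k.1])).trans (le_add_of_nonneg_right p2.le)
      · exact (Real.exp_le_exp.2 (by linarith [k.1])).trans (le_add_of_nonneg_left p1.le)
    · rw [integral_add' (i1 3) (i1 (-3)), integral_exp_g1 hh, integral_exp_g1 hh, neg_sq, hB,
        ← two_mul]
      gcongr
  have e : (fun z => Ψ (x + z)) = fun z => Ψ (x + z) - Ψ x + Ψ x :=
    funext fun z => (sub_add_cancel _ _).symm
  have hg : ∀ m : ℝ, 0 ≤ m → m ≤ 1 → gexp (g1 h) m (fun z => Ψ (x + z) - Ψ x)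
      (fun z => Ψ (x + z) - Ψ x) - gexp (g1 h) 0 (fun z => Ψ (x + z) - Ψ x)
      (fun z => Ψ (x + z) - Ψ x) ≤ C * m := fun m a b => by
    have := gexp_lip hY hI hY.1 (fun z => abs_le_exp _) a b le_rfl zero_le_one
    rw [← hC, sub_zero, abs_of_nonneg a] at this
    exact (le_abs_self _).trans this
  refine ⟨?_, fun F hF hb => ?_⟩
  · unfold T
    rw [e, lse_add_const hY.integrable (hY.2 m), lse_add_const hY.integrable (hY.2 m'),
      add_sub_add_right_eq_sub]
    rcases le_total m' m with k | k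
    · exact lse_lip hY hC0 h0' k (hg m h0 h1)
    · rw [abs_sub_comm, abs_sub_comm m]
      exact lse_lip hY hC0 h0 k (hg m' h0' h1')
  · unfold P
    rw [e, gexp_shift, gexp_shift]
    have := gexp_lip (g := fun z => F (x + z)) hY hI (hF.comp (measurable_const_add x))
      (fun z => (hb _).trans (Real.one_le_exp (abs_nonneg _))) h0 h1 h0' h1'
    rw [← hC] at this
    have p := mul_nonneg hC0 (abs_nonneg (m - m'))
    linarith

end Vale.Agent.P146L.One
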