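import Vale.Agent.P146L.ODefs

/-! # P146, lower bound: small steps of the tilted kernel -/

namespace Vale.Agent.P146L.One

open MeasureTheory ProbabilityTheory Vale.Agent.P157 Set

namespace OSvAux

/-- Exponentially weighted absolute moments. -/
noncomputable def mom (k : ℕ) : ℝ := ∫ z, |z| ^ k * Real.exp |z| ∂g1 1

theorem mom_nonneg (k : ℕ) : 0 ≤ mom k := integral_nonneg fun z => by positivity

theorem int_mom (k : ℕ) (h : ℝ) : Integrable (fun z : ℝ => |z| ^ k * Real.exp |z|) (g1 h) := by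
  refine Integrable.mono' (((noise_g1 h).ex 2).const_mul (k.factorial : ℝ))
    (by fun_prop) (Filter.Eventually.of_forall fun t => ?_)
  have h1 := Real.pow_div_factorial_le_exp _ (abs_nonneg t) k
  have h2 : Real.exp (2 * |t|) = Real.exp |t| * Real.exp |t| := by
    rw [← Real.exp_add]
    congr 1
    ring
  have h3 : (0 : ℝ) < k.factorial := by exact_mod_cast k.factorial_pos
  rw [div_le_iff₀ h3] at h1
  rw [Real.norm_of_nonneg (by positivity), Real.norm_eq_abs, h2, ← mul_assoc]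
  refine mul_le_mul_of_nonneg_right ?_ (Real.exp_pos _).le
  linarith

theorem mom_le (k : ℕ) {h : ℝ} (h1 : h ≤ 1) :
    ∫ z, |z| ^ k * Real.exp |z| ∂g1 h ≤ mom k * √h ^ k := by
  have hs : √h ≤ 1 := Real.sqrt_le_one.2 h1
  have hs0 := Real.sqrt_nonneg h
  rw [g1_eq_map h, integral_map (by fun_prop) (by fun_prop), mom, ← integral_mul_const, ← g1_one]
  refine integral_mono_of_nonneg (Filter.Eventually.of_forall fun z => by positivity)
    ((int_mom k 1).mul_const _) (Filter.Eventually.of_forall fun z => ?_)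
  simp only
  rw [abs_mul, abs_of_nonneg hs0, mul_pow]
  have h2 : Real.exp (√h * |z|) ≤ Real.exp |z| :=
    Real.exp_le_exp.2 (mul_le_of_le_one_left (abs_nonneg z) hs)
  calc √h ^ k * |z| ^ k * Real.exp (√h * |z|) ≤ √h ^ k * |z| ^ k * Real.exp |z| := by gcongr
    _ = _ := by ring

theorem abs_exp_sub_one {δ t : ℝ} (h : |δ| ≤ t) : |Real.exp δ - 1| ≤ t * Real.exp t := by
  have h0 : 0 ≤ t := (abs_nonneg δ).trans h
  have h1 := Real.add_one_le_exp δ
  have h2 := Real.add_one_le_exp (-δ)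
  have h3 : Real.exp δ ≤ Real.exp t := Real.exp_le_exp.2 ((le_abs_self δ).trans h)
  have h4 : 1 ≤ Real.exp t := Real.one_le_exp h0
  have h5 : Real.exp (-δ) * Real.exp δ = 1 := by rw [← Real.exp_add]; simp
  have h6 := Real.exp_pos δ
  obtain ⟨h7, h8⟩ := abs_le.1 h
  rw [abs_le]
  constructor
  · nlinarith
  · have : Real.exp δ - 1 ≤ δ * Real.exp δ := by nlinarith
    nlinarith

/-- Facts on a weight `exp δ` with `|δ z| ≤ |z|`. -/
theorem int_weight {δ g : ℝ → ℝ} (h : ℝ) (hm : Measurable δ) (hδ : ∀ z, |δ z| ≤ |z|)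
    (hg : Measurable g) (k : ℕ) (hk : ∀ z, |g z| ≤ |z| ^ k) :
    Integrable (fun z => Real.exp (δ z) * g z) (g1 h) := by
  refine Integrable.mono' (int_mom k h) (hm.exp.mul hg).aestronglyMeasurable
    (Filter.Eventually.of_forall fun z => ?_)
  rw [Real.norm_eq_abs, abs_mul, abs_of_pos (Real.exp_pos _), mul_comm]
  exact mul_le_mul (hk z) (Real.exp_le_exp.2 ((le_abs_self _).trans (hδ z))) (Real.exp_pos _).le
    (by positivity)

theorem int_pow (h : ℝ) {g : ℝ → ℝ} (hg : Measurable g) (k : ℕ) (hk : ∀ z, |g z| ≤ |z| ^ k) :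
    Integrable g (g1 h) := by
  simpa using int_weight (δ := fun _ => 0) h measurable_const (fun z => by simp) hg k hk

theorem weight_le {δ g : ℝ → ℝ} {h : ℝ} (h1 : h ≤ 1) (hδ : ∀ z, |δ z| ≤ |z|) (k : ℕ)
    (hk : ∀ z, |g z| ≤ |z| ^ k) :
    |∫ z, Real.exp (δ z) * g z ∂g1 h| ≤ mom k * √h ^ k := by
  refine le_trans ?_ (mom_le k h1)
  rw [← Real.norm_eq_abs]
  refine norm_integral_le_of_norm_le (int_mom k h) (Filter.Eventually.of_forall fun z => ?_)
  rw [Real.norm_eq_abs, abs_mul, abs_of_pos (Real.exp_pos _), mul_comm]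
  exact mul_le_mul (hk z) (Real.exp_le_exp.2 ((le_abs_self _).trans (hδ z))) (Real.exp_pos _).le
    (by positivity)

theorem weight_sub {δ g : ℝ → ℝ} {h : ℝ} (h1 : h ≤ 1) (hm : Measurable δ)
    (hδ : ∀ z, |δ z| ≤ |z|) (hg : Measurable g) (k : ℕ) (hk : ∀ z, |g z| ≤ |z| ^ k) :
    |∫ z, Real.exp (δ z) * g z ∂g1 h - ∫ z, g z ∂g1 h| ≤ mom (k + 1) * √h ^ (k + 1) := by
  refine le_trans ?_ (mom_le (k + 1) h1)
  rw [← integral_sub (int_weight h hm hδ hg k hk) (int_pow h hg k hk), ← Real.norm_eq_abs]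
  refine norm_integral_le_of_norm_le (int_mom (k + 1) h) (Filter.Eventually.of_forall fun z => ?_)
  rw [Real.norm_eq_abs, ← sub_one_mul, abs_mul]
  calc |Real.exp (δ z) - 1| * |g z| ≤ (|z| * Real.exp |z|) * |z| ^ k :=
        mul_le_mul (abs_exp_sub_one (hδ z)) (hk z) (abs_nonneg _) (by positivity)
    _ = _ := by ring

theorem weight_ge {δ : ℝ → ℝ} {h : ℝ} (h0 : 0 ≤ h) (h1 : h ≤ 1) (hm : Measurable δ)
    (hδ : ∀ z, |δ z| ≤ |z|) : 1 / 3 ≤ ∫ z, Real.exp (δ z) ∂g1 h := by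
  have i1 : Integrable (fun z => Real.exp (δ z)) (g1 h) := by
    simpa using int_weight (g := fun _ => 1) h hm hδ measurable_const 0 (fun z => by simp)
  have i2 : Integrable (fun z : ℝ => z ^ 2) (g1 h) :=
    int_pow h (by fun_prop) 2 (fun z => by rw [abs_pow])
  have i3 : Integrable (fun z : ℝ => 1 / 2 - 1 / 6 * z ^ 2) (g1 h) :=
    (integrable_const _).sub (i2.const_mul _)
  have e : ∫ z : ℝ, (1 / 2 - 1 / 6 * z ^ 2) ∂g1 h = 1 / 2 - 1 / 6 * h := by
    rw [integral_sub (integrable_const _) (i2.const_mul _), integral_const_mul, integral_sq_g1 h0]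
    simp
  refine le_trans ?_ (integral_mono i3 i1 fun z => ?_)
  · rw [e]
    linarith
  · simp only
    have a1 := Real.add_one_le_exp (δ z + 1)
    have a2 : Real.exp (δ z + 1) ≤ Real.exp (δ z) * 3 := by
      rw [Real.exp_add]
      exact mul_le_mul_of_nonneg_left (Real.exp_one_lt_d9.le.trans (by norm_num))
        (Real.exp_pos _).le
    have a3 := (abs_le.1 (hδ z)).1
    have a4 : |z| ≤ (1 + z ^ 2) / 2 := by nlinarith [sq_abs z, sq_nonneg (|z| - 1)]
    linarith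

/-- The moments of the tilted step. -/
structure Mu (C h : ℝ) (μ : Measure ℝ) : Prop where
  prob : IsProbabilityMeasure μ
  int : ∀ k : ℕ, Integrable (fun z : ℝ => z ^ k) μ
  m1 : ∫ z, |z| ∂μ ≤ C * √h
  m2 : ∫ z, z ^ 2 ∂μ ≤ C * h
  m3 : ∫ z, |z| ^ 3 ∂μ ≤ C * (h * √h)
  c1 : |∫ z, z ∂μ| ≤ C * h
  c2 : |∫ z, z ^ 2 ∂μ - h| ≤ C * (h * √h)

theorem eint_id (h : ℝ) : EInt (g1 h) fun t => t := by
  refine ⟨measurable_id, fun c => Integrable.mono' ((noise_g1 h).ex |c|) (by fun_prop)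
    (Filter.Eventually.of_forall fun t => ?_)⟩
  rw [Real.norm_of_nonneg (Real.exp_pos _).le, Real.norm_eq_abs, ← abs_mul]
  exact Real.exp_le_exp.2 (le_abs_self _)

theorem div_bound {N Z B : ℝ} (hZ : 1 / 3 ≤ Z) (hN : |N| ≤ B) : |N / Z| ≤ 3 * B := by
  have h0 : 0 < Z := by linarith
  rw [abs_div, abs_of_pos h0, div_le_iff₀ h0]
  nlinarith [abs_nonneg N]

theorem exists_mu : ∃ C : ℝ, 0 ≤ C ∧ ∀ (m h : ℝ) (Ψ : ℝ → ℝ), 0 ≤ m → m ≤ 1 → 0 ≤ h → h ≤ 1 →
    LG Ψ → (∀ x y, |Ψ x - Ψ y| ≤ |x - y|) → ∀ x,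
    Mu C h ((g1 h).tilted fun z => m * Ψ (x + z)) := by
  have n1 := mom_nonneg 1
  have n2 := mom_nonneg 2
  have n3 := mom_nonneg 3
  refine ⟨3 * (mom 1 + mom 2 + mom 3), by positivity, fun m h Ψ m0 m1 h0 h1 hΨ hL x => ?_⟩
  have hE : EInt (g1 h) fun z => Ψ (x + z) := hΨ.eint (noise_g1 h) x
  set δ : ℝ → ℝ := fun z => m * (Ψ (x + z) - Ψ x) with hδdef
  have hm : Measurable δ := (hE.1.sub_const _).const_mul _
  have hδ : ∀ z, |δ z| ≤ |z| := fun z => by
    have := hL (x + z) x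
    rw [add_sub_cancel_left] at this
    rw [hδdef]
    simp only
    rw [abs_mul, abs_of_nonneg m0]
    exact (mul_le_of_le_one_left (abs_nonneg _) m1).trans this
  have hZ := weight_ge h0 h1 hm hδ
  have key : ∀ g : ℝ → ℝ, ∫ z, g z ∂((g1 h).tilted fun z => m * Ψ (x + z)) =
      (∫ z, Real.exp (δ z) * g z ∂g1 h) / ∫ z, Real.exp (δ z) ∂g1 h := fun g => by
    have e : ∀ z, Real.exp (m * Ψ (x + z)) = Real.exp (m * Ψ x) * Real.exp (δ z) := fun z => by
      rw [← Real.exp_add, hδdef]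
      congr 1
      ring
    have := gexp_eq (ν := g1 h) m (fun z => Ψ (x + z)) g
    rw [gexp] at this
    rw [this]
    simp only [e, mul_assoc]
    rw [integral_const_mul, integral_const_mul, mul_div_mul_left _ _ (Real.exp_pos _).ne']
  have s0 := Real.sqrt_nonneg h
  have s2 : √h ^ 2 = h := Real.sq_sqrt h0
  have s3 : √h ^ 3 = h * √h := by rw [pow_succ, s2]
  have p3 : 0 ≤ h * √h := by positivity
  refine ⟨hE.prob_tilted m, fun k => ?_, ?_, ?_, ?_, ?_, ?_⟩
  · have := hE.prob_tilted m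
    exact (hE.tilted (eint_id h) m).integrable_pow k
  · rw [key]
    have := div_bound hZ (weight_le (g := fun z => |z|) h1 hδ 1 fun z => by simp)
    rw [pow_one] at this
    refine ((le_abs_self _).trans this).trans ?_
    nlinarith
  · rw [key]
    have := div_bound hZ (weight_le (g := fun z => z ^ 2) h1 hδ 2 fun z => by rw [abs_pow])
    rw [s2] at this
    refine ((le_abs_self _).trans this).trans ?_
    nlinarith
  · rw [key]
    have := div_bound hZ (weight_le (g := fun z => |z| ^ 3) h1 hδ 3 fun z => by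
      rw [abs_pow, abs_abs])
    rw [s3] at this
    refine ((le_abs_self _).trans this).trans ?_
    nlinarith
  · rw [key]
    have a := weight_sub (g := fun z => z) h1 hm hδ measurable_id 1 fun z => by simp
    rw [integral_id_g1, sub_zero, show (1 + 1 : ℕ) = 2 from rfl, s2] at a
    refine (div_bound hZ a).trans ?_
    nlinarith
  · rw [key]
    have a := weight_sub (g := fun z => z ^ 2) h1 hm hδ (by fun_prop) 2 fun z => by rw [abs_pow]
    rw [integral_sq_g1 h0, show (2 + 1 : ℕ) = 3 from rfl, s3] at a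
    have b := weight_sub (g := fun _ => 1) h1 hm hδ measurable_const 0 fun z => by simp
    simp only [mul_one, integral_const, probReal_univ, smul_eq_mul, zero_add, pow_one] at b
    have hZ0 : (∫ z, Real.exp (δ z) ∂g1 h) ≠ 0 := by linarith
    rw [div_sub' hZ0]
    have c : |(∫ z, Real.exp (δ z) * z ^ 2 ∂g1 h) - (∫ z, Real.exp (δ z) ∂g1 h) * h| ≤
        mom 3 * (h * √h) + mom 1 * (h * √h) := by
      have e : (∫ z, Real.exp (δ z) * z ^ 2 ∂g1 h) - (∫ z, Real.exp (δ z) ∂g1 h) * h =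
          ((∫ z, Real.exp (δ z) * z ^ 2 ∂g1 h) - h) - ((∫ z, Real.exp (δ z) ∂g1 h) - 1) * h := by
        ring
      rw [e]
      refine (abs_sub _ _).trans (add_le_add a ?_)
      rw [abs_mul, abs_of_nonneg h0]
      calc _ ≤ mom 1 * √h * h := mul_le_mul_of_nonneg_right b h0
        _ = _ := by ring
    refine (div_bound hZ c).trans ?_
    nlinarith

theorem Mu.abs_int {C h : ℝ} {μ : Measure ℝ} (H : Mu C h μ) (k : ℕ) :
    Integrable (fun z : ℝ => |z| ^ k) μ := by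
  simpa only [abs_pow] using (H.int k).abs

theorem Mu.int_of {C h B : ℝ} {μ : Measure ℝ} (H : Mu C h μ) {g : ℝ → ℝ} (hg : Continuous g)
    (k : ℕ) (hk : ∀ z, |g z| ≤ B * |z| ^ k) : Integrable g μ :=
  Integrable.mono' ((H.abs_int k).const_mul B) hg.aestronglyMeasurable
    (Filter.Eventually.of_forall hk)

theorem Mu.abs_le {C h B : ℝ} {μ : Measure ℝ} (H : Mu C h μ) {g : ℝ → ℝ}
    (k : ℕ) (hk : ∀ z, |g z| ≤ B * |z| ^ k) : |∫ z, g z ∂μ| ≤ B * ∫ z, |z| ^ k ∂μ := by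
  rw [← integral_const_mul, ← Real.norm_eq_abs]
  exact norm_integral_le_of_norm_le ((H.abs_int k).const_mul B) (Filter.Eventually.of_forall hk)

theorem cont_of_lip {A : ℝ} {f : ℝ → ℝ} (hA : 0 ≤ A) (h : ∀ x y, |f x - f y| ≤ A * |x - y|) :
    Continuous f :=
  (LipschitzWith.of_dist_le_mul (K := ⟨A, hA⟩) h).continuous

theorem c11_lip {A : ℝ} {f f' : ℝ → ℝ} (h : C11 A f f') (x y : ℝ) :
    |f x - f y| ≤ A * |x - y| := by
  have := Convex.norm_image_sub_le_of_norm_hasDerivWithin_le (f := f) (f' := f') (C := A)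
    (s := univ) (fun z _ => (h.der z).hasDerivWithinAt) (fun z _ => h.b1 z) convex_univ
    (mem_univ y) (mem_univ x)
  exact this

theorem c11_tay {A : ℝ} {f f' : ℝ → ℝ} (h : C11 A f f') (x z : ℝ) :
    |f (x + z) - f x - f' x * z| ≤ A * |z| ^ 2 := by
  have hA : 0 ≤ A := (abs_nonneg _).trans (h.b0 0)
  have := Convex.norm_image_sub_le_of_norm_hasDerivWithin_le
    (f := fun y => f y - f' x * y) (f' := fun y => f' y - f' x) (C := A * |z|)
    (s := Metric.closedBall x |z|)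
    (fun y _ => by
      have := (h.der y).sub ((hasDerivAt_id y).const_mul (f' x))
      rw [mul_one] at this
      exact this.hasDerivWithinAt)
    (fun y hy => (h.lip y x).trans (mul_le_mul_of_nonneg_left hy hA)) (convex_closedBall _ _)
    (Metric.mem_closedBall_self (abs_nonneg z)) (y := x + z)
    (by rw [Metric.mem_closedBall, Real.dist_eq, add_sub_cancel_left])
  rw [add_sub_cancel_left, Real.norm_eq_abs, Real.norm_eq_abs] at this
  calc _ = |f (x + z) - f' x * (x + z) - (f x - f' x * x)| := by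
        congr 1
        ring
    _ ≤ A * |z| * |z| := this
    _ = _ := by ring

theorem Mu.lip {C h A : ℝ} {μ : Measure ℝ} (H : Mu C h μ) {f : ℝ → ℝ} (hA : 0 ≤ A)
    (hf : ∀ x y, |f x - f y| ≤ A * |x - y|) (x : ℝ) :
    Integrable (fun z => f (x + z) - f x) μ ∧
      ∫ z, f (x + z) ∂μ = (∫ z, (f (x + z) - f x) ∂μ) + f x ∧
      |∫ z, (f (x + z) - f x) ∂μ| ≤ C * A * √h := by
  have := H.prob
  have hc := cont_of_lip hA hf
  have hb : ∀ z, |f (x + z) - f x| ≤ A * |z| ^ 1 := fun z => by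
    simpa using hf (x + z) x
  have i1 : Integrable (fun z => f (x + z) - f x) μ := H.int_of (by fun_prop) 1 hb
  refine ⟨i1, ?_, (H.abs_le 1 hb).trans ?_⟩
  · have := integral_add i1 (integrable_const (f x))
    simpa using this
  · simp only [pow_one]
    calc _ ≤ A * (C * √h) := mul_le_mul_of_nonneg_left H.m1 hA
      _ = _ := by ring

theorem Mu.first {C h A : ℝ} {μ : Measure ℝ} (H : Mu C h μ) {f f' : ℝ → ℝ} (hf : C11 A f f')
    (x : ℝ) : |∫ z, (f (x + z) - f x) ∂μ| ≤ 2 * C * A * h := by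
  have hA : 0 ≤ A := (abs_nonneg _).trans (hf.b0 0)
  have i1 := (H.lip hA (c11_lip hf) x).1
  have i2 : Integrable (fun z : ℝ => f' x * z) μ := by
    simpa using (H.int 1).const_mul (f' x)
  have e : ∫ z, (f (x + z) - f x) ∂μ =
      (∫ z, (f (x + z) - f x - f' x * z) ∂μ) + f' x * ∫ z, z ∂μ := by
    rw [integral_sub i1 i2, integral_const_mul]
    ring
  have a := H.abs_le 2 (c11_tay hf x)
  simp only [sq_abs] at a
  have b : |f' x * ∫ z, z ∂μ| ≤ A * (C * h) := by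
    rw [abs_mul]
    exact mul_le_mul (hf.b1 x) H.c1 (abs_nonneg _) hA
  have c := mul_le_mul_of_nonneg_left H.m2 hA
  rw [e]
  refine (abs_add_le _ _).trans ?_
  linarith

theorem Mu.second {C h A : ℝ} {μ : Measure ℝ} (H : Mu C h μ) (hC : 0 ≤ C) (h0 : 0 ≤ h)
    (h1 : h ≤ 1) {f f' : ℝ → ℝ} (hf : C11 A f f') (x : ℝ) :
    |∫ z, f (x + z) ^ 2 ∂μ - (∫ z, f (x + z) ∂μ) ^ 2 - h * f' x ^ 2| ≤
      (3 * C + 4 * C ^ 2) * A ^ 2 * (h * √h) := by
  have := H.prob
  have hA : 0 ≤ A := (abs_nonneg _).trans (hf.b0 0)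
  have hl := c11_lip hf
  have hc := cont_of_lip hA hl
  obtain ⟨i1, e1, -⟩ := H.lip hA hl x
  have hb : ∀ z, |f (x + z) - f x| ≤ A * |z| := fun z => by simpa using hl (x + z) x
  have i2 : Integrable (fun z => (f (x + z) - f x) ^ 2) μ :=
    H.int_of (B := A ^ 2) (by fun_prop) 2 fun z => by
      rw [abs_pow, ← mul_pow]
      exact pow_le_pow_left₀ (abs_nonneg _) (hb z) 2
  have i3 : Integrable (fun z : ℝ => f' x ^ 2 * z ^ 2) μ := (H.int 2).const_mul _
  have e2 : ∫ z, f (x + z) ^ 2 ∂μ = (∫ z, (f (x + z) - f x) ^ 2 ∂μ) +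
      2 * f x * (∫ z, (f (x + z) - f x) ∂μ) + f x ^ 2 := by
    have i4 : Integrable (fun z => 2 * f x * (f (x + z) - f x)) μ := i1.const_mul _
    have i5 : Integrable (fun z => (f (x + z) - f x) ^ 2 + 2 * f x * (f (x + z) - f x)) μ :=
      i2.add i4
    have := integral_add i5 (integrable_const (f x ^ 2))
    rw [integral_add i2 i4, integral_const_mul] at this
    simp only [integral_const, probReal_univ, smul_eq_mul, one_mul] at this
    rw [← this]
    congr 1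
    funext z
    ring
  have e3 : ∫ z, (f (x + z) - f x) ^ 2 ∂μ =
      (∫ z, ((f (x + z) - f x) ^ 2 - f' x ^ 2 * z ^ 2) ∂μ) + f' x ^ 2 * ∫ z, z ^ 2 ∂μ := by
    rw [integral_sub i2 i3, integral_const_mul]
    ring
  have a : |∫ z, ((f (x + z) - f x) ^ 2 - f' x ^ 2 * z ^ 2) ∂μ| ≤
      2 * A ^ 2 * ∫ z, |z| ^ 3 ∂μ := by
    refine H.abs_le 3 fun z => ?_
    rw [← mul_pow, sq_sub_sq, abs_mul]
    have a1 : |f (x + z) - f x + f' x * z| ≤ 2 * A * |z| := by
      refine (abs_add_le _ _).trans ?_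
      rw [abs_mul]
      have := mul_le_mul_of_nonneg_right (hf.b1 x) (abs_nonneg z)
      linarith [hb z]
    calc _ ≤ 2 * A * |z| * (A * |z| ^ 2) :=
          mul_le_mul a1 (c11_tay hf x z) (abs_nonneg _) (by positivity)
      _ = _ := by ring
  have a' := a.trans (mul_le_mul_of_nonneg_left H.m3 (by positivity))
  have b : |f' x ^ 2 * ((∫ z, z ^ 2 ∂μ) - h)| ≤ A ^ 2 * (C * (h * √h)) := by
    rw [abs_mul, abs_pow]
    exact mul_le_mul (pow_le_pow_left₀ (abs_nonneg _) (hf.b1 x) 2) H.c2 (abs_nonneg _)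
      (by positivity)
  have c : |(∫ z, (f (x + z) - f x) ∂μ) ^ 2| ≤ 4 * C ^ 2 * A ^ 2 * (h * √h) := by
    rw [abs_pow]
    have c1 : h ≤ √h := by
      have := Real.sq_sqrt h0
      nlinarith [Real.sqrt_nonneg h, Real.sqrt_le_one.2 h1]
    calc _ ≤ (2 * C * A * h) ^ 2 := pow_le_pow_left₀ (abs_nonneg _) (H.first hf x) 2
      _ = 4 * C ^ 2 * A ^ 2 * (h * h) := by ring
      _ ≤ _ := by gcongr
  have e : ∫ z, f (x + z) ^ 2 ∂μ - (∫ z, f (x + z) ∂μ) ^ 2 - h * f' x ^ 2 =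
      (∫ z, ((f (x + z) - f x) ^ 2 - f' x ^ 2 * z ^ 2) ∂μ) +
        f' x ^ 2 * ((∫ z, z ^ 2 ∂μ) - h) - (∫ z, (f (x + z) - f x) ∂μ) ^ 2 := by
    rw [e2, e3, e1]
    ring
  rw [e]
  refine (abs_sub _ _).trans ?_
  have d := abs_add_le (∫ z, ((f (x + z) - f x) ^ 2 - f' x ^ 2 * z ^ 2) ∂μ)
    (f' x ^ 2 * ((∫ z, z ^ 2 ∂μ) - h))
  linarith

end OSvAux

open OSvAux in
theorem sv : S_sv := by
  obtain ⟨C, hC, H⟩ := exists_mu
  refine ⟨3 * C + 4 * C ^ 2, by positivity, fun m h A Ψ m0 m1 h0 h1 hΨ hL => ⟨?_, ?_⟩⟩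
  · intro f hf hl x
    have hA : 0 ≤ A := (abs_nonneg _).trans (hf 0)
    obtain ⟨-, e, b⟩ := (H m h Ψ m0 m1 h0 h1 hΨ hL x).lip hA hl x
    unfold P gexp
    rw [e, add_sub_cancel_right]
    refine b.trans ?_
    have : 0 ≤ A * √h := by positivity
    nlinarith [sq_nonneg C]
  · intro f f' hf x
    have hA : 0 ≤ A := (abs_nonneg _).trans (hf.b0 0)
    have M := H m h Ψ m0 m1 h0 h1 hΨ hL x
    refine ⟨?_, M.second hC h0 h1 hf x⟩
    obtain ⟨-, e, -⟩ := M.lip hA (c11_lip hf) x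
    unfold P gexp
    rw [e, add_sub_cancel_right]
    refine (M.first hf x).trans ?_
    have : 0 ≤ A * h := by positivity
    nlinarith [sq_nonneg C]

end Vale.Agent.P146L.One
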