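import Vale.Agent.P146L.OAsm
import Vale.Agent.P146L.ODP
import Vale.Agent.P146L.OC11
import Vale.Agent.P146L.OG0
import Vale.Agent.P146L.ORR
import Vale.Agent.P146L.OGhs
import Vale.Agent.P146L.OGd
import Vale.Agent.P146L.OSv
import Vale.Agent.P146L.OHold
import Vale.Agent.P146L.OFlow1
import Vale.Agent.P146L.OFlow2
import Vale.Agent.P146L.OCert
import Vale.Agent.P146L.OLemA
import Vale.Agent.P146L.ONorm
import Vale.Agent.P146L.OFl
import Vale.Agent.P146L.OLev
import Vale.Agent.P146L.OSens1
import Vale.Agent.P146L.OSens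
import Vale.Agent.P146L.OMove
import Vale.Agent.P146L.OKkt
import Vale.Agent.P146L.OMin
import Vale.Agent.P146L.OGlo
import Vale.Agent.P146L.OLoc
import Vale.Agent.P146L.OBlo
import Vale.Agent.P146L.OOpt
import Vale.Agent.P146L.OFb
import Vale.Agent.P146L.OLo

/-! # P146, lower bound: the one-site analysis -/

namespace Vale.Agent.P146L

theorem onesite : S_onesite := by
  have hc := One.c11 One.dP
  have hgd := One.gd (One.g0 hc) One.rrT One.ghs
  have hf1 := One.flow1 One.stepT One.sv One.hold
  have hf2 := One.flow2 One.stepT One.sv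
  have hfl := One.fl One.norm
  have hlev := One.lev One.norm
  have hglo := One.glo hgd hfl hlev hf1 hf2
  have hkkt := One.kkt One.move
  exact One.asm (One.minq One.move) hkkt hlev hglo
    (One.blo hgd hfl hlev hc hglo (One.loc hf1 hf2 (One.lemA One.cert)))
    (One.opt hlev (One.sens hgd One.stepT hfl hlev One.sens1) One.move hkkt hglo)
    One.lo (One.o2 One.fb1) One.hi

end Vale.Agent.P146L
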