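import Vale.Agent.P146L.RDefs

/-! # P146, lower bound: solution of the replica equations -/

namespace Vale.Agent.P146L

open MeasureTheory ProbabilityTheory Vale.Agent.P157

namespace RAlgAux

theorem yy_re (δ : ℝ) : (yy δ).re = 1 + δ := rfl

theorem yy_im (δ : ℝ) : (yy δ).im = δ := rfl

theorem one_le_yy {δ : ℝ} (h : 0 < δ) : 1 ≤ ‖yy δ‖ := by
  have := Complex.re_le_norm (yy δ)
  rw [yy_re] at this
  linarith

theorem yy_ne {δ : ℝ} (h : 0 < δ) : yy δ ≠ 0 := by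
  intro h0
  have := one_le_yy h
  rw [h0, norm_zero] at this
  linarith

theorem den_ne {δ : ℝ} (h : 0 < δ) (t : ℝ) : yy δ - (t : ℂ) ≠ 0 := by
  intro h0
  have := congrArg Complex.im h0
  simp [yy_im] at this
  linarith

theorem norm_Bh {δ : ℝ} (h : 0 < δ) (ζ q : ℕ → ℝ) (b : ℝ) (k : ℕ) : ‖Bh ζ q b δ k‖ ≤ 1 / δ := by
  rw [Bh, norm_inv, ← one_div]
  refine one_div_le_one_div_of_le h ?_
  have := Complex.im_le_norm (yy δ - ((b * csDelta ζ q k : ℝ) : ℂ))
  simpa [yy_im] using this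

theorem lam_succ (ζ q : ℕ → ℝ) (k : ℕ) :
    csDelta ζ q (k + 1) = csDelta ζ q k + ζ k * (q k - q (k + 1)) := Finset.sum_range_succ _ _

theorem cs_succ (ζ : ℕ → ℝ) (Y : ℕ → ℂ) (k : ℕ) :
    cs ζ Y (k + 1) = cs ζ Y k + ζ k * (Y k - Y (k + 1)) := Finset.sum_range_succ _ _

theorem up_sub (ζ q : ℕ → ℝ) {L k : ℕ} (hk : k < L) (Y : ℕ → ℂ) :
    up ζ q L Y k - up ζ q L Y (k + 1) =
      ((q k : ℂ) - q (k + 1)) * cs ζ Y (k + 1) + csDelta ζ q k * (Y k - Y (k + 1)) := by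
  unfold up ou
  rw [Finset.sum_eq_sum_Ico_succ_bot hk, lam_succ, cs_succ]
  push_cast
  ring

/-- The accumulated error. -/
noncomputable def mu (ζ : ℕ → ℝ) (E : ℕ → ℂ) (k : ℕ) : ℂ :=
  E 0 - ∑ l ∈ Finset.range k, ((ζ l - ζ (l + 1) : ℝ) : ℂ) * E (l + 1)

theorem cs_mu {ζ : ℕ → ℝ} (h0 : ζ 0 = 1) (E : ℕ → ℂ) (k : ℕ) :
    cs ζ E (k + 1) = mu ζ E k - ζ k * E (k + 1) := by
  induction k with
  | zero => simp [cs, mu, h0]
  | succ k ih =>
    rw [cs_succ, ih, mu, mu, Finset.sum_range_succ]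
    push_cast
    ring

theorem cs_split (ζ q : ℕ → ℝ) (E : ℕ → ℂ) (k : ℕ) :
    cs ζ (fun l => q l + E l) k = csDelta ζ q k + cs ζ E k := by
  induction k with
  | zero => simp [cs, csDelta]
  | succ k ih =>
    rw [cs_succ, cs_succ, lam_succ, ih]
    push_cast
    ring

theorem solve {L : ℕ} {ζ q : ℕ → ℝ} {b δ : ℝ} {Y E : ℕ → ℂ} (h0 : ζ 0 = 1) (hδ : 0 < δ)
    (heq : ∀ k, k ≤ L → yy δ * Y k = q k + b * up ζ q L Y k + E k) :
    Y 0 - Y L = yy δ * ∑ k ∈ Finset.range L,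
        ((q k : ℂ) - q (k + 1)) * (Bh ζ q b δ k * Bh ζ q b δ (k + 1))
      + (Bh ζ q b δ 0 * E 0 - Bh ζ q b δ L * E L)
      + b * ∑ k ∈ Finset.range L,
        ((q k : ℂ) - q (k + 1)) * (Bh ζ q b δ k * Bh ζ q b δ (k + 1)) * mu ζ E k := by
  have hd : ∀ k, k < L → (q k + E k) - (q (k + 1) + E (k + 1)) =
      (yy δ - b * csDelta ζ q k) * (Y k - Y (k + 1))
        - b * ((q k : ℂ) - q (k + 1)) * cs ζ Y (k + 1) := fun k hk => by
    have h1 := heq k hk.le
    have h2 := heq (k + 1) hk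
    have h3 := up_sub ζ q hk Y
    linear_combination -h1 + h2 - b * h3
  have hc : ∀ k, k ≤ L →
      cs ζ (fun l => q l + E l) k = (yy δ - b * csDelta ζ q k) * cs ζ Y k := by
    intro k
    induction k with
    | zero => simp [cs]
    | succ k ih =>
      intro hk
      rw [cs_succ, ih (by omega), hd k hk, lam_succ, cs_succ]
      push_cast
      ring
  have hB : ∀ k, Bh ζ q b δ k * (yy δ - b * csDelta ζ q k) = 1 := fun k => by
    have := inv_mul_cancel₀ (den_ne hδ (b * csDelta ζ q k))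
    rw [← this, Bh]
    push_cast
    rfl
  have hs : ∀ k, k < L → Y k - Y (k + 1) =
      yy δ * (((q k : ℂ) - q (k + 1)) * (Bh ζ q b δ k * Bh ζ q b δ (k + 1)))
      + (Bh ζ q b δ k * E k - Bh ζ q b δ (k + 1) * E (k + 1))
      + b * (((q k : ℂ) - q (k + 1)) * (Bh ζ q b δ k * Bh ζ q b δ (k + 1)) * mu ζ E k) := by
    intro k hk
    have h1 := hd k hk
    have h2 := hc (k + 1) hk
    rw [cs_split, cs_mu h0] at h2
    have h3 := hB k
    have h4 := hB (k + 1)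
    have h5 : ((csDelta ζ q (k + 1) : ℝ) : ℂ) = csDelta ζ q k + ζ k * (q k - q (k + 1)) := by
      rw [lam_succ]
      push_cast
      rfl
    generalize Bh ζ q b δ k = B at *
    generalize Bh ζ q b δ (k + 1) = B' at *
    generalize cs ζ Y (k + 1) = c at *
    generalize ((csDelta ζ q (k + 1) : ℝ) : ℂ) = l' at *
    generalize ((csDelta ζ q k : ℝ) : ℂ) = l at *
    have h6 : c = B' * (l' + (mu ζ E k - ζ k * E (k + 1))) := by
      linear_combination -B' * h2 - c * h4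
    have h7 : B' = B + b * ζ k * (q k - q (k + 1)) * B * B' := by
      linear_combination -B' * h3 + B * h4 + b * B * B' * h5
    linear_combination -B * h1 - (Y k - Y (k + 1)) * h3 + B * b * (q k - q (k + 1)) * h6
      - B * (q k - q (k + 1)) * h4 + E (k + 1) * h7
  rw [← Finset.sum_range_sub', ← Finset.sum_range_sub' (fun k => Bh ζ q b δ k * E k),
    Finset.mul_sum, Finset.mul_sum, ← Finset.sum_add_distrib, ← Finset.sum_add_distrib]
  exact Finset.sum_congr rfl fun k hk => hs k (Finset.mem_range.1 hk)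

/-- Minus the imaginary part of a product of two resolvent values. -/
noncomputable def gg (δ x x' : ℝ) : ℝ := δ * (x + x') / ((x ^ 2 + δ ^ 2) * (x' ^ 2 + δ ^ 2))

theorem im_BB {δ : ℝ} (hδ : 0 < δ) (t t' : ℝ) :
    ((yy δ - (t : ℂ))⁻¹ * (yy δ - (t' : ℂ))⁻¹).im = -gg δ (1 + δ - t) (1 + δ - t') := by
  have h1 : 0 < (1 + δ - t) ^ 2 + δ ^ 2 := by positivity
  have h2 : 0 < (1 + δ - t') ^ 2 + δ ^ 2 := by positivity
  simp only [Complex.mul_im, Complex.inv_re, Complex.inv_im, Complex.normSq_apply, Complex.sub_re,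
    Complex.sub_im, Complex.ofReal_re, Complex.ofReal_im, yy_re, yy_im, sub_zero, ← pow_two, gg]
  field_simp
  ring

theorem gg_nonneg {δ x x' : ℝ} (hδ : 0 < δ) (h : δ / 2 ≤ x) (h' : δ / 2 ≤ x') :
    0 ≤ gg δ x x' := by
  unfold gg
  have : 0 ≤ x + x' := by linarith
  positivity

theorem gg_mid {δ x x' : ℝ} (hδ : 0 < δ) (h : δ / 2 ≤ x) (h' : δ / 2 ≤ x') (u : x ≤ 4 * δ)
    (u' : x' ≤ 4 * δ) : 1 / (289 * δ ^ 2) ≤ gg δ x x' := by
  unfold gg
  have a1 : x ^ 2 + δ ^ 2 ≤ 17 * δ ^ 2 := by nlinarith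
  have a2 : x' ^ 2 + δ ^ 2 ≤ 17 * δ ^ 2 := by nlinarith
  have a3 : (x ^ 2 + δ ^ 2) * (x' ^ 2 + δ ^ 2) ≤ (17 * δ ^ 2) * (17 * δ ^ 2) :=
    mul_le_mul a1 a2 (by positivity) (by positivity)
  calc 1 / (289 * δ ^ 2) = δ * δ / ((17 * δ ^ 2) * (17 * δ ^ 2)) := by
        field_simp
        norm_num
    _ ≤ _ := div_le_div₀ (by nlinarith) (by nlinarith) (by positivity) a3

theorem gg_top {δ x x' h : ℝ} (hδ : 0 < δ) (hx : δ / 2 ≤ x) (h' : δ / 2 ≤ x') (hh : 1 / 2 ≤ h)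
    (u : x ≤ 4 * δ + δ * h) (u' : x' ≤ 4 * δ) : 1 / (221 * δ ^ 2) ≤ h * gg δ x x' := by
  unfold gg
  have a2 : x' ^ 2 + δ ^ 2 ≤ 17 * δ ^ 2 := by nlinarith
  have a1 : x ^ 2 + δ ^ 2 ≤ x * (13 * h * δ) := by
    have : x + 2 * δ ≤ 13 * h * δ := by nlinarith
    nlinarith
  have hx0 : 0 < x := by linarith
  have hh0 : 0 < h := by linarith
  have a3 : (x ^ 2 + δ ^ 2) * (x' ^ 2 + δ ^ 2) ≤ (x * (13 * h * δ)) * (17 * δ ^ 2) :=
    mul_le_mul a1 a2 (by positivity) (by positivity)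
  calc 1 / (221 * δ ^ 2) = h * (δ * x / ((x * (13 * h * δ)) * (17 * δ ^ 2))) := by
        field_simp
        norm_num
    _ ≤ _ := mul_le_mul_of_nonneg_left
        (div_le_div₀ (by nlinarith) (by nlinarith) (by positivity) a3) hh0.le

theorem low {L : ℕ} {ζ q : ℕ → ℝ} {b δ s μ0 : ℝ} (hz : ZN L ζ) (hq : QP L q) (hb : 0 ≤ b)
    (hδ : 0 < δ) (hs : 0 < s) (hs1 : s ≤ 1) (hμ : 0 ≤ μ0)
    (h1 : 1 - 2 * δ ≤ b * csDelta ζ q L) (h2 : b * csDelta ζ q L ≤ 1 + δ / 2)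
    (h3 : ∀ d, d < L → q (d + 1) < q d → q (d + 1) < s → ζ d ≤ μ0) (h4 : b * μ0 * s ≤ δ) :
    s / (600 * δ ^ 2) ≤ ∑ k ∈ Finset.range L, (q k - q (k + 1)) *
      gg δ (1 + δ - b * csDelta ζ q k) (1 + δ - b * csDelta ζ q (k + 1)) := by
  have hdq : ∀ k, 0 ≤ q k - q (k + 1) := fun k => sub_nonneg.2 (hq.adm.anti (Nat.le_succ k))
  have hsplit : ∀ k, k ≤ L → csDelta ζ q L =
      csDelta ζ q k + ∑ l ∈ Finset.Ico k L, ζ l * (q l - q (l + 1)) := fun k hk =>
    (Finset.sum_range_add_sum_Ico _ hk).symm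
  have htel : ∀ k, k ≤ L → ∑ l ∈ Finset.Ico k L, (q l - q (l + 1)) = q k := fun k hk => by
    have e1 := Finset.sum_range_add_sum_Ico (fun l => q l - q (l + 1)) hk
    rw [Finset.sum_range_sub', Finset.sum_range_sub', hq.root] at e1
    linarith
  have hlo : ∀ k, k ≤ L → δ / 2 ≤ 1 + δ - b * csDelta ζ q k := fun k hk => by
    have e1 : 0 ≤ ∑ l ∈ Finset.Ico k L, ζ l * (q l - q (l + 1)) :=
      Finset.sum_nonneg fun l hl => mul_nonneg (hz.nn l (Finset.mem_Ico.1 hl).2) (hdq l)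
    have e2 := hsplit k hk
    have e3 : b * csDelta ζ q k ≤ b * csDelta ζ q L :=
      mul_le_mul_of_nonneg_left (by linarith) hb
    linarith
  have hex : ∃ j, q (j + 1) < s := by
    refine ⟨L, ?_⟩
    rw [hq.adm.zero _ (Nat.lt_succ_self L)]
    exact hs
  classical
  obtain ⟨j, hj1, hj2⟩ : ∃ j, q (j + 1) < s ∧ s ≤ q j := by
    refine ⟨Nat.find hex, Nat.find_spec hex, ?_⟩
    rcases Nat.eq_zero_or_pos (Nat.find hex) with h | h
    · rw [h, hq.top]
      exact hs1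
    · have := Nat.find_min hex (m := Nat.find hex - 1) (by omega)
      rw [Nat.sub_add_cancel h] at this
      exact not_lt.1 this
  have hjL : j < L := by
    by_contra hc
    have := hq.adm.anti (not_lt.1 hc)
    rw [hq.root] at this
    linarith
  have hup : ∀ k, j ≤ k → k ≤ L → 1 + δ - b * csDelta ζ q k ≤ 3 * δ + b * μ0 * q k := by
    intro k hjk hk
    have e1 : ∑ l ∈ Finset.Ico k L, ζ l * (q l - q (l + 1)) ≤ μ0 * q k := by
      rw [← htel k hk, Finset.mul_sum]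
      refine Finset.sum_le_sum fun l hl => ?_
      obtain ⟨l1, l2⟩ := Finset.mem_Ico.1 hl
      rcases (hdq l).lt_or_eq with h | h
      · exact mul_le_mul_of_nonneg_right (h3 l l2 (by linarith)
          (lt_of_le_of_lt (hq.adm.anti (by omega)) hj1)) h.le
      · rw [← h, mul_zero, mul_zero]
    have e2 := hsplit k hk
    have e3 := mul_le_mul_of_nonneg_left e1 hb
    rw [e2, mul_add] at h1
    linarith
  have hbm : 0 ≤ b * μ0 := mul_nonneg hb hμ
  have hup' : ∀ k, j + 1 ≤ k → k ≤ L → 1 + δ - b * csDelta ζ q k ≤ 4 * δ := fun k hjk hk => by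
    have e1 := hup k (by omega) hk
    have e2 : b * μ0 * q k ≤ b * μ0 * s :=
      mul_le_mul_of_nonneg_left ((hq.adm.anti hjk).trans hj1.le) hbm
    linarith
  have hnn : ∀ k ∈ Finset.range L, 0 ≤ (q k - q (k + 1)) *
      gg δ (1 + δ - b * csDelta ζ q k) (1 + δ - b * csDelta ζ q (k + 1)) := fun k hk =>
    mul_nonneg (hdq k) (gg_nonneg hδ (hlo k (Finset.mem_range.1 hk).le)
      (hlo _ (Finset.mem_range.1 hk)))
  rcases le_or_gt (1 / 2) ((q j - q (j + 1)) / s) with h | h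
  · refine le_trans ?_ (Finset.single_le_sum hnn (Finset.mem_range.2 hjL))
    have e1 : 1 + δ - b * csDelta ζ q j ≤ 4 * δ + δ * ((q j - q (j + 1)) / s) := by
      have f1 := hup j le_rfl hjL.le
      have f2 : b * μ0 * q (j + 1) ≤ b * μ0 * s := mul_le_mul_of_nonneg_left hj1.le hbm
      have f3 : b * μ0 * (q j - q (j + 1)) ≤ δ * ((q j - q (j + 1)) / s) := by
        rw [show b * μ0 * (q j - q (j + 1)) = b * μ0 * s * ((q j - q (j + 1)) / s) by field_simp]
        exact mul_le_mul_of_nonneg_right h4 (by linarith)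
      linarith
    have e2 := gg_top hδ (hlo j hjL.le) (hlo _ hjL) h e1 (hup' _ le_rfl hjL)
    have e3 := mul_le_mul_of_nonneg_left e2 hs.le
    rw [← mul_assoc, mul_div_cancel₀ _ hs.ne'] at e3
    refine le_trans ?_ e3
    rw [mul_one_div]
    exact div_le_div_of_nonneg_left hs.le (by positivity) (by nlinarith [sq_nonneg δ])
  · have e0 : s / 2 ≤ q (j + 1) := by
      rw [div_lt_iff₀ hs] at h
      linarith
    have e1 : ∑ k ∈ Finset.Ico (j + 1) L, (q k - q (k + 1)) * (1 / (289 * δ ^ 2)) ≤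
        ∑ k ∈ Finset.range L, (q k - q (k + 1)) *
          gg δ (1 + δ - b * csDelta ζ q k) (1 + δ - b * csDelta ζ q (k + 1)) := by
      refine le_trans (Finset.sum_le_sum fun k hk => ?_)
        (Finset.sum_le_sum_of_subset_of_nonneg (s := Finset.Ico (j + 1) L)
          (fun k hk => Finset.mem_range.2 (Finset.mem_Ico.1 hk).2) fun k hk _ => hnn k hk)
      obtain ⟨k1, k2⟩ := Finset.mem_Ico.1 hk
      exact mul_le_mul_of_nonneg_left (gg_mid hδ (hlo k k2.le) (hlo _ k2) (hup' k k1 k2.le)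
        (hup' _ (by omega) k2)) (hdq k)
    rw [← Finset.sum_mul, htel _ hjL] at e1
    refine le_trans ?_ e1
    rw [mul_one_div, div_le_div_iff₀ (by positivity) (by positivity)]
    nlinarith [sq_nonneg δ, mul_nonneg (sub_nonneg.2 e0) (sq_nonneg δ),
      mul_nonneg hs.le (sq_nonneg δ)]

end RAlgAux

open RAlgAux

theorem zz_facts : S_zz := by
  intro δ h0 h1
  have hy := yy_ne h0
  have hn : Complex.normSq (yy δ) = (1 + δ) ^ 2 + δ ^ 2 := by
    rw [Complex.normSq_apply, yy_re, yy_im]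
    ring
  have hp : 0 < (1 + δ) ^ 2 + δ ^ 2 := by positivity
  have hi : -((yy δ)⁻¹).im = δ / ((1 + δ) ^ 2 + δ ^ 2) := by
    rw [Complex.inv_im, hn, yy_im, neg_div, neg_neg]
  refine ⟨?_, ?_, ?_, by rw [zz, add_sub_cancel_right], fun u hu => ?_⟩
  · rw [zz, Complex.add_im, yy_im]
    have : δ / ((1 + δ) ^ 2 + δ ^ 2) ≤ δ - δ ^ 2 := by
      rw [div_le_iff₀ hp]
      have : 0 ≤ δ ^ 2 * (1 - 2 * δ ^ 2) := mul_nonneg (sq_nonneg δ) (by nlinarith)
      nlinarith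
    linarith
  · have a1 : ‖yy δ‖ ≤ 2 := by
      refine (Complex.norm_le_abs_re_add_abs_im _).trans ?_
      rw [yy_re, yy_im, abs_of_pos h0, abs_of_pos (by linarith)]
      linarith
    have a2 : ‖(yy δ)⁻¹‖ ≤ 1 := by
      rw [norm_inv]
      exact inv_le_one_of_one_le₀ (one_le_yy h0)
    exact (norm_add_le _ _).trans (by linarith)
  · rw [hi]
    exact div_le_self h0.le (by nlinarith)
  · have e : u ^ 2 - zz δ * u + 1 = (u - yy δ) * (u - (yy δ)⁻¹) := by
      rw [zz]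
      field_simp
      ring
    rw [e, norm_mul]
    refine mul_le_mul_of_nonneg_right ?_ (norm_nonneg _)
    have := Complex.im_le_norm (yy δ - u)
    rw [norm_sub_rev, Complex.sub_im, yy_im] at this
    linarith

theorem alg : S_alg := by
  intro L ζ q b δ s μ0 e Y E hz hq hb hδ hδ4 hs hs1 hμ h1 h2 h3 h4 heq he
  have hL : 0 < L := hz.one
  set Y' : ℕ → ℂ := fun k => if k < L then Y k else 0 with hY'
  set E' : ℕ → ℂ := fun k => if k < L then E k else 0 with hE'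
  have hYL : Y' L = 0 := by simp [hY']
  have hEL : E' L = 0 := by simp [hE']
  have hYk : ∀ k, k < L → Y' k = Y k := fun k hk => by simp [hY', hk]
  have hEk : ∀ k, k < L → E' k = E k := fun k hk => by simp [hE', hk]
  have hup : ∀ k, k < L → up ζ q L Y' k = up ζ q L Y k := fun k hk => by
    have c1 : cs ζ Y' k = cs ζ Y k := by
      refine Finset.sum_congr rfl fun l hl => ?_
      have := Finset.mem_range.1 hl
      rw [hYk l (by omega), hYk (l + 1) (by omega)]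
    have c2 : ∑ l ∈ Finset.Ico k L, ((ζ l - ζ (l + 1) : ℝ) : ℂ) * (q (l + 1) * Y' (l + 1)) =
        ∑ l ∈ Finset.Ico k L, ((ζ l - ζ (l + 1) : ℝ) : ℂ) * (q (l + 1) * Y (l + 1)) := by
      refine Finset.sum_congr rfl fun l hl => ?_
      rcases (Nat.succ_le_of_lt (Finset.mem_Ico.1 hl).2).lt_or_eq with h | h
      · rw [hYk (l + 1) h]
      · rw [show l + 1 = L from h, hq.root]
        simp
    unfold up ou
    beta_reduce
    rw [c1, c2, hYk k hk]
  have heq' : ∀ k, k ≤ L → yy δ * Y' k = q k + b * up ζ q L Y' k + E' k := fun k hk => by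
    rcases hk.lt_or_eq with h | rfl
    · rw [hup k h, hYk k h, hEk k h]
      exact heq k h
    · simp [up, ou, hYL, hEL, hq.root]
  have hsol := solve hz.z0 hδ heq'
  rw [hYL, hEL, sub_zero, mul_zero, sub_zero, hYk 0 hL, hEk 0 hL] at hsol
  have hdq : ∀ k, 0 ≤ q k - q (k + 1) := fun k => sub_nonneg.2 (hq.adm.anti (Nat.le_succ k))
  have hE0 : ‖E 0‖ ≤ e := by simpa using he 0 hL
  have he0 : 0 ≤ e := (norm_nonneg _).trans hE0
  have hmu : ∀ k, k < L → ‖mu ζ E' k‖ ≤ e := fun k hk => by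
    refine le_trans ?_ (he k hk)
    rw [mu, hEk 0 hL]
    refine (norm_sub_le _ _).trans (add_le_add le_rfl ((norm_sum_le _ _).trans
      (Finset.sum_le_sum fun l hl => le_of_eq ?_)))
    have := Finset.mem_range.1 hl
    rw [norm_mul, Complex.norm_real, Real.norm_of_nonneg (sub_nonneg.2 (hz.anti l (by omega))),
      hEk (l + 1) (by omega)]
  have hB0 : ‖Bh ζ q b δ 0‖ ≤ 1 := by
    have : Bh ζ q b δ 0 = (yy δ)⁻¹ := by simp [Bh, csDelta]
    rw [this, norm_inv]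
    exact inv_le_one_of_one_le₀ (one_le_yy hδ)
  have hS : ‖∑ k ∈ Finset.range L,
      ((q k : ℂ) - q (k + 1)) * (Bh ζ q b δ k * Bh ζ q b δ (k + 1)) * mu ζ E' k‖ ≤ e / δ ^ 2 := by
    refine (norm_sum_le _ _).trans ((Finset.sum_le_sum (g := fun k => (q k - q (k + 1)) *
      (e / δ ^ 2)) fun k hk => ?_).trans (le_of_eq ?_))
    · rw [mul_assoc, norm_mul, ← Complex.ofReal_sub, Complex.norm_real,
        Real.norm_of_nonneg (hdq k), norm_mul, norm_mul]
      refine mul_le_mul_of_nonneg_left ?_ (hdq k)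
      calc _ ≤ 1 / δ * (1 / δ) * e :=
            mul_le_mul (mul_le_mul (norm_Bh hδ ..) (norm_Bh hδ ..) (norm_nonneg _) (by positivity))
              (hmu k (Finset.mem_range.1 hk)) (norm_nonneg _) (by positivity)
        _ = _ := by field_simp
    · rw [← Finset.sum_mul, Finset.sum_range_sub', hq.top, hq.root, sub_zero, one_mul]
  have hW := low hz hq hb hδ hs hs1 hμ h1 h2 h3 h4
  set W := ∑ k ∈ Finset.range L,
    ((q k : ℂ) - q (k + 1)) * (Bh ζ q b δ k * Bh ζ q b δ (k + 1)) with hWd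
  have hWim : -W.im = ∑ k ∈ Finset.range L, (q k - q (k + 1)) *
      gg δ (1 + δ - b * csDelta ζ q k) (1 + δ - b * csDelta ζ q (k + 1)) := by
    rw [hWd, Complex.im_sum, ← Finset.sum_neg_distrib]
    refine Finset.sum_congr rfl fun k _ => ?_
    rw [← Complex.ofReal_sub, Complex.im_ofReal_mul, Bh, Bh, im_BB hδ]
    ring
  have a1 : -W.im ≤ ‖W‖ := by simpa using Complex.im_le_norm (-W)
  have a2 : ‖W‖ ≤ ‖yy δ * W‖ := by
    rw [norm_mul]
    exact le_mul_of_one_le_left (norm_nonneg _) (one_le_yy hδ)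
  have a3 : ‖Bh ζ q b δ 0 * E 0‖ ≤ e / δ ^ 2 := by
    rw [norm_mul]
    refine (mul_le_mul hB0 hE0 (norm_nonneg _) zero_le_one).trans ?_
    rw [one_mul]
    exact le_div_self he0 (by positivity) (by nlinarith)
  set S := ∑ k ∈ Finset.range L,
    ((q k : ℂ) - q (k + 1)) * (Bh ζ q b δ k * Bh ζ q b δ (k + 1)) * mu ζ E' k
  have a4 : ‖(b : ℂ) * S‖ ≤ b * (e / δ ^ 2) := by
    rw [norm_mul, Complex.norm_real, Real.norm_of_nonneg hb]
    exact mul_le_mul_of_nonneg_left hS hb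
  have a5 : yy δ * W = Y 0 - Bh ζ q b δ 0 * E 0 - b * S := by linear_combination -hsol
  have a6 : ‖yy δ * W‖ ≤ ‖Y 0‖ + ‖Bh ζ q b δ 0 * E 0‖ + ‖(b : ℂ) * S‖ := by
    rw [a5]
    exact (norm_sub_le _ _).trans (add_le_add (norm_sub_le _ _) le_rfl)
  have a7 : (1 + b) * e / δ ^ 2 = e / δ ^ 2 + b * (e / δ ^ 2) := by ring
  linarith

end Vale.Agent.P146L
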