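import Vale.Agent.P146L.Stm

/-! # P146, lower bound: basic facts on the spin system -/

namespace Vale.Agent.P146L

open MeasureTheory ProbabilityTheory Vale.Agent.P157

/-! ## Exponents -/

theorem cut_of_lt {L d : ℕ} (ζ : ℕ → ℝ) (h : d < L) : cut L ζ d = ζ d := if_pos h

theorem cut_of_le {L d : ℕ} (ζ : ℕ → ℝ) (h : L ≤ d) : cut L ζ d = 0 := if_neg (not_lt.2 h)

theorem ZN.cut_zero {L : ℕ} {ζ : ℕ → ℝ} (h : ZN L ζ) : cut L ζ 0 = 1 := by
  rw [cut_of_lt ζ h.one, h.z0]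

theorem ZN.zok_cut {L : ℕ} {ζ : ℕ → ℝ} (h : ZN L ζ) : Zok (cut L ζ) := by
  refine ⟨antitone_nat_of_succ_le fun d => ?_, fun d => ?_, h.cut_zero.le⟩
  · rcases lt_or_ge (d + 1) L with h1 | h1
    · rw [cut_of_lt ζ h1, cut_of_lt ζ (by omega)]
      exact h.anti d (by omega)
    · rw [cut_of_le ζ h1]
      rcases lt_or_ge d L with h2 | h2
      · rw [cut_of_lt ζ h2]
        exact h.nn d h2
      · rw [cut_of_le ζ h2]
  · rcases lt_or_ge d L with h2 | h2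
    · rw [cut_of_lt ζ h2]
      exact h.nn d h2
    · rw [cut_of_le ζ h2]

theorem ZN.le_one {L : ℕ} {ζ : ℕ → ℝ} (h : ZN L ζ) {d : ℕ} (hd : d ≤ L) : ζ d ≤ 1 := by
  induction d with
  | zero => exact h.z0.le
  | succ d ih => exact (h.anti d hd).trans (ih (by omega))

theorem ZN.delta_nonneg {L : ℕ} {ζ : ℕ → ℝ} (h : ZN L ζ) {d : ℕ} (hd : d < L) :
    0 ≤ ζ d - ζ (d + 1) := sub_nonneg.2 (h.anti d hd)

theorem zn_of_zadm {L : ℕ} {ζ : ℕ → ℝ} (h : ZAdm L ζ) : ZN L ζ :=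
  ⟨h.one_le, h.z0, fun d hd => (h.zlt d hd).le, fun d hd => (h.pos hd).le⟩

theorem cut_of_zadm {L : ℕ} {ζ : ℕ → ℝ} (h : ZAdm L ζ) : cut L ζ = ζ := by
  funext d
  rcases lt_or_ge d L with h2 | h2
  · exact cut_of_lt ζ h2
  · rw [cut_of_le ζ h2, h.zn d h2]

theorem zadm_grid {L : ℕ} (hL : 1 ≤ L) : ZAdm L (grid L) := by
  have h0 : (0 : ℝ) < L := by exact_mod_cast hL
  refine ⟨by simp [grid], fun d hd => ?_, fun d hd => ?_⟩
  · rw [grid, grid, if_pos (by omega), if_pos hd.le]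
    push_cast
    have : (d : ℝ) / L < (d + 1) / L := by gcongr; linarith
    linarith
  · rcases hd.eq_or_lt with rfl | h
    · rw [grid, if_pos le_rfl, div_self h0.ne', sub_self]
    · exact if_neg (by omega)

theorem grid_delta {L : ℕ} {d : ℕ} (hd : d < L) : grid L d - grid L (d + 1) = 1 / L := by
  rw [grid, grid, if_pos (by omega), if_pos (by omega)]
  push_cast
  ring

theorem sum_delta (ζ : ℕ → ℝ) (d : ℕ) :
    ∑ k ∈ Finset.range d, (ζ k - ζ (k + 1)) = ζ 0 - ζ d := Finset.sum_range_sub' ζ d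

/-! ## Cascades with an arbitrary root exponent -/

section casc
variable {W : Type} [NormedAddCommGroup W] [MeasurableSpace W] [BorelSpace W]
  [SecondCountableTopology W] {L : ℕ} {ζ : ℕ → ℝ} {ν : ℕ → Measure W} {Ψ : W → ℝ}

theorem X_cut {k : ℕ} (hk : k ≤ L) : X ζ ν Ψ k = X (cut L ζ) ν Ψ k :=
  X_congr fun _ hj => ⟨(cut_of_lt ζ (hj.trans_le hk)).symm, rfl⟩

theorem Ex_cut {d : ℕ} (hd : d ≤ L) (k : ℕ) (φ : W → ℝ) :
    Ex ζ ν Ψ k φ d = Ex (cut L ζ) ν Ψ k φ d :=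
  Ex_congr (fun _ hj => ⟨(cut_of_lt ζ (hj.trans_le hd)).symm, rfl⟩) k φ

theorem aa_cut {d : ℕ} (hd : d ≤ L) (m a : W → ℝ) :
    aa ζ ν Ψ m a d = aa (cut L ζ) ν Ψ m a d :=
  aa_congr (fun _ hj => ⟨(cut_of_lt ζ (hj.trans_le hd)).symm, rfl⟩) m a

variable (hc : Cas (cut L ζ) ν Ψ)
include hc

theorem lgXN {k : ℕ} (hk : k ≤ L) : LG (X ζ ν Ψ k) := by
  rw [X_cut hk]
  exact hc.lgX k

theorem eintN (w : W) : EInt (ν L) fun z => X ζ ν Ψ L (w + z) :=
  (lgXN hc le_rfl).eint (hc.noise L) w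

theorem bmExN (k : ℕ) {φ : W → ℝ} (hφ : BM φ) {d : ℕ} (hd : d ≤ L + 1) :
    BM (Ex ζ ν Ψ k φ d) := by
  rcases hd.eq_or_lt with rfl | h
  · rcases le_or_gt k L with hk | hk
    · rw [Ex_succ hk]
      refine BM.kernel _ (hc.noise L) (lgXN hc le_rfl) ?_
      rw [Ex_cut le_rfl]
      exact hc.bmEx k hφ L
    · rw [Ex_of_le (by omega)]
      exact hφ
  · rw [Ex_cut (L := L) (by omega)]
    exact hc.bmEx k hφ d

theorem eintEx (k : ℕ) {φ : W → ℝ} (hφ : BM φ) (w : W) :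
    EInt (ν L) fun z => Ex ζ ν Ψ k φ L (w + z) :=
  (bmExN hc k hφ (Nat.le_succ L)).lg.eint (hc.noise L) w

theorem ExN_const (k : ℕ) (c : ℝ) {d : ℕ} (hd : d ≤ L + 1) (w : W) :
    Ex ζ ν Ψ k (fun _ => c) d w = c := by
  rcases hd.eq_or_lt with rfl | h
  · rcases le_or_gt k L with hk | hk
    · have := (hc.noise L).prob
      have e : Ex ζ ν Ψ k (fun _ => c) L = fun _ => c := by
        funext u
        rw [Ex_cut le_rfl]
        exact hc.Ex_const k c L u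
      rw [Ex_succ hk, e]
      exact gexp_const _ (eintN hc w) c
    · rw [Ex_of_le (by omega)]
  · rw [Ex_cut (L := L) (by omega)]
    exact hc.Ex_const k c d w

theorem ExN_add (k : ℕ) {φ ψ : W → ℝ} (hφ : BM φ) (hψ : BM ψ) {d : ℕ} (hd : d ≤ L + 1)
    (w : W) : Ex ζ ν Ψ k (fun u => φ u + ψ u) d w = Ex ζ ν Ψ k φ d w + Ex ζ ν Ψ k ψ d w := by
  rcases hd.eq_or_lt with rfl | h
  · rcases le_or_gt k L with hk | hk
    · have := (hc.noise L).prob
      have e : Ex ζ ν Ψ k (fun u => φ u + ψ u) L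
          = fun u => Ex ζ ν Ψ k φ L u + Ex ζ ν Ψ k ψ L u := by
        funext u
        simp only [Ex_cut (ζ := ζ) (L := L) le_rfl]
        exact hc.Ex_add k hφ hψ L u
      rw [Ex_succ hk, Ex_succ hk, Ex_succ hk, e]
      exact gexp_add _ (eintN hc w) (eintEx hc k hφ w) (eintEx hc k hψ w)
    · simp only [Ex_of_le (show L + 1 ≤ k by omega)]
  · simp only [Ex_cut (ζ := ζ) (L := L) (show d ≤ L by omega)]
    exact hc.Ex_add k hφ hψ d w

theorem ExN_sub (k : ℕ) {φ ψ : W → ℝ} (hφ : BM φ) (hψ : BM ψ) {d : ℕ} (hd : d ≤ L + 1)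
    (w : W) : Ex ζ ν Ψ k (fun u => φ u - ψ u) d w = Ex ζ ν Ψ k φ d w - Ex ζ ν Ψ k ψ d w := by
  have h1 := ExN_add hc k (hφ.sub hψ) hψ hd w
  simp only [sub_add_cancel] at h1
  linarith

theorem ExN_sum (k : ℕ) {β : Type} (s : Finset β) {φ : β → W → ℝ} (hφ : ∀ j ∈ s, BM (φ j))
    {d : ℕ} (hd : d ≤ L + 1) (w : W) :
    Ex ζ ν Ψ k (fun u => ∑ j ∈ s, φ j u) d w = ∑ j ∈ s, Ex ζ ν Ψ k (φ j) d w := by
  classical
  induction s using Finset.induction_on with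
  | empty => simpa using ExN_const hc k 0 hd w
  | insert a s ha ih =>
    simp only [Finset.sum_insert ha]
    rw [ExN_add hc k (hφ a (Finset.mem_insert_self _ _))
      (BM.sum s fun j hj => hφ j (Finset.mem_insert_of_mem hj)) hd w,
      ih fun j hj => hφ j (Finset.mem_insert_of_mem hj)]

theorem ExN_mono (k : ℕ) {φ ψ : W → ℝ} (hφ : BM φ) (hψ : BM ψ) (hle : ∀ w, φ w ≤ ψ w)
    {d : ℕ} (hd : d ≤ L + 1) (w : W) : Ex ζ ν Ψ k φ d w ≤ Ex ζ ν Ψ k ψ d w := by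
  have h1 := ExN_sub hc k hψ hφ hd w
  have h2 := Ex_nonneg (ζ := ζ) (ν := ν) (Ψ := Ψ) k (φ := fun u => ψ u - φ u)
    (fun u => sub_nonneg.2 (hle u)) d w
  linarith

theorem sq_ExN_le (k : ℕ) {φ : W → ℝ} (hφ : BM φ) {d : ℕ} (hd : d ≤ L + 1) (w : W) :
    Ex ζ ν Ψ k φ d w ^ 2 ≤ Ex ζ ν Ψ k (fun u => φ u ^ 2) d w := by
  obtain ⟨c, hc'⟩ : ∃ c, c = Ex ζ ν Ψ k φ d w := ⟨_, rfl⟩
  have h1 := ExN_mono hc k ((hφ.const_mul (2 * c)).sub (BM.const (c ^ 2))) (hφ.pow 2)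
    (fun u => by nlinarith [sq_nonneg (φ u - c)]) hd w
  rw [ExN_sub hc k (hφ.const_mul (2 * c)) (BM.const (c ^ 2)) hd w, Ex_const_mul,
    ExN_const hc k _ hd w, ← hc'] at h1
  rw [← hc']
  linarith

theorem abs_ExN_le_abs (k : ℕ) {φ : W → ℝ} (hφ : BM φ) {d : ℕ} (hd : d ≤ L + 1) (w : W) :
    |Ex ζ ν Ψ k φ d w| ≤ Ex ζ ν Ψ k (fun u => |φ u|) d w := by
  have h1 := ExN_mono hc k hφ hφ.abs (fun u => le_abs_self _) hd w
  have h2 := ExN_mono hc k (hφ.const_mul (-1)) hφ.abs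
    (fun u => by rw [neg_one_mul]; exact neg_le_abs _) hd w
  rw [Ex_const_mul] at h2
  rw [abs_le]
  constructor <;> linarith

end casc

/-! ## The spin system -/

variable {S : Type} [Fintype S] [DecidableEq S]

omit [Fintype S] [DecidableEq S] in
theorem sp_sq (b : S → Bool) (i : S) : sp b i ^ 2 = 1 := by
  unfold sp P146.spin
  split_ifs <;> norm_num

omit [Fintype S] [DecidableEq S] in
theorem sp_mul_self (b : S → Bool) (i : S) : sp b i * sp b i = 1 := by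
  rw [← sq, sp_sq]

omit [Fintype S] [DecidableEq S] in
theorem abs_sp (b : S → Bool) (i : S) : |sp b i| = 1 := by
  unfold sp P146.spin
  split_ifs <;> norm_num

omit [Fintype S] [DecidableEq S] in
theorem abs_xi (c : Cs S) (b : S → Bool) : |xi c b| = 1 := by
  rcases c with p | i
  · change |sp b p.1 * sp b p.2| = 1
    rw [abs_mul, abs_sp, abs_sp, one_mul]
  · exact abs_sp b i

omit [Fintype S] [DecidableEq S] in
theorem xi_sq (c : Cs S) (b : S → Bool) : xi c b ^ 2 = 1 := by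
  rw [← sq_abs, abs_xi, one_pow]

omit [DecidableEq S] in
/-- Every function of the configuration is a bounded observable. -/
theorem bm2_conf (f : (S → Bool) → ℝ) : BM2 fun (_ : Cs S → ℝ) b => f b := by
  refine ⟨(measurable_of_finite f).comp measurable_snd, ?_⟩
  obtain ⟨M, hM⟩ := Finite.exists_le fun b => |f b|
  exact ⟨M, fun _ b => hM b⟩

omit [DecidableEq S] in
theorem HH_add (w v : Cs S → ℝ) (t : ℝ) (b : S → Bool) :
    HH (w + t • v) b = HH w b + t * HH v b := by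
  simp only [HH, Pi.add_apply, Pi.smul_apply, smul_eq_mul, add_mul, Finset.sum_add_distrib,
    Finset.mul_sum, mul_assoc]

omit [DecidableEq S] in
theorem abs_HH_le (w : Cs S → ℝ) (b : S → Bool) :
    |HH w b| ≤ Fintype.card (Cs S) * ‖w‖ := by
  refine (Finset.abs_sum_le_sum_abs _ _).trans ?_
  refine (Finset.sum_le_sum (g := fun _ => ‖w‖) fun c _ => ?_).trans ?_
  · rw [abs_mul, abs_xi, mul_one]
    exact norm_le_pi_norm w c
  · simp only [Finset.sum_const, Finset.card_univ, nsmul_eq_mul, le_refl]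

omit [DecidableEq S] in
theorem hg_HH : HG (HH (S := S)) := by
  refine ⟨Finset.measurable_sum _ fun c _ => ((measurable_pi_apply c).comp measurable_fst).mul
    ((measurable_of_finite (xi c)).comp measurable_snd), Fintype.card (Cs S), fun w b => ?_⟩
  refine (abs_HH_le w b).trans ?_
  have : (0 : ℝ) ≤ Fintype.card (Cs S) := Nat.cast_nonneg _
  nlinarith

omit [DecidableEq S] in
theorem fjet_HH (v : Cs S → ℝ) :
    FJet HH v (fun _ b => HH v b) (fun _ _ => 0) (Fintype.card (Cs S) * ‖v‖) := by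
  have h0 : (0 : ℝ) ≤ Fintype.card (Cs S) * ‖v‖ := by positivity
  refine ⟨h0, (bm2_conf (HH v)).1, measurable_const, fun _ b => abs_HH_le v b,
    fun _ _ => by simpa using h0, fun w b t => ?_, fun w b t => ?_⟩
  · rw [HH_add, add_sub_cancel_left, abs_mul, mul_comm]
    exact mul_le_mul_of_nonneg_right (abs_HH_le v b) (abs_nonneg t)
  · rw [HH_add, add_sub_cancel_left, sub_self, mul_zero, sub_zero, abs_zero]
    positivity

theorem HH_single (c : Cs S) (b : S → Bool) : HH (Pi.single c 1) b = xi c b := by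
  simp [HH, Pi.single_apply]

theorem fjet_single (c : Cs S) :
    FJet HH (Pi.single c 1) (fun _ b => xi c b) (fun _ _ => 0) 1 := by
  refine ⟨zero_le_one, (bm2_conf (xi c)).1, measurable_const, fun _ b => (abs_xi c b).le,
    fun _ _ => by simp, fun w b t => ?_, fun w b t => ?_⟩
  · rw [HH_add, add_sub_cancel_left, abs_mul, HH_single, abs_xi, mul_one, one_mul]
  · rw [HH_add, add_sub_cancel_left, HH_single, sub_self, mul_zero, sub_zero, abs_zero]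
    positivity

theorem hj_HH : HJ (HH (S := S)) (fun c _ b => xi c b) (fun _ _ _ => 0) :=
  ⟨hg_HH, 1, fjet_single⟩

omit [Fintype S] [DecidableEq S] in
theorem embX_apply {β : Type} (e : β ↪ S) (j : β) : embX e j = .inr (e j) := rfl

theorem HH_blk {β : Type} [Fintype β] (e : β ↪ S) (c : β → ℝ) (b : S → Bool) :
    HH (blk (embX e) c) b = ∑ j, c j * sp b (e j) := by
  simp only [HH, blk, Finset.sum_mul]
  rw [Finset.sum_comm]
  refine Finset.sum_congr rfl fun j _ => ?_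
  simp only [ite_mul, zero_mul, Finset.sum_ite_eq, Finset.mem_univ, if_true]
  rfl

theorem blk_HH {β : Type} [Fintype β] (e : β ↪ S) :
    Blk (HH (S := S)) (fun c _ b => xi c b) (embX e) 0 0 (Fintype.card β) := by
  refine ⟨le_rfl, fun c => ?_, fun c w b => ?_, Or.inl rfl, fun w b => ?_⟩
  · have h := fjet_HH (blk (embX e) c)
    simp only [HH_blk] at h
    exact ⟨_, _, h, fun _ _ => by simp⟩
  · have h := HH_add w (blk (embX e) c) 1 b
    rw [one_smul, one_mul, HH_blk] at h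
    change HH w b + ∑ j, c j * sp b (e j) - _ ≤ _
    linarith
  · simp only [xi_sq, Finset.sum_const, Finset.card_univ, nsmul_eq_mul, mul_one, le_refl]

omit [Fintype S] [DecidableEq S] in
theorem pf_nonneg (L : ℕ) {g : S → S → ℝ} {x : ℕ → S → ℝ} (hg : ∀ i j, 0 ≤ g i j)
    (hx : ∀ d i, 0 ≤ x d i) (d : ℕ) (c : Cs S) : 0 ≤ pf L g x d c := by
  rcases c with p | i
  · change 0 ≤ if d = L then g p.1 p.2 else 0
    split_ifs
    · exact hg _ _
    · exact le_rfl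
  · exact hx d i

omit [Fintype S] [DecidableEq S] in
theorem pf_interp (L : ℕ) (g g' : S → S → ℝ) (x x' : ℕ → S → ℝ) (t : ℝ) :
    pf L (g + t • (g' - g)) (x + t • (x' - x))
      = pf L g x + t • (pf L g' x' - pf L g x) := by
  funext d c
  rcases c with p | i
  · simp only [pf, Pi.add_apply, Pi.smul_apply, Pi.sub_apply, smul_eq_mul]
    split_ifs <;> simp
  · rfl

omit [Fintype S] [DecidableEq S] in
theorem fam_pf (L : ℕ) {β : Type} {e : β ↪ S} {g : S → S → ℝ} {xs : (ℕ → ℝ) → ℕ → S → ℝ}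
    (hg : ∀ i j, 0 ≤ g i j) (hx : Fam e xs) : Fam (embX e) fun θ => pf L g (xs θ) := by
  refine ⟨fun θ => pf_nonneg L hg (hx.nn θ), fun θ d j hd => hx.blockv θ d j hd,
    fun θ θ' d c h => ?_⟩
  rcases c with p | i
  · rfl
  · exact hx.off θ θ' d i (h.imp_right fun h j hj => h j (by rw [embX_apply, hj]))

variable {L : ℕ} {ζ : ℕ → ℝ} (g : S → S → ℝ) (x : ℕ → S → ℝ)

theorem ZN.cas (h : ZN L ζ) (s : ℕ → Cs S → ℝ) :
    Cas (cut L ζ) (gvs s) (gtop (cube S) HH) :=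
  hg_HH.cas h.zok_cut fun _ => noise_gv _

theorem XS_cut {k : ℕ} (hk : k ≤ L) : XS ζ L g x k = XS (cut L ζ) L g x k := X_cut hk

theorem ExS_cut {d : ℕ} (hd : d ≤ L) (k : ℕ) (φ : (Cs S → ℝ) → ℝ) :
    ExS ζ L g x k φ d = ExS (cut L ζ) L g x k φ d := Ex_cut hd k φ

theorem GS_cut {k : ℕ} (hk : k ≤ L) (f : (S → Bool) → ℝ) :
    GS ζ L g x f k = GS (cut L ζ) L g x f k := Ex_cut hk 0 _

theorem ZN.lg_XS (h : ZN L ζ) {k : ℕ} (hk : k ≤ L) : LG (XS ζ L g x k) := lgXN (h.cas _) hk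

theorem ZN.bm_ExS (h : ZN L ζ) (k : ℕ) {φ : (Cs S → ℝ) → ℝ} (hφ : BM φ) {d : ℕ}
    (hd : d ≤ L + 1) : BM (ExS ζ L g x k φ d) := bmExN (h.cas _) k hφ hd

theorem ZN.bm_GS (h : ZN L ζ) (f : (S → Bool) → ℝ) {k : ℕ} (hk : k ≤ L + 1) :
    BM (GS ζ L g x f k) := bmExN (h.cas _) 0 (hg_HH.bm_gib (bm2_conf f)) hk

theorem abs_GS_le {f : (S → Bool) → ℝ} {C : ℝ} (hf : ∀ b, |f b| ≤ C) (k : ℕ) (w : Cs S → ℝ) :
    |GS ζ L g x f k w| ≤ C :=
  abs_GE_le ((abs_nonneg _).trans (hf fun _ => true))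
    (fun _ => Filter.Eventually.of_forall hf) k w

theorem abs_mg_le (i : S) (k : ℕ) (w : Cs S → ℝ) : |mg ζ L g x i k w| ≤ 1 :=
  abs_GS_le g x (fun b => (abs_sp b i).le) k w

theorem abs_Mg_le (i j : S) (k : ℕ) (w : Cs S → ℝ) : |Mg ζ L g x i j k w| ≤ 1 :=
  abs_GS_le g x (fun b => (abs_xi (.inl (i, j)) b).le) k w

theorem Mg_symm (i j : S) (k : ℕ) : Mg ζ L g x i j k = Mg ζ L g x j i k := by
  simp only [Mg, mul_comm]

theorem ZN.GS_const (h : ZN L ζ) (c : ℝ) {k : ℕ} (hk : k ≤ L + 1) (w : Cs S → ℝ) :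
    GS ζ L g x (fun _ => c) k w = c := by
  have e : gib (cube S) HH (fun (_ : Cs S → ℝ) (_ : S → Bool) => c) = fun _ => c :=
    funext fun u => gexp_const 1 (hg_HH.eint u) c
  rw [GS, GE, e]
  exact ExN_const (h.cas _) 0 c hk w

theorem ZN.GS_sum (h : ZN L ζ) {β : Type} (s : Finset β) (f : β → (S → Bool) → ℝ) {k : ℕ}
    (hk : k ≤ L + 1) (w : Cs S → ℝ) :
    GS ζ L g x (fun b => ∑ j ∈ s, f j b) k w = ∑ j ∈ s, GS ζ L g x (f j) k w := by
  have e : gib (cube S) HH (fun (_ : Cs S → ℝ) b => ∑ j ∈ s, f j b)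
      = fun u => ∑ j ∈ s, gib (cube S) HH (fun _ b => f j b) u :=
    funext fun u => gexp_sum 1 (hg_HH.eint u) s fun j _ => ((bm2_conf (f j)).bm u).eint
  rw [GS, GE, e]
  exact ExN_sum (h.cas _) 0 s (fun j _ => hg_HH.bm_gib (bm2_conf (f j))) hk w

theorem GS_const_mul (c : ℝ) (f : (S → Bool) → ℝ) (k : ℕ) (w : Cs S → ℝ) :
    GS ζ L g x (fun b => c * f b) k w = c * GS ζ L g x f k w :=
  GE_const_mul c (fun _ b => f b) k w

theorem GS_nonneg {f : (S → Bool) → ℝ} (hf : ∀ b, 0 ≤ f b) (k : ℕ) (w : Cs S → ℝ) :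
    0 ≤ GS ζ L g x f k w := GE_nonneg (fun _ b => hf b) k w

theorem ExS_GS {k d : ℕ} (hkd : k ≤ d) (f : (S → Bool) → ℝ) :
    ExS ζ L g x k (GS ζ L g x f k) d = GS ζ L g x f d := Ex_tower (Nat.zero_le k) hkd _

theorem ZN.Mg_diag (h : ZN L ζ) (i : S) {k : ℕ} (hk : k ≤ L + 1) (w : Cs S → ℝ) :
    Mg ζ L g x i i k w = 1 := by
  simp only [Mg, sp_mul_self]
  exact h.GS_const g x 1 hk w

theorem E1_eq (i : S) (k : ℕ) :
    E1 ζ L g x i k = ExS ζ L g x k (fun w => mg ζ L g x i k w ^ 2) (L + 1) 0 := rfl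

theorem E2_eq (i j : S) (k : ℕ) :
    E2 ζ L g x i j k = ExS ζ L g x k (fun w => Mg ζ L g x i j k w ^ 2) (L + 1) 0 := rfl

theorem E1_nonneg (i : S) (k : ℕ) : 0 ≤ E1 ζ L g x i k := Esq_nonneg _ _ _

theorem E2_nonneg (i j : S) (k : ℕ) : 0 ≤ E2 ζ L g x i j k := Esq_nonneg _ _ _

theorem E1_le_one (i : S) (k : ℕ) : E1 ζ L g x i k ≤ 1 :=
  (Esq_le_sq zero_le_one (fun _ => Filter.Eventually.of_forall fun b => (abs_sp b i).le)
    L k).trans_eq (one_pow 2)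

theorem E2_le_one (i j : S) (k : ℕ) : E2 ζ L g x i j k ≤ 1 :=
  (Esq_le_sq zero_le_one
    (fun _ => Filter.Eventually.of_forall fun b => (abs_xi (.inl (i, j)) b).le)
    L k).trans_eq (one_pow 2)

theorem E2_symm (i j : S) (k : ℕ) : E2 ζ L g x i j k = E2 ζ L g x j i k := by
  simp only [E2, mul_comm]

theorem ZN.E2_diag (h : ZN L ζ) (i : S) {k : ℕ} (hk : k ≤ L + 1) : E2 ζ L g x i i k = 1 := by
  simp only [E2_eq, h.Mg_diag g x i hk, one_pow]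
  exact ExN_const (h.cas _) k 1 le_rfl 0

/-- Squares of conditional expectations decrease with the depth. -/
theorem ZN.sq_anti (h : ZN L ζ) (f : (S → Bool) → ℝ) {k l : ℕ} (hkl : k ≤ l) (hl : l ≤ L + 1) :
    ExS ζ L g x l (fun w => GS ζ L g x f l w ^ 2) (L + 1) 0
      ≤ ExS ζ L g x k (fun w => GS ζ L g x f k w ^ 2) (L + 1) 0 := by
  have hk := h.bm_GS g x f (hkl.trans hl)
  rw [ExS, ExS, ← Ex_tower hkl hl]
  refine ExN_mono (h.cas _) l ((h.bm_GS g x f hl).pow 2) (h.bm_ExS g x k (hk.pow 2) hl)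
    (fun w => ?_) le_rfl 0
  rw [← ExS_GS g x hkl f]
  exact sq_ExN_le (h.cas _) k hk hl w

theorem ZN.E1_anti (h : ZN L ζ) (i : S) {k l : ℕ} (hkl : k ≤ l) (hl : l ≤ L + 1) :
    E1 ζ L g x i l ≤ E1 ζ L g x i k := h.sq_anti g x _ hkl hl

theorem ZN.E2_anti (h : ZN L ζ) (i j : S) {k l : ℕ} (hkl : k ≤ l) (hl : l ≤ L + 1) :
    E2 ζ L g x i j l ≤ E2 ζ L g x i j k := h.sq_anti g x _ hkl hl

theorem ZN.prob_rootM (h : ZN L ζ) : IsProbabilityMeasure (rootM ζ L g x) := by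
  have h1 := (eintN (h.cas (pf L g x)) 0).prob_tilted (ν := gv (pf L g x L)) (ζ L)
  simp only [zero_add] at h1
  exact h1

theorem ExS_root {k : ℕ} (hk : k ≤ L) (φ : (Cs S → ℝ) → ℝ) :
    ExS ζ L g x k φ (L + 1) 0 = ∫ w, ExS ζ L g x k φ L w ∂(rootM ζ L g x) := by
  rw [ExS, Ex_succ hk, P, gexp]
  simp only [zero_add]
  rfl

theorem Vl_eq : Vl ζ L g x = lse (gv (pf L g x L)) (ζ L) (XS ζ L g x L) := by
  rw [Vl, XS, X_succ, T]
  simp only [zero_add]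
  rfl

/-- The covariance matrix of the spins is nonnegative. -/
theorem ZN.cov_psd (h : ZN L ζ) (c : S → ℝ) {k : ℕ} (hk : k ≤ L + 1) (w : Cs S → ℝ) :
    (∑ i, c i * mg ζ L g x i k w) ^ 2 ≤ ∑ i, ∑ j, c i * c j * Mg ζ L g x i j k w := by
  have e1 : ∑ i, c i * mg ζ L g x i k w = GS ζ L g x (fun b => ∑ i, c i * sp b i) k w := by
    rw [h.GS_sum g x _ _ hk]
    exact Finset.sum_congr rfl fun i _ => (GS_const_mul g x _ _ k w).symm
  have e2 : ∑ i, ∑ j, c i * c j * Mg ζ L g x i j k w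
      = GS ζ L g x (fun b => (∑ i, c i * sp b i) ^ 2) k w := by
    have e3 : (fun b : S → Bool => (∑ i, c i * sp b i) ^ 2)
        = fun b => ∑ i, ∑ j, c i * c j * (sp b i * sp b j) := by
      funext b
      rw [sq, Finset.sum_mul_sum]
      exact Finset.sum_congr rfl fun i _ => Finset.sum_congr rfl fun j _ => by ring
    rw [e3, h.GS_sum g x _ _ hk]
    refine Finset.sum_congr rfl fun i _ => ?_
    rw [h.GS_sum g x _ _ hk]
    exact Finset.sum_congr rfl fun j _ => (GS_const_mul g x _ _ k w).symm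
  rw [e1, e2]
  have b1 := hg_HH.bm_gib (μ := cube S) (bm2_conf fun b => ∑ i, c i * sp b i)
  refine (sq_ExN_le (h.cas _) 0 b1 hk w).trans (ExN_mono (h.cas _) 0 (b1.pow 2)
    (hg_HH.bm_gib (bm2_conf _)) (fun u => ?_) hk w)
  exact sq_gexp_le 1 (hg_HH.eint u) ((bm2_conf fun b => ∑ i, c i * sp b i).bm u).eint

/-- `(∑ m_i ^ 2) ^ 2 ≤ ∑ M_ij ^ 2`. -/
theorem ZN.sq_sum_mg_le (h : ZN L ζ) {k : ℕ} (hk : k ≤ L + 1) (w : Cs S → ℝ) :
    (∑ i, mg ζ L g x i k w ^ 2) ^ 2 ≤ ∑ i, ∑ j, Mg ζ L g x i j k w ^ 2 := by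
  obtain ⟨a, ha⟩ : ∃ a, a = ∑ i, mg ζ L g x i k w ^ 2 := ⟨_, rfl⟩
  have h1 := h.cov_psd g x (fun i => mg ζ L g x i k w) hk w
  simp only [← sq] at h1
  have h2 : 2 * ∑ i, ∑ j, mg ζ L g x i k w * mg ζ L g x j k w * Mg ζ L g x i j k w
      ≤ a ^ 2 + ∑ i, ∑ j, Mg ζ L g x i j k w ^ 2 := by
    rw [ha, sq, Finset.sum_mul_sum, ← Finset.sum_add_distrib, Finset.mul_sum]
    refine Finset.sum_le_sum fun i _ => ?_
    rw [← Finset.sum_add_distrib, Finset.mul_sum]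
    refine Finset.sum_le_sum fun j _ => ?_
    nlinarith [sq_nonneg (mg ζ L g x i k w * mg ζ L g x j k w - Mg ζ L g x i j k w)]
  rw [← ha] at h1 ⊢
  linarith

/-- `(∑ E1) ^ 2 ≤ ∑ E2`. -/
theorem ZN.sq_sum_E1_le (h : ZN L ζ) {k : ℕ} (hk : k ≤ L + 1) :
    (∑ i, E1 ζ L g x i k) ^ 2 ≤ ∑ i, ∑ j, E2 ζ L g x i j k := by
  have b1 : ∀ i, BM fun w => mg ζ L g x i k w ^ 2 := fun i => (h.bm_GS g x _ hk).pow 2
  have b2 : ∀ i j, BM fun w => Mg ζ L g x i j k w ^ 2 := fun i j => (h.bm_GS g x _ hk).pow 2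
  simp only [E1_eq, E2_eq, ExS]
  rw [← ExN_sum (h.cas _) k _ (fun i _ => b1 i) le_rfl]
  simp only [← ExN_sum (h.cas _) k _ (fun j _ => b2 _ j) le_rfl]
  rw [← ExN_sum (h.cas _) k _ (fun i _ => BM.sum _ fun j _ => b2 i j) le_rfl]
  refine (sq_ExN_le (h.cas _) k (BM.sum _ fun i _ => b1 i) le_rfl 0).trans ?_
  exact ExN_mono (h.cas _) k ((BM.sum _ fun i _ => b1 i).pow 2)
    (BM.sum _ fun i _ => BM.sum _ fun j _ => b2 i j) (h.sq_sum_mg_le g x hk) le_rfl 0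

theorem ZN.r0_nonneg (h : ZN L ζ) (a : ℝ) {k : ℕ} (hk : k ≤ L + 1) (w : Cs S → ℝ) :
    0 ≤ r0 ζ L g x a k w := by
  have h1 := h.sq_sum_mg_le g x hk w
  have h2 : (∑ i, mg ζ L g x i k w ^ 2) ^ 2 / (Fintype.card S : ℝ) ^ 2
      ≤ (∑ i, ∑ j, Mg ζ L g x i j k w ^ 2) / (Fintype.card S : ℝ) ^ 2 := by gcongr
  have h3 := sq_nonneg ((∑ i, mg ζ L g x i k w ^ 2) / (Fintype.card S : ℝ) - a)
  rw [r0, mul_div_assoc]
  rw [← div_pow] at h2
  nlinarith

theorem ZN.rem_nonneg (h : ZN L ζ) (q : ℕ → ℝ) {k : ℕ} (hk : k ≤ L + 1) :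
    0 ≤ rem ζ L g x q k := by
  have h1 := h.sq_sum_E1_le g x hk
  have h2 : (∑ i, E1 ζ L g x i k) ^ 2 / (Fintype.card S : ℝ) ^ 2
      ≤ (∑ i, ∑ j, E2 ζ L g x i j k) / (Fintype.card S : ℝ) ^ 2 := by gcongr
  have h3 := sq_nonneg ((∑ i, E1 ζ L g x i k) / (Fintype.card S : ℝ) - q k)
  rw [rem, mul_div_assoc]
  rw [← div_pow] at h2
  nlinarith

end Vale.Agent.P146L
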