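import Vale.Agent.P146L.RRep
import Vale.Agent.P146L.Sys

/-! # P146, lower bound: contraction of the response with a bounded kernel -/

namespace Vale.Agent.P146L

open Vale.Agent.P157 Finset

variable {Ω : Type} [Fintype Ω]

/-- Triple contraction. -/
noncomputable def Xi (R : Ω → Ω → ℝ) (Y : Ω → Ω → ℂ) (ω : Ω → Ω → Ω → ℝ) : ℂ :=
  ∑ x, ∑ y, ∑ z, (ω x y z : ℂ) * (R y z * Y z x)

/-- Pair contraction. -/
noncomputable def Tp (Y : Ω → Ω → ℂ) (π : Ω → Ω → ℝ) : ℂ := ∑ x, ∑ y, (π x y : ℂ) * Y x y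

/-- Mean distance of the overlap from `a`. -/
noncomputable def ra (R : Ω → Ω → ℝ) (π : Ω → Ω → ℝ) (a : ℝ) : ℝ :=
  ∑ x, ∑ y, π x y * |R x y - a|

/-- Mean square distance of the overlap from `a`. -/
noncomputable def rb (R : Ω → Ω → ℝ) (π : Ω → Ω → ℝ) (a : ℝ) : ℝ :=
  ∑ x, ∑ y, π x y * (R x y - a) ^ 2

variable {R : Ω → Ω → ℝ} {Y : Ω → Ω → ℂ} {κ : ℝ}

theorem ra_nonneg {π : Ω → Ω → ℝ} (h : ∀ x y, 0 ≤ π x y) (a : ℝ) : 0 ≤ ra R π a :=
  sum_nonneg fun x _ => sum_nonneg fun y _ => mul_nonneg (h x y) (abs_nonneg _)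

theorem rb_nonneg {π : Ω → Ω → ℝ} (h : ∀ x y, 0 ≤ π x y) (a : ℝ) : 0 ≤ rb R π a :=
  sum_nonneg fun x _ => sum_nonneg fun y _ => mul_nonneg (h x y) (sq_nonneg _)

theorem ra_le {π : Ω → Ω → ℝ} (h : ∀ x y, 0 ≤ π x y) (h1 : ∑ x, ∑ y, π x y = 1) (a : ℝ) {lam : ℝ}
    (hl : 0 < lam) : ra R π a ≤ rb R π a / (2 * lam) + lam / 2 := by
  rw [← one_mul (lam / 2), ← h1]
  simp only [ra, rb, sum_div, sum_mul, ← sum_add_distrib]
  refine sum_le_sum fun x _ => sum_le_sum fun y _ => ?_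
  rw [mul_div_assoc, ← mul_add]
  refine mul_le_mul_of_nonneg_left ?_ (h x y)
  rw [← sq_abs, div_add' _ _ _ (by positivity), le_div_iff₀ (by positivity)]
  nlinarith [sq_nonneg (|R x y - a| - lam)]

theorem norm_Tp_le (hY : ∀ x y, ‖Y x y‖ ≤ κ) {π : Ω → Ω → ℝ} (h : ∀ x y, 0 ≤ π x y)
    (h1 : ∑ x, ∑ y, π x y = 1) : ‖Tp Y π‖ ≤ κ := by
  rw [← one_mul κ, ← h1]
  simp only [Tp, sum_mul]
  refine (norm_sum_le _ _).trans (sum_le_sum fun x _ => (norm_sum_le _ _).trans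
    (sum_le_sum fun y _ => ?_))
  rw [norm_mul, Complex.norm_real, Real.norm_of_nonneg (h x y)]
  exact mul_le_mul_of_nonneg_left (hY x y) (h x y)

theorem dec3 (hY : ∀ x y, ‖Y x y‖ ≤ κ) {ω : Ω → Ω → Ω → ℝ} (h0 : ∀ x y z, 0 ≤ ω x y z)
    {π π' : Ω → Ω → ℝ} (h1 : ∀ y z, ∑ x, ω x y z = π y z) (h2 : ∀ z x, ∑ y, ω x y z = π' z x)
    (a : ℝ) : ‖Xi R Y ω - a * Tp Y π'‖ ≤ κ * ra R π a := by
  have e1 : (a : ℂ) * Tp Y π' = ∑ x, ∑ y, ∑ z, (ω x y z : ℂ) * (a * Y z x) := by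
    simp only [Tp, ← h2, Complex.ofReal_sum, sum_mul, mul_sum]
    rw [sum_comm]
    refine sum_congr rfl fun x _ => ?_
    rw [sum_comm]
    exact sum_congr rfl fun y _ => sum_congr rfl fun z _ => by ring
  have e2 : κ * ra R π a = ∑ x, ∑ y, ∑ z, ω x y z * (|R y z - a| * κ) := by
    simp only [ra, ← h1, sum_mul, mul_sum]
    rw [sum_comm (f := fun x y => ∑ z, ω x y z * (|R y z - a| * κ))]
    refine sum_congr rfl fun y _ => ?_
    rw [sum_comm]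
    exact sum_congr rfl fun x _ => sum_congr rfl fun z _ => by ring
  rw [e1, e2]
  simp only [Xi, ← sum_sub_distrib]
  refine (norm_sum_le _ _).trans (sum_le_sum fun x _ => (norm_sum_le _ _).trans
    (sum_le_sum fun y _ => (norm_sum_le _ _).trans (sum_le_sum fun z _ => ?_)))
  rw [← mul_sub, ← sub_mul, ← Complex.ofReal_sub, norm_mul, norm_mul, Complex.norm_real,
    Complex.norm_real, Real.norm_of_nonneg (h0 x y z), Real.norm_eq_abs]
  exact mul_le_mul_of_nonneg_left (mul_le_mul_of_nonneg_left (hY z x) (abs_nonneg _)) (h0 x y z)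

theorem Xi_add (ω ω' : Ω → Ω → Ω → ℝ) :
    Xi R Y (fun x y z => ω x y z + ω' x y z) = Xi R Y ω + Xi R Y ω' := by
  simp only [Xi, Complex.ofReal_add, add_mul, sum_add_distrib]

theorem Xi_mul (c : ℝ) (ω : Ω → Ω → Ω → ℝ) :
    Xi R Y (fun x y z => c * ω x y z) = c * Xi R Y ω := by
  simp only [Xi, Complex.ofReal_mul, mul_sum, mul_assoc]

theorem Xi_lin (s : Finset ℕ) (a : ℕ → ℝ) (ω : ℕ → Ω → Ω → Ω → ℝ) :
    Xi R Y (fun x y z => ∑ l ∈ s, a l * (ω l x y z - ω (l + 1) x y z))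
      = ∑ l ∈ s, (a l : ℂ) * (Xi R Y (ω l) - Xi R Y (ω (l + 1))) := by
  induction s using Finset.induction_on with
  | empty => simp [Xi]
  | insert l s hl ih =>
    simp only [sum_insert hl]
    rw [Xi_add, ih, Xi_mul]
    simp only [Xi, Complex.ofReal_sub, sub_mul, sum_sub_distrib]

theorem abel_ou (ζ : ℕ → ℝ) (a : ℕ → ℂ) {k d : ℕ} (h : k ≤ d) :
    ∑ l ∈ Ico k d, (ζ l : ℂ) * (a l - a (l + 1)) + ζ d * a d = ou ζ d a k := by
  induction d, h using Nat.le_induction with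
  | base => simp [ou]
  | succ d h ih =>
    unfold ou at ih ⊢
    rw [sum_Ico_succ_top h, sum_Ico_succ_top h]
    push_cast at ih ⊢
    linear_combination ih

theorem norm_ou_le {ζ : ℕ → ℝ} {e : ℕ → ℂ} {b : ℕ → ℝ} {k d : ℕ} (h0 : 0 ≤ ζ k)
    (ha : ∀ l, l < d → ζ (l + 1) ≤ ζ l) (hkd : k ≤ d) (hb : ∀ l, k ≤ l → l ≤ d → ‖e l‖ ≤ b l) :
    ‖ou ζ d e k‖ ≤ ζ k * b k + ∑ l ∈ Ico k d, (ζ l - ζ (l + 1)) * b (l + 1) := by
  refine (norm_sub_le _ _).trans (add_le_add ?_ ((norm_sum_le _ _).trans (sum_le_sum fun l hl => ?_)))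
  · rw [norm_mul, Complex.norm_real, Real.norm_of_nonneg h0]
    exact mul_le_mul_of_nonneg_left (hb k le_rfl hkd) h0
  · obtain ⟨h1, h2⟩ := mem_Ico.1 hl
    have := sub_nonneg.2 (ha l h2)
    rw [norm_mul, Complex.norm_real, Real.norm_of_nonneg this]
    exact mul_le_mul_of_nonneg_left (hb _ (by omega) h2) this

theorem norm_cs_le {L : ℕ} {ζ : ℕ → ℝ} (hζ : ZN L ζ) {e : ℕ → ℂ} {b : ℕ → ℝ} {k : ℕ} (hk : k < L)
    (hb : ∀ l, l ≤ k → ‖e l‖ ≤ b l) :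
    ‖cs ζ e k‖ ≤ b 0 + ∑ l ∈ range k, (ζ l - ζ (l + 1)) * b (l + 1) + ζ k * b k := by
  have h1 := abel_ou ζ e (Nat.zero_le k)
  have h2 := norm_ou_le (ζ := ζ) (k := 0) (d := k) (by rw [hζ.z0]; norm_num)
    (fun l hl => hζ.anti l (by omega)) (Nat.zero_le k) fun l _ hl => hb l hl
  rw [← range_eq_Ico] at h1 h2
  rw [cs, eq_sub_of_add_eq h1]
  refine (norm_sub_le _ _).trans (add_le_add (by rwa [hζ.z0, one_mul] at h2) ?_)
  rw [norm_mul, Complex.norm_real, Real.norm_of_nonneg (hζ.nn k hk)]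
  exact mul_le_mul_of_nonneg_left (hb k le_rfl) (hζ.nn k hk)

theorem ZN.sum_delta {L : ℕ} {ζ : ℕ → ℝ} (hζ : ZN L ζ) (k : ℕ) :
    ∑ l ∈ range k, (ζ l - ζ (l + 1)) = 1 - ζ k := by
  rw [sum_range_sub', hζ.z0]

variable {L : ℕ} {p2 : ℕ → Ω → Ω → ℝ} {p3 : ℕ → ℕ → Ω → Ω → Ω → ℝ}

theorem Rep.n2 (h : Rep L p2 p3) {k : ℕ} (hk : k ≤ L) (x y : Ω) : 0 ≤ p2 k x y := by
  rw [← h.m12 k k le_rfl hk]
  exact sum_nonneg fun z _ => h.n3 _ _ _ _ _

/-- Weighted first moments are controlled by weighted second moments. -/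
theorem wsum_ra {ζ q : ℕ → ℝ} (hζ : ZN L ζ) (h : Rep L p2 p3)
    (h1 : ∀ l, l ≤ L → ∑ x, ∑ y, p2 l x y = 1) {lam : ℝ} (hl : 0 < lam) {d : ℕ} (hd : d < L) :
    ∑ l ∈ range d, (ζ l - ζ (l + 1)) * ra R (p2 (l + 1)) (q (l + 1))
      ≤ QQ ζ (fun l => rb R (p2 l) (q l)) d / (2 * lam) + lam / 2 := by
  refine (sum_le_sum fun l hl' => mul_le_mul_of_nonneg_left
    (ra_le (h.n2 (by have := mem_range.1 hl'; omega)) (h1 _ (by have := mem_range.1 hl'; omega))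
      _ hl) (sub_nonneg.2 (hζ.anti l ((mem_range.1 hl').trans hd)))).trans ?_
  simp only [mul_add, sum_add_distrib, ← sum_mul, hζ.sum_delta, QQ, sum_div, mul_div_assoc]
  nlinarith [hζ.nn d hd]

theorem QQ_mono {ζ c : ℕ → ℝ} (hζ : ZN L ζ) (hc : ∀ l, l ≤ L → 0 ≤ c l) {d e : ℕ} (hde : d ≤ e)
    (he : e ≤ L) : QQ ζ c d ≤ QQ ζ c e :=
  sum_le_sum_of_subset_of_nonneg (range_mono hde) fun l hl _ => by
    have := mem_range.1 hl
    exact mul_nonneg (sub_nonneg.2 (hζ.anti l (by omega))) (hc _ (by omega))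

/-- The replica equation at a fixed root configuration. -/
theorem contr {ζ q : ℕ → ℝ} (hζ : ZN L ζ) (hqL : q L = 0) (h : Rep L p2 p3)
    (h1 : ∀ l, l ≤ L → ∑ x, ∑ y, p2 l x y = 1) (hY : ∀ x y, ‖Y x y‖ ≤ κ) (hκ : 0 ≤ κ)
    (hr0 : ra R (p2 0) (q 0) = 0) {lam : ℝ} (hl : 0 < lam) {k : ℕ} (hk : k < L)
    (hroot : ‖Xi R Y (p3 k L)‖ ≤ κ * rb R (p2 L) (q L)) :
    ‖Xi R Y (fun x y z => Om ζ p3 k L x y z + ζ L * p3 k L x y z)
        - up ζ q L (fun l => Tp Y (p2 l)) k‖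
      ≤ κ * (4 * ra R (p2 k) (q k) + lam / 2
        + (1 / (2 * lam) + 1) * QQ ζ (fun l => rb R (p2 l) (q l)) L) := by
  set r : ℕ → ℝ := fun l => ra R (p2 l) (q l) with hr
  set s : ℕ → ℝ := fun l => rb R (p2 l) (q l) with hs
  set T : ℕ → ℂ := fun l => Tp Y (p2 l) with hT
  have e : Xi R Y (fun x y z => Om ζ p3 k L x y z + ζ L * p3 k L x y z) - up ζ q L T k
      = cs ζ (fun l => Xi R Y (fun x y z => p3 l k x z y) - q k * T l) k
        + cs ζ (fun l => Xi R Y (fun x y z => p3 l k y z x) - q l * T k) k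
        + ou ζ L (fun l => Xi R Y (p3 k l) - q l * T l) k := by
    simp only [Om, add_assoc]
    rw [Xi_add, Xi_add, Xi_add, Xi_mul, Xi_lin _ ζ fun l x y z => p3 l k x z y,
      Xi_lin _ ζ fun l x y z => p3 l k y z x, Xi_lin _ ζ (p3 k), abel_ou ζ _ hk.le]
    simp only [up, cs, ou, csDelta, mul_sum, Complex.ofReal_sum, mul_sub, sum_sub_distrib,
      Complex.ofReal_mul, Complex.ofReal_sub]
    have e1 : ∀ l, (ζ l : ℂ) * (q k * T l) = q k * (ζ l * T l) := fun l => by ring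
    have e2 : ∀ l, (ζ l : ℂ) * (q k * T (l + 1)) = q k * (ζ l * T (l + 1)) := fun l => by ring
    have e3 : ∀ l, (ζ l : ℂ) * (q l * T k) = T k * (ζ l * q l) := fun l => by ring
    have e4 : ∀ l, (ζ l : ℂ) * (q (l + 1) * T k) = T k * (ζ l * q (l + 1)) := fun l => by ring
    simp only [e1, e2, e3, e4]
    ring
  have r0 : ∀ l, l ≤ L → 0 ≤ r l := fun l hl => ra_nonneg (h.n2 hl) _
  have s0 : ∀ l, l ≤ L → 0 ≤ s l := fun l hl => rb_nonneg (h.n2 hl) _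
  have b1 := norm_cs_le hζ (e := fun l => Xi R Y (fun x y z => p3 l k x z y) - q k * T l)
    (b := fun _ => κ * r k) hk fun l hl => dec3 hY (fun _ _ _ => h.n3 _ _ _ _ _)
      (fun y z => (h.m23 l k hl hk.le z y).trans (h.symm _ _ _))
      (fun z x => (h.m12 l k hl hk.le x z).trans (h.symm _ _ _)) _
  have b2 := norm_cs_le hζ (e := fun l => Xi R Y (fun x y z => p3 l k y z x) - q l * T k)
    (b := fun l => κ * r l) hk fun l hl => dec3 hY (fun _ _ _ => h.n3 _ _ _ _ _)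
      (fun y z => h.m12 l k hl hk.le y z) (fun z x => h.m23 l k hl hk.le z x) _
  have b3 := norm_ou_le (ζ := ζ) (e := fun l => Xi R Y (p3 k l) - q l * T l)
    (b := fun l => κ * if l = L then s L else r l) (hζ.nn k hk) hζ.anti hk.le fun l hl hl' => by
      split_ifs with h0
      · rw [h0, hqL]
        simpa using hroot
      · exact dec3 hY (fun _ _ _ => h.n3 _ _ _ _ _) (fun y z => h.m23 k l hl hl' y z)
          (fun z x => (h.m13 k l hl hl' x z).trans (h.symm _ _ _)) _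
  obtain ⟨M, rfl⟩ := Nat.exists_eq_succ_of_ne_zero (show L ≠ 0 by omega)
  have hkM : k ≤ M := by omega
  rw [if_neg hk.ne, sum_Ico_succ_top hkM, if_pos rfl, sum_congr (s₁ := Ico k M) rfl fun l hl => by
    rw [if_neg (by have := (mem_Ico.1 hl).2; omega)]] at b3
  rw [← sum_mul, hζ.sum_delta] at b1
  have b4 := wsum_ra (R := R) (q := q) hζ h h1 hl M.lt_succ_self
  rw [← sum_range_add_sum_Ico _ hkM] at b4
  have b5 : QQ ζ s (M + 1) = QQ ζ s M + (ζ M - ζ (M + 1)) * s (M + 1) := sum_range_succ _ _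
  have b6 : QQ ζ s M ≤ QQ ζ s (M + 1) := QQ_mono hζ s0 M.le_succ le_rfl
  have b7 : 0 ≤ QQ ζ s M := QQ_mono hζ s0 (Nat.zero_le M) M.le_succ
  have b8 : QQ ζ s M / (2 * lam) ≤ 1 / (2 * lam) * QQ ζ s (M + 1) := by
    rw [one_div_mul_eq_div]
    exact div_le_div_of_nonneg_right b6 (by positivity)
  have b9 : ζ k * r k ≤ r k := mul_le_of_le_one_left (r0 k hk.le) (hζ.le_one hk.le)
  simp only [mul_left_comm _ κ, ← mul_sum] at b1 b2 b3
  rw [e]
  refine (norm_add₃_le).trans ((add_le_add (add_le_add b1 b2) b3).trans ?_)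
  simp only [← mul_add]
  refine mul_le_mul_of_nonneg_left ?_ hκ
  have r00 : r 0 = 0 := hr0
  simp only [hr] at b9 r00 ⊢
  simp only [Nat.succ_eq_add_one] at *
  nlinarith

end Vale.Agent.P146L
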