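import Vale.Agent.P146L.Defs

/-! # P146, lower bound: definitions for the resolvent bound -/

namespace Vale.Agent.P146L

open MeasureTheory ProbabilityTheory Vale.Agent.P157

set_option linter.unusedSectionVars false

section d1
variable {W E : Type} [NormedAddCommGroup W] [NormedSpace ℝ W] [MeasurableSpace W]
  [NormedRing E] [NormedAlgebra ℝ E] [MeasurableSpace E]

/-- Bounded measurable functions with values in a normed ring. -/
structure BE {W E : Type} [MeasurableSpace W] [NormedRing E] [MeasurableSpace E] (F : W → E) :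
    Prop where
  m : Measurable F
  b : ∃ C, ∀ w, ‖F w‖ ≤ C

/-- Bounded measurable functions with a bounded measurable derivative along `v`. -/
structure D1 (v : W) (F F' : W → E) : Prop where
  b0 : BE F
  b1 : BE F'
  der : ∀ w, HasDerivAt (fun t : ℝ => F (w + t • v)) (F' w) 0

end d1

section be
variable {W E : Type} [MeasurableSpace W] [NormedRing E] [MeasurableSpace E] [BorelSpace E]
  [SecondCountableTopology E] {F G : W → E}

theorem BE.const (c : E) : BE fun _ : W => c := ⟨measurable_const, ‖c‖, fun _ => le_rfl⟩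

theorem BE.add (h : BE F) (h' : BE G) : BE fun w => F w + G w := by
  obtain ⟨hm, C, hC⟩ := h
  obtain ⟨hm', C', hC'⟩ := h'
  exact ⟨hm.add hm', C + C', fun w => (norm_add_le _ _).trans (add_le_add (hC w) (hC' w))⟩

theorem BE.sub (h : BE F) (h' : BE G) : BE fun w => F w - G w := by
  obtain ⟨hm, C, hC⟩ := h
  obtain ⟨hm', C', hC'⟩ := h'
  exact ⟨hm.sub hm', C + C', fun w => (norm_sub_le _ _).trans (add_le_add (hC w) (hC' w))⟩

theorem BE.mul (h : BE F) (h' : BE G) : BE fun w => F w * G w := by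
  obtain ⟨hm, C, hC⟩ := h
  obtain ⟨hm', C', hC'⟩ := h'
  exact ⟨hm.mul hm', C * C', fun w => (norm_mul_le _ _).trans
    (mul_le_mul (hC w) (hC' w) (norm_nonneg _) ((norm_nonneg _).trans (hC w)))⟩

theorem BE.sum {β : Type} (s : Finset β) {φ : β → W → E} (h : ∀ j ∈ s, BE (φ j)) :
    BE fun w => ∑ j ∈ s, φ j w := by
  classical
  induction s using Finset.induction_on with
  | empty => simpa using BE.const (0 : E)
  | insert a s ha ih =>
    simp only [Finset.sum_insert ha]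
    exact (h a (by simp)).add (ih fun j hj => h j (by simp [hj]))

theorem BE.integrable (h : BE F) (μ : Measure W) [IsFiniteMeasure μ] : Integrable F μ := by
  obtain ⟨hm, C, hC⟩ := h
  exact (integrable_const C).mono' hm.aestronglyMeasurable (ae_of_all _ hC)

theorem be_iff {f : W → ℝ} : BE f ↔ BM f := ⟨fun h => ⟨h.m, h.b⟩, fun h => ⟨h.1, h.2⟩⟩

theorem BE.ofReal {f : W → ℝ} (h : BE f) : BE fun w => (f w : ℂ) :=
  ⟨Complex.measurable_ofReal.comp h.m, h.b.imp fun C hC w => by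
    rw [Complex.norm_real]; exact hC w⟩

theorem BE.norm (h : BE F) : BE fun w => ‖F w‖ :=
  ⟨h.m.norm, h.b.imp fun C hC w => by rw [norm_norm]; exact hC w⟩

theorem BE.conj {F : W → ℂ} (h : BE F) : BE fun w => (starRingEnd ℂ) (F w) :=
  ⟨Complex.continuous_conj.measurable.comp h.m, h.b.imp fun C hC w => by
    rw [Complex.norm_conj]; exact hC w⟩

end be

section d1
variable {W E : Type} [NormedAddCommGroup W] [NormedSpace ℝ W] [MeasurableSpace W]
  [NormedRing E] [NormedAlgebra ℝ E] [MeasurableSpace E] [BorelSpace E]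
  [SecondCountableTopology E] {v : W} {F F' G G' : W → E}

theorem D1.const (v : W) (c : E) : D1 v (fun _ => c) fun _ => 0 :=
  ⟨BE.const c, BE.const 0, fun _ => hasDerivAt_const _ _⟩

theorem D1.add (h : D1 v F F') (h' : D1 v G G') :
    D1 v (fun w => F w + G w) fun w => F' w + G' w :=
  ⟨h.b0.add h'.b0, h.b1.add h'.b1, fun w => (h.der w).add (h'.der w)⟩

theorem D1.sub (h : D1 v F F') (h' : D1 v G G') :
    D1 v (fun w => F w - G w) fun w => F' w - G' w :=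
  ⟨h.b0.sub h'.b0, h.b1.sub h'.b1, fun w => (h.der w).sub (h'.der w)⟩

theorem D1.mul (h : D1 v F F') (h' : D1 v G G') :
    D1 v (fun w => F w * G w) fun w => F' w * G w + F w * G' w :=
  ⟨h.b0.mul h'.b0, (h.b1.mul h'.b0).add (h.b0.mul h'.b1), fun w => by
    simpa using (h.der w).fun_mul (h'.der w)⟩

omit [BorelSpace E] [SecondCountableTopology E] in
theorem D1.congr (h : D1 v F F') (e : ∀ w, F' w = G' w) : D1 v F G' := by
  rwa [← funext e]

theorem D1.sum {β : Type} (s : Finset β) {φ φ' : β → W → E} (h : ∀ j ∈ s, D1 v (φ j) (φ' j)) :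
    D1 v (fun w => ∑ j ∈ s, φ j w) fun w => ∑ j ∈ s, φ' j w :=
  ⟨BE.sum s fun j hj => (h j hj).b0, BE.sum s fun j hj => (h j hj).b1,
    fun w => HasDerivAt.fun_sum fun j hj => (h j hj).der w⟩

theorem D1.ofReal {f f' : W → ℝ} (h : D1 v f f') :
    D1 v (fun w => (f w : ℂ)) fun w => (f' w : ℂ) :=
  ⟨h.b0.ofReal, h.b1.ofReal, fun w => (h.der w).ofReal_comp⟩

theorem D1.conj {F F' : W → ℂ} (h : D1 v F F') :
    D1 v (fun w => (starRingEnd ℂ) (F w)) fun w => (starRingEnd ℂ) (F' w) :=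
  ⟨h.b0.conj, h.b1.conj, fun w => (h.der w).star⟩

omit [MeasurableSpace W] in
/-- The derivative at every time. -/
theorem der_at {E : Type} [NormedAddCommGroup E] [NormedSpace ℝ E] {F F' : W → E}
    (h : ∀ w, HasDerivAt (fun t : ℝ => F (w + t • v)) (F' w) 0) (w : W) (t : ℝ) :
    HasDerivAt (fun u : ℝ => F (w + u • v)) (F' (w + t • v)) t := by
  have h1 := h (w + t • v)
  have h2 : HasDerivAt (fun u : ℝ => F (w + t • v + (u - t) • v)) (F' (w + t • v)) t := by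
    have := HasDerivAt.scomp (h := fun u : ℝ => u - t) (x := t) (h' := 1)
      (g₁ := fun u : ℝ => F (w + t • v + u • v)) (g₁' := F' (w + t • v))
      (by simpa using h1) ((hasDerivAt_id t).sub_const t)
    simpa [Function.comp_def] using this
  refine h2.congr_of_eventuallyEq (Filter.Eventually.of_forall fun u => ?_)
  simp only [sub_smul]
  congr 1
  abel

end d1

/-- Squared Frobenius norm. -/
noncomputable def fro {S : Type} [Fintype S] (B : Matrix S S ℂ) : ℝ := ∑ i, ∑ j, ‖B i j‖ ^ 2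

/-- A real matrix as a complex matrix. -/
def cM {S : Type} (J : Matrix S S ℝ) : Matrix S S ℂ := J.map fun a => (a : ℂ)

/-- Eigenvalues in the ultrametric algebra. -/
noncomputable def cs (ζ : ℕ → ℝ) (Y : ℕ → ℂ) (k : ℕ) : ℂ :=
  ∑ l ∈ Finset.range k, (ζ l : ℂ) * (Y l - Y (l + 1))

/-- The contribution of the levels above `k`. -/
noncomputable def ou (ζ : ℕ → ℝ) (L : ℕ) (Y : ℕ → ℂ) (k : ℕ) : ℂ :=
  ζ k * Y k - ∑ l ∈ Finset.Ico k L, ((ζ l - ζ (l + 1) : ℝ) : ℂ) * Y (l + 1)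

/-- The product with the overlap matrix in the ultrametric algebra. -/
noncomputable def up (ζ q : ℕ → ℝ) (L : ℕ) (Y : ℕ → ℂ) (k : ℕ) : ℂ :=
  q k * cs ζ Y k + Y k * csDelta ζ q k + ou ζ L (fun l => q l * Y l) k

/-- Resolvent of a real symmetric matrix. -/
def S_rs : Prop := ∀ (S : Type) [Fintype S] [DecidableEq S] (z : ℂ) (J : Matrix S S ℝ),
  J.IsSymm → 0 < z.im →
  z • Rs z J - cM J * Rs z J = 1 ∧
  (∀ i j, Rs z J i j = Rs z J j i) ∧
  (∀ B, fro (Rs z J * B) ≤ fro B / z.im ^ 2) ∧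
  (∀ x y : S → ℝ, ‖∑ j, ∑ l, Rs z J j l * ((x j * y l : ℝ) : ℂ)‖
    ≤ √(∑ j, x j ^ 2) * √(∑ l, y l ^ 2) / z.im) ∧
  z.im * fro (Rs z J) = -(Rs z J).trace.im

/-- Derivative of the resolvent. -/
def S_rsd : Prop := ∀ (W S : Type) [NormedAddCommGroup W] [NormedSpace ℝ W] [MeasurableSpace W]
  [Fintype S] [DecidableEq S] (z : ℂ) (J : W → Matrix S S ℝ) (v : W) (E : Matrix S S ℝ),
  0 < z.im → (∀ w, (J w).IsSymm) → (∀ i j, Measurable fun w => J w i j) →
  (∀ w (t : ℝ), J (w + t • v) = J w + t • E) → ∀ i j,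
  D1 v (fun w => Rs z (J w) i j) fun w => (Rs z (J w) * cM E * Rs z (J w)) i j

/-- Gaussian integration by parts under a tilted law. -/
def S_stein : Prop := ∀ (ι : Type) [Fintype ι] [DecidableEq ι] (s : ι → ℝ) (e : ι) (a : ℝ)
  (Ψ Ψ' : (ι → ℝ) → ℝ) (F F' : (ι → ℝ) → ℂ), 0 ≤ s e → LG Ψ → BM Ψ' →
  (∀ w, HasDerivAt (fun t : ℝ => Ψ (w + t • Pi.single e 1)) (Ψ' w) 0) →
  D1 (Pi.single e 1) F F' →
  Integrable (fun w => (w e : ℂ) * F w) ((gv s).tilted fun w => a * Ψ w) ∧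
  ∫ w, (w e : ℂ) * F w ∂((gv s).tilted fun w => a * Ψ w)
    = s e * ∫ w, (F' w + a * (Ψ' w * F w)) ∂((gv s).tilted fun w => a * Ψ w)

/-- Solution of the replica equations. -/
def S_alg : Prop := ∀ (L : ℕ) (ζ q : ℕ → ℝ) (b δ s μ0 e : ℝ) (Y E : ℕ → ℂ),
  ZN L ζ → QP L q → 0 ≤ b → 0 < δ → δ ≤ 1 / 4 → 0 < s → s ≤ 1 → 0 ≤ μ0 →
  1 - 2 * δ ≤ b * csDelta ζ q L → b * csDelta ζ q L ≤ 1 + δ / 2 →
  (∀ d, d < L → q (d + 1) < q d → q (d + 1) < s → ζ d ≤ μ0) → b * μ0 * s ≤ δ →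
  (∀ k, k < L → yy δ * Y k = q k + b * up ζ q L Y k + E k) →
  (∀ d, d < L → ‖E 0‖ + ∑ l ∈ Finset.range d, (ζ l - ζ (l + 1)) * ‖E (l + 1)‖ ≤ e) →
  s / (600 * δ ^ 2) ≤ ‖Y 0‖ + (1 + b) * e / δ ^ 2

/-- The spectral parameter. -/
def S_zz : Prop := ∀ δ : ℝ, 0 < δ → δ ≤ 1 / 4 →
  δ ^ 2 ≤ (zz δ).im ∧ ‖zz δ‖ ≤ 3 ∧ -((yy δ)⁻¹).im ≤ δ ∧ zz δ - (yy δ)⁻¹ = yy δ ∧
  ∀ u : ℂ, u.im ≤ 0 → δ * ‖u - (yy δ)⁻¹‖ ≤ ‖u ^ 2 - zz δ * u + 1‖

end Vale.Agent.P146L
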