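import Vale.Agent.P146L.RDefs

/-! # P146, lower bound: directional derivatives of cascade expectations -/

namespace Vale.Agent.P146L

open MeasureTheory ProbabilityTheory Vale.Agent.P157

set_option linter.unusedSectionVars false

section par
variable {Ω : Type} [MeasurableSpace Ω] {ν : Measure Ω} [IsProbabilityMeasure ν]

theorem num_der (ζ : ℝ) {H H' g g' : ℝ → Ω → ℝ} {K : ℝ} (hH : ∀ t, Measurable (H t))
    (hE : EInt ν (H 0)) (hg : ∀ t, Measurable (g t)) (hH' : Measurable (H' 0))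
    (hg' : Measurable (g' 0)) (dH : ∀ t x, HasDerivAt (fun u => H u x) (H' t x) t)
    (dg : ∀ t x, HasDerivAt (fun u => g u x) (g' t x) t) (b1 : ∀ t x, |H' t x| ≤ K)
    (b2 : ∀ t x, |g t x| ≤ K) (b3 : ∀ t x, |g' t x| ≤ K) :
    HasDerivAt (fun t => ∫ x, Real.exp (ζ * H t x) * g t x ∂ν)
      (∫ x, Real.exp (ζ * H 0 x) * (g' 0 x + ζ * (H' 0 x * g 0 x)) ∂ν) 0 := by
  have lip : ∀ t x, |H t x - H 0 x| ≤ K * |t| := fun t x => by
    have := (convex_univ (𝕜 := ℝ) (E := ℝ)).norm_image_sub_le_of_norm_hasDerivWithin_le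
      (f := fun u => H u x) (f' := fun u => H' u x) (C := K)
      (fun u _ => (dH u x).hasDerivWithinAt) (fun u _ => b1 u x) (Set.mem_univ 0) (Set.mem_univ t)
    simpa using this
  have hx : ∀ t ∈ Metric.ball (0 : ℝ) 1, ∀ x,
      Real.exp (ζ * H t x) ≤ Real.exp (ζ * H 0 x) * Real.exp (|ζ| * K) := fun t ht x => by
    rw [← Real.exp_add, Real.exp_le_exp]
    have hK : 0 ≤ K := (abs_nonneg _).trans (b1 0 x)
    have h1 : |t| ≤ 1 := by simpa using (mem_ball_zero_iff.1 ht).le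
    have h2 : |H t x - H 0 x| ≤ K := (lip t x).trans (mul_le_of_le_one_right hK h1)
    have h3 : ζ * (H t x - H 0 x) ≤ |ζ| * K := (le_abs_self _).trans (by
      rw [abs_mul]; exact mul_le_mul_of_nonneg_left h2 (abs_nonneg _))
    linarith
  refine (hasDerivAt_integral_of_dominated_loc_of_deriv_le (Metric.ball_mem_nhds 0 one_pos)
    (F := fun t x => Real.exp (ζ * H t x) * g t x)
    (F' := fun t x => Real.exp (ζ * H t x) * (g' t x + ζ * (H' t x * g t x)))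
    (bound := fun x => Real.exp (ζ * H 0 x) * Real.exp (|ζ| * K) * (K + |ζ| * (K * K)))
    (Filter.Eventually.of_forall fun t =>
      ((((hH t).const_mul ζ).exp).mul (hg t)).aestronglyMeasurable) ?_
    ((((hH 0).const_mul ζ).exp).mul (hg'.add ((hH'.mul (hg 0)).const_mul ζ))).aestronglyMeasurable
    (ae_of_all _ fun x t ht => ?_) (((hE.2 ζ).mul_const _).mul_const _)
    (ae_of_all _ fun x t _ => ?_)).2
  · exact (hE.2 ζ).mul_bdd (hg 0).aestronglyMeasurable (ae_of_all _ (b2 0))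
  · have hK : 0 ≤ K := (abs_nonneg _).trans (b1 0 x)
    rw [Real.norm_eq_abs, abs_mul, abs_of_pos (Real.exp_pos _)]
    refine mul_le_mul (hx t ht x) ((abs_add_le _ _).trans (add_le_add (b3 t x) ?_))
      (abs_nonneg _) (by positivity)
    rw [abs_mul, abs_mul]
    exact mul_le_mul_of_nonneg_left (mul_le_mul (b1 t x) (b2 t x) (abs_nonneg _) hK) (abs_nonneg _)
  · exact ((((dH t x).const_mul ζ).exp).fun_mul (dg t x)).congr_deriv (by ring)

theorem gexp_der (ζ : ℝ) {H H' g g' : ℝ → Ω → ℝ} {K : ℝ} (hK : 1 ≤ K)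
    (hH : ∀ t, Measurable (H t))
    (hE : EInt ν (H 0)) (hg : ∀ t, Measurable (g t)) (hH' : Measurable (H' 0))
    (hg' : Measurable (g' 0)) (dH : ∀ t x, HasDerivAt (fun u => H u x) (H' t x) t)
    (dg : ∀ t x, HasDerivAt (fun u => g u x) (g' t x) t) (b1 : ∀ t x, |H' t x| ≤ K)
    (b2 : ∀ t x, |g t x| ≤ K) (b3 : ∀ t x, |g' t x| ≤ K) :
    HasDerivAt (fun t => gexp ν ζ (H t) (g t))
      (gexp ν ζ (H 0) (fun x => g' 0 x + ζ * (H' 0 x * g 0 x))
        - ζ * (gexp ν ζ (H 0) (H' 0) * gexp ν ζ (H 0) (g 0))) 0 := by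
  have h1 := num_der ζ hH hE hg hH' hg' dH dg b1 b2 b3
  have h2 := num_der (ν := ν) ζ (g := fun _ _ => 1) (g' := fun _ _ => 0) hH hE
    (fun _ => measurable_const) hH' measurable_const dH (fun _ _ => hasDerivAt_const _ _) b1
    (fun _ _ => by simpa using hK) (fun _ _ => by simp; linarith)
  simp only [mul_one, zero_add] at h2
  have hZ : 0 < ∫ x, Real.exp (ζ * H 0 x) ∂ν := integral_exp_pos (hE.2 ζ)
  simp only [gexp_eq]
  refine (h1.fun_div h2 hZ.ne').congr_deriv ?_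
  have e : ∫ x, Real.exp (ζ * H 0 x) * (ζ * H' 0 x) ∂ν
      = ζ * ∫ x, Real.exp (ζ * H 0 x) * H' 0 x ∂ν := by
    rw [← integral_const_mul]
    exact integral_congr_ae (ae_of_all _ fun x => by simp only; ring)
  rw [e]
  field_simp

end par

variable {W : Type} [NormedAddCommGroup W] [NormedSpace ℝ W] [MeasurableSpace W] [BorelSpace W]
  [SecondCountableTopology W] {v : W}

theorem D1.kernel (ζ : ℝ) {ν : Measure W} (hν : Noise ν) {Ψ m a F F' : W → ℝ} (hΨ : LG Ψ)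
    {K : ℝ} (hj : DJet Ψ v m a K) (h : D1 v F F') :
    D1 v (P ζ ν Ψ F) fun w => P ζ ν Ψ (fun u => F' u + ζ * (m u * F u)) w
      - ζ * (P ζ ν Ψ m w * P ζ ν Ψ F w) := by
  have hF := be_iff.1 h.b0
  have hF' := be_iff.1 h.b1
  have := hν.prob
  refine ⟨be_iff.2 (BM.kernel ζ hν hΨ hF), be_iff.2 ((BM.kernel ζ hν hΨ
    (hF'.add ((hj.bm_m.mul hF).const_mul ζ))).sub
    (((BM.kernel ζ hν hΨ hj.bm_m).mul (BM.kernel ζ hν hΨ hF)).const_mul ζ)), fun w => ?_⟩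
  obtain ⟨C, hC⟩ := hF.2
  obtain ⟨C', hC'⟩ := hF'.2
  have e : ∀ (t : ℝ) z, w + t • v + z = w + z + t • v := fun t z => add_right_comm _ _ _
  have ms : ∀ {f : W → ℝ}, Measurable f → ∀ t : ℝ, Measurable fun z => f (w + t • v + z) :=
    fun hf t => hf.comp (measurable_const_add _)
  have key := gexp_der (ν := ν) ζ (H := fun t z => Ψ (w + t • v + z))
    (H' := fun t z => m (w + t • v + z)) (g := fun t z => F (w + t • v + z))
    (g' := fun t z => F' (w + t • v + z)) (K := 1 + |K| + |C| + |C'|)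
    (by linarith [abs_nonneg K, abs_nonneg C, abs_nonneg C']) (ms hΨ.1) (hΨ.eint hν _) (ms hF.1)
    (ms hj.mm 0) (ms hF'.1 0) (fun t z => by simpa only [e] using hj.hasDerivAt (w + z) t)
    (fun t z => by simpa only [e] using der_at h.der (w + z) t)
    (fun t z => (hj.bm _).trans
      (by linarith [le_abs_self K, abs_nonneg C, abs_nonneg C']))
    (fun t z => (hC _).trans (by linarith [le_abs_self C, abs_nonneg K, abs_nonneg C']))
    (fun t z => (hC' _).trans (by linarith [le_abs_self C', abs_nonneg K, abs_nonneg C]))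
  simpa only [zero_smul, add_zero, P] using key

variable {ζ : ℕ → ℝ} {ν : ℕ → Measure W} {Ψ : W → ℝ}

/-- Derivative of a conditional expectation. -/
theorem d1_Ex (h : Cas ζ ν Ψ) {m a F F' : W → ℝ} {K : ℝ} (hj : DJet Ψ v m a K) (hF : D1 v F F')
    {k d : ℕ} (hkd : k ≤ d) :
    D1 v (Ex ζ ν Ψ k F d) fun w => Ex ζ ν Ψ k F' d w + ∑ l ∈ Finset.Ico k d, ζ l *
      (Ex ζ ν Ψ l (fun u => Ex ζ ν Ψ 0 m l u * Ex ζ ν Ψ k F l u) d w
        - Ex ζ ν Ψ (l + 1) (fun u => Ex ζ ν Ψ 0 m (l + 1) u * Ex ζ ν Ψ k F (l + 1) u) d w) := by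
  have b0 := be_iff.1 hF.b0
  have b1 := be_iff.1 hF.b1
  have bA : ∀ l, BM fun u => Ex ζ ν Ψ 0 m l u * Ex ζ ν Ψ k F l u := fun l =>
    (h.bmEx 0 hj.bm_m l).mul (h.bmEx k b0 l)
  induction d, hkd using Nat.le_induction with
  | base => simpa [Ex_of_le] using hF
  | succ d hkd ih =>
    rw [Ex_succ hkd]
    refine (ih.kernel (ζ d) (h.noise d) (h.lgX d) (h.jetX hj d)).congr fun w => ?_
    have eP : ∀ φ : W → ℝ, P (ζ d) (ν d) (X ζ ν Ψ d) φ = Ex ζ ν Ψ d φ (d + 1) := fun φ => by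
      rw [Ex_succ le_rfl, Ex_of_le le_rfl]
    have bS : ∀ l ∈ Finset.Ico k d, BM fun u => ζ l *
        (Ex ζ ν Ψ l (fun u => Ex ζ ν Ψ 0 m l u * Ex ζ ν Ψ k F l u) d u
        - Ex ζ ν Ψ (l + 1) (fun u => Ex ζ ν Ψ 0 m (l + 1) u * Ex ζ ν Ψ k F (l + 1) u) d u) :=
      fun l _ => ((h.bmEx _ (bA l) d).sub (h.bmEx _ (bA (l + 1)) d)).const_mul _
    simp only [eP]
    rw [h.Ex_add d ((h.bmEx k b1 d).add (BM.sum _ bS)) ((bA d).const_mul _),
      h.Ex_add d (h.bmEx k b1 d) (BM.sum _ bS), h.Ex_sum d _ bS, Ex_const_mul,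
      Ex_tower hkd (Nat.le_succ d), Ex_tower (Nat.zero_le d) (Nat.le_succ d),
      Ex_tower hkd (Nat.le_succ d), Finset.sum_Ico_succ_top hkd, Ex_of_le (le_refl (d + 1))]
    have e : ∀ l ∈ Finset.Ico k d, Ex ζ ν Ψ d (fun u => ζ l *
        (Ex ζ ν Ψ l (fun u => Ex ζ ν Ψ 0 m l u * Ex ζ ν Ψ k F l u) d u
        - Ex ζ ν Ψ (l + 1) (fun u => Ex ζ ν Ψ 0 m (l + 1) u * Ex ζ ν Ψ k F (l + 1) u) d u))
        (d + 1) w = ζ l *
        (Ex ζ ν Ψ l (fun u => Ex ζ ν Ψ 0 m l u * Ex ζ ν Ψ k F l u) (d + 1) w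
        - Ex ζ ν Ψ (l + 1) (fun u => Ex ζ ν Ψ 0 m (l + 1) u * Ex ζ ν Ψ k F (l + 1) u) (d + 1) w) :=
      fun l hl => by
        have hl' := (Finset.mem_Ico.1 hl).2
        rw [Ex_const_mul, h.Ex_sub d (h.bmEx _ (bA l) d) (h.bmEx _ (bA (l + 1)) d),
          Ex_tower hl'.le (Nat.le_succ d), Ex_tower (Nat.succ_le_of_lt hl') (Nat.le_succ d)]
    rw [Finset.sum_congr rfl e]
    ring

end Vale.Agent.P146L
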