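import Vale.Agent.P146L.RDefs

/-! # P146, lower bound: integration by parts against the resolvent -/

namespace Vale.Agent.P146L

open MeasureTheory Vale.Agent.P157 Finset

set_option linter.unusedSectionVars false

variable {S : Type} [Fintype S] [DecidableEq S]

theorem fro_nonneg (B : Matrix S S ℂ) : 0 ≤ fro B :=
  sum_nonneg fun _ _ => sum_nonneg fun _ _ => sq_nonneg _

theorem fro_cs {A B : Matrix S S ℂ} {a c : ℝ} (ha : 0 ≤ a) (hc : 0 ≤ c) (hA : fro A ≤ a ^ 2)
    (hB : fro B ≤ c ^ 2) : ∑ i, ∑ j, ‖A i j‖ * ‖B i j‖ ≤ a * c := by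
  have h := Real.sum_mul_le_sqrt_mul_sqrt (univ : Finset (S × S)) (fun p => ‖A p.1 p.2‖)
    fun p => ‖B p.1 p.2‖
  simp only [Fintype.sum_prod_type] at h
  exact h.trans (mul_le_mul (Real.sqrt_le_iff.2 ⟨ha, hA⟩) (Real.sqrt_le_iff.2 ⟨hc, hB⟩)
    (Real.sqrt_nonneg _) ha)

theorem norm_pair_le {A B : Matrix S S ℂ} {a c : ℝ} (ha : 0 ≤ a) (hc : 0 ≤ c) (hA : fro A ≤ a ^ 2)
    (hB : fro B ≤ c ^ 2) : ‖∑ i, ∑ j, A j i * B j i‖ ≤ a * c := by
  rw [sum_comm]
  refine (norm_sum_le _ _).trans ((sum_le_sum fun i _ => (norm_sum_le _ _).trans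
    (sum_le_sum fun j _ => norm_mul_le _ _)).trans (fro_cs ha hc hA hB))

theorem fro_one : fro (1 : Matrix S S ℂ) = Fintype.card S := by
  simp [fro, Matrix.one_apply, apply_ite]

theorem fro_transpose (A : Matrix S S ℂ) : fro A.transpose = fro A := sum_comm

/-- Symmetric matrices of operator norm at most `κ`. -/
structure Gk (G : Matrix S S ℂ) (κ : ℝ) : Prop where
  k0 : 0 ≤ κ
  symm : ∀ i j, G i j = G j i
  mul : ∀ B, fro (G * B) ≤ κ ^ 2 * fro B
  bil : ∀ x y : S → ℝ, ‖∑ j, ∑ l, G j l * ((x j * y l : ℝ) : ℂ)‖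
    ≤ κ * (√(∑ j, x j ^ 2) * √(∑ l, y l ^ 2))

theorem Gk.fro_le {G : Matrix S S ℂ} {κ : ℝ} (h : Gk G κ) :
    fro G ≤ (κ * √(Fintype.card S : ℝ)) ^ 2 := by
  have := h.mul 1
  rwa [mul_one, fro_one, ← Real.sq_sqrt (Nat.cast_nonneg (Fintype.card S)), ← mul_pow] at this

theorem Gk.trace_le {G : Matrix S S ℂ} {κ : ℝ} (h : Gk G κ) :
    ‖G.trace‖ ≤ κ * Fintype.card S := by
  have := norm_pair_le (B := (1 : Matrix S S ℂ)) (mul_nonneg h.k0 (Real.sqrt_nonneg _))
    (Real.sqrt_nonneg (Fintype.card S : ℝ)) h.fro_le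
    (by rw [fro_one, Real.sq_sqrt (Nat.cast_nonneg _)])
  rw [mul_assoc, Real.mul_self_sqrt (Nat.cast_nonneg _)] at this
  simpa [Matrix.one_apply, Matrix.trace] using this

theorem gk_rs (hrs : S_rs) {z : ℂ} {J : Matrix S S ℝ} (hJ : J.IsSymm) {κ : ℝ} (hκ : 0 < κ)
    (hz : κ⁻¹ ≤ z.im) : Gk (Rs z J) κ := by
  have h0 : 0 < z.im := (inv_pos.2 hκ).trans_le hz
  have h1 : (z.im)⁻¹ ≤ κ := inv_le_of_inv_le₀ hκ hz
  obtain ⟨-, h2, h3, h4, -⟩ := hrs S z J hJ h0
  refine ⟨hκ.le, h2, fun B => (h3 B).trans ?_, fun x y => (h4 x y).trans ?_⟩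
  · rw [div_eq_inv_mul, ← inv_pow]
    exact mul_le_mul_of_nonneg_right (pow_le_pow_left₀ (by positivity) h1 2) (fro_nonneg B)
  · rw [div_eq_inv_mul]
    exact mul_le_mul_of_nonneg_right h1 (by positivity)

theorem jm_symm (b : ℝ) (w : Cs S → ℝ) : (Jm b w).IsSymm := by
  ext i j
  simp [Jm, add_comm]

/-- Integration by parts in the couplings, complex valued. -/
structure St (μ : Measure (Cs S → ℝ)) (γ a : ℝ) (M : S → S → (Cs S → ℝ) → ℝ) : Prop where
  prob : IsProbabilityMeasure μ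
  bm : ∀ i j, BM (M i j)
  symm : ∀ i j, M i j = M j i
  eq : ∀ (i j : S) (F F' : (Cs S → ℝ) → ℂ), D1 (ec i j) F F' →
    Integrable (fun w => (w (.inl (i, j)) : ℂ) * F w) μ ∧
    ∫ w, (w (.inl (i, j)) : ℂ) * F w ∂μ = γ * ∫ w, (F' w + a * (M i j w * F w)) ∂μ

theorem d1_G (hrsd : S_rsd) {z : ℂ} (hz : 0 < z.im) (b : ℝ) (i j k l : S) :
    D1 (ec i j) (fun w => Rs z (Jm b w) k l) fun w =>
      (Rs z (Jm b w) k i * Rs z (Jm b w) j l + Rs z (Jm b w) k j * Rs z (Jm b w) i l) / b := by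
  refine (hrsd (Cs S → ℝ) S z (Jm b) (ec i j)
    (b⁻¹ • (Matrix.single i j 1 + Matrix.single j i 1)) hz (jm_symm b)
    (fun i j => by simp only [Jm, Matrix.of_apply]; fun_prop) (fun w t => ?_) k l).congr fun w => ?_
  · ext k l
    simp only [Jm, ec, Matrix.of_apply, Pi.add_apply, Pi.smul_apply, Pi.single_apply, smul_eq_mul,
      Matrix.add_apply, Matrix.smul_apply, Matrix.single_apply, Sum.inl.injEq, Prod.mk.injEq]
    simp only [eq_comm (a := i), eq_comm (a := j), and_comm (a := l = i)]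
    ring
  · have e : cM (b⁻¹ • (Matrix.single i j 1 + Matrix.single j i 1) : Matrix S S ℝ)
        = (b : ℂ)⁻¹ • (Matrix.single i j 1 + Matrix.single j i 1) := by
      ext k l
      simp only [cM, Matrix.map_apply, Matrix.smul_apply, Matrix.add_apply, Matrix.single_apply,
        smul_eq_mul]
      split_ifs <;> simp
    rw [e, Matrix.mul_smul, Matrix.smul_mul, Matrix.mul_add, Matrix.add_mul]
    simp only [Matrix.smul_apply, Matrix.add_apply, Matrix.mul_apply, Matrix.single_apply,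
      smul_eq_mul, ite_and, mul_ite, mul_one, mul_zero, sum_ite_eq, mem_univ, if_true, ite_mul,
      zero_mul]
    ring

/-- The response term. -/
noncomputable def mainT (G A : Matrix S S ℂ) (D : S → S → Matrix S S ℂ) (a : ℝ) (M : S → S → ℝ) :
    ℂ := ∑ i, ∑ j, ∑ k, G j k * (D i j k i + a * (M i j * A k i))

variable {μ : Measure (Cs S → ℝ)} {γ a b : ℝ} {M : S → S → (Cs S → ℝ) → ℝ} {z : ℂ}
  {A : (Cs S → ℝ) → Matrix S S ℂ} {D : S → S → (Cs S → ℝ) → Matrix S S ℂ}

theorem be_G (hrsd : S_rsd) (hz : 0 < z.im) (b : ℝ) (k l : S) : BE fun w => Rs z (Jm b w) k l :=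
  (d1_G hrsd hz b k l k l).b0

theorem be_mul {A B : (Cs S → ℝ) → Matrix S S ℂ} (hA : ∀ i j, BE fun w => A w i j)
    (hB : ∀ i j, BE fun w => B w i j) (i j : S) : BE fun w => (A w * B w) i j := by
  simp only [Matrix.mul_apply]
  exact BE.sum _ fun k _ => (hA i k).mul (hB k j)

theorem be_trace {A : (Cs S → ℝ) → Matrix S S ℂ} (hA : ∀ i j, BE fun w => A w i j) :
    BE fun w => (A w).trace := BE.sum _ fun k _ => hA k k

theorem be_fro {A : (Cs S → ℝ) → Matrix S S ℂ} (hA : ∀ i j, BE fun w => A w i j) :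
    BE fun w => fro (A w) := BE.sum _ fun i _ => BE.sum _ fun j _ => by
  simpa only [sq] using (hA i j).norm.mul (hA i j).norm

theorem be_main (hrsd : S_rsd) (hz : 0 < z.im) (h : St μ γ a M)
    (hD : ∀ i j k l, D1 (ec i j) (fun w => A w k l) fun w => D i j w k l) :
    BE fun w => mainT (Rs z (Jm b w)) (A w) (fun i j => D i j w) a fun i j => M i j w :=
  BE.sum _ fun i _ => BE.sum _ fun j _ => BE.sum _ fun k _ => (be_G hrsd hz b j k).mul
    ((hD i j k i).b1.add ((BE.const _).mul ((be_iff.2 (h.bm i j)).ofReal.mul (hD i j k i).b0)))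

theorem ibp [Nonempty S] (hrs : S_rs) (hrsd : S_rsd) (hz : 0 < z.im) (h : St μ γ a M) (hb : 0 < b)
    (hγ : 2 * γ * Fintype.card S = b ^ 2)
    (hD : ∀ i j k l, D1 (ec i j) (fun w => A w k l) fun w => D i j w k l)
    (hs : ∀ i j, D i j = D j i) :
    ∫ w, (z * (Rs z (Jm b w) * A w).trace - (A w).trace) ∂μ
      = ∫ w, ((∑ i, ∑ j, Rs z (Jm b w) j i * (Rs z (Jm b w) * A w) j i
          + (Rs z (Jm b w)).trace * (Rs z (Jm b w) * A w).trace) / Fintype.card S
        + b / Fintype.card S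
          * mainT (Rs z (Jm b w)) (A w) (fun i j => D i j w) a fun i j => M i j w) ∂μ := by
  have := h.prob
  obtain ⟨G, hG⟩ : ∃ G : (Cs S → ℝ) → Matrix S S ℂ, ∀ w, Rs z (Jm b w) = G w := ⟨_, fun _ => rfl⟩
  have dG := d1_G (S := S) hrsd hz b
  simp only [hG] at dG ⊢
  obtain ⟨F', hF'⟩ : ∃ F' : S → S → (Cs S → ℝ) → ℂ, ∀ i j w, F' i j w =
    ∑ k, ((G w j i * G w j k + G w j j * G w i k) / b * A w k i + G w j k * D i j w k i) :=
    ⟨_, fun _ _ _ => rfl⟩
  have d1 : ∀ i j, D1 (ec i j) (fun w => (G w * A w) j i) (F' i j) := fun i j => by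
    simp only [Matrix.mul_apply]
    exact (D1.sum _ fun k _ => (dG i j j k).mul (hD i j k i)).congr fun w => (hF' i j w).symm
  have d2 : ∀ i j, D1 (ec j i) (fun w => (G w * A w) j i) (F' i j) := fun i j => by
    simp only [Matrix.mul_apply]
    refine (D1.sum _ fun k _ => (dG j i j k).mul (hD j i k i)).congr fun w => ?_
    simp only [hF', hs i j, add_comm]
  have hb' : (b : ℂ) ≠ 0 := by exact_mod_cast hb.ne'
  have hn : (Fintype.card S : ℂ) ≠ 0 := by exact_mod_cast Fintype.card_ne_zero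
  have hγ' : 2 * (γ : ℂ) * Fintype.card S = b ^ 2 := by exact_mod_cast hγ
  have e1 : ∀ w, z * (G w * A w).trace - (A w).trace = ∑ i, ∑ j, (b : ℂ)⁻¹ *
      ((w (.inl (i, j)) : ℂ) * (G w * A w) j i + (w (.inl (j, i)) : ℂ) * (G w * A w) j i) :=
    fun w => by
      have h1 := (hrs S z (Jm b w) (jm_symm b w) hz).1
      rw [hG] at h1
      have h2 : z • (G w * A w) - cM (Jm b w) * (G w * A w) = A w := by
        rw [← Matrix.smul_mul, ← Matrix.mul_assoc, ← Matrix.sub_mul, h1, Matrix.one_mul]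
      conv_lhs => rw [← h2]
      rw [Matrix.trace_sub, Matrix.trace_smul, h2, smul_eq_mul, sub_sub_cancel]
      refine sum_congr rfl fun i _ => ?_
      rw [Matrix.diag_apply, Matrix.mul_apply]
      refine sum_congr rfl fun j _ => ?_
      rw [show cM (Jm b w) i j = (((w (.inl (i, j)) + w (.inl (j, i))) / b : ℝ) : ℂ) from rfl]
      push_cast
      ring
  have i1 : ∀ i j, Integrable (fun w => (b : ℂ)⁻¹ *
      ((w (.inl (i, j)) : ℂ) * (G w * A w) j i + (w (.inl (j, i)) : ℂ) * (G w * A w) j i)) μ :=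
    fun i j => ((h.eq i j _ _ (d1 i j)).1.add (h.eq j i _ _ (d2 i j)).1).const_mul _
  have i2 : ∀ i j, Integrable (fun w => (b / Fintype.card S : ℂ) *
      (F' i j w + a * (M i j w * (G w * A w) j i))) μ := fun i j =>
    (((d1 i j).b1.add ((BE.const _).mul ((be_iff.2 (h.bm i j)).ofReal.mul
      (d1 i j).b0))).integrable μ).const_mul _
  simp only [e1]
  rw [integral_finsetSum _ fun i _ => integrable_finsetSum _ fun j _ => i1 i j,
    sum_congr rfl fun i _ => integral_finsetSum _ fun j _ => i1 i j,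
    sum_congr rfl fun i _ => sum_congr rfl fun j _ => show _ = ∫ w, (b / Fintype.card S : ℂ) *
      (F' i j w + a * (M i j w * (G w * A w) j i)) ∂μ by
        rw [integral_const_mul, integral_const_mul,
          integral_add (h.eq i j _ _ (d1 i j)).1 (h.eq j i _ _ (d2 i j)).1,
          (h.eq i j _ _ (d1 i j)).2, (h.eq j i _ _ (d2 i j)).2, h.symm j i]
        field_simp
        rw [← hγ']
        ring,
    ← sum_congr rfl fun i _ => integral_finsetSum _ fun j _ => i2 i j,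
    ← integral_finsetSum _ fun i _ => integrable_finsetSum _ fun j _ => i2 i j]
  refine integral_congr_ae (ae_of_all _ fun w => ?_)
  have e2 : (G w).trace * (G w * A w).trace = ∑ i, ∑ j, ∑ k, G w j j * (G w i k * A w k i) := by
    simp only [Matrix.trace, Matrix.diag, Matrix.mul_apply, mul_sum, sum_mul]
    exact sum_congr rfl fun i _ => sum_comm
  simp only [e2, mainT, sum_div, mul_sum, add_div, Matrix.mul_apply, hF', ← sum_add_distrib]
  refine sum_congr rfl fun i _ => sum_congr rfl fun j _ => sum_congr rfl fun k _ => ?_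
  field_simp
  ring

theorem norm_e1 {G A : Matrix S S ℂ} {κ c : ℝ} (h : Gk G κ) (hc : 0 ≤ c) (hA : fro A ≤ c ^ 2) :
    ‖∑ i, ∑ j, G j i * (G * A) j i‖ ≤ κ ^ 2 * √(Fintype.card S : ℝ) * c := by
  refine (norm_pair_le (c := κ * c) (mul_nonneg h.k0 (Real.sqrt_nonneg _)) (mul_nonneg h.k0 hc)
    h.fro_le ((h.mul A).trans ?_)).trans (le_of_eq (by ring))
  rw [mul_pow]
  exact mul_le_mul_of_nonneg_left hA (sq_nonneg _)

/-- The normalized trace of the resolvent. -/
noncomputable def st (z : ℂ) (b : ℝ) (w : Cs S → ℝ) : ℂ :=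
  (Rs z (Jm b w)).trace / Fintype.card S

theorem be_st (hrsd : S_rsd) (hz : 0 < z.im) (b : ℝ) : BE (st (S := S) z b) := by
  unfold st
  simpa only [div_eq_mul_inv] using (be_trace (be_G hrsd hz b)).mul (BE.const _)

/-- The semicircle law under the tilt. -/
theorem semi [Nonempty S] (hrs : S_rs) (hrsd : S_rsd) {κ : ℝ} (hκ : 1 ≤ κ) (hz : κ⁻¹ ≤ z.im)
    (hz3 : ‖z‖ ≤ 3) (h : St μ γ a M) (hb : 0 < b) (hγ : 2 * γ * Fintype.card S = b ^ 2)
    (hM : ∀ w, ‖∑ i, ∑ j, Rs z (Jm b w) j i * M i j w‖ ≤ κ * Fintype.card S) :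
    ∫ w, ‖st z b w ^ 2 - z * st z b w + 1‖ ∂μ ≤ (5 * κ ^ 2 + |a| * b * κ) / Fintype.card S := by
  have := h.prob
  have hκ0 : 0 < κ := by linarith
  have hz0 : 0 < z.im := (inv_pos.2 hκ0).trans_le hz
  have hn : (0 : ℝ) < Fintype.card S := by exact_mod_cast Fintype.card_pos
  have hn' : (Fintype.card S : ℂ) ≠ 0 := by exact_mod_cast hn.ne'
  have hb' : (b : ℂ) ≠ 0 := by exact_mod_cast hb.ne'
  have gk := fun w : Cs S → ℝ => gk_rs hrs (jm_symm b w) hκ0 hz
  have dG := d1_G (S := S) hrsd hz0 b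
  have key := fun (A : (Cs S → ℝ) → Matrix S S ℂ) D => ibp (A := A) (D := D) hrs hrsd hz0 h hb hγ
  have bmain := fun (A : (Cs S → ℝ) → Matrix S S ℂ) D => be_main (b := b) (A := A) (D := D) hrsd hz0 h
  unfold st
  obtain ⟨G, hG⟩ : ∃ G : (Cs S → ℝ) → Matrix S S ℂ, ∀ w, Rs z (Jm b w) = G w := ⟨_, fun _ => rfl⟩
  simp only [hG] at gk dG key bmain hM ⊢
  obtain ⟨s, hs⟩ : ∃ s : (Cs S → ℝ) → ℂ, ∀ w, (G w).trace / Fintype.card S = s w :=
    ⟨_, fun _ => rfl⟩
  simp only [hs]
  obtain ⟨s', hs'⟩ : ∃ s' : S → S → (Cs S → ℝ) → ℂ, ∀ i j w,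
    s' i j w = ((G w * G w) j i + (G w * G w) i j) / b / Fintype.card S := ⟨_, fun _ _ _ => rfl⟩
  have ds : ∀ i j, D1 (ec i j) s (s' i j) := fun i j => by
    rw [← funext hs]
    simp only [div_eq_mul_inv _ (Fintype.card S : ℂ)]
    refine ((D1.sum univ fun k _ => dG i j k k).mul (D1.const _ _)).congr fun w => ?_
    simp only [hs', Matrix.mul_apply, mul_zero, add_zero, ← sum_div, sum_add_distrib,
      mul_comm (G w _ i), mul_comm (G w _ j), div_eq_mul_inv _ (Fintype.card S : ℂ)]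
  obtain ⟨p, hp⟩ : ∃ p : (Cs S → ℝ) → ℂ, ∀ w, s w ^ 2 - z * s w + 1 = p w := ⟨_, fun _ => rfl⟩
  simp only [hp]
  have dp : ∀ i j, D1 (ec i j) p fun w => (2 * s w - z) * s' i j w := fun i j => by
    rw [← funext hp]
    simp only [sq]
    refine ((((ds i j).mul (ds i j)).sub ((D1.const _ z).mul (ds i j))).add
      (D1.const _ 1)).congr fun w => by ring
  have hD : ∀ i j k l, D1 (ec i j) (fun w => ((starRingEnd ℂ) (p w) • (1 : Matrix S S ℂ)) k l)
      fun w => ((starRingEnd ℂ) ((2 * s w - z) * s' i j w) • (1 : Matrix S S ℂ)) k l :=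
    fun i j k l => by
      simp only [Matrix.smul_apply, smul_eq_mul]
      exact ((dp i j).conj.mul (D1.const _ _)).congr fun w => by ring
  have k1 := key _ _ hD fun i j => funext fun w => by simp only [hs', add_comm]
  have b1 := bmain _ _ hD
  obtain ⟨i0⟩ := ‹Nonempty S›
  have bp : BE p := (dp i0 i0).b0
  have bs : BE s := (ds i0 i0).b0
  have bG : ∀ k l, BE fun w => G w k l := fun k l => (dG k l k l).b0
  obtain ⟨m, hm⟩ : ∃ m : (Cs S → ℝ) → ℂ, ∀ w,
    mainT (G w) ((starRingEnd ℂ) (p w) • (1 : Matrix S S ℂ))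
      (fun i j => (starRingEnd ℂ) ((2 * s w - z) * s' i j w) • (1 : Matrix S S ℂ)) a
      (fun i j => M i j w) = m w := ⟨_, fun _ => rfl⟩
  simp only [hm] at k1 b1
  obtain ⟨e, he⟩ : ∃ e : (Cs S → ℝ) → ℂ, ∀ w, ∑ i, ∑ j,
    G w j i * (G w * ((starRingEnd ℂ) (p w) • (1 : Matrix S S ℂ))) j i = e w := ⟨_, fun _ => rfl⟩
  have be : BE e := by
    rw [← funext he]
    exact BE.sum _ fun i _ => BE.sum _ fun j _ => (bG j i).mul
      (be_mul bG (fun k l => (hD k l k l).b0) j i)
  have ne : ∀ w, ‖e w‖ ≤ κ ^ 2 * Fintype.card S * ‖p w‖ := fun w => by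
    rw [← he]
    refine (norm_e1 (gk w) (c := √(Fintype.card S : ℝ) * ‖p w‖) (by positivity)
      (le_of_eq ?_)).trans (le_of_eq ?_)
    · rw [mul_pow, Real.sq_sqrt hn.le, ← fro_one]
      simp only [fro, Matrix.smul_apply, smul_eq_mul, norm_mul, Complex.norm_conj, mul_pow,
        mul_comm, ← mul_sum]
    · rw [← mul_assoc, mul_assoc (κ ^ 2), Real.mul_self_sqrt hn.le]
  have nm : ∀ w, ‖m w‖ ≤ 10 * κ ^ 4 / b + |a| * (κ * Fintype.card S) * ‖p w‖ := fun w => by
    have e1 : m w = (starRingEnd ℂ) (2 * s w - z) * (∑ i, ∑ j, G w j i * (starRingEnd ℂ) (s' i j w))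
        + a * (∑ i, ∑ j, G w j i * M i j w) * (starRingEnd ℂ) (p w) := by
      rw [← hm]
      simp only [mainT, Matrix.smul_apply, smul_eq_mul, Matrix.one_apply, mul_ite, mul_one,
        mul_zero, mul_add, sum_add_distrib, sum_ite_eq', mem_univ, if_true, map_mul, mul_sum,
        sum_mul]
      congr 1 <;> exact sum_congr rfl fun i _ => sum_congr rfl fun j _ => by ring
    have n1 : ‖s w‖ ≤ κ := by
      rw [← hs, norm_div, Complex.norm_natCast, div_le_iff₀ hn]
      exact (gk w).trace_le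
    have n2 : ‖2 * s w - z‖ ≤ 5 * κ := (norm_sub_le _ _).trans (by
      rw [norm_mul, Complex.norm_two]; linarith)
    have f2 : fro (G w * G w) ≤ (κ * (κ * √(Fintype.card S : ℝ))) ^ 2 := ((gk w).mul _).trans (by
      rw [mul_pow κ (κ * _)]
      exact mul_le_mul_of_nonneg_left (gk w).fro_le (sq_nonneg _))
    have n3 := fro_cs (by positivity) (by positivity) (gk w).fro_le f2
    have n4 := fro_cs (by positivity) (by positivity) (gk w).fro_le
      ((fro_transpose _).trans_le f2)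
    have n5 : ‖∑ i, ∑ j, G w j i * (starRingEnd ℂ) (s' i j w)‖ ≤ 2 * κ ^ 3 / b := by
      rw [sum_comm]
      refine (norm_sum_le _ _).trans ((sum_le_sum fun j _ => (norm_sum_le _ _).trans
        (sum_le_sum fun i _ => show _ ≤ (‖G w j i‖ * ‖(G w * G w) j i‖
          + ‖G w j i‖ * ‖(G w * G w).transpose j i‖) / b / Fintype.card S from ?_)).trans ?_)
      · rw [norm_mul, Complex.norm_conj, hs', norm_div, norm_div, Complex.norm_natCast,
          Complex.norm_real, Real.norm_of_nonneg hb.le, ← mul_add, mul_div_assoc, mul_div_assoc]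
        gcongr
        exact norm_add_le _ _
      · simp only [← sum_div, sum_add_distrib]
        rw [div_right_comm]
        gcongr
        rw [div_le_iff₀ hn]
        nlinarith [Real.mul_self_sqrt hn.le, pow_pos hκ0 3]
    rw [e1]
    refine (norm_add_le _ _).trans (add_le_add ?_ ?_)
    · rw [norm_mul, Complex.norm_conj]
      exact (mul_le_mul n2 n5 (norm_nonneg _) (by positivity)).trans (le_of_eq (by ring))
    · rw [norm_mul, norm_mul, Complex.norm_conj, Complex.norm_real, Real.norm_eq_abs]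
      gcongr
      exact hM w
  have ht : ∀ w, (G w).trace = Fintype.card S * s w := fun w => by rw [← hs]; field_simp
  simp only [he] at k1
  simp only [Matrix.mul_smul, Matrix.mul_one, Matrix.trace_smul, Matrix.trace_one, ht,
    smul_eq_mul] at k1
  have bc := bp.conj
  have k2 : ∫ w, ((‖p w‖ ^ 2 : ℝ) : ℂ) ∂μ
      = -∫ w, (e w / Fintype.card S ^ 2 + b / Fintype.card S ^ 2 * m w) ∂μ := by
    have i1 : Integrable (fun w => z * ((starRingEnd ℂ) (p w) * (Fintype.card S * s w))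
        - (starRingEnd ℂ) (p w) * Fintype.card S) μ :=
      (((BE.const _).mul (bc.mul ((BE.const _).mul bs))).sub (bc.mul (BE.const _))).integrable μ
    have i2 : Integrable (fun w => (e w + Fintype.card S * s w * ((starRingEnd ℂ) (p w)
        * (Fintype.card S * s w))) / Fintype.card S + b / Fintype.card S * m w) μ :=
      (((be.add (((BE.const _).mul bs).mul (bc.mul ((BE.const _).mul bs)))).integrable μ).div_const
        _).add (((BE.const _).mul b1).integrable μ)
    have k3 := integral_sub i2 i1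
    rw [k1, sub_self] at k3
    have i3 : Integrable (fun w => ((‖p w‖ ^ 2 : ℝ) : ℂ)) μ := by
      simpa only [sq] using (bp.norm.mul bp.norm).ofReal.integrable μ
    have i4 : Integrable (fun w => e w / Fintype.card S ^ 2 + b / Fintype.card S ^ 2 * m w) μ :=
      ((be.integrable μ).div_const _).add (((BE.const _).mul b1).integrable μ)
    rw [eq_neg_iff_add_eq_zero, ← integral_add i3 i4, ← zero_div (Fintype.card S : ℂ), ← k3,
      ← integral_div]
    refine integral_congr_ae (ae_of_all _ fun w => ?_)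
    simp only
    rw [← Complex.normSq_eq_norm_sq, ← Complex.mul_conj]
    nth_rewrite 1 [← hp w]
    field_simp
    ring
  obtain ⟨α, hα⟩ : ∃ α : ℝ, α = (κ ^ 2 + |a| * b * κ) / Fintype.card S := ⟨_, rfl⟩
  obtain ⟨c, hc⟩ : ∃ c : ℝ, c = 4 * κ ^ 2 / Fintype.card S := ⟨_, rfl⟩
  have hα0 : 0 ≤ α := by rw [hα]; positivity
  have hc0 : 0 < c := by rw [hc]; positivity
  have ip := bp.norm.integrable μ
  have ip2 : Integrable (fun w => ‖p w‖ ^ 2) μ := by
    simpa only [sq] using (bp.norm.mul bp.norm).integrable μ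
  have k4 : ∫ w, ‖p w‖ ^ 2 ∂μ ≤ α * ∫ w, ‖p w‖ ∂μ + c ^ 2 := by
    rw [integral_complex_ofReal] at k2
    have k5 := congrArg norm k2
    rw [norm_neg, Complex.norm_real] at k5
    refine (Real.le_norm_self _).trans (k5.le.trans ((norm_integral_le_of_norm_le
      ((ip.const_mul α).add (integrable_const (c ^ 2))) (ae_of_all _ fun w => ?_)).trans ?_))
    · refine (norm_add_le _ _).trans ?_
      rw [norm_mul, norm_div, norm_div, norm_pow, Complex.norm_natCast, Complex.norm_real,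
        Real.norm_of_nonneg hb.le]
      refine (add_le_add (div_le_div_of_nonneg_right (ne w) (by positivity))
        (mul_le_mul_of_nonneg_left (nm w) (by positivity))).trans ?_
      simp only [Pi.add_apply, hα, hc]
      field_simp
      nlinarith [pow_pos hκ0 4]
    · rw [integral_add' (ip.const_mul α) (integrable_const _), integral_const_mul]
      simp
  have k6 : ∫ w, 2 * (α + c) * ‖p w‖ ∂μ ≤ ∫ w, (‖p w‖ ^ 2 + (α + c) ^ 2) ∂μ :=
    integral_mono (ip.const_mul _) (ip2.add (integrable_const _)) fun w => by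
      simp only
      nlinarith [sq_nonneg (‖p w‖ - (α + c))]
  rw [integral_const_mul, integral_add ip2 (integrable_const _)] at k6
  simp only [integral_const, probReal_univ, smul_eq_mul, one_mul] at k6
  have e : (5 * κ ^ 2 + |a| * b * κ) / Fintype.card S = α + c := by rw [hα, hc]; ring
  rw [e]
  by_contra hcon
  push Not at hcon
  nlinarith

end Vale.Agent.P146L
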