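import Vale.Agent.P146L.RCon
import Vale.Agent.P146L.RIbp

/-! # P146, lower bound: moment matrices of replica laws -/

namespace Vale.Agent.P146L

open MeasureTheory Vale.Agent.P157 Finset

set_option linter.unusedSectionVars false

variable {S : Type} [Fintype S] [DecidableEq S]

/-- The overlap. -/
noncomputable def ov (x y : S → Bool) : ℝ := (∑ i, sp x i * sp y i) / Fintype.card S

/-- The matrix element between two configurations. -/
noncomputable def Yk (G : Matrix S S ℂ) (x y : S → Bool) : ℂ :=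
  (∑ j, ∑ l, G j l * ((sp x j * sp y l : ℝ) : ℂ)) / Fintype.card S

/-- Moment matrix of a pair weight. -/
noncomputable def Nmat (π : (S → Bool) → (S → Bool) → ℝ) : Matrix S S ℂ :=
  Matrix.of fun k l => ((∑ x, ∑ y, π x y * (sp x k * sp y l) : ℝ) : ℂ)

theorem sw22 {α β γ δ M : Type} [Fintype α] [Fintype β] [Fintype γ] [Fintype δ] [AddCommMonoid M]
    (f : α → β → γ → δ → M) : ∑ a, ∑ b, ∑ c, ∑ d, f a b c d = ∑ c, ∑ d, ∑ a, ∑ b, f a b c d := by
  simpa only [Fintype.sum_prod_type] using sum_comm (s := (univ : Finset (α × β)))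
    (t := (univ : Finset (γ × δ))) (f := fun p q => f p.1 p.2 q.1 q.2)

theorem sw33 {α β M : Type} [Fintype α] [Fintype β] [AddCommMonoid M]
    (f : α → α → α → β → β → β → M) : ∑ a, ∑ b, ∑ c, ∑ x, ∑ y, ∑ z, f a b c x y z
      = ∑ x, ∑ y, ∑ z, ∑ a, ∑ b, ∑ c, f a b c x y z := by
  simpa only [Fintype.sum_prod_type] using sum_comm (s := (univ : Finset (α × α × α)))
    (t := (univ : Finset (β × β × β))) (f := fun p q => f p.1 p.2.1 p.2.2 q.1 q.2.1 q.2.2)

variable [Nonempty S] {G : Matrix S S ℂ} {κ : ℝ}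

theorem card_pos' : (0 : ℝ) < Fintype.card S := by exact_mod_cast Fintype.card_pos

theorem card_ne' : (Fintype.card S : ℂ) ≠ 0 := by exact_mod_cast (card_pos' (S := S)).ne'

theorem ov_self (x : S → Bool) : ov x x = 1 := by
  simp [ov, sp_mul_self]

theorem abs_ov_le (x y : S → Bool) : |ov x y| ≤ 1 := by
  rw [ov, abs_div, Nat.abs_cast, div_le_one card_pos']
  refine (abs_sum_le_sum_abs _ _).trans (le_of_eq ?_)
  simp [abs_mul, abs_sp]

theorem norm_Yk_le (h : Gk G κ) (x y : S → Bool) : ‖Yk G x y‖ ≤ κ := by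
  rw [Yk, norm_div, Complex.norm_natCast, div_le_iff₀ card_pos']
  refine (h.bil _ _).trans (le_of_eq ?_)
  simp [sp_sq]

theorem trace_GN (h : ∀ i j, G i j = G j i) (π : (S → Bool) → (S → Bool) → ℝ) :
    (G * Nmat π).trace = Fintype.card S * Tp (Yk G) π := by
  simp only [Matrix.trace, Matrix.diag, Matrix.mul_apply, Nmat, Matrix.of_apply, Tp, Yk,
    Complex.ofReal_sum, mul_sum, sum_div]
  rw [sw22]
  refine sum_congr rfl fun x _ => sum_congr rfl fun y _ => ?_
  rw [sum_comm]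
  refine sum_congr rfl fun j _ => sum_congr rfl fun l _ => ?_
  have := card_ne' (S := S)
  rw [h l j]
  push_cast
  field_simp

theorem trace_N (π : (S → Bool) → (S → Bool) → ℝ) :
    (Nmat π).trace = Fintype.card S * ((∑ x, ∑ y, π x y * ov x y : ℝ) : ℂ) := by
  have := card_pos' (S := S)
  rw [← Complex.ofReal_natCast, ← Complex.ofReal_mul]
  simp only [Matrix.trace, Matrix.diag, Nmat, Matrix.of_apply, ← Complex.ofReal_sum, ov, mul_sum,
    sum_div]
  congr 1
  rw [sum_comm]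
  refine sum_congr rfl fun x _ => ?_
  rw [sum_comm]
  exact sum_congr rfl fun y _ => sum_congr rfl fun i _ => by field_simp

theorem abs_mean_sub {π : (S → Bool) → (S → Bool) → ℝ} (h : ∀ x y, 0 ≤ π x y)
    (h1 : ∑ x, ∑ y, π x y = 1) (a : ℝ) : |∑ x, ∑ y, π x y * ov x y - a| ≤ ra ov π a := by
  nth_rewrite 1 [← one_mul a]
  rw [← h1]
  simp only [sum_mul, ← sum_sub_distrib, ← mul_sub, ra]
  refine (abs_sum_le_sum_abs _ _).trans (sum_le_sum fun x _ => (abs_sum_le_sum_abs _ _).trans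
    (sum_le_sum fun y _ => ?_))
  rw [abs_mul, abs_of_nonneg (h x y)]

theorem main_eq (π : (S → Bool) → (S → Bool) → ℝ) (ω : (S → Bool) → (S → Bool) → (S → Bool) → ℝ)
    (p : (S → Bool) → ℝ) (a : ℝ) :
    mainT G (Nmat π) (fun i j => Nmat fun x y => ∑ z, sp z i * sp z j * ω x y z) a
        (fun i j => ∑ z, sp z i * sp z j * p z)
      = Fintype.card S ^ 2 * Xi ov (Yk G) fun x y z => ω x y z + a * (π x y * p z) := by
  have := card_ne' (S := S)
  have e : ∀ i j k, (Nmat fun x y => ∑ z, sp z i * sp z j * ω x y z) k i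
      + a * (((∑ z, sp z i * sp z j * p z : ℝ) : ℂ) * Nmat π k i)
      = ∑ x, ∑ y, ∑ z, ((ω x y z + a * (π x y * p z) : ℝ) : ℂ)
        * (sp z i * sp z j * (sp x k * sp y i)) := fun i j k => by
    simp only [Nmat, Matrix.of_apply, Complex.ofReal_sum, mul_sum, sum_mul, ← sum_add_distrib]
    refine sum_congr rfl fun x _ => sum_congr rfl fun y _ => sum_congr rfl fun z _ => ?_
    push_cast
    ring
  simp only [mainT, e, Xi, ov, Yk, mul_sum]
  rw [sw33]
  refine sum_congr rfl fun x _ => sum_congr rfl fun y _ => sum_congr rfl fun z _ => ?_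
  simp only [Complex.ofReal_div, Complex.ofReal_sum, Complex.ofReal_natCast,
    sum_div, sum_mul, mul_sum]
  rw [sum_comm]
  refine sum_congr rfl fun j _ => ?_
  rw [sum_comm]
  refine sum_congr rfl fun k _ => sum_congr rfl fun i _ => ?_
  push_cast
  field_simp

theorem fro_N_le {π : (S → Bool) → (S → Bool) → ℝ} (h : ∀ x y, 0 ≤ π x y) {p : (S → Bool) → ℝ}
    (h1 : ∀ x, ∑ y, π x y = p x) (h2 : ∀ y, ∑ x, π x y = p y) :
    fro (Nmat π) ≤ Fintype.card S ^ 2 * rb ov (fun x y => p x * p y) 0 := by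
  have hn := card_pos' (S := S)
  have e1 : fro (Nmat π) = ∑ u : (S → Bool) × (S → Bool), ∑ v : (S → Bool) × (S → Bool),
      π u.1 u.2 * π v.1 v.2 * (Fintype.card S ^ 2 * (ov u.1 v.1 * ov u.2 v.2)) := by
    simp only [fro, Nmat, Matrix.of_apply, Complex.norm_real, Real.norm_eq_abs, sq_abs]
    simp only [← Fintype.sum_prod_type' (f := fun x y => π x y * (sp x _ * sp y _)), sq (∑ _, _),
      sum_mul_sum]
    rw [sw22]
    refine sum_congr rfl fun u _ => sum_congr rfl fun v _ => ?_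
    rw [ov, ov, div_mul_div_comm, sum_mul_sum]
    simp only [sum_div, mul_sum]
    refine sum_congr rfl fun i _ => sum_congr rfl fun j _ => ?_
    field_simp
  have e2 : rb ov (fun x y => p x * p y) 0 = ∑ u : (S → Bool) × (S → Bool),
      ∑ v : (S → Bool) × (S → Bool), π u.1 u.2 * π v.1 v.2 * ov u.1 v.1 ^ 2 := by
    simp only [rb, sub_zero, ← h1, Fintype.sum_prod_type, sum_mul, mul_sum]
    refine sum_congr rfl fun x _ => ?_
    rw [sum_comm (f := fun y x' => ∑ y', π x y * π x' y' * ov x x' ^ 2)]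
    exact sum_congr rfl fun x' _ => sum_comm
  have e3 : rb ov (fun x y => p x * p y) 0 = ∑ u : (S → Bool) × (S → Bool),
      ∑ v : (S → Bool) × (S → Bool), π u.1 u.2 * π v.1 v.2 * ov u.2 v.2 ^ 2 := by
    simp only [rb, sub_zero, ← h2, Fintype.sum_prod_type_right, sum_mul, mul_sum]
    refine sum_congr rfl fun x _ => ?_
    rw [sum_comm (f := fun y x' => ∑ y', π y x * π y' x' * ov x x' ^ 2)]
    exact sum_congr rfl fun x' _ => sum_comm
  rw [show rb ov (fun x y => p x * p y) 0 = (rb ov (fun x y => p x * p y) 0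
    + rb ov (fun x y => p x * p y) 0) / 2 by ring]
  nth_rewrite 1 [e2]
  rw [e1, e3]
  simp only [← sum_add_distrib, sum_div, mul_sum]
  refine sum_le_sum fun u _ => sum_le_sum fun v _ => ?_
  have := mul_nonneg (mul_nonneg (mul_nonneg (h u.1 u.2) (h v.1 v.2)) (sq_nonneg
    (Fintype.card S : ℝ))) (sq_nonneg (ov u.1 v.1 - ov u.2 v.2))
  nlinarith

theorem rb_le_one {π : (S → Bool) → (S → Bool) → ℝ} (h : ∀ x y, 0 ≤ π x y)
    (h1 : ∑ x, ∑ y, π x y = 1) : rb ov π 0 ≤ 1 := by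
  rw [← h1]
  refine sum_le_sum fun x _ => sum_le_sum fun y _ => mul_le_of_le_one_right (h x y) ?_
  rw [sub_zero, ← sq_abs]
  exact pow_le_one₀ (abs_nonneg _) (abs_ov_le x y)

theorem Nmat_diag (p : (S → Bool) → ℝ) (i j : S) :
    Nmat (fun x y => ind x y * p x) j i = ((∑ z, sp z i * sp z j * p z : ℝ) : ℂ) := by
  simp only [Nmat, Matrix.of_apply, mul_assoc, sum_ind_mul]
  congr 1
  exact sum_congr rfl fun z _ => by ring

theorem root_le (hG : Gk G κ) {π : (S → Bool) → (S → Bool) → ℝ} (h : ∀ x y, 0 ≤ π x y)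
    {p : (S → Bool) → ℝ} (hp : ∀ x, 0 ≤ p x) (h1 : ∀ x, ∑ y, π x y = p x)
    (h2 : ∀ y, ∑ x, π x y = p y) :
    ‖Xi ov (Yk G) fun x y z => π x y * p z‖ ≤ κ * rb ov (fun x y => p x * p y) 0 := by
  have hn := card_pos' (S := S)
  have e := main_eq (G := G) π (fun _ _ _ => 0) p 1
  have r0 : 0 ≤ rb ov (fun x y => p x * p y) 0 := rb_nonneg (fun x y => mul_nonneg (hp x) (hp y)) _
  have f1 := fro_N_le h h1 h2
  have f2 := fro_N_le (π := fun x y => ind x y * p x) (p := p)
    (fun x y => mul_nonneg (ind_nonneg _ _) (hp x)) (fun x => by rw [← sum_mul, sum_ind, one_mul])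
    fun y => by simp only [ind_comm _ y, sum_ind_mul]
  rw [← Real.sq_sqrt r0, ← mul_pow] at f1 f2
  have f3 := (hG.mul _).trans (mul_le_mul_of_nonneg_left f1 (sq_nonneg κ))
  rw [← mul_pow] at f3
  have f4 := norm_pair_le (by positivity) (mul_nonneg hG.k0 (by positivity)) f2 f3
  have e2 : ∑ i, ∑ j, Nmat (fun x y => ind x y * p x) j i * (G * Nmat π) j i
      = Fintype.card S ^ 2 * Xi ov (Yk G) fun x y z => π x y * p z := by
    simp only [zero_add, one_mul] at e
    rw [← e]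
    simp only [mainT, Nmat_diag, Matrix.mul_apply, mul_sum]
    refine sum_congr rfl fun i _ => sum_congr rfl fun j _ => sum_congr rfl fun k _ => ?_
    simp [Nmat]
    ring
  rw [e2, norm_mul, norm_pow, Complex.norm_natCast] at f4
  refine le_of_mul_le_mul_left (f4.trans (le_of_eq ?_)) (pow_pos hn 2)
  conv_rhs => rw [← Real.mul_self_sqrt r0]
  ring

/-- Linear functionals of finitely many coordinates commute with integration. -/
def Lin (F : (ℕ → ℂ) → ℂ) : Prop := ∀ (W : Type) [MeasurableSpace W] (μ : Measure W)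
  (T : W → ℕ → ℂ), (∀ l, Integrable (fun w => T w l) μ) →
  Integrable (fun w => F (T w)) μ ∧ ∫ w, F (T w) ∂μ = F fun l => ∫ w, T w l ∂μ

theorem Lin.ev (l : ℕ) : Lin fun Y => Y l := fun _ _ _ _ h => ⟨h l, rfl⟩

theorem Lin.add {F F' : (ℕ → ℂ) → ℂ} (h : Lin F) (h' : Lin F') : Lin fun Y => F Y + F' Y :=
  fun W _ μ T hT => ⟨(h W μ T hT).1.add (h' W μ T hT).1, by
    rw [integral_add (h W μ T hT).1 (h' W μ T hT).1, (h W μ T hT).2, (h' W μ T hT).2]⟩

theorem Lin.sub {F F' : (ℕ → ℂ) → ℂ} (h : Lin F) (h' : Lin F') : Lin fun Y => F Y - F' Y :=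
  fun W _ μ T hT => ⟨(h W μ T hT).1.sub (h' W μ T hT).1, by
    rw [integral_sub (h W μ T hT).1 (h' W μ T hT).1, (h W μ T hT).2, (h' W μ T hT).2]⟩

theorem Lin.mul {F : (ℕ → ℂ) → ℂ} (c : ℂ) (h : Lin F) : Lin fun Y => c * F Y :=
  fun W _ μ T hT => ⟨(h W μ T hT).1.const_mul c, by rw [integral_const_mul, (h W μ T hT).2]⟩

theorem Lin.sum (s : Finset ℕ) {F : ℕ → (ℕ → ℂ) → ℂ} (h : ∀ j, Lin (F j)) :
    Lin fun Y => ∑ j ∈ s, F j Y :=
  fun W _ μ T hT => ⟨integrable_finsetSum _ fun j _ => (h j W μ T hT).1, by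
    rw [integral_finsetSum _ fun j _ => (h j W μ T hT).1]
    exact sum_congr rfl fun j _ => (h j W μ T hT).2⟩

theorem lin_up (ζ q : ℕ → ℝ) (L k : ℕ) : Lin fun Y => up ζ q L Y k := by
  simp only [up, cs, ou, mul_comm (_ : ℂ) (csDelta ζ q k : ℂ)]
  exact ((Lin.mul _ (Lin.sum _ fun l => Lin.mul _ ((Lin.ev l).sub (Lin.ev (l + 1))))).add
    (Lin.mul _ (Lin.ev k))).add ((Lin.mul _ (Lin.mul _ (Lin.ev k))).sub
      (Lin.sum _ fun l => Lin.mul _ (Lin.mul _ (Lin.ev (l + 1)))))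

variable {μ : Measure (Cs S → ℝ)} {γ a b : ℝ} {M : S → S → (Cs S → ℝ) → ℝ} {z : ℂ}
  {A : (Cs S → ℝ) → Matrix S S ℂ} {D : S → S → (Cs S → ℝ) → Matrix S S ℂ}

/-- The resolvent equation with the semicircle law inserted. -/
theorem eqn (hrs : S_rs) (hrsd : S_rsd) (hκ : 0 < κ) (hz : κ⁻¹ ≤ z.im) (h : St μ γ a M)
    (hb : 0 < b) (hγ : 2 * γ * Fintype.card S = b ^ 2)
    (hD : ∀ i j k l, D1 (ec i j) (fun w => A w k l) fun w => D i j w k l)
    (hs : ∀ i j, D i j = D j i) {y : ℂ} (hy : z - y⁻¹ = y) {T : (Cs S → ℝ) → ℂ}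
    (hT : ∀ w, (Rs z (Jm b w) * A w).trace = Fintype.card S * T w) (bT : ∀ w, ‖T w‖ ≤ κ)
    (hA : ∀ w, fro (A w) ≤ (Fintype.card S : ℝ) ^ 2) :
    ‖∫ w, (y * T w - (A w).trace / Fintype.card S - b / Fintype.card S ^ 2
        * mainT (Rs z (Jm b w)) (A w) (fun i j => D i j w) a fun i j => M i j w) ∂μ‖
      ≤ κ ^ 2 / √(Fintype.card S : ℝ) + κ * ∫ w, ‖st z b w - y⁻¹‖ ∂μ := by
  have := h.prob
  have hn := card_pos' (S := S)
  have hn' := card_ne' (S := S)
  have hz0 : 0 < z.im := (inv_pos.2 hκ).trans_le hz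
  have k1 := ibp hrs hrsd hz0 h hb hγ hD hs
  have bG := be_G (S := S) hrsd hz0 b
  have bA : ∀ k l, BE fun w => A w k l := fun k l => (hD k l k l).b0
  have bm := be_main (b := b) hrsd hz0 h hD
  have bs := be_st (S := S) hrsd hz0 b
  have b1 := be_trace (be_mul bG bA)
  have b2 := be_trace bA
  have be : BE fun w => ∑ i, ∑ j, Rs z (Jm b w) j i * (Rs z (Jm b w) * A w) j i :=
    BE.sum _ fun i _ => BE.sum _ fun j _ => (bG j i).mul (be_mul bG bA j i)
  have ne := fun w => norm_e1 (gk_rs hrs (jm_symm b w) hκ hz) hn.le (hA w)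
  have ht : ∀ w, (Rs z (Jm b w)).trace = Fintype.card S * st z b w := fun w => by
    unfold st; field_simp
  have bT' : BE T := by
    have := (BE.const (Fintype.card S : ℂ)⁻¹).mul b1
    simpa only [hT, inv_mul_cancel_left₀ hn'] using this
  simp only [hT, ht] at k1
  obtain ⟨m, hm⟩ : ∃ m : (Cs S → ℝ) → ℂ, ∀ w,
    mainT (Rs z (Jm b w)) (A w) (fun i j => D i j w) a (fun i j => M i j w) = m w :=
    ⟨_, fun _ => rfl⟩
  obtain ⟨e, he⟩ : ∃ e : (Cs S → ℝ) → ℂ, ∀ w,
    ∑ i, ∑ j, Rs z (Jm b w) j i * (Rs z (Jm b w) * A w) j i = e w := ⟨_, fun _ => rfl⟩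
  simp only [hm, he] at bm k1 be ne ⊢
  have i1 : Integrable (fun w => z * (Fintype.card S * T w) - (A w).trace) μ :=
    (((BE.const _).mul ((BE.const _).mul bT')).sub b2).integrable μ
  have i2 : Integrable (fun w => (e w + Fintype.card S * st z b w * (Fintype.card S * T w))
      / Fintype.card S + b / Fintype.card S * m w) μ :=
    (((be.add (((BE.const _).mul bs).mul ((BE.const _).mul bT'))).integrable μ).div_const _).add
      (((BE.const _).mul bm).integrable μ)
  have i3 : Integrable (fun w => e w / Fintype.card S ^ 2 + (st z b w - y⁻¹) * T w) μ :=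
    ((be.integrable μ).div_const _).add (((bs.sub (BE.const _)).mul bT').integrable μ)
  have k2 := integral_sub i1 i2
  rw [k1, sub_self] at k2
  have k3 := integral_add ((i1.sub i2).div_const (Fintype.card S : ℂ)) i3
  simp only [Pi.sub_apply] at k3
  rw [integral_div, k2, zero_div, zero_add] at k3
  have k4 : ∫ w, (y * T w - (A w).trace / Fintype.card S - b / Fintype.card S ^ 2 * m w) ∂μ
      = ∫ w, (e w / Fintype.card S ^ 2 + (st z b w - y⁻¹) * T w) ∂μ := by
    rw [← k3]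
    refine integral_congr_ae (ae_of_all _ fun w => ?_)
    simp only
    rw [show z = y + y⁻¹ from eq_add_of_sub_eq hy]
    generalize y⁻¹ = u
    field_simp
    ring
  have i4 := (bs.sub (BE.const y⁻¹)).norm.integrable μ
  rw [k4]
  refine (norm_integral_le_of_norm_le ((integrable_const (κ ^ 2 / √(Fintype.card S : ℝ))).add
    (i4.const_mul κ)) (ae_of_all _ fun w => ?_)).trans (le_of_eq ?_)
  · refine (norm_add_le _ _).trans (add_le_add ?_ ?_)
    · rw [norm_div, norm_pow, Complex.norm_natCast]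
      refine (div_le_div_of_nonneg_right (ne w) (by positivity)).trans (le_of_eq ?_)
      have h2 := Real.sqrt_pos.2 hn
      nth_rewrite 2 3 [← Real.mul_self_sqrt hn.le]
      field_simp
    · rw [norm_mul, mul_comm]
      exact mul_le_mul_of_nonneg_right (bT w) (norm_nonneg _)
  · rw [integral_add' (integrable_const _) (i4.const_mul κ), integral_const_mul]
    simp

end Vale.Agent.P146L
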