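import Vale.Agent.P146L.RDx

/-! # P146, lower bound: replica weights and their response -/

namespace Vale.Agent.P146L

open MeasureTheory ProbabilityTheory Vale.Agent.P157 Finset

set_option linter.unusedSectionVars false

/-- Indicator of equality. -/
def ind {Ω : Type} [DecidableEq Ω] (x y : Ω) : ℝ := if y = x then 1 else 0

/-- Laws of two and three replicas on an ultrametric tree. -/
structure Rep {Ω : Type} [Fintype Ω] (L : ℕ) (p2 : ℕ → Ω → Ω → ℝ)
    (p3 : ℕ → ℕ → Ω → Ω → Ω → ℝ) : Prop where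
  n3 : ∀ k l x y z, 0 ≤ p3 k l x y z
  m12 : ∀ k l, k ≤ l → l ≤ L → ∀ x y, ∑ z, p3 k l x y z = p2 k x y
  m13 : ∀ k l, k ≤ l → l ≤ L → ∀ x z, ∑ y, p3 k l x y z = p2 l x z
  m23 : ∀ k l, k ≤ l → l ≤ L → ∀ y z, ∑ x, p3 k l x y z = p2 l y z
  symm : ∀ k x y, p2 k x y = p2 k y x

/-- The response of the pair law. -/
noncomputable def Om {Ω : Type} (a : ℕ → ℝ) (p3 : ℕ → ℕ → Ω → Ω → Ω → ℝ) (k d : ℕ)
    (x y z : Ω) : ℝ :=
  ∑ l ∈ range k, a l * (p3 l k x z y - p3 (l + 1) k x z y)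
    + ∑ l ∈ range k, a l * (p3 l k y z x - p3 (l + 1) k y z x)
    + ∑ l ∈ Ico k d, a l * (p3 k l x y z - p3 k (l + 1) x y z)

variable {W : Type} [NormedAddCommGroup W] [NormedSpace ℝ W] [MeasurableSpace W] [BorelSpace W]
  [SecondCountableTopology W] {Ω : Type} [Fintype Ω] [DecidableEq Ω] [MeasurableSpace Ω]
  [MeasurableSingletonClass Ω]

section defs
variable (ζ : ℕ → ℝ) (ν : ℕ → Measure W) (μ : Measure Ω) (H : W → Ω → ℝ)

/-- Law of one replica given the levels above `k`. -/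
noncomputable def p1 (k : ℕ) (x : Ω) : W → ℝ := GE ζ ν μ H (fun _ y => ind x y) k

/-- Law of two replicas that split at depth `k`, seen from depth `d`. -/
noncomputable def p2 (k d : ℕ) (x y : Ω) (w : W) : ℝ :=
  if k = 0 then ind x y * p1 ζ ν μ H d x w
  else Ex ζ ν (gtop μ H) k (fun u => p1 ζ ν μ H k x u * p1 ζ ν μ H k y u) d w

/-- Law of three replicas: the first two split at depth `k`, the third at depth `l`. -/
noncomputable def p3 (k l d : ℕ) (x y z : Ω) (w : W) : ℝ :=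
  if l = 0 then ind x y * (ind x z * p1 ζ ν μ H d x w)
  else Ex ζ ν (gtop μ H) l (fun u => p2 ζ ν μ H k l x y u * p1 ζ ν μ H l z u) d w

end defs

theorem ind_nonneg (x y : Ω) : 0 ≤ ind x y := by unfold ind; split_ifs <;> norm_num

theorem ind_comm (x y : Ω) : ind x y = ind y x := by simp [ind, eq_comm]

theorem sum_ind_mul (x : Ω) (f : Ω → ℝ) : ∑ y, ind x y * f y = f x := by simp [ind]

theorem sum_ind (x : Ω) : ∑ y, ind x y = 1 := by simp [ind]

theorem ind_mul_eq (x y : Ω) (f : Ω → ℝ) : ind x y * f x = ind x y * f y := by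
  unfold ind; split_ifs with h <;> simp [h]

theorem bm2_fin (f : Ω → ℝ) : BM2 fun (_ : W) y => f y :=
  ⟨(measurable_of_finite f).comp measurable_snd, ∑ x, |f x|, fun _ y =>
    single_le_sum (f := fun x => |f x|) (fun _ _ => abs_nonneg _) (mem_univ y)⟩

variable {ζ : ℕ → ℝ} {ν : ℕ → Measure W} {μ : Measure Ω} [IsProbabilityMeasure μ] {H : W → Ω → ℝ}

theorem p1_nonneg (k : ℕ) (x : Ω) (w : W) : 0 ≤ p1 ζ ν μ H k x w :=
  GE_nonneg (fun _ _ => ind_nonneg _ _) _ _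

theorem p2_nonneg (k d : ℕ) (x y : Ω) (w : W) : 0 ≤ p2 ζ ν μ H k d x y w := by
  unfold p2; split_ifs
  · exact mul_nonneg (ind_nonneg _ _) (p1_nonneg _ _ _)
  · exact Ex_nonneg _ (fun _ => mul_nonneg (p1_nonneg _ _ _) (p1_nonneg _ _ _)) _ _

theorem p3_nonneg (k l d : ℕ) (x y z : Ω) (w : W) : 0 ≤ p3 ζ ν μ H k l d x y z w := by
  unfold p3; split_ifs
  · exact mul_nonneg (ind_nonneg _ _) (mul_nonneg (ind_nonneg _ _) (p1_nonneg _ _ _))
  · exact Ex_nonneg _ (fun _ => mul_nonneg (p2_nonneg _ _ _ _ _) (p1_nonneg _ _ _)) _ _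

theorem p2_symm (k d : ℕ) (x y : Ω) (w : W) : p2 ζ ν μ H k d x y w = p2 ζ ν μ H k d y x w := by
  unfold p2; split_ifs
  · rw [ind_mul_eq x y fun x => p1 ζ ν μ H d x w, ind_comm]
  · simp only [mul_comm]

theorem p3_symm (k l d : ℕ) (x y z : Ω) (w : W) :
    p3 ζ ν μ H k l d x y z w = p3 ζ ν μ H k l d y x z w := by
  unfold p3; split_ifs
  · rw [ind_mul_eq x y fun x => ind x z * p1 ζ ν μ H d x w, ind_comm]
  · simp only [p2_symm k l x y]

theorem p1_tower {k d : ℕ} (h : k ≤ d) (x : Ω) :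
    Ex ζ ν (gtop μ H) k (p1 ζ ν μ H k x) d = p1 ζ ν μ H d x :=
  Ex_tower (Nat.zero_le k) h _

theorem p2_tower {k d e : ℕ} (h : k ≤ d) (h' : d ≤ e) (x y : Ω) :
    Ex ζ ν (gtop μ H) d (p2 ζ ν μ H k d x y) e = p2 ζ ν μ H k e x y := by
  funext w
  unfold p2; split_ifs
  · rw [Ex_const_mul, p1_tower h']
  · rw [Ex_tower h h']

theorem p2_pos {k : ℕ} (hk : k ≠ 0) (d : ℕ) (x y : Ω) : p2 ζ ν μ H k d x y
    = Ex ζ ν (gtop μ H) k (fun u => p1 ζ ν μ H k x u * p1 ζ ν μ H k y u) d :=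
  funext fun _ => if_neg hk

theorem p3_pos {l : ℕ} (hl : l ≠ 0) (k d : ℕ) (x y z : Ω) : p3 ζ ν μ H k l d x y z
    = Ex ζ ν (gtop μ H) l (fun u => p2 ζ ν μ H k l x y u * p1 ζ ν μ H l z u) d :=
  funext fun _ => if_neg hl

theorem p3_top {l : ℕ} (hl : l ≠ 0) (k : ℕ) (x y z : Ω) (w : W) :
    p3 ζ ν μ H k l l x y z w = p2 ζ ν μ H k l x y w * p1 ζ ν μ H l z w := by
  rw [p3_pos hl, Ex_of_le le_rfl]

theorem p3_zero (l d : ℕ) (x y z : Ω) (w : W) :
    p3 ζ ν μ H 0 l d x y z w = ind x y * p2 ζ ν μ H l d x z w := by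
  unfold p3; split_ifs with h
  · simp [p2, h]
  · rw [p2_pos h, ← Ex_const_mul]
    simp [p2, mul_assoc]

variable (hH : HG H) (hζ : Zok ζ) (hν : ∀ d, Noise (ν d))
include hH hζ hν

theorem bm_p1 (k : ℕ) (x : Ω) : BM (p1 ζ ν μ H k x) := bm_GE hH hζ hν (bm2_fin _) k

theorem bm_p2 (k d : ℕ) (x y : Ω) : BM (p2 ζ ν μ H k d x y) := by
  by_cases h : k = 0
  · rw [show p2 ζ ν μ H k d x y = _ from funext fun _ => if_pos h]
    exact (bm_p1 hH hζ hν d x).const_mul (ind x y)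
  · rw [p2_pos h]
    exact (hH.cas hζ hν).bmEx _ ((bm_p1 hH hζ hν k x).mul (bm_p1 hH hζ hν k y)) _

theorem bm_p3 (k l d : ℕ) (x y z : Ω) : BM (p3 ζ ν μ H k l d x y z) := by
  by_cases h : l = 0
  · rw [show p3 ζ ν μ H k l d x y z = _ from funext fun _ => if_pos h]
    exact ((bm_p1 hH hζ hν d x).const_mul (ind x z)).const_mul (ind x y)
  · rw [p3_pos h]
    exact (hH.cas hζ hν).bmEx _ ((bm_p2 hH hζ hν k l x y).mul (bm_p1 hH hζ hν l z)) _

theorem GE_fin (f : Ω → ℝ) (k : ℕ) (w : W) :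
    GE ζ ν μ H (fun _ y => f y) k w = ∑ x, f x * p1 ζ ν μ H k x w := by
  have e : (fun (_ : W) y => f y) = fun _ y => ∑ x, f x * ind x y := by
    funext _ y
    simp [ind]
  rw [e, GE_sum hH hζ hν _ fun x _ => (bm2_fin (ind x)).const_mul (f x)]
  exact sum_congr rfl fun x _ => GE_const_mul _ _ _ _

theorem sum_p1 (k : ℕ) (w : W) : ∑ x, p1 ζ ν μ H k x w = 1 := by
  have := GE_fin (μ := μ) hH hζ hν (fun _ => 1) k w
  rw [GE_const hH hζ hν] at this
  simpa using this.symm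

/-- Finite linear combinations pass through conditional expectations. -/
theorem Ex_lin (k : ℕ) {β : Type} (s : Finset β) (c : β → ℝ) {φ : β → W → ℝ}
    (hφ : ∀ j, BM (φ j)) (d : ℕ) (w : W) :
    Ex ζ ν (gtop μ H) k (fun u => ∑ j ∈ s, c j * φ j u) d w
      = ∑ j ∈ s, c j * Ex ζ ν (gtop μ H) k (φ j) d w := by
  rw [(hH.cas hζ hν).Ex_sum k _ fun j _ => (hφ j).const_mul (c j)]
  exact sum_congr rfl fun j _ => Ex_const_mul _ _ _ _ _

theorem sum_p2 {k d : ℕ} (h : k ≤ d) (x : Ω) (w : W) :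
    ∑ y, p2 ζ ν μ H k d x y w = p1 ζ ν μ H d x w := by
  by_cases h0 : k = 0
  · simp only [p2, if_pos h0, ← sum_mul, sum_ind, one_mul]
  · simp only [p2_pos h0]
    rw [← (hH.cas hζ hν).Ex_sum k _ fun y _ => (bm_p1 hH hζ hν k x).mul (bm_p1 hH hζ hν k y)]
    simp only [← mul_sum, sum_p1 hH hζ hν, mul_one]
    exact congrFun (p1_tower h x) w

theorem rep (L : ℕ) (w : W) :
    Rep L (fun k x y => p2 ζ ν μ H k L x y w) fun k l x y z => p3 ζ ν μ H k l L x y z w := by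
  have hc := hH.cas (μ := μ) hζ hν
  have b := fun k l x y z => (bm_p2 (μ := μ) hH hζ hν k l x y).mul (bm_p1 (μ := μ) hH hζ hν l z)
  have m13 : ∀ k l, k ≤ l → l ≤ L → ∀ x z,
      ∑ y, p3 ζ ν μ H k l L x y z w = p2 ζ ν μ H l L x z w := fun k l hkl _ x z => by
    by_cases h0 : l = 0
    · simp only [p3, p2, if_pos h0, ← sum_mul, sum_ind, one_mul]
    · simp only [p3_pos h0, p2_pos h0]
      rw [← hc.Ex_sum l _ fun y _ => b k l x y z]
      simp only [← sum_mul, sum_p2 hH hζ hν hkl]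
  refine ⟨fun k l x y z => p3_nonneg _ _ _ _ _ _ _, fun k l hkl hl x y => ?_, m13,
    fun k l hkl hl y z => ?_, fun k x y => p2_symm _ _ _ _ _⟩
  · by_cases h0 : l = 0
    · obtain rfl : k = 0 := by omega
      simp only [p3, p2, if_pos h0, ← mul_sum, ← sum_mul, sum_ind, one_mul, if_true]
    · simp only [p3_pos h0]
      rw [← hc.Ex_sum l _ fun z _ => b k l x y z]
      simp only [← mul_sum, sum_p1 hH hζ hν, mul_one]
      exact congrFun (p2_tower hkl hl x y) w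
  · simp only [p3_symm k l L _ y z]
    exact m13 k l hkl hl y z

/-- Second moments of conditional expectations in terms of the pair law. -/
theorem Ex_GE_mul {k : ℕ} (hk : k ≠ 0) (f g : Ω → ℝ) (d : ℕ) (w : W) :
    Ex ζ ν (gtop μ H) k (fun u => GE ζ ν μ H (fun _ y => f y) k u
      * GE ζ ν μ H (fun _ y => g y) k u) d w = ∑ x, ∑ y, f x * g y * p2 ζ ν μ H k d x y w := by
  simp only [GE_fin hH hζ hν, sum_mul_sum, p2_pos hk, ← Fintype.sum_prod_type']
  rw [← Ex_lin hH hζ hν k univ (fun p : Ω × Ω => f p.1 * g p.2)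
    (fun p => (bm_p1 hH hζ hν k p.1).mul (bm_p1 hH hζ hν k p.2))]
  congr 1
  funext u
  exact sum_congr rfl fun p _ => by ring

variable {v : W} {φ : Ω → ℝ} (hv : ∀ w (t : ℝ) x, H (w + t • v) x = H w x + t * φ x)
include hv

omit hH hζ hν in
theorem fjet_lin : FJet H v (fun _ x => φ x) (fun _ _ => 0) (∑ x, |φ x|) := by
  have hb : ∀ x, |φ x| ≤ ∑ x, |φ x| := fun y =>
    single_le_sum (f := fun x => |φ x|) (fun _ _ => abs_nonneg _) (mem_univ y)
  have h0 : 0 ≤ ∑ x, |φ x| := sum_nonneg fun _ _ => abs_nonneg _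
  refine ⟨h0, (bm2_fin φ).1, measurable_const, fun _ x => hb x, fun _ _ => by simpa using h0,
    fun w x t => ?_, fun w x t => ?_⟩
  · rw [hv, add_sub_cancel_left, abs_mul, mul_comm]
    exact mul_le_mul_of_nonneg_right (hb x) (abs_nonneg _)
  · rw [hv]
    simp only [mul_zero, add_sub_cancel_left, sub_self, abs_zero]
    positivity

theorem der_X (d : ℕ) (w : W) : HasDerivAt (fun t : ℝ => X ζ ν (gtop μ H) d (w + t • v))
    (GE ζ ν μ H (fun _ x => φ x) d w) 0 := by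
  simpa [GE] using ((hH.cas (μ := μ) hζ hν).jetX (jet_gtop hH (fjet_lin hv)) d).hasDerivAt w 0

omit hζ hν in
theorem d1_gib (x : Ω) : D1 v (gib μ H fun _ y => ind x y) fun w =>
    φ x * gib μ H (fun _ y => ind x y) w
      - gib μ H (fun _ y => φ y) w * gib μ H (fun _ y => ind x y) w := by
  have b := hH.bm_gib (μ := μ) (bm2_fin (W := W) (ind x))
  refine ⟨be_iff.2 b, be_iff.2 ((b.const_mul _).sub ((hH.bm_gib (bm2_fin φ)).mul b)), fun w => ?_⟩
  have h0 : 0 ≤ ∑ x, |φ x| := sum_nonneg fun _ _ => abs_nonneg _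
  have key := gexp_der (ν := μ) 1 (H := fun t y => H (w + t • v) y) (H' := fun _ y => φ y)
    (g := fun _ y => ind x y) (g' := fun _ _ => 0) (K := 1 + ∑ x, |φ x|) (by linarith)
    (fun _ => measurable_of_finite _) (hH.eint _) (fun _ => measurable_of_finite _)
    (measurable_of_finite _) measurable_const
    (fun t y => by
      simp only [hv]
      exact (((hasDerivAt_id' t).mul_const (φ y)).const_add (H w y)).congr_deriv (one_mul _))
    (fun _ _ => hasDerivAt_const _ _)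
    (fun _ y => (single_le_sum (f := fun x => |φ x|) (fun _ _ => abs_nonneg _) (mem_univ y)).trans
      (by linarith))
    (fun _ y => by unfold ind; split_ifs <;> simp <;> linarith)
    (fun _ _ => by simp; linarith)
  simp only [zero_smul, add_zero, zero_add, one_mul] at key
  have e : (fun y => φ y * ind x y) = fun y => φ x * ind x y := funext fun y => by
    rw [mul_comm, ← ind_mul_eq, mul_comm]
  rw [e, gexp_const_mul] at key
  exact key

variable (h1 : ζ 0 = 1)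
include h1

theorem d1_p1 {d : ℕ} (hd : d ≠ 0) (x : Ω) : D1 v (p1 ζ ν μ H d x) fun w =>
    ∑ z, φ z * ∑ l ∈ range d, ζ l * (p2 ζ ν μ H l d x z w - p2 ζ ν μ H (l + 1) d x z w) := by
  have hc := hH.cas (μ := μ) hζ hν
  refine (d1_Ex hc (jet_gtop hH (fjet_lin hv)) (d1_gib hH hv x) (Nat.zero_le d)).congr fun w => ?_
  have b := hH.bm_gib (μ := μ) (bm2_fin (W := W) (ind x))
  have eA : ∀ l, l ≠ 0 → Ex ζ ν (gtop μ H) l (fun u => Ex ζ ν (gtop μ H) 0 (gib μ H fun _ y => φ y)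
      l u * Ex ζ ν (gtop μ H) 0 (gib μ H fun _ y => ind x y) l u) d w
      = ∑ z, φ z * p2 ζ ν μ H l d x z w := fun l hl => by
    refine (Ex_GE_mul hH hζ hν hl φ (ind x) d w).trans (sum_congr rfl fun z _ => ?_)
    simp only [mul_assoc, ← mul_sum, sum_ind_mul, p2_symm l d z x]
  obtain ⟨e, rfl⟩ := Nat.exists_eq_succ_of_ne_zero hd
  rw [hc.Ex_sub 0 (b.const_mul _) ((hH.bm_gib (bm2_fin φ)).mul b), Ex_const_mul,
    ← range_eq_Ico, sum_range_succ', eA 1 one_ne_zero,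
    sum_congr rfl fun l _ => by rw [eA (l + 1) l.succ_ne_zero, eA (l + 1 + 1) (l + 1).succ_ne_zero]]
  simp only [sum_range_succ', mul_add, sum_add_distrib, h1, one_mul, mul_sub, sum_sub_distrib,
    mul_sum, zero_add]
  rw [sum_comm (s := range e), sum_comm (s := range e)]
  have e0 : ∑ z, φ z * p2 ζ ν μ H 0 (e + 1) x z w = φ x * p1 ζ ν μ H (e + 1) x w := by
    simp only [p2, if_true]
    rw [← sum_ind_mul x fun z => φ z * p1 ζ ν μ H (e + 1) x w]
    exact sum_congr rfl fun z _ => by ring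
  rw [e0]
  simp only [mul_left_comm (ζ _), Ex, p1, GE]
  ring

theorem d1_p2 {k d : ℕ} (hkd : k ≤ d) (hd : d ≠ 0) (x y : Ω) :
    D1 v (p2 ζ ν μ H k d x y) fun w =>
      ∑ z, φ z * Om ζ (fun k l x y z => p3 ζ ν μ H k l d x y z w) k d x y z := by
  have hc := hH.cas (μ := μ) hζ hν
  by_cases hk : k = 0
  · subst hk
    rw [show p2 ζ ν μ H 0 d x y = _ from funext fun _ => if_pos rfl]
    refine ((D1.const v (ind x y)).mul (d1_p1 hH hζ hν hv h1 hd x)).congr fun w => ?_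
    simp only [Om, range_zero, sum_empty, zero_add, zero_mul, p3_zero, ← range_eq_Ico, mul_sum]
    exact sum_congr rfl fun z _ => sum_congr rfl fun l _ => by ring
  have b1 := bm_p1 (μ := μ) hH hζ hν
  have b2 := bm_p2 (μ := μ) hH hζ hν
  rw [p2_pos hk]
  refine (d1_Ex hc (jet_gtop hH (fjet_lin hv))
    ((d1_p1 hH hζ hν hv h1 hk x).mul (d1_p1 hH hζ hν hv h1 hk y)) hkd).congr fun w => ?_
  have eA : ∀ l, k ≤ l → Ex ζ ν (gtop μ H) l (fun u => Ex ζ ν (gtop μ H) 0 (gib μ H fun _ y => φ y)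
      l u * Ex ζ ν (gtop μ H) k (fun u => p1 ζ ν μ H k x u * p1 ζ ν μ H k y u) l u) d w
      = ∑ z, φ z * p3 ζ ν μ H k l d x y z w := fun l hl => by
    simp only [p3_pos (show l ≠ 0 by omega), ← p2_pos hk]
    rw [← Ex_lin hH hζ hν l univ φ fun z => (b2 k l x y).mul (b1 l z)]
    congr 1
    funext u
    rw [show Ex ζ ν (gtop μ H) 0 (gib μ H fun _ y => φ y) l u = _ from GE_fin hH hζ hν φ l u,
      sum_mul]
    exact sum_congr rfl fun z _ => by ring
  have eB : ∀ x y, Ex ζ ν (gtop μ H) k (fun u => (∑ z, φ z * ∑ l ∈ range k, ζ l *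
      (p2 ζ ν μ H l k x z u - p2 ζ ν μ H (l + 1) k x z u)) * p1 ζ ν μ H k y u) d w
      = ∑ z, φ z * ∑ l ∈ range k, ζ l *
        (p3 ζ ν μ H l k d x z y w - p3 ζ ν μ H (l + 1) k d x z y w) := fun x y => by
    simp only [p3_pos hk, ← hc.Ex_sub k ((b2 _ k x _).mul (b1 k y)) ((b2 _ k x _).mul (b1 k y)),
      ← Ex_lin hH hζ hν k (range k) ζ
        fun l => ((b2 l k x _).mul (b1 k y)).sub ((b2 (l + 1) k x _).mul (b1 k y))]
    rw [← Ex_lin hH hζ hν k univ φ fun z => BM.sum (range k) fun l _ =>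
      (((b2 l k x z).mul (b1 k y)).sub ((b2 (l + 1) k x z).mul (b1 k y))).const_mul (ζ l)]
    congr 1
    funext u
    simp only [sum_mul, mul_sum]
    exact sum_congr rfl fun z _ => sum_congr rfl fun l _ => by ring
  have bD := fun x => be_iff.1 (d1_p1 (μ := μ) hH hζ hν hv h1 hk x).b1
  rw [hc.Ex_add k ((bD x).mul (b1 k y)) ((b1 k x).mul (bD y)), eB x y]
  simp only [mul_comm (p1 ζ ν μ H k x _) (∑ _, _)]
  rw [eB y x, sum_congr (s₁ := Ico k d) rfl fun l hl => by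
    rw [eA l (mem_Ico.1 hl).1, eA (l + 1) ((mem_Ico.1 hl).1.trans l.le_succ)]]
  simp only [Om, mul_add, sum_add_distrib]
  congr 1
  simp only [← sum_sub_distrib, mul_sum]
  rw [sum_comm]
  exact sum_congr rfl fun z _ => sum_congr rfl fun l _ => by ring

end Vale.Agent.P146L
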