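import Vale.Agent.P146L.RDefs

/-! # P146, lower bound: the resolvent of a real symmetric matrix -/

namespace Vale.Agent.P146L

open MeasureTheory ProbabilityTheory Vale.Agent.P157 Matrix

namespace RRsAux

variable {S : Type} [Fintype S] [DecidableEq S] {z : ℂ} {J : Matrix S S ℝ}

/-- The matrix to be inverted. -/
noncomputable def AA (z : ℂ) (J : Matrix S S ℝ) : Matrix S S ℂ := z • (1 : Matrix S S ℂ) - cM J

theorem Rs_eq (z : ℂ) (J : Matrix S S ℝ) : Rs z J = (AA z J)⁻¹ := rfl

theorem AA_mulVec (z : ℂ) (J : Matrix S S ℝ) (x : S → ℂ) (i : S) :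
    (AA z J *ᵥ x) i = z * x i - ∑ j, (J i j : ℂ) * x j := by
  unfold AA
  rw [Matrix.sub_mulVec, Matrix.smul_mulVec, Matrix.one_mulVec]
  rfl

theorem im_form (hJ : J.IsSymm) (z : ℂ) (x : S → ℂ) :
    (∑ i, (starRingEnd ℂ) (x i) * (AA z J *ᵥ x) i).im = z.im * ∑ i, ‖x i‖ ^ 2 := by
  have h1 : ∀ i, ((starRingEnd ℂ) (x i) * (AA z J *ᵥ x) i).im =
      z.im * ‖x i‖ ^ 2 - ∑ j, J i j * ((x i).re * (x j).im - (x i).im * (x j).re) := by
    intro i
    rw [AA_mulVec, mul_sub, Finset.mul_sum, Complex.sub_im, Complex.im_sum, Complex.sq_norm,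
      Complex.normSq_apply]
    congr 1
    · simp only [Complex.mul_im, Complex.mul_re, Complex.conj_re, Complex.conj_im]
      ring
    · refine Finset.sum_congr rfl fun j _ => ?_
      simp only [Complex.mul_im, Complex.mul_re, Complex.conj_re, Complex.conj_im,
        Complex.ofReal_re, Complex.ofReal_im]
      ring
  have h2 : ∑ i, ∑ j, J i j * ((x i).re * (x j).im - (x i).im * (x j).re) =
      -∑ i, ∑ j, J i j * ((x i).re * (x j).im - (x i).im * (x j).re) := by
    conv_lhs => rw [Finset.sum_comm]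
    rw [← Finset.sum_neg_distrib]
    refine Finset.sum_congr rfl fun i _ => ?_
    rw [← Finset.sum_neg_distrib]
    refine Finset.sum_congr rfl fun j _ => ?_
    rw [hJ.apply i j]
    ring
  rw [Complex.im_sum]
  simp only [h1]
  rw [Finset.sum_sub_distrib, ← Finset.mul_sum]
  linarith

theorem key (hJ : J.IsSymm) (hz : 0 < z.im) (x : S → ℂ) :
    z.im ^ 2 * ∑ i, ‖x i‖ ^ 2 ≤ ∑ i, ‖(AA z J *ᵥ x) i‖ ^ 2 := by
  have h1 := im_form hJ z x
  rw [Complex.im_sum] at h1
  have h2 : ∀ i, 2 * z.im * ((starRingEnd ℂ) (x i) * (AA z J *ᵥ x) i).im ≤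
      z.im ^ 2 * ‖x i‖ ^ 2 + ‖(AA z J *ᵥ x) i‖ ^ 2 := by
    intro i
    have h3 : ((starRingEnd ℂ) (x i) * (AA z J *ᵥ x) i).im ≤ ‖x i‖ * ‖(AA z J *ᵥ x) i‖ := by
      refine ((le_abs_self _).trans (Complex.abs_im_le_norm _)).trans ?_
      rw [norm_mul, Complex.norm_conj]
    nlinarith [sq_nonneg (z.im * ‖x i‖ - ‖(AA z J *ᵥ x) i‖), mul_le_mul_of_nonneg_left h3 hz.le]
  have h4 := Finset.sum_le_sum fun i (_ : i ∈ Finset.univ) => h2 i
  rw [← Finset.mul_sum, h1, Finset.sum_add_distrib, ← Finset.mul_sum] at h4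
  nlinarith

theorem unit (hJ : J.IsSymm) (hz : 0 < z.im) : IsUnit (AA z J).det := by
  rw [← Matrix.isUnit_iff_isUnit_det, ← Matrix.mulVec_injective_iff_isUnit]
  intro x y hxy
  have h1 := key hJ hz (x - y)
  have h2 : AA z J *ᵥ (x - y) = 0 := by
    rw [Matrix.mulVec_sub]
    exact sub_eq_zero.2 hxy
  rw [h2] at h1
  simp only [Pi.zero_apply, norm_zero, ne_eq, OfNat.ofNat_ne_zero, not_false_eq_true, zero_pow,
    Finset.sum_const_zero] at h1
  have h3 : ∑ i, ‖(x - y) i‖ ^ 2 ≤ 0 := by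
    by_contra h
    push Not at h
    have := mul_pos (pow_pos hz 2) h
    linarith
  funext i
  have h4 : ‖(x - y) i‖ ^ 2 ≤ 0 :=
    (Finset.single_le_sum (f := fun i => ‖(x - y) i‖ ^ 2) (fun i _ => sq_nonneg _)
      (Finset.mem_univ i)).trans h3
  have h5 : ‖(x - y) i‖ = 0 := by
    have := pow_eq_zero_iff (two_ne_zero) |>.1 (le_antisymm h4 (sq_nonneg _))
    exact this
  exact sub_eq_zero.1 (norm_eq_zero.1 h5)

theorem mul_Rs (hJ : J.IsSymm) (hz : 0 < z.im) : AA z J * Rs z J = 1 :=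
  Matrix.mul_nonsing_inv _ (unit hJ hz)

theorem Rs_mul (hJ : J.IsSymm) (hz : 0 < z.im) : Rs z J * AA z J = 1 :=
  Matrix.nonsing_inv_mul _ (unit hJ hz)

theorem bound (hJ : J.IsSymm) (hz : 0 < z.im) (y : S → ℂ) :
    ∑ i, ‖(Rs z J *ᵥ y) i‖ ^ 2 ≤ (∑ i, ‖y i‖ ^ 2) / z.im ^ 2 := by
  have h1 := key hJ hz (Rs z J *ᵥ y)
  rw [Matrix.mulVec_mulVec, mul_Rs hJ hz, Matrix.one_mulVec] at h1
  rw [le_div_iff₀ (pow_pos hz 2)]
  linarith

theorem symm (hJ : J.IsSymm) (z : ℂ) (i j : S) : Rs z J i j = Rs z J j i := by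
  have h1 : (AA z J)ᵀ = AA z J := by
    ext a b
    simp only [AA, cM, Matrix.transpose_apply, Matrix.sub_apply, Matrix.smul_apply,
      Matrix.map_apply, Matrix.one_apply, hJ.apply a b, eq_comm]
  have h2 : (Rs z J)ᵀ = Rs z J := by
    rw [Rs_eq, Matrix.transpose_nonsing_inv, h1]
  have := congrFun (congrFun h2 j) i
  exact this

theorem bil (hJ : J.IsSymm) (hz : 0 < z.im) (x y : S → ℝ) :
    ‖∑ j, ∑ l, Rs z J j l * ((x j * y l : ℝ) : ℂ)‖ ≤
      √(∑ j, x j ^ 2) * √(∑ l, y l ^ 2) / z.im := by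
  have h1 : ∑ j, ∑ l, Rs z J j l * ((x j * y l : ℝ) : ℂ) =
      ∑ j, (x j : ℂ) * (Rs z J *ᵥ fun l => (y l : ℂ)) j := by
    refine Finset.sum_congr rfl fun j _ => ?_
    simp only [Matrix.mulVec, dotProduct, Finset.mul_sum]
    refine Finset.sum_congr rfl fun l _ => ?_
    push_cast
    ring
  have h2 := bound hJ hz fun l => (y l : ℂ)
  simp only [Complex.norm_real, Real.norm_eq_abs, sq_abs] at h2
  rw [h1]
  refine (norm_sum_le _ _).trans ?_
  simp only [norm_mul, Complex.norm_real, Real.norm_eq_abs]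
  refine (Real.sum_mul_le_sqrt_mul_sqrt _ _ _).trans ?_
  simp only [sq_abs]
  rw [mul_div_assoc]
  refine mul_le_mul_of_nonneg_left ?_ (Real.sqrt_nonneg _)
  refine (Real.sqrt_le_sqrt h2).trans ?_
  rw [Real.sqrt_div' _ (sq_nonneg _), Real.sqrt_sq hz.le]

theorem entry (hJ : J.IsSymm) (hz : 0 < z.im) (i j : S) : ‖Rs z J i j‖ ≤ 1 / z.im := by
  have h := bil hJ hz (Pi.single i 1) (Pi.single j 1)
  have h1 : ∑ a, ∑ b, Rs z J a b * (((Pi.single i 1 : S → ℝ) a * (Pi.single j 1 : S → ℝ) b : ℝ) : ℂ)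
      = Rs z J i j := by
    rw [Finset.sum_eq_single i, Finset.sum_eq_single j]
    · simp
    · intro b _ hb
      simp [hb]
    · simp
    · intro a _ ha
      simp [ha]
    · simp
  rw [h1] at h
  simp only [Pi.single_apply] at h
  simpa using h

theorem ward (hJ : J.IsSymm) (hz : 0 < z.im) : z.im * fro (Rs z J) = -(Rs z J).trace.im := by
  have h1 : ∀ i, z.im * ∑ j, ‖Rs z J j i‖ ^ 2 = -(Rs z J i i).im := by
    intro i
    have h2 := im_form hJ z fun j => Rs z J j i
    have h3 : ∀ k, (AA z J *ᵥ fun j => Rs z J j i) k = (1 : Matrix S S ℂ) k i := by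
      intro k
      rw [← mul_Rs hJ hz]
      rfl
    simp only [h3, Matrix.one_apply, mul_ite, mul_one, mul_zero, Finset.sum_ite_eq',
      Finset.mem_univ, if_true, Complex.conj_im] at h2
    exact h2.symm
  unfold fro Matrix.trace
  rw [Finset.sum_comm, Finset.mul_sum, Complex.im_sum, ← Finset.sum_neg_distrib]
  exact Finset.sum_congr rfl fun i _ => h1 i

theorem meas_inv {W : Type} [MeasurableSpace W] (M : W → Matrix S S ℂ)
    (hM : ∀ i j, Measurable fun w => M w i j) (i j : S) : Measurable fun w => (M w)⁻¹ i j := by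
  have hm : Measurable fun w => fun a b => M w a b :=
    measurable_pi_lambda _ fun a => measurable_pi_lambda _ fun b => hM a b
  have h1 : Continuous fun B : S → S → ℂ => (Matrix.of B).det :=
    Continuous.matrix_det continuous_id
  have h2 : Continuous fun B : S → S → ℂ => (Matrix.of B).adjugate i j :=
    (Continuous.matrix_adjugate (A := fun B : S → S → ℂ => Matrix.of B) continuous_id).matrix_elem
      i j
  have h3 : (fun w => (M w)⁻¹ i j) = fun w => ((M w).det)⁻¹ * (M w).adjugate i j := by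
    funext w
    rw [Matrix.inv_def, Ring.inverse_eq_inv]
    rfl
  rw [h3]
  exact (h1.measurable.comp hm).inv.mul (h2.measurable.comp hm)

theorem res_id {J' E : Matrix S S ℝ} {t : ℝ} (hJ : J.IsSymm) (hJ' : J'.IsSymm) (hz : 0 < z.im)
    (h : J' = J + t • E) : Rs z J' = Rs z J + (t : ℂ) • (Rs z J' * cM E * Rs z J) := by
  have h1 : AA z J = AA z J' + (t : ℂ) • cM E := by
    ext a b
    simp only [AA, cM, h, Matrix.sub_apply, Matrix.add_apply, Matrix.smul_apply, Matrix.map_apply,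
      smul_eq_mul]
    push_cast
    ring
  calc Rs z J' = Rs z J' * (AA z J * Rs z J) := by rw [mul_Rs hJ hz, Matrix.mul_one]
    _ = Rs z J' * AA z J' * Rs z J + (t : ℂ) • (Rs z J' * cM E * Rs z J) := by
      rw [h1, Matrix.add_mul, Matrix.mul_add, Matrix.smul_mul, Matrix.mul_smul, Matrix.mul_assoc,
        Matrix.mul_assoc]
    _ = _ := by rw [Rs_mul hJ' hz, Matrix.one_mul]

end RRsAux

open RRsAux

theorem rs : S_rs := by
  intro S _ _ z J hJ hz
  refine ⟨?_, symm hJ z, fun B => ?_, bil hJ hz, ward hJ hz⟩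
  · rw [← mul_Rs hJ hz, AA, Matrix.sub_mul, Matrix.smul_mul, Matrix.one_mul]
  · unfold fro
    rw [Finset.sum_comm, Finset.sum_comm (f := fun i j => ‖B i j‖ ^ 2), Finset.sum_div]
    exact Finset.sum_le_sum fun j _ => bound hJ hz fun i => B i j

theorem rsd : S_rsd := by
  intro W S _ _ _ _ _ z J v E hz hJ hm hv
  have hb : ∀ i j, BE fun w => Rs z (J w) i j := by
    intro i j
    refine ⟨meas_inv (fun w => AA z (J w)) (fun a b => ?_) i j, 1 / z.im,
      fun w => entry (hJ w) hz i j⟩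
    exact measurable_const.sub (Complex.measurable_ofReal.comp (hm a b))
  intro i j
  refine ⟨hb i j, ?_, fun w => ?_⟩
  · simp only [Matrix.mul_apply]
    exact BE.sum _ fun a _ => (BE.sum _ fun b _ => (hb i b).mul (BE.const _)).mul (hb a j)
  · have hid : ∀ t : ℝ, Rs z (J (w + t • v)) =
        Rs z (J w) + (t : ℂ) • (Rs z (J (w + t • v)) * cM E * Rs z (J w)) := fun t =>
      res_id (hJ w) (hJ _) hz (hv w t)
    have hc : ∀ a b, ContinuousAt (fun t : ℝ => Rs z (J (w + t • v)) a b) 0 := by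
      intro a b
      have hbd : BE fun t : ℝ => (Rs z (J (w + t • v)) * cM E * Rs z (J w)) a b := by
        have hb' : ∀ a b, BE fun t : ℝ => Rs z (J (w + t • v)) a b := by
          intro a b
          refine ⟨meas_inv (fun t : ℝ => AA z (J (w + t • v))) (fun a b => ?_) a b, 1 / z.im,
            fun t => entry (hJ _) hz a b⟩
          simp only [hv, AA, cM, Matrix.sub_apply, Matrix.add_apply, Matrix.smul_apply,
            Matrix.map_apply, smul_eq_mul]
          fun_prop
        simp only [Matrix.mul_apply]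
        exact BE.sum _ fun c _ =>
          (BE.sum _ fun b _ => (hb' a b).mul (BE.const _)).mul (BE.const _)
      obtain ⟨C, hC⟩ := hbd.b
      have h0 : Filter.Tendsto (fun t : ℝ => (t : ℂ) *
          (Rs z (J (w + t • v)) * cM E * Rs z (J w)) a b) (nhds 0) (nhds 0) := by
        refine squeeze_zero_norm (a := fun t : ℝ => ‖t‖ * C) (fun t => ?_) ?_
        · rw [norm_mul, Complex.norm_real]
          exact mul_le_mul_of_nonneg_left (hC t) (norm_nonneg _)
        · have : Continuous fun t : ℝ => ‖t‖ * C := by fun_prop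
          simpa using this.tendsto 0
      have h1 := h0.const_add (Rs z (J w) a b)
      unfold ContinuousAt
      simp only [zero_smul, add_zero] at h1 ⊢
      refine h1.congr fun t => ?_
      conv_rhs => rw [hid t]
      rfl
    have hc2 : ContinuousAt
        (fun t : ℝ => (Rs z (J (w + t • v)) * cM E * Rs z (J w)) i j) 0 := by
      simp only [Matrix.mul_apply]
      exact tendsto_finset_sum _ fun a _ =>
        (tendsto_finset_sum _ fun b _ => (hc i b).mul continuousAt_const).mul tendsto_const_nhds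
    rw [hasDerivAt_iff_tendsto_slope_zero]
    have h2 : Filter.Tendsto (fun t : ℝ => (Rs z (J (w + t • v)) * cM E * Rs z (J w)) i j)
        (nhdsWithin 0 {0}ᶜ) (nhds ((Rs z (J w) * cM E * Rs z (J w)) i j)) := by
      have := hc2.tendsto.mono_left (nhdsWithin_le_nhds (s := {0}ᶜ))
      simpa using this
    refine h2.congr' ?_
    filter_upwards [self_mem_nhdsWithin] with t ht
    have ht' : (t : ℂ) ≠ 0 := Complex.ofReal_ne_zero.2 ht
    simp only [zero_add, zero_smul, add_zero]
    conv_rhs => rw [hid t]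
    simp only [Matrix.add_apply, Matrix.smul_apply, smul_eq_mul, add_sub_cancel_left,
      Complex.real_smul]
    push_cast
    field_simp

end Vale.Agent.P146L
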