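import Vale.Agent.P146L.RDefs

/-! # P146, lower bound: Gaussian integration by parts under a tilted law -/

namespace Vale.Agent.P146L

open MeasureTheory ProbabilityTheory Vale.Agent.P157

namespace RSteinAux

theorem der_pdf {v : NNReal} (t : ℝ) :
    HasDerivAt (gaussianPDFReal 0 v) (-t / v * gaussianPDFReal 0 v t) t := by
  have h1 : HasDerivAt (fun x : ℝ => -(x - 0) ^ 2 / (2 * (v : ℝ))) (-t / v) t := by
    have := (((hasDerivAt_id t).sub_const 0).pow 2).neg.div_const (2 * (v : ℝ))
    refine this.congr_deriv ?_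
    simp
    ring
  have := h1.exp.const_mul (√(2 * Real.pi * (v : ℝ)))⁻¹
  refine this.congr_deriv ?_
  unfold gaussianPDFReal
  ring

theorem intg_pdf {v : NNReal} (hv : v ≠ 0) {g : ℝ → ℂ} (h : Integrable g (gaussianReal 0 v)) :
    Integrable fun t => gaussianPDFReal 0 v t • g t := by
  rw [gaussianReal_of_var_ne_zero _ hv,
    integrable_withDensity_iff_integrable_smul' (measurable_gaussianPDF _ _)
      (ae_of_all _ fun _ => gaussianPDF_lt_top)] at h
  simpa using h

theorem stein1 {v : ℝ} (hv : 0 ≤ v) {g g' : ℝ → ℂ} (hd : ∀ t, HasDerivAt g (g' t) t)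
    (i0 : Integrable g (g1 v)) (i1 : Integrable (fun t : ℝ => (t : ℂ) * g t) (g1 v))
    (i2 : Integrable g' (g1 v)) :
    ∫ t : ℝ, (t : ℂ) * g t ∂g1 v = v * ∫ t, g' t ∂g1 v := by
  rcases hv.eq_or_lt with rfl | hv'
  · rw [g1_of_nonpos le_rfl, integral_dirac]
    simp
  · have hn : v.toNNReal ≠ 0 := by simpa using hv'
    have hc : ((v.toNNReal : NNReal) : ℝ) = v := Real.coe_toNNReal v hv
    unfold g1 at i0 i1 i2 ⊢
    have j0 := (intg_pdf hn i0).const_mul (v : ℂ)
    have j1 := intg_pdf hn i1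
    have j2 := (intg_pdf hn i2).const_mul (v : ℂ)
    have h := integral_eq_zero_of_hasDerivAt_of_integrable
      (f := fun t => (v : ℂ) * (gaussianPDFReal 0 v.toNNReal t • g t))
      (f' := fun t => (v : ℂ) * (gaussianPDFReal 0 v.toNNReal t • g' t) -
        gaussianPDFReal 0 v.toNNReal t • ((t : ℂ) * g t))
      (fun t => (((der_pdf t).smul (hd t)).const_mul (v : ℂ)).congr_deriv (by
        have hv0 : (v : ℂ) ≠ 0 := by exact_mod_cast hv'.ne'
        rw [hc]
        simp only [Complex.real_smul]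
        push_cast
        field_simp
        ring)) (j2.sub j1) j0
    rw [integral_sub j2 j1, integral_const_mul] at h
    rw [integral_gaussianReal_eq_integral_smul hn, integral_gaussianReal_eq_integral_smul hn]
    exact (sub_eq_zero.1 h).symm

variable {ι : Type} [Fintype ι] [DecidableEq ι]

theorem cont_upd (e : ι) : Continuous fun p : (ι → ℝ) × ℝ => Function.update p.1 e p.2 :=
  continuous_fst.update e continuous_snd

theorem mp_upd (σ : ι → ℝ) (e : ι) :
    MeasurePreserving (fun p : (ι → ℝ) × ℝ => Function.update p.1 e p.2)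
      ((gv σ).prod (g1 (σ e))) (gv σ) := by
  unfold gv
  refine ⟨(cont_upd e).measurable, (Measure.pi_eq fun s hs => ?_).symm⟩
  rw [Measure.map_apply (cont_upd e).measurable (MeasurableSet.univ_pi hs)]
  have : (fun p : (ι → ℝ) × ℝ => Function.update p.1 e p.2) ⁻¹' Set.univ.pi s =
      (Set.univ.pi (Function.update s e Set.univ)) ×ˢ s e := by
    ext p
    simp only [Set.mem_preimage, Set.mem_pi, Set.mem_univ, true_imp_iff, Set.mem_prod]
    constructor
    · intro h
      refine ⟨fun j => ?_, by simpa using h e⟩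
      by_cases hj : j = e
      · subst hj
        simp
      · simpa [hj] using h j
    · rintro ⟨h1, h2⟩ j
      by_cases hj : j = e
      · subst hj
        simpa using h2
      · simpa [hj] using h1 j
  rw [this, Measure.prod_prod, Measure.pi_pi,
    ← Finset.prod_erase_mul _ _ (Finset.mem_univ e),
    ← Finset.prod_erase_mul _ _ (Finset.mem_univ e), Function.update_self, measure_univ, mul_one]
  congr 1
  exact Finset.prod_congr rfl fun j hj => by
    rw [Function.update_of_ne (Finset.ne_of_mem_erase hj)]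

theorem int_upd (σ : ι → ℝ) (e : ι) {F : (ι → ℝ) → ℂ} (hF : Integrable F (gv σ)) :
    ∫ x, F x ∂gv σ = ∫ x, ∫ t, F (Function.update x e t) ∂g1 (σ e) ∂gv σ := by
  have h1 := (mp_upd σ e).integrable_comp_of_integrable hF
  have h2 := integral_prod _ h1
  simp only [Function.comp_apply] at h2
  rw [← h2]
  conv_lhs => rw [← (mp_upd σ e).map_eq]
  rw [integral_map (mp_upd σ e).measurable.aemeasurable
    (by rw [(mp_upd σ e).map_eq]; exact hF.aestronglyMeasurable)]

omit [Fintype ι] in
theorem upd_eq (x : ι → ℝ) (e : ι) (t : ℝ) :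
    Function.update x e t = Function.update x e 0 + t • (Pi.single e 1 : ι → ℝ) := by
  funext j
  by_cases hj : j = e
  · subst hj
    simp
  · simp [hj]

theorem stein2 (σ : ι → ℝ) (e : ι) (hσ : 0 ≤ σ e) {f f' : (ι → ℝ) → ℂ}
    (hd : ∀ w, HasDerivAt (fun t : ℝ => f (w + t • (Pi.single e 1 : ι → ℝ))) (f' w) 0)
    (i0 : Integrable f (gv σ)) (i1 : Integrable (fun w => (w e : ℂ) * f w) (gv σ))
    (i2 : Integrable f' (gv σ)) :
    ∫ w, (w e : ℂ) * f w ∂gv σ = σ e * ∫ w, f' w ∂gv σ := by
  rw [int_upd σ e i1, int_upd σ e i2, ← integral_const_mul]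
  refine integral_congr_ae ?_
  filter_upwards [((mp_upd σ e).integrable_comp_of_integrable i0).prod_right_ae,
    ((mp_upd σ e).integrable_comp_of_integrable i1).prod_right_ae,
    ((mp_upd σ e).integrable_comp_of_integrable i2).prod_right_ae] with x h0 h1 h2
  simp only [Function.comp_apply, Function.update_self] at h0 h1 h2 ⊢
  refine stein1 hσ (fun t => ?_) h0 h1 h2
  have h3 := der_at hd (Function.update x e 0) t
  simp only [← upd_eq] at h3
  exact h3

omit [DecidableEq ι] in
theorem intg (σ : ι → ℝ) (a : ℝ) {Ψ : (ι → ℝ) → ℝ} (hΨ : LG Ψ) {E : Type} [NormedAddCommGroup E]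
    [NormedSpace ℝ E] {G : (ι → ℝ) → E} (hm : AEStronglyMeasurable G (gv σ)) {C : ℝ}
    (hG : ∀ w, ‖G w‖ ≤ C * (1 + ‖w‖)) :
    Integrable (fun w => Real.exp (a * Ψ w) • G w) (gv σ) := by
  obtain ⟨hm', K, hK⟩ := hΨ
  have hC : 0 ≤ C := by simpa using (norm_nonneg _).trans (hG 0)
  refine (((noise_gv σ).ex (|a| * K + 1)).const_mul (C * Real.exp (|a| * K))).mono'
    ((hm'.const_mul a).exp.aestronglyMeasurable.smul hm) (ae_of_all _ fun w => ?_)
  rw [norm_smul, Real.norm_of_nonneg (Real.exp_pos _).le]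
  have h1 : a * Ψ w ≤ |a| * (K * (1 + ‖w‖)) := by
    refine (le_abs_self _).trans ?_
    rw [abs_mul]
    exact mul_le_mul_of_nonneg_left (hK w) (abs_nonneg a)
  have h2 : 1 + ‖w‖ ≤ Real.exp ‖w‖ := by
    rw [add_comm]
    exact Real.add_one_le_exp _
  calc Real.exp (a * Ψ w) * ‖G w‖ ≤ Real.exp (|a| * (K * (1 + ‖w‖))) * (C * Real.exp ‖w‖) :=
        mul_le_mul (Real.exp_le_exp.2 h1) ((hG w).trans (mul_le_mul_of_nonneg_left h2 hC))
          (norm_nonneg _) (Real.exp_pos _).le
    _ = C * Real.exp (|a| * K) * Real.exp ((|a| * K + 1) * ‖w‖) := by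
        rw [mul_left_comm, mul_assoc C, ← Real.exp_add, ← Real.exp_add]
        congr 2
        ring

omit [DecidableEq ι] in
theorem intg_be (σ : ι → ℝ) (a : ℝ) {Ψ : (ι → ℝ) → ℝ} (hΨ : LG Ψ) {G : (ι → ℝ) → ℂ} (hG : BE G) :
    Integrable (fun w => Real.exp (a * Ψ w) • G w) (gv σ) := by
  obtain ⟨hm, C, hC⟩ := hG
  have hC0 : 0 ≤ C := (norm_nonneg _).trans (hC 0)
  refine intg σ a hΨ hm.aestronglyMeasurable (C := C) fun w => (hC w).trans ?_
  exact le_mul_of_one_le_right hC0 (le_add_of_nonneg_right (norm_nonneg _))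

end RSteinAux

open RSteinAux

theorem stein : S_stein := by
  intro ι _ _ s e a Ψ Ψ' F F' hs hΨ hΨ' hd hF
  have hZ : Integrable (fun w => Real.exp (a * Ψ w)) (gv s) := by
    simpa using intg s a hΨ (G := fun _ => (1 : ℝ)) aestronglyMeasurable_const (C := 1)
      fun w => by simp
  have i1 : Integrable (fun w => Real.exp (a * Ψ w) • ((w e : ℂ) * F w)) (gv s) := by
    obtain ⟨hm, C, hC⟩ := hF.b0
    have hC0 : 0 ≤ C := (norm_nonneg _).trans (hC 0)
    refine intg s a hΨ (((Complex.measurable_ofReal.comp (measurable_pi_apply e)).mul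
      hm).aestronglyMeasurable) (C := C) fun w => ?_
    rw [norm_mul, Complex.norm_real, mul_comm]
    exact mul_le_mul (hC w) ((norm_le_pi_norm w e).trans (le_add_of_nonneg_left zero_le_one))
      (norm_nonneg _) hC0
  have hB : BE fun w => F' w + a * (Ψ' w * F w) :=
    hF.b1.add ((BE.const (a : ℂ)).mul ((be_iff.2 hΨ').ofReal.mul hF.b0))
  refine ⟨(integrable_tilted_iff hZ _).2 i1, ?_⟩
  have h := stein2 s e hs (f := fun w => Real.exp (a * Ψ w) • F w)
    (f' := fun w => Real.exp (a * Ψ w) • (F' w + a * (Ψ' w * F w))) (fun w => ?_)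
    (intg_be s a hΨ hF.b0) (i1.congr (ae_of_all _ fun w => (mul_smul_comm _ _ _).symm))
    (intg_be s a hΨ hB)
  · rw [integral_tilted, integral_tilted]
    simp only [div_eq_inv_mul, mul_smul, integral_smul]
    rw [mul_smul_comm, ← h]
    simp only [mul_smul_comm]
  · refine ((((hd w).const_mul a).exp).smul (hF.der w)).congr_deriv ?_
    simp only [zero_smul, add_zero, Complex.real_smul]
    push_cast
    ring

end Vale.Agent.P146L
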