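import Vale.Agent.P146L.RMat

/-! # P146, lower bound: the replica equations of the spin system -/

namespace Vale.Agent.P146L

open MeasureTheory Vale.Agent.P157 Finset

set_option linter.unusedSectionVars false

variable {S : Type} [Fintype S] [DecidableEq S]

/-- One replica seen from the root. -/
noncomputable def Q1 (ζ : ℕ → ℝ) (L : ℕ) (g : S → S → ℝ) (x : ℕ → S → ℝ) (w : Cs S → ℝ)
    (y : S → Bool) : ℝ := p1 (cut L ζ) (gvs (pf L g x)) (cube S) HH L y w

/-- Two replicas seen from the root. -/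
noncomputable def Q2 (ζ : ℕ → ℝ) (L : ℕ) (g : S → S → ℝ) (x : ℕ → S → ℝ) (w : Cs S → ℝ) (k : ℕ)
    (y y' : S → Bool) : ℝ := p2 (cut L ζ) (gvs (pf L g x)) (cube S) HH k L y y' w

/-- Three replicas seen from the root. -/
noncomputable def Q3 (ζ : ℕ → ℝ) (L : ℕ) (g : S → S → ℝ) (x : ℕ → S → ℝ) (w : Cs S → ℝ)
    (k l : ℕ) (y y' y'' : S → Bool) : ℝ :=
  p3 (cut L ζ) (gvs (pf L g x)) (cube S) HH k l L y y' y'' w

variable {L : ℕ} {ζ : ℕ → ℝ} (h : ZN L ζ) (g : S → S → ℝ) (x : ℕ → S → ℝ)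
include h

theorem q_rep (w : Cs S → ℝ) : Rep L (Q2 ζ L g x w) (Q3 ζ L g x w) :=
  rep hg_HH h.zok_cut (fun _ => noise_gv _) L w

theorem q_marg (w : Cs S → ℝ) {k : ℕ} (hk : k ≤ L) (y : S → Bool) :
    ∑ y', Q2 ζ L g x w k y y' = Q1 ζ L g x w y :=
  sum_p2 hg_HH h.zok_cut (fun _ => noise_gv _) hk y w

theorem q_marg' (w : Cs S → ℝ) {k : ℕ} (hk : k ≤ L) (y : S → Bool) :
    ∑ y', Q2 ζ L g x w k y' y = Q1 ζ L g x w y := by
  simp only [(q_rep h g x w).symm k _ y, q_marg h g x w hk]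

theorem q_tot (w : Cs S → ℝ) (k : ℕ) (hk : k ≤ L) : ∑ y, ∑ y', Q2 ζ L g x w k y y' = 1 := by
  simp only [q_marg h g x w hk]
  exact sum_p1 hg_HH h.zok_cut (fun _ => noise_gv _) L w

theorem q2_top (w : Cs S → ℝ) : Q2 ζ L g x w L = fun y y' => Q1 ζ L g x w y * Q1 ζ L g x w y' := by
  funext y y'
  rw [Q2, p2_pos (by have := h.one; omega), Ex_of_le le_rfl]
  rfl

theorem q3_top (w : Cs S → ℝ) (k : ℕ) :
    Q3 ζ L g x w k L = fun y y' z => Q2 ζ L g x w k y y' * Q1 ζ L g x w z := by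
  funext y y' z
  exact p3_top (by have := h.one; omega) k y y' z w

theorem be_q2 (k : ℕ) (y y' : S → Bool) : BE fun w => Q2 ζ L g x w k y y' :=
  be_iff.2 (bm_p2 hg_HH h.zok_cut (fun _ => noise_gv _) k L y y')

theorem mg_eq (i j : S) (w : Cs S → ℝ) :
    Mg ζ L g x i j L w = ∑ z, sp z i * sp z j * Q1 ζ L g x w z := by
  rw [Mg, GS_cut g x le_rfl]
  exact GE_fin hg_HH h.zok_cut (fun _ => noise_gv _) _ L w

omit h in
theorem hv_ec (i j : S) (w : Cs S → ℝ) (t : ℝ) (y : S → Bool) :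
    HH (w + t • ec i j) y = HH w y + t * (sp y i * sp y j) := by
  rw [HH_add, ec, HH_single]
  rfl

theorem st_root (hs : S_stein) {γ : ℝ} (hγ : 0 ≤ γ) :
    St (rootM ζ L (fun _ _ => γ) x) γ (ζ L) fun i j => Mg ζ L (fun _ _ => γ) x i j L := by
  refine ⟨h.prob_rootM _ _, fun i j => h.bm_GS _ _ _ L.le_succ, fun i j => Mg_symm _ _ i j L,
    fun i j F F' hF => ?_⟩
  have := hs (Cs S) (pf L (fun _ _ => γ) x L) (.inl (i, j)) (ζ L) (XS ζ L (fun _ _ => γ) x L)
    (Mg ζ L (fun _ _ => γ) x i j L) F F' (by simpa [pf] using hγ) (h.lg_XS _ _ le_rfl)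
    (h.bm_GS _ _ _ L.le_succ) (fun w => by
      rw [XS_cut _ _ le_rfl, Mg, GS_cut _ _ le_rfl]
      exact der_X hg_HH h.zok_cut (fun _ => noise_gv _) (hv_ec i j) L w) hF
  simpa only [pf, if_true, rootM] using this

theorem d1_N {k : ℕ} (hk : k ≤ L) (i j a c : S) :
    D1 (ec i j) (fun w => Nmat (Q2 ζ L g x w k) a c) fun w =>
      Nmat (fun y y' => ∑ z, sp z i * sp z j * Om ζ (Q3 ζ L g x w) k L y y' z) a c := by
  refine D1.ofReal ((D1.sum univ fun y _ => D1.sum univ fun y' _ =>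
    (d1_p2 (μ := cube S) hg_HH h.zok_cut (fun _ => noise_gv _) (hv_ec i j) h.cut_zero hk
      (by have := h.one; omega) y y').mul (D1.const _ (sp y a * sp y' c))).congr fun w => ?_)
  refine sum_congr rfl fun y _ => sum_congr rfl fun y' _ => ?_
  rw [mul_zero, add_zero]
  congr 1
  refine sum_congr rfl fun z _ => ?_
  congr 1
  unfold Om
  congr 1
  · congr 1 <;> exact sum_congr rfl fun l hl => by
      rw [cut_of_lt ζ ((mem_range.1 hl).trans_le hk)]; rfl
  · exact sum_congr rfl fun l hl => by rw [cut_of_lt ζ (mem_Ico.1 hl).2]; rfl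

theorem be_ra (q : ℝ) (k : ℕ) : BE fun w => ra ov (Q2 ζ L g x w k) q :=
  BE.sum _ fun y _ => BE.sum _ fun y' _ => (be_q2 h g x k y y').mul (BE.const _)

theorem be_rb (q : ℝ) (k : ℕ) : BE fun w => rb ov (Q2 ζ L g x w k) q :=
  BE.sum _ fun y _ => BE.sum _ fun y' _ => (be_q2 h g x k y y').mul (BE.const _)

theorem esq_eq (f : (S → Bool) → ℝ) {k : ℕ} (hk0 : k ≠ 0) (hk : k ≤ L) :
    ExS ζ L g x k (fun w => GS ζ L g x f k w ^ 2) (L + 1) 0
      = ∫ w, ∑ y, ∑ y', f y * f y' * Q2 ζ L g x w k y y' ∂(rootM ζ L g x) := by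
  rw [ExS_root g x hk, ExS_cut g x le_rfl, GS_cut g x hk]
  refine integral_congr_ae (ae_of_all _ fun w => ?_)
  simp only [sq]
  exact Ex_GE_mul hg_HH h.zok_cut (fun _ => noise_gv _) hk0 f f L w

theorem rem_eq [Nonempty S] (q : ℕ → ℝ) {k : ℕ} (hk0 : k ≠ 0) (hk : k ≤ L) :
    ∫ w, rb ov (Q2 ζ L g x w k) (q k) ∂(rootM ζ L g x) = rem ζ L g x q k := by
  have := h.prob_rootM g x
  have hn := card_pos' (S := S)
  have bi : ∀ f : (S → Bool) → ℝ, Integrable
      (fun w => ∑ y, ∑ y', f y * f y' * Q2 ζ L g x w k y y') (rootM ζ L g x) := fun f =>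
    (BE.sum _ fun y _ => BE.sum _ fun y' _ => (BE.const _).mul (be_q2 h g x k y y')).integrable _
  have i2 := integrable_finsetSum univ fun i _ => integrable_finsetSum univ fun j _ =>
    bi fun y => sp y i * sp y j
  have i1 := integrable_finsetSum univ fun i _ => bi fun y => sp y i
  simp only [rem, E1_eq, E2_eq, mg, Mg, esq_eq h g x _ hk0 hk]
  rw [← integral_finsetSum _ fun i _ => bi _,
    sum_congr rfl fun i _ => (integral_finsetSum _ fun j _ => bi fun y => sp y i * sp y j).symm,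
    ← integral_finsetSum _ fun i _ => integrable_finsetSum _ fun j _ => bi _,
    ← integral_const_mul, ← integral_div, ← integral_div,
    ← integral_sub (i2.div_const _) ((i1.const_mul _).div_const _),
    show q k ^ 2 = ∫ _, q k ^ 2 ∂(rootM ζ L g x) by simp,
    ← integral_add (by exact (i2.div_const _).sub ((i1.const_mul _).div_const _))
      (integrable_const _)]
  refine integral_congr_ae (ae_of_all _ fun w => ?_)
  simp only
  rw [sw22, sum_comm (f := fun i y => ∑ y', sp y i * sp y' i * Q2 ζ L g x w k y y'),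
    ← one_mul (q k ^ 2), ← q_tot h g x w k hk]
  simp only [rb, sum_div, mul_sum, sum_mul, ← sum_sub_distrib, ← sum_add_distrib]
  refine sum_congr rfl fun y _ => ?_
  rw [sum_comm (s := (univ : Finset S)), ← sum_sub_distrib, ← sum_add_distrib]
  refine sum_congr rfl fun y' _ => ?_
  have e : ∀ i j, sp y i * sp y j * (sp y' i * sp y' j) * Q2 ζ L g x w k y y'
      / (Fintype.card S : ℝ) ^ 2 = sp y i * sp y' i * (sp y j * sp y' j)
        * (Q2 ζ L g x w k y y' / (Fintype.card S : ℝ) ^ 2) := fun i j => by ring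
  simp only [e, ← sum_mul, ← mul_sum, ← sum_div, ov]
  field_simp
  ring

omit h in
theorem ra_zero [Nonempty S] (w : Cs S → ℝ) : ra ov (Q2 ζ L g x w 0) 1 = 0 := by
  simp only [ra, Q2, p2, if_true, mul_assoc, sum_ind_mul, ov_self, sub_self, abs_zero, mul_zero,
    sum_const_zero]

omit h in
theorem q2_zero (w : Cs S → ℝ) : Q2 ζ L g x w 0 = fun y y' => ind y y' * Q1 ζ L g x w y := rfl

end Vale.Agent.P146L
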