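import Vale.Agent.P146L.Defs

/-! # P146, lower bound: the interface statements -/

namespace Vale.Agent.P146L

open MeasureTheory ProbabilityTheory Vale.Agent.P157

/-- One-site analysis: a near minimizer on the grid is marginal and has little mass near zero. -/
def S_onesite : Prop := ∀ β : ℝ, 1 < β → ∃ K : ℝ, 1 ≤ K ∧ ∀ L : ℕ, 1 ≤ L → ∃ q : ℕ → ℝ,
  QP L q ∧
  (∀ q' : ℕ → ℝ, CAdm L q' → q' 0 = 1 → GG L (grid L) β q ≤ GG L (grid L) β q' + K / L) ∧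
  |β * csDelta (grid L) q L - 1| ^ 13 ≤ K / L ∧
  ∀ d, d < L → q (d + 1) < q d → grid L d ^ 8 ≤ K * q (d + 1) ∨ grid L d ^ 13 ≤ K / L

/-- Resolvent bound: small remainders force a large root overlap. -/
def S_res : Prop := ∃ C : ℝ, 1 ≤ C ∧
  ∀ (S : Type) [Fintype S] [DecidableEq S] [Nonempty S] (L : ℕ) (ζ q : ℕ → ℝ)
    (β t δ s μ0 : ℝ), ZN L ζ → ζ L ≤ 0 → QP L q → 0 < β → 0 < t → t ≤ 1 → 0 < δ → δ ≤ 1 / 4 →
    0 < s → s ≤ 1 → 0 ≤ μ0 →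
    1 - 2 * δ ≤ β * √t * csDelta ζ q L → β * √t * csDelta ζ q L ≤ 1 + δ / 2 →
    (∀ d, d < L → q (d + 1) < q d → q (d + 1) < s → ζ d ≤ μ0) → β * μ0 * s ≤ δ →
    C * (1 + β) ^ 2 * (√(QQ ζ (rem ζ L (gt S β t) (xt S β q t) q) L)
        + QQ ζ (rem ζ L (gt S β t) (xt S β q t) q) L
        + (1 + |ζ L|) / (Fintype.card S * δ ^ 5) + 1 / (√(Fintype.card S : ℝ) * δ ^ 2))
      ≤ s * δ ^ 2 →
    s ^ 2 ≤ C * δ ^ 3 * (Fintype.card S * rem ζ L (gt S β t) (xt S β q t) q L)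

/-- Quantitative lower bound for the mean free energy. -/
def S_mean : Prop := ∀ β : ℝ, ∃ C : ℝ, 0 ≤ C ∧ ∀ r N : ℕ, 1 ≤ r → r ^ 27 ≤ N → ∀ Pm : ℝ,
  (∀ q : ℕ → ℝ, CAdm (r ^ 2) q → q 0 = 1 → Pm ≤ GG (r ^ 2) (grid (r ^ 2)) β q) →
  N * Pm - C * N / r ≤ Vl (grid (r ^ 2)) (r ^ 2) (gt (Fin N) β 1) 0

/-- Guerra's interpolation with an arbitrary root exponent. -/
def S_guerra : Prop :=
  ∀ (S : Type) [Fintype S] [DecidableEq S] [Nonempty S] (L : ℕ) (ζ q : ℕ → ℝ) (β δ : ℝ),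
    ZN L ζ → QP L q → 0 < δ → δ ≤ 1 → ∃ t ∈ Set.Ioo (1 - δ) 1,
      (∀ k, 1 ≤ k → k ≤ L → 0 ≤ rem ζ L (gt S β t) (xt S β q t) q k) ∧
      β ^ 2 * Fintype.card S / 4 * δ * QQ ζ (rem ζ L (gt S β t) (xt S β q t) q) L
        ≤ Fintype.card S * GG L (cut L ζ) β q - Vl ζ L (gt S β 1) 0

/-- Lower tail of convex Gaussian functionals. -/
def S_tail : Prop := ∃ C : ℝ, 0 ≤ C ∧ ∀ (ι : Type) [Fintype ι] (F : (ι → ℝ) → ℝ),
  ConvexOn ℝ Set.univ F → LG F → ∀ m : ℝ, 1 ≤ m →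
    lse (Measure.pi fun _ : ι => gaussianReal 0 1) 0 F
        - lse (Measure.pi fun _ : ι => gaussianReal 0 1) (-m) F
      ≤ C * m * (1 + variance F (Measure.pi fun _ : ι => gaussianReal 0 1))

/-- The model of the statement inside the cascade calculus. -/
def S_link : Prop := ∀ (n : ℕ) (β : ℝ), 1 ≤ n →
  ConvexOn ℝ Set.univ (P146.freeEnergy n β) ∧ LG (P146.freeEnergy n β) ∧
  ∀ (L : ℕ) (ζ : ℕ → ℝ), ZN L ζ → Vl ζ L (gt (Fin n) β 1) 0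
    = lse (P146.disorder n) (ζ L) (P146.freeEnergy n β) - n * Real.log 2 + β ^ 2 * ζ L / 4

/-- The lower bound. -/
def S_lower : Prop := ∀ β : ℝ, 1 < β → ∃ c : ℝ, 0 < c ∧ ∃ n0 : ℕ, ∀ n : ℕ, n0 ≤ n →
  c * (n : ℝ) ^ (1 / 1000 : ℝ) ≤ variance (P146.freeEnergy n β) (P146.disorder n)

end Vale.Agent.P146L
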