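import Vale.Agent.P146L.RSys
import Vale.Agent.P146L.RRs
import Vale.Agent.P146L.RStein
import Vale.Agent.P146L.RAlg
import Vale.Agent.P146L.Stm

/-! # P146, lower bound: the resolvent bound -/

namespace Vale.Agent.P146L

open MeasureTheory Vale.Agent.P157 Finset

set_option linter.unusedSectionVars false

section sys
variable {S : Type} [Fintype S] [DecidableEq S] [Nonempty S] {L : ℕ} {ζ q : ℕ → ℝ} (h : ZN L ζ)
  {γ b κ : ℝ} (x : ℕ → S → ℝ) {z : ℂ} (hκ : 0 < κ) (hz : κ⁻¹ ≤ z.im)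
include h hκ hz

theorem be_T (g : S → S → ℝ) (k : ℕ) : BE fun w => Tp (Yk (Rs z (Jm b w))) (Q2 ζ L g x w k) := by
  have hz0 : 0 < z.im := (inv_pos.2 hκ).trans_le hz
  simp only [Tp, Yk, div_eq_mul_inv]
  exact BE.sum _ fun y _ => BE.sum _ fun y' _ => (be_q2 h g x k y y').ofReal.mul
    ((BE.sum _ fun j _ => BE.sum _ fun l _ => (be_G rsd hz0 b j l).mul (BE.const _)).mul
      (BE.const _))

theorem norm_T (g : S → S → ℝ) {k : ℕ} (hk : k ≤ L) (w : Cs S → ℝ) :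
    ‖Tp (Yk (Rs z (Jm b w))) (Q2 ζ L g x w k)‖ ≤ κ :=
  norm_Tp_le (norm_Yk_le (gk_rs rs (jm_symm b w) hκ hz)) ((q_rep h g x w).n2 hk) (q_tot h g x w k hk)

theorem e_bound (hq : QP L q) (hb : 0 < b) (hγ0 : 0 ≤ γ) (hγ : 2 * γ * Fintype.card S = b ^ 2)
    {y : ℂ} (hy : z - y⁻¹ = y) {lam : ℝ} (hl : 0 < lam) {k : ℕ} (hk : k < L) :
    ‖y * (∫ w, Tp (Yk (Rs z (Jm b w))) (Q2 ζ L (fun _ _ => γ) x w k) ∂rootM ζ L (fun _ _ => γ) x)
      - q k - b * up ζ q L (fun l => ∫ w, Tp (Yk (Rs z (Jm b w))) (Q2 ζ L (fun _ _ => γ) x w l)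
        ∂rootM ζ L (fun _ _ => γ) x) k‖
      ≤ κ ^ 2 / √(Fintype.card S : ℝ) + κ * ∫ w, ‖st z b w - y⁻¹‖ ∂rootM ζ L (fun _ _ => γ) x
        + b * κ * (lam / 2 + (1 / (2 * lam) + 1) * QQ ζ (rem ζ L (fun _ _ => γ) x q) L)
        + (1 + 4 * b * κ) * ∫ w, ra ov (Q2 ζ L (fun _ _ => γ) x w k) (q k)
          ∂rootM ζ L (fun _ _ => γ) x := by
  have hS := st_root h x stein hγ0
  generalize (fun _ _ => γ : S → S → ℝ) = g at hS ⊢
  have := hS.prob
  have hn := card_pos' (S := S)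
  have hn' := card_ne' (S := S)
  have hz0 : 0 < z.im := (inv_pos.2 hκ).trans_le hz
  have gk := fun w : Cs S → ℝ => gk_rs rs (jm_symm b w) hκ hz
  have rp := q_rep h g x
  have hD := d1_N h g x hk.le
  have k1 := eqn rs rsd hκ hz hS hb hγ hD
    (fun i j => funext fun w => by simp only [mul_comm (sp _ i)]) hy
    (fun w => trace_GN (gk w).symm _) (norm_T h x hκ hz g hk.le) fun w => by
      refine (fro_N_le ((rp w).n2 hk.le) (q_marg h g x w hk.le) (q_marg' h g x w hk.le)).trans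
        (mul_le_of_le_one_right (by positivity) ?_)
      rw [← q2_top h]
      exact rb_le_one ((rp w).n2 le_rfl) (q_tot h g x w L le_rfl)
  have bm := be_main (b := b) rsd hz0 hS hD
  have bT := be_T (b := b) h x hκ hz g
  have bN := be_trace fun i j => (hD i j i j).b0
  simp only [mg_eq h, main_eq, trace_N] at k1 bm bN
  obtain ⟨m, hm⟩ : ∃ m : (Cs S → ℝ) → ℂ, ∀ w, (Xi ov (Yk (Rs z (Jm b w))) fun y y' u =>
    Om ζ (Q3 ζ L g x w) k L y y' u + ζ L * (Q2 ζ L g x w k y y' * Q1 ζ L g x w u)) = m w :=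
    ⟨_, fun _ => rfl⟩
  obtain ⟨c, hc⟩ : ∃ c : (Cs S → ℝ) → ℝ, ∀ w, ∑ y, ∑ y', Q2 ζ L g x w k y y' * ov y y' = c w :=
    ⟨_, fun _ => rfl⟩
  have n1 : ∀ w, ‖m w - up ζ q L (fun l => Tp (Yk (Rs z (Jm b w))) (Q2 ζ L g x w l)) k‖
      ≤ κ * (4 * ra ov (Q2 ζ L g x w k) (q k) + lam / 2
        + (1 / (2 * lam) + 1) * QQ ζ (fun l => rb ov (Q2 ζ L g x w l) (q l)) L) := fun w => by
    have := contr (R := ov) h hq.root (rp w) (q_tot h g x w) (norm_Yk_le (gk w)) hκ.le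
      (by rw [hq.top]; exact ra_zero g x w) hl hk (by
        rw [q3_top h, q2_top h, hq.root]
        exact root_le (gk w) ((rp w).n2 hk.le) (fun _ => p1_nonneg _ _ _) (q_marg h g x w hk.le)
          (q_marg' h g x w hk.le))
    rwa [q3_top h, hm] at this
  have n2 : ∀ w, |c w - q k| ≤ ra ov (Q2 ζ L g x w k) (q k) := fun w => by
    rw [← hc]
    exact abs_mean_sub ((rp w).n2 hk.le) (q_tot h g x w k hk.le) _
  simp only [hm, hc] at k1 bm bN
  obtain ⟨T, hT⟩ : ∃ T : (Cs S → ℝ) → ℕ → ℂ, ∀ w l,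
    Tp (Yk (Rs z (Jm b w))) (Q2 ζ L g x w l) = T w l := ⟨_, fun _ _ => rfl⟩
  simp only [hT] at k1 bT n1 ⊢
  obtain ⟨iu, eu⟩ := lin_up ζ q L k _ (rootM ζ L g x) T fun l => (bT l).integrable _
  beta_reduce at iu eu
  have bc : BE fun w => (c w : ℂ) := by
    simpa only [inv_mul_cancel_left₀ hn'] using (BE.const (Fintype.card S : ℂ)⁻¹).mul bN
  have bm' : BE m := by
    have h2 : (Fintype.card S : ℂ) ^ 2 ≠ 0 := pow_ne_zero 2 hn'
    rw [show m = _ from funext fun w => (inv_mul_cancel_left₀ h2 (m w)).symm]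
    exact (BE.const ((Fintype.card S : ℂ) ^ 2)⁻¹).mul bm
  have i1 : Integrable (fun w => y * T w k - Fintype.card S * (c w : ℂ) / Fintype.card S
      - b / Fintype.card S ^ 2 * (Fintype.card S ^ 2 * m w)) (rootM ζ L g x) :=
    ((((bT k).integrable _).const_mul _).sub ((bN.integrable _).div_const _)).sub
      ((bm.integrable _).const_mul _)
  have i2 : Integrable (fun w => ((c w : ℂ) - q k) + b * (m w - up ζ q L (T w) k))
      (rootM ζ L g x) :=
    ((bc.integrable _).sub (integrable_const _)).add (((bm'.integrable _).sub iu).const_mul _)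
  have e : y * (∫ w, T w k ∂rootM ζ L g x) - q k
      - b * up ζ q L (fun l => ∫ w, T w l ∂rootM ζ L g x) k
      = ∫ w, (y * T w k - Fintype.card S * (c w : ℂ) / Fintype.card S
          - b / Fintype.card S ^ 2 * (Fintype.card S ^ 2 * m w)) ∂rootM ζ L g x
        + ∫ w, (((c w : ℂ) - q k) + b * (m w - up ζ q L (T w) k)) ∂rootM ζ L g x := by
    rw [← integral_add i1 i2, ← eu, ← integral_const_mul, ← integral_const_mul,
      show (q k : ℂ) = ∫ _, (q k : ℂ) ∂rootM ζ L g x by simp,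
      ← integral_sub (((bT k).integrable _).const_mul _) (integrable_const _),
      ← integral_sub (by exact (((bT k).integrable _).const_mul _).sub (integrable_const _))
        (iu.const_mul _)]
    refine integral_congr_ae (ae_of_all _ fun w => ?_)
    simp only [integral_const, probReal_univ, one_smul]
    field_simp
    ring
  have ia := (be_ra h g x (q k) k).integrable (rootM ζ L g x)
  have ib : ∀ l, Integrable (fun w => (ζ l - ζ (l + 1)) * rb ov (Q2 ζ L g x w (l + 1)) (q (l + 1)))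
      (rootM ζ L g x) := fun l => ((be_rb h g x _ _).integrable _).const_mul _
  have iq : Integrable (fun w => QQ ζ (fun l => rb ov (Q2 ζ L g x w l) (q l)) L) (rootM ζ L g x) :=
    integrable_finsetSum _ fun l _ => ib l
  have eq : ∫ w, QQ ζ (fun l => rb ov (Q2 ζ L g x w l) (q l)) L ∂rootM ζ L g x
      = QQ ζ (rem ζ L g x q) L := by
    unfold QQ
    rw [integral_finsetSum _ fun l _ => ib l]
    exact sum_congr rfl fun l hl => by
      rw [integral_const_mul, rem_eq h g x q l.succ_ne_zero (mem_range.1 hl)]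
  rw [e, add_assoc]
  refine (norm_add_le _ _).trans (add_le_add k1 ((norm_integral_le_of_norm_le
    ((((integrable_const (lam / 2)).add (iq.const_mul (1 / (2 * lam) + 1))).const_mul (b * κ)).add
      (ia.const_mul (1 + 4 * b * κ))) (ae_of_all _ fun w => ?_)).trans (le_of_eq ?_)))
  · refine (norm_add_le _ _).trans ?_
    rw [← Complex.ofReal_sub, norm_mul, Complex.norm_real, Complex.norm_real,
      Real.norm_of_nonneg hb.le]
    refine (add_le_add (n2 w) (mul_le_mul_of_nonneg_left (n1 w) hb.le)).trans (le_of_eq ?_)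
    simp only [Pi.add_apply]
    ring
  · rw [integral_add' (((integrable_const _).add (iq.const_mul _)).const_mul _) (ia.const_mul _),
      integral_const_mul, integral_const_mul,
      integral_add' (integrable_const _) (iq.const_mul _), integral_const_mul, eq]
    simp

omit hκ hz in
theorem wsum_int (g : S → S → ℝ) {lam : ℝ} (hl : 0 < lam) {d : ℕ} (hd : d < L) :
    ∑ l ∈ range d, (ζ l - ζ (l + 1)) * ∫ w, ra ov (Q2 ζ L g x w (l + 1)) (q (l + 1)) ∂rootM ζ L g x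
      ≤ QQ ζ (rem ζ L g x q) L / (2 * lam) + lam / 2 := by
  have := h.prob_rootM g x
  have k1 : ∀ l ∈ range d, (ζ l - ζ (l + 1))
      * ∫ w, ra ov (Q2 ζ L g x w (l + 1)) (q (l + 1)) ∂rootM ζ L g x
      ≤ (ζ l - ζ (l + 1)) * (rem ζ L g x q (l + 1) / (2 * lam) + lam / 2) := fun l hl' => by
    have hl1 : l + 1 ≤ L := (mem_range.1 hl').trans hd
    have ib := ((be_rb h g x (q (l + 1)) (l + 1)).integrable (rootM ζ L g x)).div_const (2 * lam)
    refine mul_le_mul_of_nonneg_left ((integral_mono ((be_ra h g x _ _).integrable _)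
      (ib.add (integrable_const (lam / 2))) fun w => ra_le ((q_rep h g x w).n2 hl1)
        (q_tot h g x w _ hl1) _ hl).trans (le_of_eq ?_)) (h.delta_nonneg hl1)
    rw [integral_add' ib (integrable_const _), integral_div, rem_eq h g x q l.succ_ne_zero hl1]
    simp
  refine (sum_le_sum k1).trans ?_
  have k2 : QQ ζ (rem ζ L g x q) d / (2 * lam) ≤ QQ ζ (rem ζ L g x q) L / (2 * lam) :=
    div_le_div_of_nonneg_right (QQ_mono h (fun l hl => h.rem_nonneg g x q (by omega)) hd.le le_rfl)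
      (by positivity)
  refine le_trans ?_ (add_le_add k2 le_rfl)
  simp only [mul_add, sum_add_distrib, ← sum_mul, h.sum_delta, QQ, sum_div, mul_div_assoc]
  nlinarith [h.nn d hd]

/-- Cauchy-Schwarz and the Ward identity. -/
theorem cs_bound (hq : QP L q) (g : S → S → ℝ) {θ : ℝ} (hθ : 0 < θ) {y : ℂ} {δ : ℝ}
    (hy : -(y⁻¹).im ≤ δ) :
    ‖∫ w, Tp (Yk (Rs z (Jm b w))) (Q2 ζ L g x w 0) ∂rootM ζ L g x‖
      ≤ θ / 2 * (κ * (δ + ∫ w, ‖st z b w - y⁻¹‖ ∂rootM ζ L g x))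
        + Fintype.card S * rem ζ L g x q L / (2 * θ) := by
  have := h.prob_rootM g x
  have hn := card_pos' (S := S)
  have hz0 : 0 < z.im := (inv_pos.2 hκ).trans_le hz
  have i1 := ((be_st (S := S) rsd hz0 b).sub (BE.const y⁻¹)).norm.integrable (rootM ζ L g x)
  have i2 := (be_rb h g x (q L) L).integrable (rootM ζ L g x)
  refine (norm_integral_le_of_norm_le (((((integrable_const δ).add i1).const_mul κ).const_mul
    (θ / 2)).add ((i2.const_mul (Fintype.card S)).div_const (2 * θ)))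
    (ae_of_all _ fun w => ?_)).trans (le_of_eq ?_)
  · have gk := gk_rs rs (jm_symm b w) hκ hz
    have f1 := fro_N_le ((q_rep h g x w).n2 (Nat.zero_le L)) (q_marg h g x w (Nat.zero_le L))
      (q_marg' h g x w (Nat.zero_le L))
    rw [← q2_top h, ← hq.root] at f1
    have f2 : fro (Rs z (Jm b w)) ≤ Fintype.card S * (κ * (δ + ‖st z b w - y⁻¹‖)) := by
      have w1 := (rs S z (Jm b w) (jm_symm b w) hz0).2.2.2.2
      have w2 : (Rs z (Jm b w)).trace.im = Fintype.card S * (st z b w).im := by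
        rw [st, Complex.div_natCast_im]
        field_simp
      have w3 : -(st z b w - y⁻¹).im ≤ ‖st z b w - y⁻¹‖ :=
        (neg_le_abs _).trans (Complex.abs_im_le_norm _)
      rw [Complex.sub_im] at w3
      have w4 := mul_le_mul_of_nonneg_right hz (fro_nonneg (Rs z (Jm b w)))
      rw [inv_mul_le_iff₀ hκ, w1, w2] at w4
      nlinarith [mul_pos hn hκ]
    have f3 : ‖(Rs z (Jm b w) * Nmat (Q2 ζ L g x w 0)).trace‖
        ≤ θ / 2 * fro (Rs z (Jm b w)) + fro (Nmat (Q2 ζ L g x w 0)) / (2 * θ) := by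
      rw [← fro_transpose (Nmat _)]
      simp only [Matrix.trace, Matrix.diag, Matrix.mul_apply, fro, mul_sum, sum_div,
        ← sum_add_distrib, Matrix.transpose_apply]
      refine (norm_sum_le _ _).trans (sum_le_sum fun i _ => (norm_sum_le _ _).trans
        (sum_le_sum fun j _ => ?_))
      rw [norm_mul, ← sub_le_iff_le_add', le_div_iff₀ (by positivity)]
      nlinarith [sq_nonneg (θ * ‖Rs z (Jm b w) i j‖ - ‖Nmat (Q2 ζ L g x w 0) j i‖)]
    rw [trace_GN gk.symm, norm_mul, Complex.norm_natCast] at f3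
    refine le_of_mul_le_mul_left (f3.trans ((add_le_add (mul_le_mul_of_nonneg_left f2
      (by positivity)) (div_le_div_of_nonneg_right f1 (by positivity))).trans (le_of_eq ?_))) hn
    simp only [Pi.add_apply]
    ring
  · rw [integral_add' ((((integrable_const δ).add i1).const_mul κ).const_mul _)
      ((i2.const_mul _).div_const _), integral_const_mul, integral_const_mul,
      integral_add' (integrable_const _) i1, integral_div, integral_const_mul,
      rem_eq h g x q (by have := h.one; omega) le_rfl]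
    simp

end sys

theorem num1 {β b δ a σ lam n : ℝ} (hb0 : 0 < b) (hbβ : b ≤ β) (hδ : 0 < δ) (hδ2 : δ ^ 2 ≤ 1)
    (hn : 0 < n) (ha : 0 ≤ a) (h1 : (1 + a) / (n * δ ^ 5) ≤ lam)
    (s1 : δ * σ ≤ (5 * (δ ^ 2)⁻¹ ^ 2 + a * b * (δ ^ 2)⁻¹) / n) : σ ≤ (5 + β) * lam := by
  have hβ : 0 < β := hb0.trans_le hbβ
  refine le_of_mul_le_mul_left (s1.trans ?_) hδ
  refine le_trans ?_ (mul_le_mul_of_nonneg_left (mul_le_mul_of_nonneg_left h1 (by positivity)) hδ.le)
  field_simp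
  have := mul_le_mul hδ2 hbβ hb0.le zero_le_one
  nlinarith [mul_le_mul_of_nonneg_left this ha]

theorem num2 {β δ s : ℝ} (hβ : 0 < β) (hδ : 0 < δ) (hδ4 : δ ≤ 1 / 4) (hs1 : s ≤ 1) :
    (5 + β) * (s * δ ^ 2 / (3000000 * (1 + β) ^ 2)) ≤ δ := by
  rw [← mul_div_assoc, div_le_iff₀ (by positivity)]
  have : s * δ ^ 2 ≤ δ := by nlinarith
  nlinarith [mul_le_mul_of_nonneg_left this (show 0 ≤ 5 + β by positivity), mul_pos hδ hβ,
    mul_pos hδ (mul_pos hβ hβ)]

theorem num3 {β b δ s : ℝ} (hβ : 0 < β) (hbβ : b ≤ β) (hδ : 0 < δ) (hs : 0 < s) :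
    (1 + b) * (13 * (1 + β) * (δ ^ 2)⁻¹ * (s * δ ^ 2 / (3000000 * (1 + β) ^ 2))) / δ ^ 2
      ≤ s / (1200 * δ ^ 2) := by
  refine (div_le_div_of_nonneg_right (mul_le_mul_of_nonneg_right (add_le_add le_rfl hbβ)
    (by positivity)) (by positivity)).trans ?_
  field_simp
  norm_num

theorem num4 {δ s σ t e B : ℝ} (hδ : 0 < δ) (hs : 0 < s) (u6 : σ ≤ δ)
    (key : s / (600 * δ ^ 2) ≤ t + e) (u5 : e ≤ s / (1200 * δ ^ 2))
    (cb : t ≤ s / (2400 * δ) / 2 * ((δ ^ 2)⁻¹ * (δ + σ)) + B / (2 * (s / (2400 * δ)))) :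
    s ^ 2 ≤ 3000000 * δ ^ 3 * B := by
  have u7 : s / (2400 * δ) / 2 * ((δ ^ 2)⁻¹ * (δ + σ)) ≤ s / (2400 * δ ^ 2) := by
    refine (mul_le_mul_of_nonneg_left (mul_le_mul_of_nonneg_left (add_le_add le_rfl u6)
      (by positivity)) (by positivity)).trans (le_of_eq ?_)
    field_simp
    ring
  have u8 : s / (2400 * δ ^ 2) ≤ B / (2 * (s / (2400 * δ))) := by
    have e : s / (600 * δ ^ 2) = s / (1200 * δ ^ 2) + s / (2400 * δ ^ 2) + s / (2400 * δ ^ 2) := by
      field_simp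
      ring
    linarith
  rw [div_le_div_iff₀ (by positivity) (by positivity)] at u8
  have u9 : s ^ 2 ≤ 2880000 * δ ^ 3 * B := by
    have e : s * (2 * (s / (2400 * δ))) = s ^ 2 / (1200 * δ) := by field_simp; ring
    rw [e, div_le_iff₀ (by positivity)] at u8
    linarith
  have u10 : 0 ≤ δ ^ 3 * B := by nlinarith [sq_nonneg s]
  linarith

theorem num5 {β b κ lam σ R A e c : ℝ} (hb0 : 0 < b) (hbβ : b ≤ β) (hκ1 : 1 ≤ κ) (hl : 0 < lam)
    (R0 : 0 ≤ R) (A0 : 0 ≤ A) (u0 : R ≤ lam) (u1 : R / (2 * lam) ≤ lam / 2) (u2 : c ≤ κ * lam)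
    (u3 : σ ≤ (5 + β) * lam)
    (eb : e ≤ c + κ * σ + b * κ * (lam / 2 + (1 / (2 * lam) + 1) * R) + (1 + 4 * b * κ) * A) :
    e ≤ (6 + 3 * β) * κ * lam + (1 + 4 * β) * κ * A := by
  have hκ0 : 0 < κ := by linarith
  have hβ : 0 < β := hb0.trans_le hbβ
  have v1 : lam / 2 + (1 / (2 * lam) + 1) * R ≤ 2 * lam := by
    rw [add_mul, one_div_mul_eq_div]; linarith
  have v2 := mul_le_mul (mul_le_mul_of_nonneg_right hbβ hκ0.le) v1 (by positivity)
    (by positivity)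
  have v3 := mul_le_mul_of_nonneg_left u3 hκ0.le
  have v4 : (1 + 4 * b * κ) * A ≤ (1 + 4 * β) * κ * A :=
    mul_le_mul_of_nonneg_right (by nlinarith) A0
  linarith

theorem res_num {L : ℕ} {ζ q : ℕ → ℝ} {β b δ s μ0 κ lam σ R B n : ℝ} {T : ℕ → ℂ} {A : ℕ → ℝ}
    (h : ZN L ζ) (hq : QP L q) (hβ : 0 < β) (hb0 : 0 < b) (hbβ : b ≤ β) (hδ : 0 < δ)
    (hδ4 : δ ≤ 1 / 4) (hs : 0 < s) (hs1 : s ≤ 1) (hμ : 0 ≤ μ0) (hn : 0 < n)
    (c1 : 1 - 2 * δ ≤ b * csDelta ζ q L) (c2 : b * csDelta ζ q L ≤ 1 + δ / 2)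
    (c3 : ∀ d, d < L → q (d + 1) < q d → q (d + 1) < s → ζ d ≤ μ0) (c4 : β * μ0 * s ≤ δ)
    (hκ : κ = (δ ^ 2)⁻¹) (hlam : lam = s * δ ^ 2 / (3000000 * (1 + β) ^ 2)) (R0 : 0 ≤ R)
    (hsm : √R + R + (1 + |ζ L|) / (n * δ ^ 5) + 1 / (√n * δ ^ 2) ≤ lam)
    (s1 : δ * σ ≤ (5 * κ ^ 2 + |ζ L| * b * κ) / n)
    (eb : ∀ k, k < L → ‖yy δ * T k - q k - b * up ζ q L T k‖ ≤ κ ^ 2 / √n
      + κ * σ + b * κ * (lam / 2 + (1 / (2 * lam) + 1) * R) + (1 + 4 * b * κ) * A k)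
    (ws : ∀ d, d < L → ∑ l ∈ range d, (ζ l - ζ (l + 1)) * A (l + 1) ≤ R / (2 * lam) + lam / 2)
    (a0 : A 0 = 0) (A0 : ∀ k, k < L → 0 ≤ A k)
    (cb : ‖T 0‖ ≤ s / (2400 * δ) / 2 * (κ * (δ + σ)) + B / (2 * (s / (2400 * δ)))) :
    s ^ 2 ≤ 3000000 * δ ^ 3 * B := by
  have hδ2 : δ ^ 2 ≤ 1 := pow_le_one₀ hδ.le (by linarith)
  have hκ1 : 1 ≤ κ := by rw [hκ]; exact (one_le_inv₀ (by positivity)).2 hδ2
  have hκ0 : 0 < κ := by linarith
  have hl : 0 < lam := by rw [hlam]; positivity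
  have t1 : 0 ≤ (1 + |ζ L|) / (n * δ ^ 5) := by positivity
  have t2 : 0 ≤ 1 / (√n * δ ^ 2) := by positivity
  have t3 := Real.sqrt_nonneg R
  have u1 : R / (2 * lam) ≤ lam / 2 := by
    rw [div_le_iff₀ (by positivity)]
    have := pow_le_pow_left₀ t3 (show √R ≤ lam by linarith) 2
    rw [Real.sq_sqrt R0] at this
    linarith
  have u2 : κ ^ 2 / √n ≤ κ * lam := by
    rw [show κ ^ 2 / √n = κ * (1 / (√n * δ ^ 2)) by rw [hκ]; field_simp]
    exact mul_le_mul_of_nonneg_left (by linarith) hκ0.le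
  have u3 : σ ≤ (5 + β) * lam :=
    num1 hb0 hbβ hδ hδ2 hn (abs_nonneg (ζ L)) (by linarith) (by rwa [hκ] at s1)
  have u4 := fun k (hk : k < L) => num5 hb0 hbβ hκ1 hl R0 (A0 k hk) (by linarith) u1 u2 u3 (eb k hk)
  have key := alg L ζ q b δ s μ0 (13 * (1 + β) * κ * lam) T
    (fun k => yy δ * T k - q k - b * up ζ q L T k) h hq hb0.le hδ hδ4 hs hs1 hμ c1 c2 c3
    ((mul_le_mul_of_nonneg_right (mul_le_mul_of_nonneg_right hbβ hμ) hs.le).trans c4)
    (fun k _ => by ring) fun d hd => by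
      have v1 := sum_le_sum fun l (hl : l ∈ range d) => mul_le_mul_of_nonneg_left
        (u4 (l + 1) (by have := mem_range.1 hl; omega))
        (h.delta_nonneg ((mem_range.1 hl).trans hd))
      have v2 := u4 0 h.one
      simp only [mul_add, sum_add_distrib, ← sum_mul, h.sum_delta,
        mul_left_comm _ ((1 + 4 * β) * κ), ← mul_sum] at v1
      have v3 := mul_le_mul_of_nonneg_left ((ws d hd).trans (add_le_add u1 le_rfl))
        (show 0 ≤ (1 + 4 * β) * κ by positivity)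
      have v4 := mul_nonneg (h.nn d hd) (show 0 ≤ (6 + 3 * β) * κ * lam by positivity)
      have v5 := mul_nonneg hβ.le (mul_pos hκ0 hl).le
      rw [a0] at v2
      linarith
  subst hκ hlam
  exact num4 hδ hs (u3.trans (num2 hβ hδ hδ4 hs1)) key (num3 hβ hbβ hδ hs) cb

theorem res : S_res := by
  refine ⟨3000000, by norm_num, fun S _ _ _ L ζ q β t δ s μ0 h _ hq hβ ht ht1 hδ hδ4 hs hs1 hμ
    c1 c2 c3 c4 hsm => ?_⟩
  have hn := card_pos' (S := S)
  obtain ⟨z1, z2, z3, z4, z5⟩ := zz_facts δ hδ hδ4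
  obtain ⟨b, hb⟩ : ∃ b, β * √t = b := ⟨_, rfl⟩
  have hb0 : 0 < b := by rw [← hb]; exact mul_pos hβ (Real.sqrt_pos.2 ht)
  have hbβ : b ≤ β := by
    rw [← hb]; exact mul_le_of_le_one_right hβ.le (Real.sqrt_le_one.2 ht1)
  obtain ⟨γ, hγ⟩ : ∃ γ, t * β ^ 2 / (2 * Fintype.card S) = γ := ⟨_, rfl⟩
  have hγ0 : 0 ≤ γ := by rw [← hγ]; positivity
  have hγb : 2 * γ * Fintype.card S = b ^ 2 := by
    rw [← hγ, ← hb, mul_pow, Real.sq_sqrt ht.le]; field_simp
  have eg : gt S β t = fun _ _ => γ := by rw [← hγ]; rfl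
  rw [eg] at hsm ⊢
  rw [hb] at c1 c2
  generalize xt S β q t = x at hsm ⊢
  obtain ⟨κ, hκ⟩ : ∃ κ : ℝ, κ = (δ ^ 2)⁻¹ := ⟨_, rfl⟩
  have hδ2 : δ ^ 2 ≤ 1 := by nlinarith
  have hκ1 : 1 ≤ κ := by rw [hκ]; exact (one_le_inv₀ (by positivity)).2 hδ2
  have hκ0 : 0 < κ := by linarith
  have hz : κ⁻¹ ≤ (zz δ).im := by rwa [hκ, inv_inv]
  have hz0 : 0 < (zz δ).im := (inv_pos.2 hκ0).trans_le hz
  have hS := st_root h x stein hγ0
  have := hS.prob
  have sm := semi rs rsd hκ1 hz z2 hS hb0 hγb fun w => by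
    have e := trace_GN (gk_rs rs (jm_symm b w) hκ0 hz).symm (Q2 ζ L (fun _ _ => γ) x w 0)
    have e2 := norm_T (b := b) h x hκ0 hz (fun _ _ => γ) (Nat.zero_le L) w
    have e3 : ∑ i, ∑ j, Rs (zz δ) (Jm b w) j i * (Mg ζ L (fun _ _ => γ) x i j L w : ℂ)
        = (Rs (zz δ) (Jm b w) * Nmat (Q2 ζ L (fun _ _ => γ) x w 0)).trace := by
      rw [sum_comm]
      simp only [Matrix.trace, Matrix.diag, Matrix.mul_apply, q2_zero, Nmat_diag, mg_eq h,
        mul_comm (sp _ _) (sp _ _)]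
    rw [e3, e, norm_mul, Complex.norm_natCast, mul_comm]
    exact mul_le_mul_of_nonneg_right e2 hn.le
  have bs := be_st (S := S) rsd hz0 b
  have s1 : ∫ w, δ * ‖st (zz δ) b w - (yy δ)⁻¹‖ ∂rootM ζ L (fun _ _ => γ) x
      ≤ ∫ w, ‖st (zz δ) b w ^ 2 - zz δ * st (zz δ) b w + 1‖ ∂rootM ζ L (fun _ _ => γ) x :=
    integral_mono (((bs.sub (BE.const _)).norm.integrable _).const_mul _) (by
      simpa only [sq] using (((bs.mul bs).sub ((BE.const _).mul bs)).add
        (BE.const 1)).norm.integrable _) fun w => z5 _ (by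
      have w1 := (rs S (zz δ) (Jm b w) (jm_symm b w) hz0).2.2.2.2
      have w2 := mul_nonneg hz0.le (fro_nonneg (Rs (zz δ) (Jm b w)))
      rw [st, Complex.div_natCast_im]
      exact div_nonpos_of_nonpos_of_nonneg (by linarith) hn.le)
  rw [integral_const_mul] at s1
  obtain ⟨lam, hlam⟩ : ∃ lam, lam = s * δ ^ 2 / (3000000 * (1 + β) ^ 2) := ⟨_, rfl⟩
  have hl : 0 < lam := by rw [hlam]; positivity
  have eb := fun k (hk : k < L) => e_bound h x hκ0 hz hq hb0 hγ0 hγb z4 hl hk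
  have ws := fun d (hd : d < L) => wsum_int (q := q) h x (fun _ _ => γ) hl hd
  have cb := cs_bound (b := b) h x hκ0 hz hq (fun _ _ => γ) (θ := s / (2400 * δ)) (by positivity) z3
  have a0 : ∫ w, ra ov (Q2 ζ L (fun _ _ => γ) x w 0) (q 0) ∂rootM ζ L (fun _ _ => γ) x = 0 := by
    simp only [hq.top, ra_zero, integral_zero]
  have R0 : 0 ≤ QQ ζ (rem ζ L (fun _ _ => γ) x q) L :=
    QQ_mono h (fun l hl => h.rem_nonneg _ x q (by omega)) (Nat.zero_le L) le_rfl
  rw [mul_comm, ← le_div_iff₀ (by positivity), ← hlam] at hsm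
  exact res_num (T := fun l => ∫ w, Tp (Yk (Rs (zz δ) (Jm b w)))
    (Q2 ζ L (fun _ _ => γ) x w l) ∂rootM ζ L (fun _ _ => γ) x)
    (A := fun l => ∫ w, ra ov (Q2 ζ L (fun _ _ => γ) x w l) (q l) ∂rootM ζ L (fun _ _ => γ) x)
    h hq hβ hb0 hbβ hδ hδ4 hs hs1 hμ hn c1 c2 c3 c4 hκ hlam R0 hsm (s1.trans sm) eb ws a0
    (fun k hk => integral_nonneg fun w => ra_nonneg ((q_rep h _ x w).n2 hk.le) _) cb

end Vale.Agent.P146L
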