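import Vale.Agent.P146L.Stm2

/-! # P146, lower bound: the cavity step for good perturbation parameters -/

namespace Vale.Agent.P146L

open MeasureTheory ProbabilityTheory Vale.Agent.P157

namespace StepAux

theorem num1 {R N b : ℝ} (hR : 2 ≤ R) (hN : R ^ 26 ≤ N) (hb : 0 ≤ b) :
    (R ^ 3 * N * (1 / R ^ 8) ^ 2 + 2 * (2 * b + 1) + Real.log 2 / (1 / R ^ 13)
      + 2 * (1 / R ^ 13) * ((2 * b + 8) * N)) / (1 / R ^ 8) ≤ (20 + 8 * b) * N / R ^ 5 := by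
  have h0 : 0 < R := by linarith
  have h1 : R ^ 21 ≤ N / R ^ 5 := by
    rw [le_div_iff₀ (by positivity), ← pow_add]
    exact hN
  have h2 : R ^ 8 ≤ R ^ 21 := pow_le_pow_right₀ (by linarith) (by norm_num)
  have h3 : Real.log 2 ≤ 1 := by linarith [Real.log_le_sub_one_of_pos (x := 2) (by norm_num)]
  have h4 : Real.log 2 * R ^ 21 ≤ R ^ 21 := mul_le_of_le_one_left (by positivity) h3
  have e : (R ^ 3 * N * (1 / R ^ 8) ^ 2 + 2 * (2 * b + 1) + Real.log 2 / (1 / R ^ 13)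
      + 2 * (1 / R ^ 13) * ((2 * b + 8) * N)) / (1 / R ^ 8)
      = (17 + 4 * b) * (N / R ^ 5) + (4 * b + 2) * R ^ 8 + Real.log 2 * R ^ 21 := by
    field_simp
    ring
  have h5 := mul_le_mul_of_nonneg_left (h2.trans h1) (show 0 ≤ 4 * b + 2 by positivity)
  rw [e, mul_div_assoc]
  linarith

theorem num2 {R N c : ℝ} (hR : 2 ≤ R) (hN : R ^ 26 ≤ N) :
    6 * (1 / R) * N + √N / (1 / R ^ 2) / (1 / R ^ 2) / (1 / R)
      + 4 * (c * N / R ^ 5) / (1 / R ^ 2 * (1 / R ^ 2)) ≤ (7 + 4 * c) / R * N := by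
  have h0 : 0 < R := by linarith
  have hN0 : 0 ≤ N := le_trans (by positivity) hN
  have h1 : R ^ 13 ≤ √N := Real.le_sqrt_of_sq_le (by rw [← pow_mul]; exact hN)
  have h2 : R ^ 6 ≤ R ^ 13 := pow_le_pow_right₀ (by linarith) (by norm_num)
  have h3 : √N * R ^ 5 ≤ N / R := by
    rw [le_div_iff₀ h0, mul_assoc, ← pow_succ]
    exact (mul_le_mul_of_nonneg_left (h2.trans h1) (Real.sqrt_nonneg N)).trans
      (Real.mul_self_sqrt hN0).le
  have e1 : 6 * (1 / R) * N + √N / (1 / R ^ 2) / (1 / R ^ 2) / (1 / R)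
      + 4 * (c * N / R ^ 5) / (1 / R ^ 2 * (1 / R ^ 2))
      = (6 + 4 * c) * (N / R) + √N * R ^ 5 := by
    field_simp
    ring
  have e2 : (7 + 4 * c) / R * N = (6 + 4 * c) * (N / R) + N / R := by ring
  rw [e1, e2]
  linarith

theorem num3 {R M : ℝ} (hR : 2 ≤ R) (hM : 0 ≤ M) : M / R ^ 5 / (1 / R ^ 2) ≤ M / R := by
  have h0 : 0 < R := by linarith
  have e : M / R ^ 5 / (1 / R ^ 2) = M / R ^ 3 := by field_simp
  rw [e]
  exact div_le_div_of_nonneg_left hM h0 (le_self_pow₀ (by linarith) (by norm_num))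

theorem cn_app (h1 : S_cn) {S S' : Type} [Fintype S] [Fintype S'] [DecidableEq S'] (e : S ↪ S')
    {r : ℕ} (hr : 2 ≤ r) (hN : r ^ 26 ≤ Fintype.card S) {b : ℝ} (hb : 0 ≤ b)
    {U : (ℕ → ℝ) → ℝ} {θ τ : ℕ → ℝ} (hθ : Box (Finset.Icc 1 (r ^ 2)) (1 / (r : ℝ) ^ 2) θ)
    (hsd : SD U θ τ (1 / (r : ℝ) ^ 8) ((r : ℝ) ^ 3 * Fintype.card S * (1 / (r : ℝ) ^ 8) ^ 2)
      (r ^ 2))
    {g : S' → S' → ℝ} {xs : (ℕ → ℝ) → ℕ → S' → ℝ} (hg : ∀ i j, 0 ≤ g i j) (hx : Fam e xs)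
    (hc : ∀ θ', |Vl (grid (r ^ 2)) (r ^ 2) g (xs θ') - U θ'| ≤ 2 * b + 1)
    (hΛ : ∑ i, ∑ j, g i j + ∑ i, xs θ (r ^ 2) i ≤ (2 * b + 8) * Fintype.card S) :
    (∀ d, 1 ≤ d → d ≤ r ^ 2 → |Fintype.card S - QQ (grid (r ^ 2))
        (fun k => ∑ j, E1 (grid (r ^ 2)) (r ^ 2) g (xs θ) (e j) k) d - τ d / θ d|
        ≤ (20 + 8 * b) * Fintype.card S / r) ∧
    ∀ i : S', ∑ k ∈ Finset.range (r ^ 2), (grid (r ^ 2) k - grid (r ^ 2) (k + 1)) *
        |∑ j, E2 (grid (r ^ 2)) (r ^ 2) g (xs θ) i (e j) (k + 1)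
          - (∑ j, E1 (grid (r ^ 2)) (r ^ 2) g (xs θ) (e j) (k + 1))
            * E1 (grid (r ^ 2)) (r ^ 2) g (xs θ) i (k + 1)|
      ≤ (7 + 4 * (20 + 8 * b)) / r * Fintype.card S := by
  have hR : (2 : ℝ) ≤ r := by exact_mod_cast hr
  have hR0 : (0 : ℝ) < r := by linarith
  have hN' : (r : ℝ) ^ 26 ≤ Fintype.card S := by exact_mod_cast hN
  have hL : 1 ≤ r ^ 2 := Nat.one_le_pow _ _ (by omega)
  have hz := zadm_grid hL
  have hgap : ∀ k, k < r ^ 2 → grid (r ^ 2) k - grid (r ^ 2) (k + 1) = 1 / (r : ℝ) ^ 2 := by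
    intro k hk
    rw [grid_delta hk]
    push_cast
    rfl
  have hlast : grid (r ^ 2) (r ^ 2 - 1) = 1 / (r : ℝ) ^ 2 := by
    rw [← hgap (r ^ 2 - 1) (by omega), hz.zn (r ^ 2 - 1 + 1) (by omega), sub_zero]
  have h := h1 S' S e (r ^ 2) (grid (r ^ 2)) g xs θ τ (1 / (r : ℝ) ^ 8) _ _ (1 / (r : ℝ) ^ 13)
    (1 / (r : ℝ) ^ 2) (1 / r) (1 / (r : ℝ) ^ 2) _ hz hg hx (by positivity) (by positivity)
    (fun d hd1 hd2 => ⟨lt_of_lt_of_le (one_div_lt_one_div_of_lt (by positivity)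
      (pow_lt_pow_right₀ (by linarith) (by norm_num))) (hθ d (Finset.mem_Icc.2 ⟨hd1, hd2⟩)).1,
      (hθ d (Finset.mem_Icc.2 ⟨hd1, hd2⟩)).1⟩)
    (hsd.of_close fun d a _ => hc _) hΛ (by positivity)
    (by
      rw [hlast]
      exact one_div_le_one_div_of_le (by positivity)
        (pow_le_pow_right₀ (by linarith) (by norm_num)))
    (by positivity) ((div_le_one hR0).2 (by linarith)) (by positivity)
    (fun k hk => by rw [hgap k hk, div_pow, one_pow]; exact ⟨le_rfl, le_rfl⟩)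
    (num1 hR hN' hb)
  exact ⟨fun d hd1 hd2 => (h.1 d hd1 hd2).trans (num3 hR (by positivity)),
    fun i => (h.2 i).trans (num2 hR hN')⟩

theorem QQ_div (ζ f : ℕ → ℝ) (N : ℝ) (d : ℕ) : QQ ζ (fun k => f k / N) d = QQ ζ f d / N := by
  simp only [QQ, Finset.sum_div, mul_div_assoc]

/-- The overlap path built from an antitone function with values in `[0, 1]`. -/
noncomputable def qq (L : ℕ) (ρ : ℕ → ℝ) (k : ℕ) : ℝ :=
  if k = 0 then 1 else if k ≤ L then ρ k else 0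

theorem qq_adm {L : ℕ} {ρ : ℕ → ℝ} (h0 : ∀ k, 0 ≤ ρ k) (h1 : ∀ k, ρ k ≤ 1)
    (ha : ∀ k, k + 1 ≤ L → ρ (k + 1) ≤ ρ k) : CAdm L (qq L ρ) := by
  refine ⟨antitone_nat_of_succ_le fun k => ?_, fun d hd => ?_⟩
  · unfold qq
    rw [if_neg (Nat.succ_ne_zero k)]
    split_ifs with h2 h3 h4 h5 h6
    · exact h1 _
    · exact ha k h2
    · omega
    · exact zero_le_one
    · exact h0 _
    · exact le_rfl
  · unfold qq
    rw [if_neg (by omega), if_neg (by omega)]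

theorem QQ_qq (ζ ρ : ℕ → ℝ) {L d : ℕ} (hd : d ≤ L) : QQ ζ (qq L ρ) d = QQ ζ ρ d := by
  refine Finset.sum_congr rfl fun k hk => ?_
  have := Finset.mem_range.1 hk
  unfold qq
  rw [if_neg (by omega), if_pos (by omega)]

theorem eta_le {N a a' t u R : ℝ} (hN : 0 < N) (h : |N - a - t| ≤ u * N / R)
    (h' : |N - a' - t| ≤ u * N / R) : |a / N - a' / N| ≤ 2 * u / R := by
  rw [← sub_div, abs_div, abs_of_pos hN, div_le_iff₀ hN]
  have e : 2 * u / R * N = 2 * (u * N / R) := by ring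
  rw [e]
  rw [abs_le] at *
  constructor <;> linarith [h.1, h.2, h'.1, h'.2]

theorem sum_sq0_le {r : ℕ} (hr : 2 ≤ r) {θ : ℕ → ℝ}
    (hθ : Box (Finset.Icc 1 (r ^ 2)) (1 / (r : ℝ) ^ 2) θ) :
    ∑ d ∈ Finset.range (r ^ 2 + 1), sq0 θ d ≤ 1 := by
  have hR : (2 : ℝ) ≤ r := by exact_mod_cast hr
  rw [CrudeAux.sum_sq0]
  refine (Finset.sum_le_card_nsmul _ _ ((2 * (1 / (r : ℝ) ^ 2)) ^ 2) fun d hd => ?_).trans ?_
  · exact pow_le_pow_left₀ (le_trans (by positivity) (hθ d hd).1) (hθ d hd).2 2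
  · rw [Nat.card_Icc, Nat.add_sub_cancel, nsmul_eq_mul]
    push_cast
    have e : (r : ℝ) ^ 2 * (2 * (1 / (r : ℝ) ^ 2)) ^ 2 = 4 / (r : ℝ) ^ 2 := by
      field_simp
      norm_num
    rw [e, div_le_one (by positivity)]
    nlinarith

theorem xnI_nonneg {L : ℕ} {q : ℕ → ℝ} (hq : CAdm L q) (β : ℝ) (θ : ℕ → ℝ) {t : ℝ}
    (ht : t ∈ Set.Icc (0 : ℝ) 1) (d : ℕ) : 0 ≤ xnI β q θ t d :=
  add_nonneg (mul_nonneg ht.1 (sq0_nonneg θ d))
    (mul_nonneg (sub_nonneg.2 ht.2) (mul_nonneg (sq_nonneg β) (hq.dq_nonneg d)))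

theorem sum_xnI {L : ℕ} {q : ℕ → ℝ} (hq : CAdm L q) (hq0 : q 0 = 1) (β : ℝ) {θ : ℕ → ℝ}
    (hθ : ∑ d ∈ Finset.range (L + 1), sq0 θ d ≤ 1) {t : ℝ} (ht : t ∈ Set.Icc (0 : ℝ) 1) :
    ∑ d ∈ Finset.range (L + 1), xnI β q θ t d ≤ 1 + β ^ 2 := by
  have h1 : ∑ d ∈ Finset.range (L + 1), dq q d = 1 := by
    simp only [dq]
    rw [Finset.sum_range_sub', hq0, hq.zero _ (Nat.lt_succ_self L), sub_zero]
  simp only [xnI, Finset.sum_add_distrib, ← Finset.mul_sum, h1]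
  have h2 := mul_le_mul_of_nonneg_left hθ ht.1
  nlinarith [ht.1, ht.2, sq_nonneg β]

theorem gO_mem (S : Type) [Fintype S] (β : ℝ) {t : ℝ} (ht : t ∈ Set.Icc (0 : ℝ) 1)
    (i j : Option S) : 0 ≤ gO S β t i j ∧ gO S β t i j ≤ β ^ 2 / (2 * (Fintype.card S + 1)) := by
  have h0 : 0 ≤ β ^ 2 / (2 * (Fintype.card S + 1 : ℝ)) := by positivity
  have h1 := And.intro (mul_nonneg ht.1 h0) (mul_le_of_le_one_left h0 ht.2)
  rcases i with _ | i <;> rcases j with _ | j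
  · exact h1
  · exact h1
  · exact h1
  · exact ⟨h0, le_rfl⟩

end StepAux

open StepAux in
theorem step_main (h1 : S_cn) (h2 : S_stepA) (h3 : S_stepB) (h4 : S_close) : S_step := by
  intro β
  refine ⟨β ^ 2 * (4 + 4 * (20 + 8 * β ^ 2)), by positivity, fun r hr S _ _ hN θ hθ hsd => ?_⟩
  have hR : (2 : ℝ) ≤ r := by exact_mod_cast hr
  have hN' : (r : ℝ) ^ 26 ≤ Fintype.card S := by exact_mod_cast hN
  have hNR : (r : ℝ) ≤ Fintype.card S := (le_self_pow₀ (by linarith) (by norm_num)).trans hN'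
  have hN0 : (0 : ℝ) < Fintype.card S := by linarith
  haveI : Nonempty S := Fintype.card_pos_iff.1 (by exact_mod_cast hN0)
  have hL : 1 ≤ r ^ 2 := Nat.one_le_pow _ _ (by omega)
  have hz := zadm_grid hL
  have hb := sq_nonneg β
  obtain ⟨τ, hτ⟩ := sd_of_second (U := VN S β (grid (r ^ 2)) (r ^ 2)) (θ := θ)
    (y := 1 / (r : ℝ) ^ 8) (κ := (r : ℝ) ^ 3 * Fintype.card S * (1 / (r : ℝ) ^ 8) ^ 2)
    (n := r ^ 2) (by positivity) fun d hd1 hd2 =>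
      (hsd d (Finset.mem_Icc.2 ⟨hd1, hd2⟩)).trans (le_of_eq (by ring))
  have hs := sum_sq0_le hr hθ
  have hsL : sq0 θ (r ^ 2) ≤ 1 :=
    (Finset.single_le_sum (fun d _ => sq0_nonneg θ d) (Finset.self_mem_range_succ _)).trans hs
  have hA : ∀ γ : ℝ, β ^ 2 / (2 * (Fintype.card S + 1)) ≤ γ → γ ≤ β ^ 2 / (2 * Fintype.card S) →
      ∀ d, 1 ≤ d → d ≤ r ^ 2 → |Fintype.card S - QQ (grid (r ^ 2))
        (fun k => ∑ j : S, E1 (grid (r ^ 2)) (r ^ 2) (fun _ _ => γ) (fun d _ => sq0 θ d) j k) d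
          - τ d / θ d| ≤ (20 + 8 * β ^ 2) * Fintype.card S / r := by
    intro γ hγ1 hγ2
    refine (cn_app h1 (Function.Embedding.refl S) hr hN hb hθ hτ
      (fun _ _ => le_trans (by positivity) hγ1) fam_refl
      (fun θ' => ((h4 S _ _ θ' β hz).1 γ hγ1 hγ2).trans (by linarith)) ?_).1
    simp only [Finset.sum_const, Finset.card_univ, nsmul_eq_mul]
    rw [le_div_iff₀ (by positivity)] at hγ2
    nlinarith
  have hγ0 : β ^ 2 / (2 * (Fintype.card S + 1 : ℝ)) ≤ β ^ 2 / (2 * Fintype.card S) :=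
    div_le_div_of_nonneg_left hb (by positivity) (by linarith)
  set f0 : ℕ → ℝ := fun k => ∑ j : S, E1 (grid (r ^ 2)) (r ^ 2)
    (fun _ _ => β ^ 2 / (2 * Fintype.card S)) (fun d _ => sq0 θ d) j k with hf0
  have hq : CAdm (r ^ 2) (qq (r ^ 2) fun k => f0 k / Fintype.card S) := by
    refine qq_adm (fun k => div_nonneg (Finset.sum_nonneg fun j _ => E1_nonneg _ _ _ _) hN0.le)
      (fun k => (div_le_one hN0).2 ?_) fun k hk => div_le_div_of_nonneg_right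
        (Finset.sum_le_sum fun j _ => (zn_of_zadm hz).E1_anti _ _ j (Nat.le_succ k) (by omega))
        hN0.le
    refine (Finset.sum_le_card_nsmul _ _ 1 fun j _ => E1_le_one _ _ _ _).trans ?_
    simp
  set q := qq (r ^ 2) fun k => f0 k / Fintype.card S with hqd
  have hq0 : q 0 = 1 := rfl
  have hqq : ∀ d, d ≤ r ^ 2 → QQ (grid (r ^ 2)) q d = QQ (grid (r ^ 2)) f0 d / Fintype.card S :=
    fun d hd => by rw [hqd, QQ_qq _ _ hd, QQ_div]
  have ha := h2 S (r ^ 2) (grid (r ^ 2)) θ q β (2 * (20 + 8 * β ^ 2) / r) hz hq hq0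
    (by positivity) fun γ hγ1 hγ2 d hd1 hd2 => by
      rw [QQ_div, hqq d hd2]
      exact eta_le hN0 (hA γ hγ1 hγ2 d hd1 hd2) (hA _ hγ0 le_rfl d hd1 hd2)
  have hb' := h3 S (r ^ 2) (grid (r ^ 2)) θ q β (2 * (20 + 8 * β ^ 2) / r)
    ((7 + 4 * (20 + 8 * β ^ 2)) / r) hz hq hq0 (by positivity) (by positivity) fun t ht => by
      have hx := xnI_nonneg hq β θ ht
      have hx1 := sum_xnI hq hq0 β hs ht
      have hx2 : xnI β q θ t (r ^ 2) ≤ 1 + β ^ 2 :=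
        (Finset.single_le_sum (fun d _ => hx d) (Finset.self_mem_range_succ _)).trans hx1
      have h := cn_app h1 (Function.Embedding.some (α := S)) hr hN hb hθ hτ
        (g := gO S β t) (xs := fun θ' => xO S (xnI β q θ t) θ')
        (fun i j => (gO_mem S β ht i j).1) (fam_some hx)
        (fun θ' => ((h4 S _ _ θ' β hz).2.1 t _ ht.1 ht.2 hx).trans (by linarith)) (by
          have h5 : ∑ i, ∑ j, gO S β t i j
              ≤ ∑ _i : Option S, ∑ _j : Option S, β ^ 2 / (2 * (Fintype.card S + 1 : ℝ)) :=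
            Finset.sum_le_sum fun i _ => Finset.sum_le_sum fun j _ => (gO_mem S β ht i j).2
          simp only [Finset.sum_const, Finset.card_univ, nsmul_eq_mul, Fintype.card_option] at h5
          push_cast at h5
          have h6 : (Fintype.card S + 1 : ℝ) * ((Fintype.card S + 1)
              * (β ^ 2 / (2 * (Fintype.card S + 1)))) = (Fintype.card S + 1) * β ^ 2 / 2 := by
            field_simp
          have h7 : ∑ i, xO S (xnI β q θ t) θ (r ^ 2) i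
              = xnI β q θ t (r ^ 2) + Fintype.card S * sq0 θ (r ^ 2) := by
            simp [xO, Fintype.sum_option]
          rw [h6] at h5
          rw [h7]
          nlinarith)
      refine ⟨fun d hd1 hd2 => ?_, h.2 none⟩
      rw [QQ_div, hqq d hd2]
      exact eta_le hN0 (h.1 d hd1 hd2) (hA _ hγ0 le_rfl d hd1 hd2)
  refine ⟨q, hq, hq0, ?_⟩
  have h5 : β ^ 2 * (1 / Fintype.card S) ≤ β ^ 2 * (1 / r) :=
    mul_le_mul_of_nonneg_left (one_div_le_one_div_of_le (by linarith) hNR) hb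
  have e : β ^ 2 * (4 + 4 * (20 + 8 * β ^ 2)) / r = β ^ 2 * (1 / r) / 2
      + β ^ 2 * (2 * (20 + 8 * β ^ 2) / r) + β ^ 2 * ((7 + 4 * (20 + 8 * β ^ 2)) / r) / 2 := by
    ring
  rw [GG, e]
  linarith

end Vale.Agent.P146L
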