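import Vale.Agent.P146L.Stm2

/-! # P146, lower bound: first half of the cavity step -/

namespace Vale.Agent.P146L

open MeasureTheory ProbabilityTheory Vale.Agent.P157

namespace StepAAux

theorem core {L : ℕ} {ζ q ρ : ℕ → ℝ} {η : ℝ} (hζ : ZAdm L ζ) (hq : CAdm L q) (hq0 : q 0 = 1)
    (hη : 0 ≤ η) (hρ0 : ∀ k, 0 ≤ ρ k) (hρ1 : ∀ k, ρ k ≤ 1) (hanti : ∀ k, k < L → ρ (k + 1) ≤ ρ k)
    (h : ∀ d, 1 ≤ d → d ≤ L → |QQ ζ ρ d - QQ ζ q d| ≤ η) :
    0 ≤ 1 - pairing L ζ ρ ρ ∧ 1 - pairing L ζ ρ ρ ≤ 1 - pairing L ζ q q + 2 * η := by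
  constructor
  · rw [sub_nonneg, ← hζ.sum_delta, pairing]
    refine Finset.sum_le_sum fun k hk => mul_le_of_le_one_right
      (sub_nonneg.2 (hζ.zlt k (Finset.mem_range.1 hk)).le) ?_
    exact mul_le_one₀ (hρ1 _) (hρ0 _) (hρ1 _)
  · have h1 := abel_abs_le (n := L) (a := fun k => (ζ k - ζ (k + 1)) * (ρ (k + 1) - q (k + 1)))
      (p := fun k => ρ k + q k) (L := 2) hη
      (fun d h1 h2 => by
        have := h d h1 h2
        rw [QQ, QQ, ← Finset.sum_sub_distrib] at this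
        simpa only [mul_sub] using this)
      (fun k _ hk => add_le_add (hanti k hk) (hq.anti (Nat.le_succ k)))
      (fun k _ _ => add_nonneg (hρ0 k) (hq.nonneg k))
      (by have := hq.anti (Nat.zero_le 1); have := hρ1 1; linarith) zero_le_two
    have h2 : ∑ k ∈ Finset.range L, (ζ k - ζ (k + 1)) * (ρ (k + 1) - q (k + 1)) *
        (ρ (k + 1) + q (k + 1)) = pairing L ζ ρ ρ - pairing L ζ q q := by
      rw [pairing, pairing, ← Finset.sum_sub_distrib]
      exact Finset.sum_congr rfl fun k _ => by ring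
    rw [h2] at h1
    linarith [(abs_le.1 h1).1]

theorem sum_le {S : Type} [Fintype S] [DecidableEq S] [Nonempty S] {L : ℕ} {ζ : ℕ → ℝ}
    (hζ : ZAdm L ζ) (g : S → S → ℝ) (x : ℕ → S → ℝ) :
    ∑ i, ∑ j, (1 - QQ ζ (E2 ζ L g x i j) L) ≤ (Fintype.card S : ℝ) ^ 2 *
      (1 - pairing L ζ (fun k => (∑ i : S, E1 ζ L g x i k) / Fintype.card S)
        fun k => (∑ i : S, E1 ζ L g x i k) / Fintype.card S) := by
  have hN : (0 : ℝ) < Fintype.card S := by exact_mod_cast Fintype.card_pos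
  have h1 : ∑ i, ∑ j, QQ ζ (E2 ζ L g x i j) L =
      ∑ k ∈ Finset.range L, (ζ k - ζ (k + 1)) * ∑ i, ∑ j, E2 ζ L g x i j (k + 1) := by
    simp only [QQ, Finset.mul_sum]
    rw [Finset.sum_comm (s := Finset.range L)]
    exact Finset.sum_congr rfl fun i _ => Finset.sum_comm
  simp only [Finset.sum_sub_distrib, Finset.sum_const, Finset.card_univ, nsmul_eq_mul, mul_one]
  rw [h1, mul_sub, mul_one, pairing, Finset.mul_sum, sq]
  refine sub_le_sub_left (Finset.sum_le_sum fun k hk => ?_) _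
  have hk' := Finset.mem_range.1 hk
  have h2 := mul_le_mul_of_nonneg_left
    ((zn_of_zadm hζ).sq_sum_E1_le g x (k := k + 1) (by omega)) (sub_nonneg.2 (hζ.zlt k hk').le)
  refine le_trans (le_of_eq ?_) h2
  field_simp

end StepAAux

open StepAAux in
theorem stepA (h : S_der) : S_stepA := by
  intro S _ _ _ L ζ θ q β η hζ hq hq0 hη hγ
  have hN : (0 : ℝ) < Fintype.card S := by exact_mod_cast Fintype.card_pos
  obtain ⟨a, ha⟩ : ∃ a : ℝ, a = β ^ 2 / (2 * (Fintype.card S + 1)) := ⟨_, rfl⟩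
  obtain ⟨b, hb⟩ : ∃ b : ℝ, b = β ^ 2 / (2 * Fintype.card S) := ⟨_, rfl⟩
  have hg : gt S β 1 = fun _ _ => b := by
    funext i j
    rw [gt, one_mul, hb]
  have ha0 : 0 ≤ a := by rw [ha]; positivity
  have hab : a ≤ b := by
    rw [ha, hb]
    gcongr
    linarith
  have hc : (b - a) * (Fintype.card S : ℝ) ^ 2 ≤ β ^ 2 / 2 := by
    have e : (b - a) * (Fintype.card S : ℝ) ^ 2 =
        β ^ 2 / 2 * (Fintype.card S / (Fintype.card S + 1)) := by
      rw [ha, hb]
      field_simp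
      ring
    rw [e]
    exact mul_le_of_le_one_right (by positivity) ((div_le_one (by positivity)).2 (by linarith))
  rw [VN, hg]
  rw [← ha, ← hb] at hγ
  rw [← ha]
  generalize hx : (fun d (_ : S) => sq0 θ d) = x at hγ ⊢
  have hx0 : ∀ d i, 0 ≤ x d i := fun d i => by rw [← hx]; exact sq0_nonneg θ d
  have hd := h S L ζ (fun _ _ => a) (fun _ _ => b) x x (zn_of_zadm hζ) (fun _ _ => ha0)
    (fun _ _ => ha0.trans hab) hx0 hx0
  have key := le_of_derivWithin (κ := β ^ 2 / 4 * (1 - pairing L ζ q q) + β ^ 2 * η / 2) hd ?_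
  · simpa using key
  intro t ht
  have e : ((fun _ _ => a : S → S → ℝ) + t • ((fun _ _ => b) - fun _ _ => a)) =
      fun _ _ => a + t * (b - a) := rfl
  have hγ' := hγ (a + t * (b - a)) (by nlinarith [ht.1]) (by nlinarith [ht.2])
  simp only [vD, e, sub_self, smul_zero, add_zero, zero_mul, Finset.sum_const_zero,
    ← Finset.mul_sum]
  generalize (fun _ _ => a + t * (b - a) : S → S → ℝ) = g at hγ' ⊢
  obtain ⟨c1, c2⟩ := core hζ hq hq0 hη
    (ρ := fun k => (∑ i : S, E1 ζ L g x i k) / Fintype.card S)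
    (fun k => div_nonneg (Finset.sum_nonneg fun i _ => E1_nonneg g x i k) hN.le)
    (fun k => (div_le_one hN).2 ((Finset.sum_le_sum fun i _ => E1_le_one g x i k).trans
      (by simp)))
    (fun k hk => div_le_div_of_nonneg_right (Finset.sum_le_sum fun i _ =>
      (zn_of_zadm hζ).E1_anti g x i (Nat.le_succ k) (by omega)) hN.le) hγ'
  have c3 := mul_le_mul_of_nonneg_left (sum_le hζ g x) (sub_nonneg.2 hab)
  rw [← mul_assoc] at c3
  have c4 := mul_le_mul_of_nonneg_right hc c1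
  have c5 := mul_le_mul_of_nonneg_left c2 (by positivity : 0 ≤ β ^ 2 / 2)
  linarith

end Vale.Agent.P146L
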