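import Vale.Agent.P146L.Stm2

/-! # P146, lower bound: adding a spin -/

namespace Vale.Agent.P146L

open MeasureTheory ProbabilityTheory Vale.Agent.P157

namespace StepBAux

theorem QQ_le_one {ζ c : ℕ → ℝ} (hζ : Zok ζ) (hc : ∀ k, c k ≤ 1) (d : ℕ) : QQ ζ c d ≤ 1 := by
  have h1 : QQ ζ c d ≤ ∑ k ∈ Finset.range d, (ζ k - ζ (k + 1)) :=
    Finset.sum_le_sum fun k _ =>
      mul_le_of_le_one_right (sub_nonneg.2 (hζ.anti (Nat.le_succ k))) (hc _)
  rw [sum_delta] at h1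
  linarith [hζ.le1, hζ.nn d]

theorem arith {S : Type} [Fintype S] [Nonempty S] {L : ℕ} {ζ θ q : ℕ → ℝ} {β η Er : ℝ}
    (hζ : Zok ζ) (hq : CAdm L q) (hq0 : q 0 = 1) (hη : 0 ≤ η) (hE : 0 ≤ Er)
    {A B : S → ℕ → ℝ} {p c0 : ℕ → ℝ} (hc0 : ∀ k, c0 k ≤ 1) (hp0 : ∀ k, 0 ≤ p k)
    (hp1 : ∀ k, p k ≤ 1) (hpa : ∀ k, k < L → p (k + 1) ≤ p k)
    (h1 : ∀ d, 1 ≤ d → d ≤ L → |QQ ζ (fun k => (∑ i, B i k) / Fintype.card S) d - QQ ζ q d| ≤ η)
    (h2 : ∑ k ∈ Finset.range L, (ζ k - ζ (k + 1)) *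
        |∑ j, A j (k + 1) - (∑ j, B j (k + 1)) * p (k + 1)| ≤ Er * Fintype.card S) :
    -(β ^ 2 * (1 / Fintype.card S + η + Er)) ≤
      β ^ 2 / (2 * (Fintype.card S + 1)) * (1 - QQ ζ c0 L)
        + 2 * (β ^ 2 / (2 * (Fintype.card S + 1))) * ∑ j, (1 - QQ ζ (A j) L)
        + ∑ d ∈ Finset.range (L + 1), (sq0 θ d - β ^ 2 * dq q d) * (1 - QQ ζ p d) := by
  have hgap : ∀ k, 0 ≤ ζ k - ζ (k + 1) := fun k => sub_nonneg.2 (hζ.anti (Nat.le_succ k))
  have hN : (0 : ℝ) < Fintype.card S := by exact_mod_cast Fintype.card_pos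
  obtain ⟨P, hP⟩ : ∃ P, P = ∑ k ∈ Finset.range L, q (k + 1) * ((ζ k - ζ (k + 1)) * p (k + 1)) :=
    ⟨_, rfl⟩
  have hP0 : 0 ≤ P := hP ▸ Finset.sum_nonneg fun k _ =>
    mul_nonneg (hq.nonneg _) (mul_nonneg (hgap k) (hp0 _))
  have e1 : ∑ d ∈ Finset.range (L + 1), dq q d * (1 - QQ ζ p d) = 1 - P := by
    have := sum_dq_mul (hq.zero (L + 1) (Nat.lt_succ_self L)) 1
      fun k => (ζ k - ζ (k + 1)) * p (k + 1)
    rw [hq0, one_mul, ← hP] at this
    exact this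
  have e2 : -(β ^ 2 * (1 - P)) ≤
      ∑ d ∈ Finset.range (L + 1), (sq0 θ d - β ^ 2 * dq q d) * (1 - QQ ζ p d) := by
    rw [← e1, Finset.mul_sum, ← Finset.sum_neg_distrib]
    refine Finset.sum_le_sum fun d _ => ?_
    have := mul_nonneg (sq0_nonneg θ d) (sub_nonneg.2 (QQ_le_one hζ hp1 d))
    linarith
  have e3 := abel_le (n := L) (η := η) (L := 1)
    (a := fun k => (ζ k - ζ (k + 1)) * ((∑ i, B i (k + 1)) / Fintype.card S - q (k + 1)))
    (p := p) hη (fun d hd hdL => by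
      refine le_trans (le_of_eq ?_) ((le_abs_self _).trans (h1 d hd hdL))
      simp only [QQ, ← Finset.sum_sub_distrib, mul_sub])
    (fun k _ hk => hpa k hk) (fun k _ _ => hp0 k) (hp1 1) zero_le_one
  have e4 : ∑ k ∈ Finset.range L, (ζ k - ζ (k + 1)) * ((∑ j, B j (k + 1)) * p (k + 1))
      = Fintype.card S * (P + ∑ k ∈ Finset.range L, (ζ k - ζ (k + 1)) *
        ((∑ i, B i (k + 1)) / Fintype.card S - q (k + 1)) * p (k + 1)) := by
    rw [hP, ← Finset.sum_add_distrib, Finset.mul_sum]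
    refine Finset.sum_congr rfl fun k _ => ?_
    field_simp
    ring
  have e5 : ∑ j, QQ ζ (A j) L ≤ ∑ k ∈ Finset.range L,
      (ζ k - ζ (k + 1)) * ((∑ j, B j (k + 1)) * p (k + 1)) + Er * Fintype.card S := by
    refine le_trans ?_ (add_le_add le_rfl h2)
    simp only [QQ]
    rw [Finset.sum_comm, ← Finset.sum_add_distrib]
    refine Finset.sum_le_sum fun k _ => ?_
    rw [← Finset.mul_sum, ← mul_add]
    refine mul_le_mul_of_nonneg_left ?_ (hgap k)
    linarith [le_abs_self (∑ j, A j (k + 1) - (∑ j, B j (k + 1)) * p (k + 1))]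
  have e6 : Fintype.card S * (1 - P - η - Er) ≤ ∑ j, (1 - QQ ζ (A j) L) := by
    rw [Finset.sum_sub_distrib, Finset.sum_const, Finset.card_univ, nsmul_eq_mul]
    have := mul_le_mul_of_nonneg_left e3 hN.le
    rw [e4] at e5
    linarith
  have e7 : 0 ≤ β ^ 2 / (2 * (Fintype.card S + 1)) * (1 - QQ ζ c0 L) :=
    mul_nonneg (by positivity) (sub_nonneg.2 (QQ_le_one hζ hc0 L))
  have e8 := mul_le_mul_of_nonneg_left e6
    (show 0 ≤ 2 * (β ^ 2 / (2 * ((Fintype.card S : ℝ) + 1))) by positivity)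
  have e9 : -(β ^ 2 * (1 / Fintype.card S + η + Er)) ≤
      2 * (β ^ 2 / (2 * ((Fintype.card S : ℝ) + 1))) * (Fintype.card S * (1 - P - η - Er))
        - β ^ 2 * (1 - P) := by
    generalize (Fintype.card S : ℝ) = N at hN
    have a1 : 2 * (β ^ 2 / (2 * (N + 1))) * (N * (1 - P - η - Er)) - β ^ 2 * (1 - P)
        + β ^ 2 * (1 / N + η + Er) = β ^ 2 * ((1 + N * (P + η + Er)) / (N * (N + 1))) := by
      field_simp
      ring
    have a2 : 0 ≤ β ^ 2 * ((1 + N * (P + η + Er)) / (N * (N + 1))) := by positivity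
    linarith
  linarith

variable {S : Type} [Fintype S]

theorem gO_int (β t : ℝ) : gO S β 0 + t • (gO S β 1 - gO S β 0) = gO S β t := by
  funext i j
  cases i <;> cases j <;> simp [gO]

omit [Fintype S] in
theorem xO_int (β : ℝ) (q θ : ℕ → ℝ) (t : ℝ) :
    xO S (xnI β q θ 0) θ + t • (xO S (xnI β q θ 1) θ - xO S (xnI β q θ 0) θ)
      = xO S (xnI β q θ t) θ := by
  funext d i
  cases i
  · simp only [xO, xnI, Pi.add_apply, Pi.smul_apply, Pi.sub_apply, Option.elim, smul_eq_mul]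
    ring
  · simp [xO]

theorem gO_nonneg (β : ℝ) {t : ℝ} (ht : 0 ≤ t) (i j : Option S) : 0 ≤ gO S β t i j := by
  cases i <;> cases j <;> simp only [gO] <;> positivity

end StepBAux

theorem stepB (h1 : S_der) (h2 : S_dec) (h3 : S_close) : S_stepB := by
  intro S _ _ _ L ζ θ q β η Er hζ hq hq0 hη hE H
  have hx : ∀ t : ℝ, 0 ≤ t → t ≤ 1 → ∀ d i, 0 ≤ xO S (xnI β q θ t) θ d i := by
    intro t t0 t1 d i
    cases i
    · exact add_nonneg (mul_nonneg t0 (sq0_nonneg _ _))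
        (mul_nonneg (by linarith) (mul_nonneg (sq_nonneg _) (hq.dq_nonneg d)))
    · exact sq0_nonneg _ _
  have D := h1 (Option S) L ζ (gO S β 0) (gO S β 1) (xO S (xnI β q θ 0) θ)
    (xO S (xnI β q θ 1) θ) (zn_of_zadm hζ) (StepBAux.gO_nonneg β le_rfl)
    (StepBAux.gO_nonneg β zero_le_one) (hx 0 le_rfl zero_le_one) (hx 1 zero_le_one le_rfl)
  have G := ge_of_derivWithin (κ := -(β ^ 2 * (1 / Fintype.card S + η + Er)) / 2) D
    fun t ht => by
      refine div_le_div_of_nonneg_right ?_ zero_le_two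
      have A := StepBAux.arith (θ := θ) (β := β) hζ.zok hq hq0 hη hE
        (A := fun j => E2 ζ L (gO S β t) (xO S (xnI β q θ t) θ) none (some j))
        (B := fun j => E1 ζ L (gO S β t) (xO S (xnI β q θ t) θ) (some j))
        (p := E1 ζ L (gO S β t) (xO S (xnI β q θ t) θ) none)
        (c0 := E2 ζ L (gO S β t) (xO S (xnI β q θ t) θ) none none)
        (fun k => E2_le_one _ _ _ _ k) (fun k => E1_nonneg _ _ _ k) (fun k => E1_le_one _ _ _ k)
        (fun k hk => (zn_of_zadm hζ).E1_anti _ _ _ (Nat.le_succ k) (by omega))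
        (H t ht).1 (H t ht).2
      refine A.trans (le_of_eq ?_)
      have es : ∀ j, E2 ζ L (gO S β t) (xO S (xnI β q θ t) θ) (some j) none
          = E2 ζ L (gO S β t) (xO S (xnI β q θ t) θ) none (some j) :=
        fun j => funext fun k => E2_symm _ _ _ _ k
      rw [vD, StepBAux.gO_int, StepBAux.xO_int]
      simp only [Fintype.sum_option, es]
      simp only [gO, xO, xnI, Option.elim, sub_self, zero_mul, one_mul, sub_zero, zero_add,
        add_zero, Finset.sum_const_zero, ← Finset.mul_sum]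
      ring
  simp only [StepBAux.gO_int, StepBAux.xO_int] at G
  have e1 : xnI β q θ 1 = sq0 θ := by
    funext d
    simp [xnI]
  have e0 : gO S β 0 = gD fun _ _ : S => β ^ 2 / (2 * (Fintype.card S + 1)) := by
    funext i j
    cases i <;> cases j <;> simp [gO, gD]
  have e2 : (fun d => xO S (xnI β q θ 0) θ d none) = dq (β ^ 2 • q) := by
    funext d
    simp only [xO, xnI, dq, Option.elim, Pi.smul_apply, smul_eq_mul]
    ring
  rw [e1, (h3 S L ζ θ β hζ).2.2, e0, h2.2.2 S L ζ _ _ hζ.zok, e2,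
    ← psi_eq_X L ζ _ lg_lc.1] at G
  have e3 : (fun d (i : S) => xO S (xnI β q θ 0) θ d (some i)) = fun d _ => sq0 θ d := rfl
  rw [e3] at G
  linarith

end Vale.Agent.P146L
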