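import Vale.Agent.P146L.Sys
import Vale.Agent.P157.Crude

/-! # P146, lower bound: intermediate statements -/

namespace Vale.Agent.P146L

open MeasureTheory ProbabilityTheory Vale.Agent.P157

/-- Couplings of a system with one more, decoupled, spin. -/
def gD {S : Type} (g : S → S → ℝ) : Option S → Option S → ℝ
  | some i, some j => g i j
  | _, _ => 0

/-- Couplings of the cavity interpolation. -/
noncomputable def gO (S : Type) [Fintype S] (β t : ℝ) : Option S → Option S → ℝ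
  | some _, some _ => β ^ 2 / (2 * (Fintype.card S + 1))
  | _, _ => t * (β ^ 2 / (2 * (Fintype.card S + 1)))

/-- Fields of the cavity interpolation. -/
def xO (S : Type) (xn θ : ℕ → ℝ) : ℕ → Option S → ℝ :=
  fun d i => i.elim (xn d) fun _ => sq0 θ d

/-- Field of the new spin along the cavity interpolation. -/
def xnI (β : ℝ) (q θ : ℕ → ℝ) (t : ℝ) (d : ℕ) : ℝ :=
  t * sq0 θ d + (1 - t) * (β ^ 2 * dq q d)

/-- Interpolation formula with an arbitrary root exponent. -/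
def S_der : Prop :=
  ∀ (S : Type) [Fintype S] [DecidableEq S] (L : ℕ) (ζ : ℕ → ℝ) (g g' : S → S → ℝ)
    (x x' : ℕ → S → ℝ), ZN L ζ → (∀ i j, 0 ≤ g i j) → (∀ i j, 0 ≤ g' i j) →
    (∀ d i, 0 ≤ x d i) → (∀ d i, 0 ≤ x' d i) → ∀ t ∈ Set.Icc (0 : ℝ) 1,
    HasDerivWithinAt (fun t : ℝ => Vl ζ L (g + t • (g' - g)) (x + t • (x' - x)))
      (vD ζ L g g' x x' t / 2) (Set.Icc 0 1) t

/-- Lipschitz bound and monotonicity in the variances. -/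
def S_lip : Prop :=
  ∀ (S : Type) [Fintype S] [DecidableEq S] (L : ℕ) (ζ : ℕ → ℝ) (g g' : S → S → ℝ)
    (x x' : ℕ → S → ℝ), ZAdm L ζ → (∀ i j, 0 ≤ g i j) → (∀ i j, 0 ≤ g' i j) →
    (∀ d i, 0 ≤ x d i) → (∀ d i, 0 ≤ x' d i) →
    |Vl ζ L g' x' - Vl ζ L g x| ≤ (∑ i, ∑ j, |g' i j - g i j|
      + ∑ d ∈ Finset.range (L + 1), ∑ i, |x' d i - x d i|) / 2 ∧
    ((∀ i j, g i j ≤ g' i j) → (∀ d i, x d i ≤ x' d i) → Vl ζ L g x ≤ Vl ζ L g' x')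

/-- Relabelling, the trivial system, and a decoupled spin. -/
def S_dec : Prop :=
  (∀ (S S' : Type) [Fintype S] [DecidableEq S] [Fintype S'] [DecidableEq S'] (e : S ≃ S')
    (L : ℕ) (ζ : ℕ → ℝ) (g : S' → S' → ℝ) (x : ℕ → S' → ℝ),
    Vl ζ L g x = Vl ζ L (fun i j => g (e i) (e j)) fun d i => x d (e i)) ∧
  (∀ (S : Type) [Fintype S] [DecidableEq S] (L : ℕ) (ζ : ℕ → ℝ),
    Vl ζ L (0 : S → S → ℝ) 0 = 0) ∧
  ∀ (S : Type) [Fintype S] [DecidableEq S] (L : ℕ) (ζ : ℕ → ℝ) (g : S → S → ℝ)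
    (x : ℕ → Option S → ℝ), Zok ζ →
    Vl ζ L (gD g) x = Vl ζ L g (fun d i => x d (some i))
      + X ζ (g1s fun d => x d none) lc (L + 1) 0

/-- The system without couplings. -/
def S_free : Prop :=
  ∀ (S : Type) [Fintype S] [DecidableEq S] (L : ℕ) (ζ c : ℕ → ℝ), ZN L ζ → dq c L = 0 →
    Vl ζ L (0 : S → S → ℝ) (fun d _ => dq c d) = Fintype.card S * psi L (cut L ζ) c lc

/-- The triangular coupling profile is the model of the statement. -/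
def S_tri : Prop := ∀ (n : ℕ) (β : ℝ), 1 ≤ n → ∀ (L : ℕ) (ζ : ℕ → ℝ),
  Vl ζ L (tri n β) 0 = lse (P146.disorder n) (ζ L) (P146.freeEnergy n β) - n * Real.log 2

/-- The free energy is convex with linear growth. -/
def S_cvx : Prop := ∀ (n : ℕ) (β : ℝ),
  ConvexOn ℝ Set.univ (P146.freeEnergy n β) ∧ LG (P146.freeEnergy n β)

/-- Small deviations of convex Gaussian functionals. -/
def S_dev : Prop := ∀ (ι : Type) [Fintype ι] (F : (ι → ℝ) → ℝ),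
  ConvexOn ℝ Set.univ F → LG F → ∀ s : ℝ, 0 ≤ s →
    (Measure.pi fun _ : ι => gaussianReal 0 1).real
      {z | F z ≤ ∫ u, F u ∂(Measure.pi fun _ : ι => gaussianReal 0 1)
        - 2 * (√(variance F (Measure.pi fun _ : ι => gaussianReal 0 1)) + 1) - s}
    ≤ Real.exp (-(s ^ 2 / (32 *
        (√(variance F (Measure.pi fun _ : ι => gaussianReal 0 1)) + 1) ^ 2)))

/-- Quantitative averaging over the perturbation parameters. -/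
def S_avg : Prop := ∀ (J : Finset ℕ) (ε y k g C Mb F : ℝ) (I M0 N : ℕ)
  (V : ℕ → (ℕ → ℝ) → ℝ), 0 < y → y ≤ ε / 2 → I * y = ε → 0 < k → 0 ≤ Mb → g + C ≤ Mb →
  1 ≤ M0 → M0 ≤ N →
  (∀ M, M0 ≤ M → M < N → ∀ ϑ, Box J ε ϑ → ∀ j ∈ J, ∀ a b : ℝ, ε / 2 ≤ a → a ≤ 3 * ε →
    ε / 2 ≤ b → b ≤ 3 * ε →
    |V M (Function.update ϑ j a) - V M (Function.update ϑ j b)| ≤ 3 * ε * M * |a - b|) →
  (∀ M, M0 ≤ M → M < N → ∀ ϑ, Box J ε ϑ → ∀ j ∈ J, 0 ≤ sd2 (V M) ϑ j y) →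
  (∀ M, M0 ≤ M → M < N → ∀ ϑ, Box J ε ϑ → (∀ j ∈ J, sd2 (V M) ϑ j y ≤ k * M * y ^ 2) →
    g ≤ V (M + 1) ϑ - V M ϑ) →
  (∀ M, M0 ≤ M → M < N → ∀ ϑ, Box J ε ϑ → -C ≤ V (M + 1) ϑ - V M ϑ) →
  (∀ ϑ, Box J ε ϑ → 0 ≤ V M0 ϑ) → (∀ ϑ, Box J ε ϑ → V N ϑ ≤ F) →
  ((N : ℝ) - M0) * (g - 6 * Mb * J.card / k) ≤ F

/-- Concentration: mean overlaps and decoupling for a block of spins. -/
def S_cn : Prop :=
  ∀ (S B : Type) [Fintype S] [DecidableEq S] [Fintype B] (e : B ↪ S) (L : ℕ) (ζ : ℕ → ℝ)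
    (g : S → S → ℝ) (xs : (ℕ → ℝ) → ℕ → S → ℝ) (θ τ : ℕ → ℝ) (y κ Λ0 ζs θm me Δm e0 : ℝ),
    ZAdm L ζ → (∀ i j, 0 ≤ g i j) → Fam e xs → 0 < y → 0 < θm →
    (∀ d, 1 ≤ d → d ≤ L → y < θ d ∧ θm ≤ θ d) →
    SD (fun θ' => Vl ζ L g (xs θ')) θ τ y κ L →
    ∑ i, ∑ j, g i j + ∑ i, xs θ L i ≤ Λ0 → 0 < ζs → ζs ≤ ζ (L - 1) → 0 < me → me ≤ 1 →
    0 < Δm → (∀ k, k < L → Δm ≤ ζ k - ζ (k + 1) ∧ ζ k - ζ (k + 1) ≤ me ^ 2) →
    (κ + Real.log 2 / ζs + 2 * ζs * Λ0) / y ≤ e0 →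
    (∀ d, 1 ≤ d → d ≤ L → |Fintype.card B
        - QQ ζ (fun k => ∑ j, E1 ζ L g (xs θ) (e j) k) d - τ d / θ d| ≤ e0 / θm) ∧
    ∀ i : S, ∑ k ∈ Finset.range L, (ζ k - ζ (k + 1)) *
        |∑ j, E2 ζ L g (xs θ) i (e j) (k + 1)
          - (∑ j, E1 ζ L g (xs θ) (e j) (k + 1)) * E1 ζ L g (xs θ) i (k + 1)|
      ≤ 6 * me * Fintype.card B + √(Fintype.card B : ℝ) / θm / Δm / me + 4 * e0 / (θm * Δm)

/-- First half of the cavity step: lowering the couplings. -/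
def S_stepA : Prop :=
  ∀ (S : Type) [Fintype S] [DecidableEq S] [Nonempty S] (L : ℕ) (ζ θ q : ℕ → ℝ) (β η : ℝ),
    ZAdm L ζ → CAdm L q → q 0 = 1 → 0 ≤ η →
    (∀ γ : ℝ, β ^ 2 / (2 * (Fintype.card S + 1)) ≤ γ → γ ≤ β ^ 2 / (2 * Fintype.card S) →
      ∀ d, 1 ≤ d → d ≤ L →
        |QQ ζ (fun k => (∑ i : S, E1 ζ L (fun _ _ => γ) (fun d _ => sq0 θ d) i k)
            / Fintype.card S) d - QQ ζ q d| ≤ η) →
    VN S β ζ L θ - Vl ζ L (fun _ _ : S => β ^ 2 / (2 * (Fintype.card S + 1)))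
        (fun d _ => sq0 θ d)
      ≤ β ^ 2 / 4 * (1 - pairing L ζ q q) + β ^ 2 * η / 2

/-- Second half of the cavity step: adding a spin. -/
def S_stepB : Prop :=
  ∀ (S : Type) [Fintype S] [DecidableEq S] [Nonempty S] (L : ℕ) (ζ θ q : ℕ → ℝ) (β η Er : ℝ),
    ZAdm L ζ → CAdm L q → q 0 = 1 → 0 ≤ η → 0 ≤ Er →
    (∀ t ∈ Set.Icc (0 : ℝ) 1,
      (∀ d, 1 ≤ d → d ≤ L →
        |QQ ζ (fun k => (∑ i : S, E1 ζ L (gO S β t) (xO S (xnI β q θ t) θ) (some i) k)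
            / Fintype.card S) d - QQ ζ q d| ≤ η) ∧
      ∑ k ∈ Finset.range L, (ζ k - ζ (k + 1)) *
        |∑ j : S, E2 ζ L (gO S β t) (xO S (xnI β q θ t) θ) none (some j) (k + 1)
          - (∑ j : S, E1 ζ L (gO S β t) (xO S (xnI β q θ t) θ) (some j) (k + 1))
            * E1 ζ L (gO S β t) (xO S (xnI β q θ t) θ) none (k + 1)|
        ≤ Er * Fintype.card S) →
    Vl ζ L (fun _ _ : S => β ^ 2 / (2 * (Fintype.card S + 1))) (fun d _ => sq0 θ d)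
        + psi L ζ (β ^ 2 • q) lc - β ^ 2 * (1 / Fintype.card S + η + Er) / 2
      ≤ VN (Option S) β ζ L θ

/-- Crude comparison of the interpolating systems. -/
def S_close : Prop :=
  ∀ (S : Type) [Fintype S] [DecidableEq S] [Nonempty S] (L : ℕ) (ζ θ : ℕ → ℝ) (β : ℝ),
    ZAdm L ζ →
    (∀ γ : ℝ, β ^ 2 / (2 * (Fintype.card S + 1)) ≤ γ → γ ≤ β ^ 2 / (2 * Fintype.card S) →
      |Vl ζ L (fun _ _ : S => γ) (fun d _ => sq0 θ d) - VN S β ζ L θ| ≤ β ^ 2) ∧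
    (∀ (t : ℝ) (xn : ℕ → ℝ), 0 ≤ t → t ≤ 1 → (∀ d, 0 ≤ xn d) →
      |Vl ζ L (gO S β t) (xO S xn θ) - VN S β ζ L θ|
        ≤ β ^ 2 + (∑ d ∈ Finset.range (L + 1), xn d) / 2) ∧
    Vl ζ L (gO S β 1) (xO S (sq0 θ) θ) = VN (Option S) β ζ L θ

/-- The cavity step for good perturbation parameters. -/
def S_step : Prop := ∀ β : ℝ, ∃ C : ℝ, 0 ≤ C ∧ ∀ r : ℕ, 2 ≤ r →
  ∀ (S : Type) [Fintype S] [DecidableEq S], r ^ 26 ≤ Fintype.card S → ∀ θ : ℕ → ℝ,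
    Box (Finset.Icc 1 (r ^ 2)) (1 / (r : ℝ) ^ 2) θ →
    (∀ j ∈ Finset.Icc 1 (r ^ 2), sd2 (VN S β (grid (r ^ 2)) (r ^ 2)) θ j (1 / (r : ℝ) ^ 8)
      ≤ 2 * (r : ℝ) ^ 3 * Fintype.card S * (1 / (r : ℝ) ^ 8) ^ 2) →
    ∃ q : ℕ → ℝ, CAdm (r ^ 2) q ∧ q 0 = 1 ∧ GG (r ^ 2) (grid (r ^ 2)) β q - C / r
      ≤ VN (Option S) β (grid (r ^ 2)) (r ^ 2) θ - VN S β (grid (r ^ 2)) (r ^ 2) θ

/-- Quantitative lower bound for the mean free energy. -/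
def S_mean2 : Prop := ∀ β : ℝ, ∃ C : ℝ, 0 ≤ C ∧ ∀ r N : ℕ, 2 ≤ r → r ^ 27 ≤ N → ∀ Pm : ℝ,
  (∀ q : ℕ → ℝ, CAdm (r ^ 2) q → q 0 = 1 → Pm ≤ GG (r ^ 2) (grid (r ^ 2)) β q) →
  N * Pm - C * N / r ≤ Vl (grid (r ^ 2)) (r ^ 2) (gt (Fin N) β 1) 0

end Vale.Agent.P146L
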