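import Vale.Agent.P146L.Stm2

/-! P146L: lower tail of convex Gaussian functionals. -/

namespace Vale.Agent.P146L

open MeasureTheory ProbabilityTheory Vale.Agent.P157

namespace TailAux

/-- the absolute constant -/
noncomputable def K : ℝ := Real.exp 1 + ∑' k : ℕ, Real.exp 1 * (Real.exp 1)⁻¹ ^ k

theorem one_le_K : 1 ≤ K :=
  le_add_of_le_of_nonneg (Real.one_le_exp zero_le_one) (tsum_nonneg fun k => by positivity)

theorem point {a m z : ℝ} (ha : 0 < a) (hm : 0 ≤ m) :
    ENNReal.ofReal (Real.exp (m * z)) ≤ ENNReal.ofReal (Real.exp (16 * a ^ 2 * m ^ 2)) *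
      (ENNReal.ofReal (Real.exp 1) + ∑' k : ℕ,
        Set.indicator {z : ℝ | 8 * a * √k ≤ z} (fun _ => ENNReal.ofReal (Real.exp (k + 1))) z) := by
  rcases le_total z 0 with hz | hz
  · refine le_trans ?_ (mul_le_mul_right le_self_add _)
    rw [← ENNReal.ofReal_mul (Real.exp_pos _).le, ← Real.exp_add]
    refine ENNReal.ofReal_le_ofReal (Real.exp_le_exp.mpr ?_)
    nlinarith [mul_nonneg hm (neg_nonneg.mpr hz), sq_nonneg (a * m)]
  · set k := ⌊z ^ 2 / (64 * a ^ 2)⌋₊ with hk
    have h1 : (k : ℝ) ≤ z ^ 2 / (64 * a ^ 2) := Nat.floor_le (by positivity)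
    have h2 : z ^ 2 / (64 * a ^ 2) < k + 1 := Nat.lt_floor_add_one _
    have h3 : 8 * a * √k ≤ z := by
      refine (pow_le_pow_iff_left₀ (by positivity) hz two_ne_zero).mp ?_
      rw [mul_pow, Real.sq_sqrt (Nat.cast_nonneg k)]
      rw [le_div_iff₀ (by positivity)] at h1
      nlinarith
    refine le_trans ?_ (mul_le_mul_right (le_add_left (ENNReal.le_tsum k)) _)
    rw [Set.indicator_of_mem (show z ∈ {z : ℝ | 8 * a * √k ≤ z} from h3),
      ← ENNReal.ofReal_mul (Real.exp_pos _).le, ← Real.exp_add]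
    refine ENNReal.ofReal_le_ofReal (Real.exp_le_exp.mpr ?_)
    have h4 : m * z ≤ 16 * a ^ 2 * m ^ 2 + z ^ 2 / (64 * a ^ 2) := by
      have : 16 * a ^ 2 * m ^ 2 + z ^ 2 / (64 * a ^ 2) - m * z = (4 * a * m - z / (8 * a)) ^ 2 := by
        field_simp
        ring
      nlinarith [sq_nonneg (4 * a * m - z / (8 * a))]
    linarith

theorem mgf_le {Ω : Type} [MeasurableSpace Ω] {ν : Measure Ω} [IsProbabilityMeasure ν]
    {Z : Ω → ℝ} (hZ : Measurable Z) {a m : ℝ} (ha : 0 < a) (hm : 0 ≤ m)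
    (h : ∀ s, 0 ≤ s → ν.real {ω | s ≤ Z ω} ≤ Real.exp (-(s ^ 2 / (32 * a ^ 2)))) :
    ∫⁻ ω, ENNReal.ofReal (Real.exp (m * Z ω)) ∂ν ≤
      ENNReal.ofReal (Real.exp (16 * a ^ 2 * m ^ 2) * K) := by
  refine (lintegral_mono fun ω => point ha hm).trans ?_
  have hs : ∀ k : ℕ, MeasurableSet {ω | 8 * a * √k ≤ Z ω} := fun k =>
    measurableSet_le measurable_const hZ
  have e : ∀ (k : ℕ) (ω : Ω), Set.indicator {z : ℝ | 8 * a * √k ≤ z}
      (fun _ => ENNReal.ofReal (Real.exp (k + 1))) (Z ω) =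
      Set.indicator {ω | 8 * a * √k ≤ Z ω} (fun _ => ENNReal.ofReal (Real.exp (k + 1))) ω :=
    fun k ω => rfl
  simp only [e]
  rw [lintegral_const_mul' _ _ ENNReal.ofReal_ne_top, ENNReal.ofReal_mul (Real.exp_pos _).le]
  refine mul_le_mul_right ?_ _
  have hsum : Summable fun k : ℕ => Real.exp 1 * (Real.exp 1)⁻¹ ^ k :=
    (summable_geometric_of_lt_one (by positivity)
      (inv_lt_one_of_one_lt₀ (Real.one_lt_exp_iff.mpr one_pos))).mul_left _
  rw [lintegral_add_left measurable_const, lintegral_const, measure_univ, mul_one,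
    lintegral_tsum fun k => (measurable_const.indicator (hs k)).aemeasurable, K,
    ENNReal.ofReal_add (Real.exp_pos _).le (tsum_nonneg fun k => by positivity),
    ENNReal.ofReal_tsum_of_nonneg (fun k => by positivity) hsum]
  refine add_le_add_right (ENNReal.tsum_le_tsum fun k => ?_) _
  rw [lintegral_indicator_const (hs k), ← ofReal_measureReal,
    ← ENNReal.ofReal_mul (Real.exp_pos _).le]
  refine ENNReal.ofReal_le_ofReal ?_
  refine (mul_le_mul_of_nonneg_left (h _ (by positivity)) (Real.exp_pos _).le).trans (le_of_eq ?_)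
  rw [← Real.exp_neg, ← Real.exp_nat_mul, ← Real.exp_add, ← Real.exp_add, mul_pow,
    Real.sq_sqrt (Nat.cast_nonneg k)]
  congr 1
  field_simp
  ring

end TailAux

theorem tail (h : S_dev) : S_tail := by
  have hK := TailAux.one_le_K
  have hl := Real.log_nonneg hK
  refine ⟨36 + Real.log TailAux.K, by positivity, fun ι _ F hc hF m hm => ?_⟩
  have hd := h ι F hc hF
  have hE : EInt (Measure.pi fun _ : ι => gaussianReal 0 1) F := by
    have := hF.eint (noise_gv fun _ : ι => (1 : ℝ)) 0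
    simpa [gv, g1_one] using this
  set ν : Measure (ι → ℝ) := Measure.pi fun _ : ι => gaussianReal 0 1 with hν
  set V := variance F ν with hV
  have hV0 : 0 ≤ V := variance_nonneg _ _
  set a := √V + 1 with ha
  set μ := ∫ u, F u ∂ν with hμ
  have ha1 : 1 ≤ a := le_add_of_nonneg_left (Real.sqrt_nonneg _)
  have ha2 : a ^ 2 ≤ 2 * (1 + V) := by
    have := Real.sq_sqrt hV0
    nlinarith [sq_nonneg (√V - 1)]
  have hm0 : 0 < m := by linarith
  have key := TailAux.mgf_le (ν := ν) (Z := fun z => μ - 2 * a - F z) (measurable_const.sub hE.1)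
    (a := a) (m := m) (by linarith) hm0.le fun s hs => by
      refine le_trans (le_of_eq ?_) (hd s hs)
      congr 1
      ext z
      simp only [Set.mem_ofPred_eq]
      constructor <;> intro h <;> linarith
  have e : ∀ z, Real.exp (m * (μ - 2 * a - F z)) =
      Real.exp (m * (μ - 2 * a)) * Real.exp (-m * F z) := by
    intro z
    rw [← Real.exp_add]
    congr 1
    ring
  simp only [e] at key
  rw [← ofReal_integral_eq_lintegral_ofReal ((hE.2 (-m)).const_mul _)
    (ae_of_all _ fun z => by positivity), integral_const_mul,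
    ENNReal.ofReal_le_ofReal_iff (by positivity)] at key
  have hp : 0 < ∫ z, Real.exp (-m * F z) ∂ν := integral_exp_pos (hE.2 (-m))
  have k2 := Real.log_le_log (by positivity) key
  rw [Real.log_mul (Real.exp_pos _).ne' hp.ne', Real.log_mul (Real.exp_pos _).ne' (by positivity),
    Real.log_exp, Real.log_exp] at k2
  rw [lse, lse, if_pos rfl, if_neg (neg_ne_zero.mpr hm0.ne'), ← hμ]
  set l := Real.log (∫ z, Real.exp (-m * F z) ∂ν) with hl'
  have e2 : μ - (-m)⁻¹ * l = (m * μ + l) / m := by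
    field_simp
    ring
  rw [e2, div_le_iff₀ hm0]
  have h1 : 2 * a * m ≤ 2 * a ^ 2 * m ^ 2 := by
    nlinarith [mul_le_mul ha1 hm zero_le_one (by linarith : 0 ≤ a), mul_pos hm0 (by linarith : 0 < a)]
  have h2 : 18 * a ^ 2 * m ^ 2 ≤ 36 * (1 + V) * m ^ 2 := by nlinarith [sq_nonneg m]
  have h3 : Real.log TailAux.K ≤ Real.log TailAux.K * (m * (1 + V) * m) :=
    le_mul_of_one_le_right hl (by nlinarith [mul_nonneg hV0 (sq_nonneg m)])
  nlinarith

end Vale.Agent.P146L
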