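import Vale.Agent.P146L.Stm2

/-! # P146, lower bound: the triangular model and convexity of the free energy -/

namespace Vale.Agent.P146L

open MeasureTheory ProbabilityTheory Vale.Agent.P157

namespace TriAux

theorem sum_pos (n : ℕ) (β : ℝ) (g : P146.Edge n → ℝ) :
    0 < ∑ σ : Fin n → Bool, Real.exp (β * P146.ham g σ) :=
  Finset.sum_pos (fun _ _ => Real.exp_pos _) Finset.univ_nonempty

theorem ham_comb {n : ℕ} (g g' : P146.Edge n → ℝ) (a b : ℝ) (σ : Fin n → Bool) :
    P146.ham (a • g + b • g') σ = a * P146.ham g σ + b * P146.ham g' σ := by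
  simp only [P146.ham, Pi.add_apply, Pi.smul_apply, smul_eq_mul, add_mul, Finset.sum_add_distrib,
    mul_assoc, ← Finset.mul_sum]
  ring

theorem abs_ham {n : ℕ} (g : P146.Edge n → ℝ) (σ : Fin n → Bool) :
    |P146.ham g σ| ≤ |1 / √(n : ℝ)| * (Fintype.card (P146.Edge n) * ‖g‖) := by
  rw [P146.ham, abs_mul]
  refine mul_le_mul_of_nonneg_left ?_ (abs_nonneg _)
  refine (Finset.abs_sum_le_sum_abs _ _).trans ?_
  refine (Finset.sum_le_sum (g := fun _ => ‖g‖) fun e _ => ?_).trans ?_
  · have h1 : |P146.spin (σ e.1.1)| = 1 := abs_sp σ _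
    have h2 : |P146.spin (σ e.1.2)| = 1 := abs_sp σ _
    rw [abs_mul, abs_mul, h1, h2, mul_one, mul_one]
    exact norm_le_pi_norm g e
  · simp only [Finset.sum_const, Finset.card_univ, nsmul_eq_mul, le_refl]

/-- the linear map from the triangular couplings to the coordinates -/
noncomputable def MM (n : ℕ) (β : ℝ) : Cs (Fin n) → P146.Edge n → ℝ
  | .inl p => fun e => if e.1 = p then β / √(n : ℝ) else 0
  | .inr _ => fun _ => 0

theorem HH_MM (n : ℕ) (β : ℝ) (z : P146.Edge n → ℝ) (b : Fin n → Bool) :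
    HH (fun c => ∑ e, MM n β c e * z e) b = β * P146.ham z b := by
  simp only [HH, Fintype.sum_sum_type, MM, zero_mul, Finset.sum_const_zero, add_zero,
    Finset.sum_mul]
  rw [Finset.sum_comm, P146.ham, ← mul_assoc, Finset.mul_sum]
  refine Finset.sum_congr rfl fun e _ => ?_
  simp only [ite_mul, zero_mul, Finset.sum_ite_eq, Finset.mem_univ, if_true, xi, sp]
  ring

theorem cov_MM {n : ℕ} (hn : 1 ≤ n) (β : ℝ) (L : ℕ) (k l : Cs (Fin n)) :
    ∑ e : P146.Edge n, (1 : ℝ) * (MM n β k e * MM n β l e)
      = if k = l then pf L (tri n β) 0 L k else 0 := by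
  have hn0 : (0 : ℝ) < n := by exact_mod_cast hn
  rcases k with p | i
  · rcases l with p' | j
    · by_cases h : p = p'
      · subst h
        simp only [MM, one_mul, if_true, pf, tri, ite_mul, zero_mul]
        by_cases hp : p.1 < p.2
        · rw [if_pos hp, Finset.sum_eq_single (⟨p, hp⟩ : P146.Edge n)]
          · simp only [if_true]
            rw [div_mul_div_comm, Real.mul_self_sqrt hn0.le, sq]
          · intro e _ he
            exact if_neg fun h => he (Subtype.ext h)
          · simp
        · rw [if_neg hp]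
          exact Finset.sum_eq_zero fun e _ => if_neg fun (h : e.1 = p) => hp (h ▸ e.2)
      · rw [if_neg (by simpa using h)]
        refine Finset.sum_eq_zero fun e _ => ?_
        simp only [MM]
        by_cases h1 : e.1 = p
        · rw [if_neg (show ¬ e.1 = p' from fun h2 => h (h1.symm.trans h2))]; simp
        · rw [if_neg h1]; simp
    · simp [MM]
  · simp [MM, pf]

theorem XS_eq (n : ℕ) (β : ℝ) (L : ℕ) (ζ : ℕ → ℝ) {d : ℕ} (hd : d ≤ L) :
    XS ζ L (tri n β) 0 d = gtop (cube (Fin n)) HH := by
  induction d with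
  | zero => rfl
  | succ d ih =>
    have h1 : gvs (pf L (tri n β) 0) d = Measure.dirac 0 := by
      refine gv_of_nonpos fun c => ?_
      rcases c with p | i
      · exact (if_neg (by omega)).le
      · exact le_rfl
    have h2 := ih (by omega)
    rw [XS] at h2
    rw [XS, X_succ, h1, T_dirac, h2]

theorem int_cube {n : ℕ} (f : (Fin n → Bool) → ℝ) :
    ∫ b, f b ∂(cube (Fin n)) = (∑ b, f b) / 2 ^ n := by
  rw [integral_fintype Integrable.of_finite, Finset.sum_div]
  refine Finset.sum_congr rfl fun b _ => ?_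
  have : (cube (Fin n)).real {b} = (2 ^ n : ℝ)⁻¹ := by
    rw [cube, Measure.real, uniformOn_univ]
    simp
  rw [this, smul_eq_mul, mul_comm, div_eq_mul_inv]

end TriAux

open TriAux

theorem cvx : S_cvx := by
  intro n β
  refine ⟨⟨convex_univ, fun g _ g' _ a b ha hb hab => ?_⟩, ?_, ?_⟩
  · have hA := sum_pos n β g
    have hB := sum_pos n β g'
    have hC := sum_pos n β (a • g + b • g')
    simp only [P146.freeEnergy, smul_eq_mul]
    set A := Real.log (∑ σ : Fin n → Bool, Real.exp (β * P146.ham g σ)) with hAd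
    set B := Real.log (∑ σ : Fin n → Bool, Real.exp (β * P146.ham g' σ)) with hBd
    rw [Real.log_le_iff_le_exp hC]
    have key : ∀ σ : Fin n → Bool, Real.exp (β * P146.ham (a • g + b • g') σ)
        ≤ Real.exp (a * A + b * B) * (a * (Real.exp (β * P146.ham g σ) / Real.exp A)
          + b * (Real.exp (β * P146.ham g' σ) / Real.exp B)) := by
      intro σ
      have h1 := convexOn_exp.2 (Set.mem_univ (β * P146.ham g σ - A))
        (Set.mem_univ (β * P146.ham g' σ - B)) ha hb hab
      simp only [smul_eq_mul] at h1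
      rw [← Real.exp_sub, ← Real.exp_sub]
      refine le_trans (le_of_eq ?_) (mul_le_mul_of_nonneg_left h1 (Real.exp_pos _).le)
      rw [← Real.exp_add, ham_comb]
      congr 1
      ring
    refine (Finset.sum_le_sum fun σ _ => key σ).trans (le_of_eq ?_)
    rw [← Finset.mul_sum, Finset.sum_add_distrib, ← Finset.mul_sum, ← Finset.mul_sum,
      ← Finset.sum_div, ← Finset.sum_div, hAd, hBd, Real.exp_log hA, Real.exp_log hB,
      div_self hA.ne', div_self hB.ne', mul_one, mul_one, hab, mul_one]
  · unfold P146.freeEnergy P146.ham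
    fun_prop
  · set D := |β| * (|1 / √(n : ℝ)| * Fintype.card (P146.Edge n)) with hD
    have hD0 : 0 ≤ D := by positivity
    have hl : 0 ≤ Real.log (2 ^ n : ℝ) := Real.log_nonneg (one_le_pow₀ (by norm_num))
    refine ⟨Real.log (2 ^ n : ℝ) + D, fun g => ?_⟩
    have hb : ∀ σ : Fin n → Bool, |β * P146.ham g σ| ≤ D * ‖g‖ := fun σ => by
      rw [abs_mul, hD, mul_assoc, mul_assoc]
      exact mul_le_mul_of_nonneg_left (abs_ham g σ) (abs_nonneg _)
    have hg := norm_nonneg g
    have h1 : P146.freeEnergy n β g ≤ Real.log (2 ^ n : ℝ) + D * ‖g‖ := by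
      rw [P146.freeEnergy, Real.log_le_iff_le_exp (sum_pos n β g), Real.exp_add,
        Real.exp_log (by positivity)]
      refine (Finset.sum_le_sum (g := fun _ => Real.exp (D * ‖g‖)) fun σ _ =>
        Real.exp_le_exp.2 (abs_le.1 (hb σ)).2).trans (le_of_eq ?_)
      simp
    have h2 : -(D * ‖g‖) ≤ P146.freeEnergy n β g := by
      rw [P146.freeEnergy, Real.le_log_iff_exp_le (sum_pos n β g)]
      exact (Real.exp_le_exp.2 (abs_le.1 (hb fun _ => true)).1).trans
        (Finset.single_le_sum (f := fun σ : Fin n → Bool => Real.exp (β * P146.ham g σ))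
          (fun _ _ => (Real.exp_pos _).le) (Finset.mem_univ _))
    rw [abs_le]
    constructor <;> nlinarith

theorem tri_eq : S_tri := by
  intro n β hn L ζ
  have h1 : P146.disorder n = gv fun _ => (1 : ℝ) := by
    simp only [P146.disorder, gv, g1_one]
  have h2 := gauss_lin (MM n β) (s := fun _ => (1 : ℝ)) (fun _ => zero_le_one) (cov_MM hn β L)
  have h3 : ∀ z : P146.Edge n → ℝ, gtop (cube (Fin n)) HH (fun c => ∑ e, MM n β c e * z e)
      = P146.freeEnergy n β z + -(n * Real.log 2) := by
    intro z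
    rw [gtop_eq, int_cube]
    simp only [HH_MM]
    rw [Real.log_div (sum_pos n β z).ne' (by positivity), Real.log_pow, P146.freeEnergy]
    ring
  have h4 := (cvx n β).2.eint (noise_gv fun _ : P146.Edge n => (1 : ℝ)) 0
  simp only [zero_add] at h4
  rw [Vl_eq, XS_eq n β L ζ le_rfl, ← h2, lse_map (by fun_prop) _ hg_HH.lg_gtop.1, h1]
  simp only [h3]
  rw [lse_add_const h4.integrable (h4.2 _), sub_eq_add_neg]

end Vale.Agent.P146L
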